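import Mathlib

/-!
Finite dimensional spectral facts in plain coordinates, and conditional averages on finite sets.
-/

open Finset BigOperators

namespace Vale.Agent.Lib.P335

variable {X : Type*} [Fintype X]

/-- The standard inner product on functions `X → ℝ`. -/
def ip (f g : X → ℝ) : ℝ := ∑ x, f x * g x

lemma ip_comm (f g : X → ℝ) : ip f g = ip g f := by
  unfold ip; exact Finset.sum_congr rfl (fun _ _ => mul_comm _ _)

lemma ip_add_left (f g h : X → ℝ) : ip (f + g) h = ip f h + ip g h := by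
  unfold ip; simp [add_mul, Finset.sum_add_distrib]

lemma ip_add_right (f g h : X → ℝ) : ip f (g + h) = ip f g + ip f h := by
  unfold ip; simp [mul_add, Finset.sum_add_distrib]

lemma ip_sub_left (f g h : X → ℝ) : ip (f - g) h = ip f h - ip g h := by
  unfold ip; simp [sub_mul, Finset.sum_sub_distrib]

lemma ip_sub_right (f g h : X → ℝ) : ip f (g - h) = ip f g - ip f h := by
  unfold ip; simp [mul_sub, Finset.sum_sub_distrib]

lemma ip_smul_left (c : ℝ) (f h : X → ℝ) : ip (c • f) h = c * ip f h := by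
  unfold ip; simp [mul_assoc, Finset.mul_sum]

lemma ip_smul_right (c : ℝ) (f h : X → ℝ) : ip f (c • h) = c * ip f h := by
  unfold ip; simp only [Pi.smul_apply, smul_eq_mul, Finset.mul_sum]
  exact Finset.sum_congr rfl (fun _ _ => by ring)

lemma ip_self_nonneg (f : X → ℝ) : 0 ≤ ip f f := by
  unfold ip; exact Finset.sum_nonneg (fun _ _ => mul_self_nonneg _)

lemma ip_self_eq_zero {f : X → ℝ} : ip f f = 0 ↔ f = 0 := by
  unfold ip
  constructor
  · intro h
    have := (Finset.sum_eq_zero_iff_of_nonneg (fun x _ => mul_self_nonneg (f x))).1 h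
    funext x
    have hx := this x (Finset.mem_univ x)
    simpa using hx
  · rintro rfl; simp

lemma ip_zero_left (f : X → ℝ) : ip 0 f = 0 := by unfold ip; simp

lemma ip_zero_right (f : X → ℝ) : ip f 0 = 0 := by unfold ip; simp

lemma ip_sum_left {J : Type*} (s : Finset J) (F : J → X → ℝ) (h : X → ℝ) :
    ip (∑ j ∈ s, F j) h = ∑ j ∈ s, ip (F j) h := by
  classical
  unfold ip
  simp only [Finset.sum_apply, Finset.sum_mul]
  rw [Finset.sum_comm]

lemma ip_sum_right {J : Type*} (s : Finset J) (F : J → X → ℝ) (h : X → ℝ) :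
    ip h (∑ j ∈ s, F j) = ∑ j ∈ s, ip h (F j) := by
  rw [ip_comm, ip_sum_left]
  exact Finset.sum_congr rfl (fun _ _ => ip_comm _ _)

/-- A symmetric linear operator on `X → ℝ` has an eigenbasis satisfying Parseval. -/
theorem exists_eigen_parseval [DecidableEq X] (T : (X → ℝ) →ₗ[ℝ] (X → ℝ))
    (hT : ∀ f g, ip (T f) g = ip f (T g)) :
    ∃ (v : X → X → ℝ) (l : X → ℝ), (∀ j, T (v j) = l j • v j) ∧ (∀ j, v j ≠ 0) ∧
      ∀ f g, ip f g = ∑ j, ip (v j) f * ip (v j) g := by
  classical
  set A : Matrix X X ℝ := LinearMap.toMatrix' T with hA_def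
  have hTA : ∀ f, T f = A.mulVec f := by
    intro f; rw [hA_def, LinearMap.toMatrix'_mulVec]
  have hsymm : A.IsHermitian := by
    ext i j
    simp only [Matrix.conjTranspose_apply, star_trivial]
    have h := hT (Pi.single i 1) (Pi.single j 1)
    rw [hTA, hTA] at h
    unfold ip at h
    simpa [Matrix.mulVec_single, Pi.single_apply, Matrix.mulVec, dotProduct] using h
  let U := hsymm.eigenvectorUnitary
  have hU1 : (U : Matrix X X ℝ) * star (U : Matrix X X ℝ) = 1 :=
    (Matrix.mem_unitaryGroup_iff).1 U.2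
  have hU2 : star (U : Matrix X X ℝ) * (U : Matrix X X ℝ) = 1 :=
    (Matrix.mem_unitaryGroup_iff').1 U.2
  let v : X → X → ℝ := fun j x => hsymm.eigenvectorBasis j x
  have hvU : ∀ j x, v j x = (U : Matrix X X ℝ) x j := fun j x =>
    (Matrix.IsHermitian.eigenvectorUnitary_apply hsymm x j).symm
  refine ⟨v, hsymm.eigenvalues, ?_, ?_, ?_⟩
  · intro j
    rw [hTA]
    exact hsymm.mulVec_eigenvectorBasis j
  · intro j hj
    have h := congrFun (congrFun hU2 j) j
    simp only [Matrix.mul_apply, Matrix.one_apply_eq, Matrix.star_apply, star_trivial] at h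
    have h0 : ∀ x, (U : Matrix X X ℝ) x j = 0 := by
      intro x; rw [← hvU, hj]; rfl
    simp [h0] at h
  · intro f g
    have hrow : ∀ x y, ∑ j, v j x * v j y = if x = y then 1 else 0 := by
      intro x y
      have h := congrFun (congrFun hU1 x) y
      simp only [Matrix.mul_apply, Matrix.star_apply, star_trivial, Matrix.one_apply] at h
      simpa [hvU] using h
    unfold ip
    calc ∑ x, f x * g x = ∑ x, ∑ y, f x * g y * (if x = y then 1 else 0) := by
          refine Finset.sum_congr rfl (fun x _ => ?_)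
          simp
      _ = ∑ x, ∑ y, f x * g y * ∑ j, v j x * v j y := by
          simp only [hrow]
      _ = ∑ j, (∑ x, v j x * f x) * ∑ y, v j y * g y := by
          have : ∀ j, (∑ x, v j x * f x) * ∑ y, v j y * g y
              = ∑ x, ∑ y, f x * g y * (v j x * v j y) := by
            intro j
            rw [Finset.sum_mul_sum]
            refine Finset.sum_congr rfl (fun x _ => Finset.sum_congr rfl (fun y _ => ?_))
            ring
          simp only [this, Finset.mul_sum]
          rw [Finset.sum_comm (s := Finset.univ) (t := Finset.univ)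
            (f := fun j x => ∑ y, f x * g y * (v j x * v j y))]
          refine Finset.sum_congr rfl (fun x _ => ?_)
          rw [Finset.sum_comm]

section eigen

variable [DecidableEq X]

/-- If every eigenvalue `l` satisfies `c * l ≤ l * l` then `c ⟨f, T f⟩ ≤ ‖T f‖²`. -/
theorem sq_ge_of_eigen (T : (X → ℝ) →ₗ[ℝ] (X → ℝ))
    (hT : ∀ f g, ip (T f) g = ip f (T g)) (c : ℝ)
    (h : ∀ (l : ℝ) (v : X → ℝ), v ≠ 0 → T v = l • v → c * l ≤ l * l) (f : X → ℝ) :
    c * ip f (T f) ≤ ip (T f) (T f) := by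
  obtain ⟨v, l, hv, hne, hP⟩ := exists_eigen_parseval T hT
  have hc : ∀ j (g : X → ℝ), ip (v j) (T g) = l j * ip (v j) g := by
    intro j g
    rw [← hT, hv, ip_smul_left]
  rw [hP f (T f), hP (T f) (T f), Finset.mul_sum]
  refine Finset.sum_le_sum (fun j _ => ?_)
  rw [hc]
  have := h (l j) (v j) (hne j) (hv j)
  nlinarith [mul_nonneg (sub_nonneg.2 this) (mul_self_nonneg (ip (v j) f))]

/-- Spectral lower bound away from a subspace-like predicate `W`. -/
theorem gap_of_eigen (T : (X → ℝ) →ₗ[ℝ] (X → ℝ))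
    (hT : ∀ f g, ip (T f) g = ip f (T g)) (c : ℝ) (W : (X → ℝ) → Prop)
    (h : ∀ (l : ℝ) (v : X → ℝ), v ≠ 0 → T v = l • v → c ≤ l ∨ W v) (f : X → ℝ)
    (hf : ∀ w, W w → ip f w = 0) :
    c * ip f f ≤ ip f (T f) := by
  obtain ⟨v, l, hv, hne, hP⟩ := exists_eigen_parseval T hT
  have hc : ∀ j (g : X → ℝ), ip (v j) (T g) = l j * ip (v j) g := by
    intro j g
    rw [← hT, hv, ip_smul_left]
  rw [hP f (T f), hP f f, Finset.mul_sum]
  refine Finset.sum_le_sum (fun j _ => ?_)
  rw [hc]
  rcases h (l j) (v j) (hne j) (hv j) with h1 | h1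
  · nlinarith [mul_nonneg (sub_nonneg.2 h1) (mul_self_nonneg (ip (v j) f))]
  · have : ip (v j) f = 0 := by rw [ip_comm]; exact hf _ h1
    simp [this]

end eigen

section cavg

variable {Z : Type*}

open Classical in
/-- The fibre of `φ` through `x`. -/
noncomputable def cls (φ : X → Z) (x : X) : Finset X :=
  Finset.univ.filter (fun y => φ y = φ x)

lemma mem_cls {φ : X → Z} {x y : X} : y ∈ cls φ x ↔ φ y = φ x := by
  simp [cls]

lemma self_mem_cls (φ : X → Z) (x : X) : x ∈ cls φ x := mem_cls.2 rfl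

lemma cls_card_pos (φ : X → Z) (x : X) : 0 < (cls φ x).card :=
  Finset.card_pos.2 ⟨x, self_mem_cls φ x⟩

lemma cls_eq {φ : X → Z} {x y : X} (h : φ y = φ x) : cls φ y = cls φ x := by
  ext w; simp only [mem_cls, h]

/-- The average of `f` over the fibre of `φ` through `x`. -/
noncomputable def cavg (φ : X → Z) (f : X → ℝ) (x : X) : ℝ :=
  (∑ y ∈ cls φ x, f y) / (cls φ x).card

lemma cavg_congr {φ : X → Z} (f : X → ℝ) {x y : X} (h : φ y = φ x) :
    cavg φ f y = cavg φ f x := by
  unfold cavg; rw [cls_eq h]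

lemma cavg_of_const {φ : X → Z} {f : X → ℝ} {x : X} (h : ∀ y, φ y = φ x → f y = f x) :
    cavg φ f x = f x := by
  unfold cavg
  have hpos : ((cls φ x).card : ℝ) ≠ 0 := by
    exact_mod_cast (cls_card_pos φ x).ne'
  rw [Finset.sum_congr rfl (fun y hy => h y (mem_cls.1 hy))]
  simp only [Finset.sum_const, nsmul_eq_mul]
  field_simp

lemma cavg_cavg (φ : X → Z) (f : X → ℝ) : cavg φ (cavg φ f) = cavg φ f := by
  funext x
  exact cavg_of_const (fun y hy => cavg_congr f hy)

lemma cavg_add (φ : X → Z) (f g : X → ℝ) : cavg φ (f + g) = cavg φ f + cavg φ g := by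
  funext x
  simp only [cavg, Pi.add_apply, Finset.sum_add_distrib, add_div]

lemma cavg_sub (φ : X → Z) (f g : X → ℝ) : cavg φ (f - g) = cavg φ f - cavg φ g := by
  funext x
  simp only [cavg, Pi.sub_apply, Finset.sum_sub_distrib, sub_div]

lemma cavg_smul (φ : X → Z) (c : ℝ) (f : X → ℝ) : cavg φ (c • f) = c • cavg φ f := by
  funext x
  simp only [cavg, Pi.smul_apply, smul_eq_mul, ← Finset.mul_sum, mul_div_assoc]

lemma abs_cavg_le {φ : X → Z} {f : X → ℝ} {x : X} {L : ℝ} (h : ∀ y, φ y = φ x → |f y| ≤ L) :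
    |cavg φ f x| ≤ L := by
  unfold cavg
  have hpos : (0 : ℝ) < (cls φ x).card := by exact_mod_cast cls_card_pos φ x
  rw [abs_div, abs_of_pos hpos, div_le_iff₀ hpos]
  calc |∑ y ∈ cls φ x, f y| ≤ ∑ y ∈ cls φ x, |f y| := Finset.abs_sum_le_sum_abs _ _
    _ ≤ ∑ y ∈ cls φ x, L := Finset.sum_le_sum (fun y hy => h y (mem_cls.1 hy))
    _ = L * (cls φ x).card := by simp [mul_comm]

lemma ip_cavg_comm (φ : X → Z) (f g : X → ℝ) : ip (cavg φ f) g = ip f (cavg φ g) := by
  classical
  have key : ∀ (u w : X → ℝ), ip (cavg φ u) w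
      = ∑ x, ∑ y, (if φ y = φ x then u y * w x / ((cls φ x).card : ℝ) else 0) := by
    intro u w
    unfold ip
    refine Finset.sum_congr rfl (fun x _ => ?_)
    unfold cavg
    rw [div_mul_eq_mul_div, Finset.sum_mul, Finset.sum_div]
    have : cls φ x = Finset.univ.filter (fun y => φ y = φ x) := by
      ext y; simp [mem_cls]
    rw [this, Finset.sum_filter]
  rw [ip_comm f, key f g, key g f, Finset.sum_comm]
  refine Finset.sum_congr rfl (fun x _ => Finset.sum_congr rfl (fun y _ => ?_))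
  by_cases hxy : φ y = φ x
  · rw [if_pos hxy, if_pos hxy.symm, cls_eq hxy, mul_comm]
  · rw [if_neg hxy, if_neg (fun h => hxy h.symm)]

/-- Conditional average as a linear map. -/
noncomputable def cavgL (φ : X → Z) : (X → ℝ) →ₗ[ℝ] (X → ℝ) where
  toFun := cavg φ
  map_add' := cavg_add φ
  map_smul' := cavg_smul φ

@[simp] lemma cavgL_apply (φ : X → Z) (f : X → ℝ) : cavgL φ f = cavg φ f := rfl

/-- Transport of a conditional average along a bijection compatible with the fibres. -/
lemma cavg_comp_equiv {φ : X → Z} (σ : X ≃ X) (f : X → ℝ) (x : X)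
    (h : ∀ y, φ (σ y) = φ (σ x) ↔ φ y = φ x) :
    cavg φ f (σ x) = cavg φ (f ∘ σ) x := by
  unfold cavg
  have hcard : (cls φ (σ x)).card = (cls φ x).card := by
    symm
    refine Finset.card_bij (fun y _ => σ y) ?_ ?_ ?_
    · intro y hy; exact mem_cls.2 ((h y).2 (mem_cls.1 hy))
    · intro y _ y' _ hyy; exact σ.injective hyy
    · intro z hz
      refine ⟨σ.symm z, mem_cls.2 ((h _).1 ?_), by simp⟩
      simpa [mem_cls] using hz
  rw [hcard]
  congr 1
  symm
  refine Finset.sum_bij (fun y _ => σ y) ?_ ?_ ?_ ?_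
  · intro y hy; exact mem_cls.2 ((h y).2 (mem_cls.1 hy))
  · intro y _ y' _ hyy; exact σ.injective hyy
  · intro z hz
    refine ⟨σ.symm z, mem_cls.2 ((h _).1 ?_), by simp⟩
    simpa [mem_cls] using hz
  · intro y _; rfl

end cavg

end Vale.Agent.Lib.P335
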