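import Vale.Agent.Lib.P335.Basic

/-!
From a Poincare inequality to a total variation bound, for lazy symmetric kernels.
-/

open Finset BigOperators Matrix

namespace Vale.Agent.Lib.P335

variable {X : Type*} [Fintype X] [DecidableEq X]

/-- A lazy symmetric stochastic matrix. -/
structure LazyKernel (P : Matrix X X ℝ) : Prop where
  symm : ∀ x y, P x y = P y x
  nonneg : ∀ x y, 0 ≤ P x y
  row : ∀ x, ∑ y, P x y = 1
  lazy : ∀ x, 1 / 2 ≤ P x x

omit [DecidableEq X] in
lemma mulVec_apply' (P : Matrix X X ℝ) (f : X → ℝ) (x : X) :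
    P.mulVec f x = ∑ y, P x y * f y := rfl

omit [Fintype X] [DecidableEq X] in
lemma sq_sum_le_of_weights {Y : Type*} [Fintype Y] (w f : Y → ℝ) (hw0 : ∀ y, 0 ≤ w y)
    (hw1 : ∑ y, w y = 1) : (∑ y, w y * f y) ^ 2 ≤ ∑ y, w y * f y ^ 2 := by
  set m := ∑ y, w y * f y with hm
  have h : 0 ≤ ∑ y, w y * (f y - m) ^ 2 :=
    Finset.sum_nonneg (fun y _ => mul_nonneg (hw0 y) (sq_nonneg _))
  have e : ∑ y, w y * (f y - m) ^ 2 = ∑ y, w y * f y ^ 2 - 2 * m * m + m ^ 2 * ∑ y, w y := by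
    have : ∀ y, w y * (f y - m) ^ 2 = w y * f y ^ 2 - 2 * m * (w y * f y) + m ^ 2 * w y := by
      intro y; ring
    simp only [this, Finset.sum_add_distrib, Finset.sum_sub_distrib, ← Finset.mul_sum]
    rw [← hm]
  rw [e, hw1] at h
  nlinarith

namespace LazyKernel

variable {P : Matrix X X ℝ} (hP : LazyKernel P)
include hP

lemma dirichlet (f : X → ℝ) :
    ip f f - ip f (P.mulVec f) = (∑ x, ∑ y, P x y * (f x - f y) ^ 2) / 2 := by
  have h1 : ∑ x, ∑ y, P x y * f x ^ 2 = ∑ x, f x ^ 2 := by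
    refine Finset.sum_congr rfl (fun x _ => ?_)
    rw [← Finset.sum_mul, hP.row, one_mul]
  have h2 : ∑ x, ∑ y, P x y * f y ^ 2 = ∑ x, f x ^ 2 := by
    rw [Finset.sum_comm]
    refine Finset.sum_congr rfl (fun y _ => ?_)
    rw [← Finset.sum_mul]
    have : ∑ x, P x y = 1 := by
      rw [← hP.row y]
      exact Finset.sum_congr rfl (fun x _ => hP.symm x y)
    rw [this, one_mul]
  have h3 : ∑ x, ∑ y, P x y * (f x - f y) ^ 2
      = ∑ x, ∑ y, P x y * f x ^ 2 - 2 * ∑ x, ∑ y, f x * (P x y * f y)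
        + ∑ x, ∑ y, P x y * f y ^ 2 := by
    rw [Finset.mul_sum, ← Finset.sum_sub_distrib, ← Finset.sum_add_distrib]
    refine Finset.sum_congr rfl (fun x _ => ?_)
    rw [Finset.mul_sum, ← Finset.sum_sub_distrib, ← Finset.sum_add_distrib]
    exact Finset.sum_congr rfl (fun y _ => by ring)
  have hW : ip f (P.mulVec f) = ∑ x, ∑ y, f x * (P x y * f y) := by
    unfold ip
    simp only [mulVec_apply', Finset.mul_sum]
  have hff : ip f f = ∑ x, f x ^ 2 := by
    unfold ip
    exact Finset.sum_congr rfl (fun x _ => by ring)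
  rw [h3, h1, h2, hW, hff]
  ring

lemma contraction (f : X → ℝ) : ip (P.mulVec f) (P.mulVec f) ≤ ip f (P.mulVec f) := by
  set g : X → ℝ := fun x => 2 * P.mulVec f x - f x with hg
  have hk : ∀ x, g x = ∑ y, (2 * P x y - if x = y then 1 else 0) * f y := by
    intro x
    simp only [hg, sub_mul, Finset.sum_sub_distrib, mul_assoc, ← Finset.mul_sum, mulVec_apply']
    simp
  have hk0 : ∀ x y, 0 ≤ 2 * P x y - (if x = y then (1 : ℝ) else 0) := by
    intro x y
    by_cases h : x = y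
    · subst h
      have := hP.lazy x
      simp only [if_true]
      linarith
    · have := hP.nonneg x y
      simp only [h, if_false]
      linarith
  have hk1 : ∀ x, ∑ y, (2 * P x y - if x = y then (1 : ℝ) else 0) = 1 := by
    intro x
    rw [Finset.sum_sub_distrib, ← Finset.mul_sum, hP.row]
    simp
    norm_num
  have hsq : ∑ x, g x ^ 2 ≤ ∑ x, f x ^ 2 := by
    calc ∑ x, g x ^ 2 ≤ ∑ x, ∑ y, (2 * P x y - if x = y then (1 : ℝ) else 0) * f y ^ 2 := by
          refine Finset.sum_le_sum (fun x _ => ?_)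
          rw [hk]
          exact sq_sum_le_of_weights _ _ (hk0 x) (hk1 x)
      _ = ∑ x, f x ^ 2 := by
          rw [Finset.sum_comm]
          refine Finset.sum_congr rfl (fun y _ => ?_)
          rw [← Finset.sum_mul]
          have : ∑ x, (2 * P x y - if x = y then (1 : ℝ) else 0) = 1 := by
            have e : ∀ x, (2 * P x y - if x = y then (1 : ℝ) else 0)
                = (2 * P y x - if y = x then (1 : ℝ) else 0) := by
              intro x
              rw [hP.symm x y]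
              by_cases h : x = y
              · simp [h]
              · simp [h, Ne.symm h]
            rw [Finset.sum_congr rfl (fun x _ => e x)]
            exact hk1 y
          rw [this, one_mul]
  unfold ip
  have hpt : ∀ x, f x * P.mulVec f x - P.mulVec f x * P.mulVec f x = (f x ^ 2 - g x ^ 2) / 4 := by
    intro x
    simp only [hg]
    ring
  have : ∑ x, f x * P.mulVec f x - ∑ x, P.mulVec f x * P.mulVec f x
      = (∑ x, f x ^ 2 - ∑ x, g x ^ 2) / 4 := by
    rw [← Finset.sum_sub_distrib, ← Finset.sum_sub_distrib, Finset.sum_div]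
    exact Finset.sum_congr rfl (fun x _ => hpt x)
  linarith

omit [DecidableEq X] in
lemma mean (f : X → ℝ) : ∑ x, P.mulVec f x = ∑ x, f x := by
  simp only [mulVec_apply']
  rw [Finset.sum_comm]
  refine Finset.sum_congr rfl (fun y _ => ?_)
  rw [← Finset.sum_mul]
  have : ∑ x, P x y = 1 := by
    rw [← hP.row y]
    exact Finset.sum_congr rfl (fun x _ => hP.symm x y)
  rw [this, one_mul]

lemma pow_symm (t : ℕ) (x y : X) : (P ^ t) x y = (P ^ t) y x := by
  have h : Pᵀ = P := by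
    ext i j
    exact hP.symm j i
  have h2 : (P ^ t)ᵀ = P ^ t := by
    rw [Matrix.transpose_pow, h]
  exact (congrFun (congrFun h2 y) x)

lemma pow_row (t : ℕ) (x : X) : ∑ y, (P ^ t) x y = 1 := by
  induction t generalizing x with
  | zero =>
    simp [Matrix.one_apply]
  | succ t ih =>
    rw [pow_succ']
    simp only [Matrix.mul_apply]
    rw [Finset.sum_comm]
    have : ∀ z, ∑ y, P x z * (P ^ t) z y = P x z := by
      intro z
      rw [← Finset.mul_sum, ih, mul_one]
    simp only [this]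
    exact hP.row x

lemma decay {γ : ℝ} (hγ1 : γ ≤ 1)
    (hgap : ∀ f : X → ℝ, ∑ x, f x = 0 → γ * ip f f ≤ (∑ x, ∑ y, P x y * (f x - f y) ^ 2) / 2)
    (f : X → ℝ) (hf : ∑ x, f x = 0) (t : ℕ) :
    ip ((P ^ t).mulVec f) ((P ^ t).mulVec f) ≤ (1 - γ) ^ t * ip f f := by
  have hmean : ∀ t, ∑ x, (P ^ t).mulVec f x = 0 := by
    intro t
    induction t with
    | zero => simpa using hf
    | succ t ih =>
      rw [pow_succ', ← Matrix.mulVec_mulVec, hP.mean, ih]
  induction t with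
  | zero => simp
  | succ t ih =>
    rw [pow_succ', ← Matrix.mulVec_mulVec]
    set g := (P ^ t).mulVec f with hg
    have h1 := hP.contraction g
    have h2 := hP.dirichlet g
    have h3 := hgap g (hmean t)
    have h4 : ip (P.mulVec g) (P.mulVec g) ≤ (1 - γ) * ip g g := by
      rw [← h2] at h3
      linarith
    calc ip (P.mulVec g) (P.mulVec g) ≤ (1 - γ) * ip g g := h4
      _ ≤ (1 - γ) * ((1 - γ) ^ t * ip f f) :=
          mul_le_mul_of_nonneg_left ih (by linarith)
      _ = (1 - γ) ^ (t + 1) * ip f f := by ring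

/-- Square of the `ℓ¹` distance to uniform after `t` steps. -/
theorem l1_bound {γ : ℝ} (hγ0 : 0 ≤ γ) (hγ1 : γ ≤ 1)
    (hgap : ∀ f : X → ℝ, ∑ x, f x = 0 → γ * ip f f ≤ (∑ x, ∑ y, P x y * (f x - f y) ^ 2) / 2)
    (t : ℕ) (x : X) :
    (∑ y, |(P ^ t) x y - 1 / (Fintype.card X : ℝ)|) ^ 2 ≤ (Fintype.card X : ℝ) * (1 - γ) ^ t := by
  have hcard : (0 : ℝ) < Fintype.card X := by
    have : 0 < Fintype.card X := Fintype.card_pos_iff.2 ⟨x⟩
    exact_mod_cast this
  set n : ℝ := (Fintype.card X : ℝ) with hn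
  set h : X → ℝ := fun y => (if y = x then 1 else 0) - 1 / n with hh
  have hmean : ∑ y, h y = 0 := by
    simp only [hh, Finset.sum_sub_distrib, Finset.sum_ite_eq', Finset.mem_univ, if_true,
      Finset.sum_const, Finset.card_univ, nsmul_eq_mul]
    field_simp
    simp [hn]
  have hnorm : ip h h ≤ 1 := by
    unfold ip
    have e : ∀ y, h y * h y = (if y = x then 1 - 2 / n else 0) + 1 / n ^ 2 := by
      intro y
      simp only [hh]
      by_cases hy : y = x
      · simp only [hy, if_true]; ring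
      · simp only [hy, if_false]; ring
    simp only [e, Finset.sum_add_distrib, Finset.sum_ite_eq', Finset.mem_univ, if_true,
      Finset.sum_const, Finset.card_univ, nsmul_eq_mul]
    rw [← hn]
    have hinv : 0 < 1 / n := by positivity
    have : n * (1 / n ^ 2) = 1 / n := by field_simp
    rw [this]
    have h2 : 2 / n = 2 * (1 / n) := by ring
    rw [h2]
    linarith
  have hvec : ∀ y, (P ^ t).mulVec h y = (P ^ t) x y - 1 / n := by
    intro y
    rw [mulVec_apply']
    simp only [hh, mul_sub, Finset.sum_sub_distrib, mul_ite, mul_one, mul_zero,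
      Finset.sum_ite_eq', Finset.mem_univ, if_true, ← Finset.mul_sum]
    rw [hP.pow_symm t y x]
    have : ∑ z, (P ^ t) y z * (1 / n) = 1 / n := by
      rw [← Finset.sum_mul, hP.pow_row, one_mul]
    rw [this]
  have hdec := hP.decay hγ1 hgap h hmean t
  have hCS : (∑ y, |(P ^ t) x y - 1 / n|) ^ 2 ≤ n * ∑ y, |(P ^ t) x y - 1 / n| ^ 2 := by
    have := sq_sum_le_card_mul_sum_sq (s := (Finset.univ : Finset X))
      (f := fun y => |(P ^ t) x y - 1 / n|)
    simpa [hn, Finset.card_univ] using this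
  have hexp : ∑ y, |(P ^ t) x y - 1 / n| ^ 2 = ip ((P ^ t).mulVec h) ((P ^ t).mulVec h) := by
    unfold ip
    refine Finset.sum_congr rfl (fun y _ => ?_)
    rw [hvec, sq_abs]
    ring
  have hpow : 0 ≤ (1 - γ) ^ t := pow_nonneg (by linarith) t
  calc (∑ y, |(P ^ t) x y - 1 / n|) ^ 2 ≤ n * ∑ y, |(P ^ t) x y - 1 / n| ^ 2 := hCS
    _ = n * ip ((P ^ t).mulVec h) ((P ^ t).mulVec h) := by rw [hexp]
    _ ≤ n * ((1 - γ) ^ t * ip h h) := mul_le_mul_of_nonneg_left hdec hcard.le
    _ ≤ n * ((1 - γ) ^ t * 1) :=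
        mul_le_mul_of_nonneg_left (mul_le_mul_of_nonneg_left hnorm hpow) hcard.le
    _ = n * (1 - γ) ^ t := by ring

/-- The total variation distance after polynomially many steps. -/
theorem tv_le_quarter {N M : ℕ} (hN : 0 < N)
    (hgap : ∀ f : X → ℝ, ∑ x, f x = 0 →
      (1 / (N : ℝ)) * ip f f ≤ (∑ x, ∑ y, P x y * (f x - f y) ^ 2) / 2)
    (hM : 4 * Fintype.card X ≤ 2 ^ M) (t : ℕ) (ht : N * M ≤ t) (x : X) :
    (∑ y, |(P ^ t) x y - 1 / (Fintype.card X : ℝ)|) / 2 ≤ 1 / 4 := by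
  have hNr : (0 : ℝ) < N := by exact_mod_cast hN
  have hN1 : (1 : ℝ) ≤ N := by exact_mod_cast hN
  have hγ0 : (0 : ℝ) ≤ 1 / (N : ℝ) := by positivity
  have hγ1 : 1 / (N : ℝ) ≤ 1 := by
    rw [div_le_one hNr]; exact hN1
  have hb := hP.l1_bound hγ0 hγ1 hgap t x
  have hbase : 0 ≤ 1 - 1 / (N : ℝ) := by linarith
  have hbase1 : 1 - 1 / (N : ℝ) ≤ 1 := by linarith
  -- (1 - 1/N)^N ≤ 1/2
  have hhalf : (1 - 1 / (N : ℝ)) ^ N ≤ 1 / 2 := by
    have h1 : 1 - 1 / (N : ℝ) ≤ Real.exp (-(1 / (N : ℝ))) := by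
      have := Real.add_one_le_exp (-(1 / (N : ℝ)))
      linarith
    have h2 : (1 - 1 / (N : ℝ)) ^ N ≤ Real.exp (-(1 / (N : ℝ))) ^ N :=
      pow_le_pow_left₀ hbase h1 N
    have h3 : Real.exp (-(1 / (N : ℝ))) ^ N = Real.exp (-1) := by
      rw [← Real.exp_nat_mul]
      congr 1
      field_simp
    have h4 : Real.exp (-1) ≤ 1 / 2 := by
      rw [Real.exp_neg, one_div]
      have h5 : (2 : ℝ) ≤ Real.exp 1 := by
        have := Real.add_one_le_exp (1 : ℝ)
        linarith
      exact inv_anti₀ (by norm_num) h5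
    linarith [h2, h3, h4]
  have hpow : (1 - 1 / (N : ℝ)) ^ t ≤ (1 / 2) ^ M := by
    calc (1 - 1 / (N : ℝ)) ^ t ≤ (1 - 1 / (N : ℝ)) ^ (N * M) :=
          pow_le_pow_of_le_one hbase hbase1 ht
      _ = ((1 - 1 / (N : ℝ)) ^ N) ^ M := by rw [pow_mul]
      _ ≤ (1 / 2) ^ M := pow_le_pow_left₀ (pow_nonneg hbase N) hhalf M
  have hcard : (Fintype.card X : ℝ) * (1 / 2) ^ M ≤ 1 / 4 := by
    have h1 : (4 : ℝ) * Fintype.card X ≤ 2 ^ M := by exact_mod_cast hM
    have h2 : ((1 : ℝ) / 2) ^ M = 1 / 2 ^ M := by rw [div_pow, one_pow]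
    rw [h2, mul_one_div, div_le_iff₀ (by positivity)]
    linarith
  have hfin : (∑ y, |(P ^ t) x y - 1 / (Fintype.card X : ℝ)|) ^ 2 ≤ (1 / 2) ^ 2 := by
    calc _ ≤ (Fintype.card X : ℝ) * (1 - 1 / (N : ℝ)) ^ t := hb
      _ ≤ (Fintype.card X : ℝ) * (1 / 2) ^ M :=
          mul_le_mul_of_nonneg_left hpow (Nat.cast_nonneg _)
      _ ≤ 1 / 4 := hcard
      _ = (1 / 2) ^ 2 := by norm_num
  have hnn : 0 ≤ ∑ y, |(P ^ t) x y - 1 / (Fintype.card X : ℝ)| :=
    Finset.sum_nonneg (fun _ _ => abs_nonneg _)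
  have := abs_le_of_sq_le_sq' hfin (by norm_num)
  linarith [this.2]

end LazyKernel

end Vale.Agent.Lib.P335
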