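import Vale.Agent.Lib.P335.Core
import Vale.Agent.Lib.P335.Mixing

/-!
The bipartite switch chain: from the Poincare inequality to the mixing bound.
-/

open Finset BigOperators

namespace Vale.Agent.Lib.P335

set_option linter.unusedSectionVars false

section general

variable {ι κ : Type*} [Fintype ι] [DecidableEq ι] [Fintype κ] [DecidableEq κ]
variable {r : ι → ℕ} {c : κ → ℕ}

omit [Fintype κ] in
private lemma iff_of_not_checker {x : ι → Finset κ} {i j : ι} {a b : κ}
    (hcol : (if a ∈ x i then 1 else 0) + (if a ∈ x j then 1 else 0)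
      = (if b ∈ x i then 1 else 0) + (if b ∈ x j then (1 : ℕ) else 0))
    (hc : ¬ Checker x i j a b) : (a ∈ x i ↔ b ∈ x i) ∧ (a ∈ x j ↔ b ∈ x j) := by
  unfold Checker at hc
  by_cases h1 : a ∈ x i <;> by_cases h2 : b ∈ x i <;> by_cases h3 : a ∈ x j <;>
    by_cases h4 : b ∈ x j <;> simp_all

/-- The switch is the swap. -/
lemma bipSwitch_eq_tau {i j : ι} (hij : i ≠ j) (a b : κ) (x : Tab r c) :
    bipSwitch x.1 i j a b = (tau {i, j} a b x).1 := by
  have hmem : ∀ l, l ∈ ({i, j} : Finset ι) ↔ (l = i ∨ l = j) := by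
    intro l; simp
  by_cases hc : Checker x.1 i j a b
  · have hcol : colT {i, j} x.1 a = colT {i, j} x.1 b := by
      rw [colT2 hij, colT2 hij]
      rcases hc with ⟨h1, h2, h3, h4⟩ | ⟨h1, h2, h3, h4⟩ <;> simp [h1, h2, h3, h4]
    rw [tau_of_eq hcol]
    funext l
    unfold bipSwitch swapT
    by_cases hl : l = i ∨ l = j
    · rw [if_pos ⟨hc, hl⟩, if_pos ((hmem l).2 hl)]
    · rw [if_neg (fun h => hl h.2), if_neg (fun h => hl ((hmem l).1 h))]
  · have h1 : bipSwitch x.1 i j a b = x.1 := by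
      funext l
      unfold bipSwitch
      rw [if_neg (fun h => hc h.1)]
    rw [h1]
    by_cases hcol : colT {i, j} x.1 a = colT {i, j} x.1 b
    · funext l
      by_cases hl : l ∈ ({i, j} : Finset ι)
      · symm
        apply tau_row_of_iff
        rw [colT2 hij, colT2 hij] at hcol
        have hiff := iff_of_not_checker hcol hc
        have hl' := (hmem l).1 hl
        rcases hl' with rfl | rfl
        · exact hiff.1
        · exact hiff.2
      · exact (tau_off x hl).symm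
    · rw [tau_of_ne hcol]

/-- Symmetric double sums. -/
lemma sum_ne_eq_two_sum_lt {J : Type*} [Fintype J] [LinearOrder J] [LocallyFiniteOrderTop J]
    (G : J → J → ℝ) (hG : ∀ i j, G i j = G j i) :
    ∑ i, ∑ j, (if i = j then 0 else G i j) = 2 * ∑ i, ∑ j ∈ Finset.Ioi i, G i j := by
  have h1 : ∀ i, ∑ j ∈ Finset.Ioi i, G i j = ∑ j, (if i < j then G i j else 0) := by
    intro i
    rw [← Finset.sum_filter]
    congr 1
    ext j
    simp
  have h2 : ∑ i, ∑ j, (if i < j then G i j else 0) = ∑ i, ∑ j, (if j < i then G i j else 0) := by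
    rw [Finset.sum_comm]
    refine Finset.sum_congr rfl (fun i _ => Finset.sum_congr rfl (fun j _ => ?_))
    rw [hG j i]
  simp only [h1]
  rw [two_mul]
  nth_rw 2 [h2]
  rw [← Finset.sum_add_distrib]
  refine Finset.sum_congr rfl (fun i _ => ?_)
  rw [← Finset.sum_add_distrib]
  refine Finset.sum_congr rfl (fun j _ => ?_)
  rcases lt_trichotomy i j with h | h | h
  · simp [h, h.ne, h.le, not_lt.2 h.le]
  · simp [h]
  · simp [h, h.ne', not_lt.2 h.le]

end general

section fin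

variable {m n : ℕ} {r : Fin m → ℕ} {c : Fin n → ℕ}

lemma sum_card_Ioi (m : ℕ) : ∑ i : Fin m, (Finset.Ioi i).card = m.choose 2 := by
  simp only [Fin.card_Ioi]
  have h1 : ∑ i : Fin m, (m - 1 - (i : ℕ)) = ∑ i ∈ Finset.range m, (m - 1 - i) :=
    Fin.sum_univ_eq_sum_range (fun i => m - 1 - i) m
  rw [h1, Finset.sum_range_reflect (fun i => i) m, Finset.sum_range_id, Nat.choose_two_right]

lemma two_mul_choose_two_le (m : ℕ) : 2 * m.choose 2 ≤ m * m := by
  rw [Nat.choose_two_right]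
  have h1 := Nat.mul_div_le (m * (m - 1)) 2
  have h2 : m * (m - 1) ≤ m * m := Nat.mul_le_mul_left m (Nat.sub_le m 1)
  omega

/-- The kernel in terms of swaps. -/
lemma kernel_eq (x y : Tab r c) :
    bipKernel r c x y = (if x = y then 1 / 2 else 0)
      + (1 / 2) * (1 / ((m.choose 2 : ℝ) * (n.choose 2 : ℝ))) *
    ∑ i : Fin m, ∑ j ∈ Finset.Ioi i, ∑ a : Fin n, ∑ b ∈ Finset.Ioi a,
      (if tau {i, j} a b x = y then 1 else 0) := by
  unfold bipKernel
  congr 2
  refine Finset.sum_congr rfl (fun i _ => Finset.sum_congr rfl (fun j hj => ?_))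
  have hij : i ≠ j := (Finset.mem_Ioi.1 hj).ne
  refine Finset.sum_congr rfl (fun a _ => Finset.sum_congr rfl (fun b _ => ?_))
  rw [bipSwitch_eq_tau hij a b x]
  by_cases h : tau {i, j} a b x = y
  · rw [if_pos h, if_pos (congrArg Subtype.val h)]
  · rw [if_neg h, if_neg (fun h' => h (Subtype.ext h'))]

lemma pairs_count (m n : ℕ) : ∑ i : Fin m, ∑ _j ∈ Finset.Ioi i, ∑ a : Fin n, ∑ _b ∈ Finset.Ioi a, (1 : ℝ)
    = (m.choose 2 : ℝ) * (n.choose 2 : ℝ) := by
  have h1 : ∑ a : Fin n, ∑ _b ∈ Finset.Ioi a, (1 : ℝ) = (n.choose 2 : ℝ) := by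
    rw [← sum_card_Ioi n]
    push_cast
    simp
  simp only [h1]
  have h2 : ∑ i : Fin m, ∑ _j ∈ Finset.Ioi i, (n.choose 2 : ℝ)
      = ∑ i : Fin m, ((Finset.Ioi i).card : ℝ) * (n.choose 2 : ℝ) := by
    refine Finset.sum_congr rfl (fun i _ => ?_)
    simp
  rw [h2, ← Finset.sum_mul]
  congr 1
  rw [← sum_card_Ioi m]
  push_cast
  rfl

/-- The kernel is a lazy symmetric stochastic matrix. -/
lemma kernel_lazy (hm : 2 ≤ m) (hn : 2 ≤ n) : LazyKernel (bipKernel r c) := by
  have hN : (0 : ℝ) < (m.choose 2 : ℝ) * (n.choose 2 : ℝ) := by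
    have h1 : 0 < m.choose 2 := Nat.choose_pos hm
    have h2 : 0 < n.choose 2 := Nat.choose_pos hn
    positivity
  have hsum_nonneg : ∀ x y : Tab r c, 0 ≤ (1 / 2 : ℝ) * (1 / ((m.choose 2 : ℝ) * (n.choose 2 : ℝ))) *
      ∑ i : Fin m, ∑ j ∈ Finset.Ioi i, ∑ a : Fin n, ∑ b ∈ Finset.Ioi a,
        (if tau {i, j} a b x = y then (1 : ℝ) else 0) := by
    intro x y
    refine mul_nonneg (by positivity) ?_
    refine Finset.sum_nonneg (fun _ _ => Finset.sum_nonneg (fun _ _ =>
      Finset.sum_nonneg (fun _ _ => Finset.sum_nonneg (fun _ _ => ?_))))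
    split_ifs <;> norm_num
  refine ⟨?_, ?_, ?_, ?_⟩
  · intro x y
    rw [kernel_eq, kernel_eq]
    have e1 : (if x = y then (1 / 2 : ℝ) else 0) = (if y = x then 1 / 2 else 0) := by
      by_cases h : x = y
      · simp [h]
      · simp [h, Ne.symm h]
    have e2 : ∑ i : Fin m, ∑ j ∈ Finset.Ioi i, ∑ a : Fin n, ∑ b ∈ Finset.Ioi a,
        (if tau {i, j} a b x = y then (1 : ℝ) else 0)
        = ∑ i : Fin m, ∑ j ∈ Finset.Ioi i, ∑ a : Fin n, ∑ b ∈ Finset.Ioi a,
        (if tau {i, j} a b y = x then (1 : ℝ) else 0) := by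
      refine Finset.sum_congr rfl (fun i _ => Finset.sum_congr rfl (fun j _ =>
        Finset.sum_congr rfl (fun a _ => Finset.sum_congr rfl (fun b _ => ?_))))
      by_cases h : tau {i, j} a b x = y
      · have h' : tau {i, j} a b y = x := by rw [← h, tau_invol]
        rw [if_pos h, if_pos h']
      · have h' : ¬ tau {i, j} a b y = x := by
          intro h2
          apply h
          rw [← h2, tau_invol]
        rw [if_neg h, if_neg h']
    rw [e1, e2]
  · intro x y
    rw [kernel_eq]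
    refine add_nonneg ?_ (hsum_nonneg x y)
    split_ifs <;> norm_num
  · intro x
    simp only [kernel_eq, Finset.sum_add_distrib, ← Finset.mul_sum]
    have h1 : ∑ y : Tab r c, (if x = y then (1 / 2 : ℝ) else 0) = 1 / 2 := by simp
    have h2 : ∑ y : Tab r c, ∑ i : Fin m, ∑ j ∈ Finset.Ioi i, ∑ a : Fin n, ∑ b ∈ Finset.Ioi a,
        (if tau {i, j} a b x = y then (1 : ℝ) else 0) = (m.choose 2 : ℝ) * (n.choose 2 : ℝ) := by
      rw [← pairs_count m n, Finset.sum_comm]
      refine Finset.sum_congr rfl (fun i _ => ?_)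
      rw [Finset.sum_comm]
      refine Finset.sum_congr rfl (fun j _ => ?_)
      rw [Finset.sum_comm]
      refine Finset.sum_congr rfl (fun a _ => ?_)
      rw [Finset.sum_comm]
      refine Finset.sum_congr rfl (fun b _ => ?_)
      simp
    rw [h1, h2]
    have e : (m.choose 2 : ℝ) * (n.choose 2 : ℝ) / ((m.choose 2 : ℝ) * (n.choose 2 : ℝ)) = 1 :=
      div_self hN.ne'
    field_simp
    rw [e]
    norm_num
  · intro x
    rw [kernel_eq]
    have := hsum_nonneg x x
    simp only [if_true]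
    linarith

/-- The Dirichlet form of the kernel. -/
lemma kernel_dirichlet (f : Tab r c → ℝ) (x : Tab r c) :
    ∑ y, bipKernel r c x y * (f x - f y) ^ 2
      = (1 / 2) * (1 / ((m.choose 2 : ℝ) * (n.choose 2 : ℝ))) *
        ∑ i : Fin m, ∑ j ∈ Finset.Ioi i, ∑ a : Fin n, ∑ b ∈ Finset.Ioi a,
          (f x - f (tau {i, j} a b x)) ^ 2 := by
  simp only [kernel_eq, add_mul, Finset.sum_add_distrib, mul_assoc, ← Finset.mul_sum]
  have h1 : ∑ y : Tab r c, (if x = y then (1 / 2 : ℝ) else 0) * (f x - f y) ^ 2 = 0 := by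
    refine Finset.sum_eq_zero (fun y _ => ?_)
    by_cases h : x = y
    · simp [h]
    · simp [h]
  rw [h1, zero_add]
  congr 2
  simp only [Finset.sum_mul, ]
  rw [Finset.sum_comm]
  refine Finset.sum_congr rfl (fun i _ => ?_)
  rw [Finset.sum_comm]
  refine Finset.sum_congr rfl (fun j _ => ?_)
  rw [Finset.sum_comm]
  refine Finset.sum_congr rfl (fun a _ => ?_)
  rw [Finset.sum_comm]
  refine Finset.sum_congr rfl (fun b _ => ?_)
  simp [ite_mul]

/-- The spectral gap of the kernel. -/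
theorem kernel_gap (hm : 2 ≤ m) (hn : 2 ≤ n) (f : Tab r c → ℝ) (hf : ∑ x, f x = 0) :
    (1 / (((m.choose 2 * n.choose 2 : ℕ)) : ℝ)) * ip f f
      ≤ (∑ x, ∑ y, bipKernel r c x y * (f x - f y) ^ 2) / 2 := by
  have hN : (0 : ℝ) < (m.choose 2 : ℝ) * (n.choose 2 : ℝ) := by
    have h1 : 0 < m.choose 2 := Nat.choose_pos hm
    have h2 : 0 < n.choose 2 := Nat.choose_pos hn
    positivity
  set H : Fin m → Fin m → Fin n → Fin n → ℝ := fun i j a b =>
    ∑ x, (f x - f (tau {i, j} a b x)) ^ 2 with hH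
  have hP := switch_poincare f hf
  have hsplit : ∑ i, ∑ j, ∑ a, ∑ b, (if i = j ∨ a = b then 0 else H i j a b)
      = ∑ i, ∑ j, (if i = j then 0 else ∑ a, ∑ b, (if a = b then 0 else H i j a b)) := by
    refine Finset.sum_congr rfl (fun i _ => Finset.sum_congr rfl (fun j _ => ?_))
    by_cases hij : i = j
    · simp [hij]
    · simp [hij]
  have hinner : ∀ i j, ∑ a, ∑ b, (if a = b then 0 else H i j a b)
      = 2 * ∑ a, ∑ b ∈ Finset.Ioi a, H i j a b := by
    intro i j
    apply sum_ne_eq_two_sum_lt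
    intro a b
    simp only [hH]
    refine Finset.sum_congr rfl (fun x _ => ?_)
    rw [tau_comm_swap]
  have houter : ∑ i, ∑ j, (if i = j then 0 else 2 * ∑ a, ∑ b ∈ Finset.Ioi a, H i j a b)
      = 2 * ∑ i, ∑ j ∈ Finset.Ioi i, 2 * ∑ a, ∑ b ∈ Finset.Ioi a, H i j a b := by
    apply sum_ne_eq_two_sum_lt
    intro i j
    simp only [hH]
    rw [Finset.pair_comm]
  change 16 * _ ≤ ∑ i, ∑ j, ∑ a, ∑ b, (if i = j ∨ a = b then 0 else H i j a b) at hP
  rw [hsplit] at hP
  simp only [hinner] at hP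
  rw [houter] at hP
  have hD : ∑ x, ∑ y, bipKernel r c x y * (f x - f y) ^ 2
      = (1 / 2) * (1 / ((m.choose 2 : ℝ) * (n.choose 2 : ℝ))) *
        ∑ i, ∑ j ∈ Finset.Ioi i, ∑ a, ∑ b ∈ Finset.Ioi a, H i j a b := by
    simp only [kernel_dirichlet, ← Finset.mul_sum]
    congr 1
    simp only [hH]
    rw [Finset.sum_comm]
    refine Finset.sum_congr rfl (fun i _ => ?_)
    rw [Finset.sum_comm]
    refine Finset.sum_congr rfl (fun j _ => ?_)
    rw [Finset.sum_comm]
    refine Finset.sum_congr rfl (fun a _ => ?_)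
    rw [Finset.sum_comm]
  rw [hD]
  have hself : ip f f = ∑ x, f x ^ 2 := by
    unfold ip
    exact Finset.sum_congr rfl (fun x _ => by ring)
  rw [hself]
  simp only [← Finset.mul_sum] at hP
  push_cast
  set Y := ∑ i, ∑ j ∈ Finset.Ioi i, ∑ a, ∑ b ∈ Finset.Ioi a, H i j a b with hY
  set Z := ∑ x, f x ^ 2 with hZ
  have h4 : 4 * Z ≤ Y := by nlinarith
  have e : (1 / 2 : ℝ) * (1 / ((m.choose 2 : ℝ) * (n.choose 2 : ℝ))) * Y / 2
      = (1 / ((m.choose 2 : ℝ) * (n.choose 2 : ℝ))) * (Y / 4) := by ring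
  rw [e]
  exact mul_le_mul_of_nonneg_left (by linarith) (by positivity)

/-- The mixing bound for the bipartite switch chain. -/
theorem bip_mixing (hm : 2 ≤ m) (hn : 2 ≤ n) (t : ℕ) (ht : (m * n) ^ 3 ≤ t) (x : Tab r c) :
    (∑ y, |(bipKernel r c ^ t) x y - 1 / (Fintype.card (Tab r c) : ℝ)|) / 2 ≤ 1 / 4 := by
  have hNpos : 0 < m.choose 2 * n.choose 2 :=
    Nat.mul_pos (Nat.choose_pos hm) (Nat.choose_pos hn)
  have hcard : 4 * Fintype.card (Tab r c) ≤ 2 ^ (m * n + 2) := by
    have h1 : Fintype.card (Tab r c) ≤ Fintype.card (Fin m → Finset (Fin n)) :=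
      Fintype.card_subtype_le _
    have h2 : Fintype.card (Fin m → Finset (Fin n)) = 2 ^ (m * n) := by
      simp only [Fintype.card_fun, Fintype.card_finset, Fintype.card_fin]
      rw [← pow_mul, mul_comm]
    rw [h2] at h1
    rw [pow_add]
    omega
  have hbound : (m.choose 2 * n.choose 2) * (m * n + 2) ≤ t := by
    refine le_trans ?_ ht
    have h1 := two_mul_choose_two_le m
    have h2 := two_mul_choose_two_le n
    have h3 : 4 * (m.choose 2 * n.choose 2) ≤ (m * n) * (m * n) := by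
      calc 4 * (m.choose 2 * n.choose 2) = (2 * m.choose 2) * (2 * n.choose 2) := by ring
        _ ≤ (m * m) * (n * n) := Nat.mul_le_mul h1 h2
        _ = (m * n) * (m * n) := by ring
    have h4 : 4 ≤ m * n := Nat.mul_le_mul hm hn
    have h5 : m * n + 2 ≤ 4 * (m * n) := by omega
    calc (m.choose 2 * n.choose 2) * (m * n + 2) ≤ (m.choose 2 * n.choose 2) * (4 * (m * n)) :=
          Nat.mul_le_mul_left _ h5
      _ = (4 * (m.choose 2 * n.choose 2)) * (m * n) := by ring
      _ ≤ ((m * n) * (m * n)) * (m * n) := Nat.mul_le_mul_right _ h3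
      _ = (m * n) ^ 3 := by ring
  exact (kernel_lazy hm hn).tv_le_quarter hNpos (fun f hf => kernel_gap hm hn f hf) hcard t hbound x

end fin

end Vale.Agent.Lib.P335
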