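import Vale.Agent.Lib.P335.Rows

/-!
Inside two rows: the gap for column swaps, via the same local to global theorem.
-/

open Finset BigOperators

namespace Vale.Agent.Lib.P335

set_option linter.unusedSectionVars false

section involution

variable {X : Type*} [Fintype X]

/-- The half difference along a map. -/
noncomputable def Qinv (σ : X → X) : (X → ℝ) →ₗ[ℝ] (X → ℝ) where
  toFun f := fun x => (f x - f (σ x)) / 2
  map_add' f g := by funext x; simp only [Pi.add_apply]; ring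
  map_smul' c f := by funext x; simp only [Pi.smul_apply, smul_eq_mul, RingHom.id_apply]; ring

lemma Qinv_apply (σ : X → X) (f : X → ℝ) (x : X) : Qinv σ f x = (f x - f (σ x)) / 2 := rfl

lemma sum_invol {σ : X → X} (hσ : ∀ x, σ (σ x) = x) (G : X → ℝ) : ∑ x, G (σ x) = ∑ x, G x :=
  Equiv.sum_comp (Function.Involutive.toPerm σ hσ) G

lemma Qinv_sa {σ : X → X} (hσ : ∀ x, σ (σ x) = x) (f g : X → ℝ) :
    ip (Qinv σ f) g = ip f (Qinv σ g) := by
  unfold ip
  simp only [Qinv_apply]
  have h := sum_invol hσ (fun x => f x * g (σ x))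
  simp only [hσ] at h
  have e1 : ∑ x, (f x - f (σ x)) / 2 * g x = (∑ x, f x * g x - ∑ x, f (σ x) * g x) / 2 := by
    rw [← Finset.sum_sub_distrib, Finset.sum_div]
    exact Finset.sum_congr rfl (fun x _ => by ring)
  have e2 : ∑ x, f x * ((g x - g (σ x)) / 2) = (∑ x, f x * g x - ∑ x, f x * g (σ x)) / 2 := by
    rw [← Finset.sum_sub_distrib, Finset.sum_div]
    exact Finset.sum_congr rfl (fun x _ => by ring)
  rw [e1, e2, h]

lemma Qinv_id {σ : X → X} (hσ : ∀ x, σ (σ x) = x) (f : X → ℝ) :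
    Qinv σ (Qinv σ f) = Qinv σ f := by
  funext x
  simp only [Qinv_apply, hσ]
  ring

lemma Qinv_comm {σ τ : X → X} (h : ∀ x, σ (τ x) = τ (σ x)) (f : X → ℝ) :
    Qinv σ (Qinv τ f) = Qinv τ (Qinv σ f) := by
  funext x
  simp only [Qinv_apply, h]
  ring

lemma ip_Qinv_self (σ : X → X) (f : X → ℝ) :
    ip (Qinv σ f) (Qinv σ f) = (∑ x, (f x - f (σ x)) ^ 2) / 4 := by
  unfold ip
  rw [Finset.sum_div]
  exact Finset.sum_congr rfl (fun x _ => by simp only [Qinv_apply]; ring)

/-- The triple inequality for three involutions obeying the braid relations of a symmetric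
group on three letters. -/
theorem s3_ineq (s₁ s₂ s₃ : X → X) (h₁ : ∀ x, s₁ (s₁ x) = x) (h₂ : ∀ x, s₂ (s₂ x) = x)
    (h₃ : ∀ x, s₃ (s₃ x) = x) (r₁ : ∀ x, s₁ (s₂ x) = s₂ (s₃ x)) (r₂ : ∀ x, s₂ (s₃ x) = s₃ (s₁ x))
    (f : X → ℝ) :
    0 ≤ ∑ x, ((f x - f (s₁ x)) * (f x - f (s₂ x)) + (f x - f (s₁ x)) * (f x - f (s₃ x))
      + (f x - f (s₂ x)) * (f x - f (s₃ x))) := by
  set Ψ : X → ℝ := fun x => (f x - f (s₁ x)) * (f x - f (s₂ x))
    + (f x - f (s₁ x)) * (f x - f (s₃ x)) + (f x - f (s₂ x)) * (f x - f (s₃ x)) with hΨ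
  -- the rotation and its square, as bijections
  let e₁ : X ≃ X := Function.Involutive.toPerm s₁ h₁
  let e₂ : X ≃ X := Function.Involutive.toPerm s₂ h₂
  let e₃ : X ≃ X := Function.Involutive.toPerm s₃ h₃
  let ρ : X ≃ X := e₂.trans e₁
  let ρ' : X ≃ X := e₁.trans e₂
  have hρ : ∀ x, ρ x = s₁ (s₂ x) := fun _ => rfl
  have hρ' : ∀ x, ρ' x = s₂ (s₁ x) := fun _ => rfl
  have ρ1 : ∀ x, s₁ (ρ x) = s₂ x := by intro x; rw [hρ, h₁]
  have ρ2 : ∀ x, s₂ (ρ x) = s₃ x := by intro x; rw [hρ, r₁, h₂]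
  have ρ3 : ∀ x, s₃ (ρ x) = s₁ x := by intro x; rw [hρ, r₁, r₂, h₃]
  have hA : ∀ y, s₃ y = s₁ (s₂ (s₁ y)) := by
    intro y
    rw [r₁ (s₁ y), r₂ (s₁ y), h₁]
  have hB : ∀ y, s₃ y = s₂ (s₁ (s₂ y)) := by
    intro y
    rw [r₁ y, h₂]
  have ρ'1 : ∀ x, s₁ (ρ' x) = s₃ x := by intro x; rw [hρ', hA x]
  have ρ'2 : ∀ x, s₂ (ρ' x) = s₁ x := by intro x; rw [hρ', h₂]
  have ρ'3 : ∀ x, s₃ (ρ' x) = s₂ x := by intro x; rw [hρ', hB, h₂, h₁]
  have s21 : ∀ x, s₂ (s₁ x) = ρ' x := fun x => (hρ' x).symm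
  have s31 : ∀ x, s₃ (s₁ x) = ρ x := by intro x; rw [hρ, r₁, r₂]
  have s12 : ∀ x, s₁ (s₂ x) = ρ x := fun x => (hρ x).symm
  have s32 : ∀ x, s₃ (s₂ x) = ρ' x := by intro x; rw [hρ', hB, h₂]
  have s13 : ∀ x, s₁ (s₃ x) = ρ' x := by intro x; rw [hρ', hA, h₁]
  have s23 : ∀ x, s₂ (s₃ x) = ρ x := by intro x; rw [hρ, r₁]
  have hpt : ∀ x, 0 ≤ Ψ x + Ψ (ρ x) + Ψ (ρ' x) + Ψ (s₁ x) + Ψ (s₂ x) + Ψ (s₃ x) := by
    intro x
    simp only [hΨ, ρ1, ρ2, ρ3, ρ'1, ρ'2, ρ'3, h₁, h₂, h₃, s21, s31, s12, s32, s13, s23]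
    generalize f x = u₀
    generalize f (ρ x) = u₁
    generalize f (ρ' x) = u₂
    generalize f (s₁ x) = v₁
    generalize f (s₂ x) = v₂
    generalize f (s₃ x) = v₃
    nlinarith [sq_nonneg (u₀ + u₁ + u₂ - v₁ - v₂ - v₃), sq_nonneg (u₀ - u₁), sq_nonneg (u₀ - u₂),
      sq_nonneg (u₁ - u₂), sq_nonneg (v₁ - v₂), sq_nonneg (v₁ - v₃), sq_nonneg (v₂ - v₃)]
  have hs1 : ∑ x, Ψ (ρ x) = ∑ x, Ψ x := Equiv.sum_comp ρ Ψ
  have hs2 : ∑ x, Ψ (ρ' x) = ∑ x, Ψ x := Equiv.sum_comp ρ' Ψ
  have hs3 : ∑ x, Ψ (s₁ x) = ∑ x, Ψ x := sum_invol h₁ Ψ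
  have hs4 : ∑ x, Ψ (s₂ x) = ∑ x, Ψ x := sum_invol h₂ Ψ
  have hs5 : ∑ x, Ψ (s₃ x) = ∑ x, Ψ x := sum_invol h₃ Ψ
  have htot : 0 ≤ ∑ x, (Ψ x + Ψ (ρ x) + Ψ (ρ' x) + Ψ (s₁ x) + Ψ (s₂ x) + Ψ (s₃ x)) :=
    Finset.sum_nonneg (fun x _ => hpt x)
  simp only [Finset.sum_add_distrib] at htot
  rw [hs1, hs2, hs3, hs4, hs5] at htot
  change 0 ≤ ∑ x, Ψ x
  linarith

end involution

variable {ι κ : Type*} [Fintype ι] [DecidableEq ι] [Fintype κ] [DecidableEq κ]
variable {r : ι → ℕ} {c : κ → ℕ}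

lemma tau_comm_swap (t : Finset ι) (a b : κ) (x : Tab r c) : tau t a b x = tau t b a x := by
  by_cases h : colT t x.1 a = colT t x.1 b
  · apply Subtype.ext
    rw [tau_of_eq h, tau_of_eq h.symm]
    unfold swapT
    rw [Equiv.swap_comm]
  · rw [tau_of_ne h, tau_of_ne (Ne.symm h)]

lemma swapT_comm_disjoint (t : Finset ι) {a b d e : κ} (h1 : a ≠ d) (h2 : a ≠ e) (h3 : b ≠ d)
    (h4 : b ≠ e) (x : ι → Finset κ) :
    swapT t a b (swapT t d e x) = swapT t d e (swapT t a b x) := by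
  funext l
  ext u
  rw [mem_swapT, mem_swapT]
  by_cases hl : l ∈ t
  · simp only [hl, if_true, mem_swapT]
    have : Equiv.swap d e (Equiv.swap a b u) = Equiv.swap a b (Equiv.swap d e u) := by
      have hd : Disjoint (({a, b} : Finset κ)) ({d, e} : Finset κ) := by
        rw [Finset.disjoint_left]
        intro w hw1 hw2
        simp only [Finset.mem_insert, Finset.mem_singleton] at hw1 hw2
        rcases hw1 with rfl | rfl <;> rcases hw2 with rfl | rfl <;> simp_all
      by_cases hua : u = a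
      · subst hua
        rw [Equiv.swap_apply_left, Equiv.swap_apply_of_ne_of_ne h1 h2, Equiv.swap_apply_left,
          Equiv.swap_apply_of_ne_of_ne h3 h4]
      by_cases hub : u = b
      · subst hub
        rw [Equiv.swap_apply_right, Equiv.swap_apply_of_ne_of_ne h3 h4, Equiv.swap_apply_right,
          Equiv.swap_apply_of_ne_of_ne h1 h2]
      rw [Equiv.swap_apply_of_ne_of_ne hua hub]
      by_cases hud : u = d
      · subst hud
        rw [Equiv.swap_apply_left, Equiv.swap_apply_of_ne_of_ne h2.symm h4.symm]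
      by_cases hue : u = e
      · subst hue
        rw [Equiv.swap_apply_right, Equiv.swap_apply_of_ne_of_ne h1.symm h3.symm]
      rw [Equiv.swap_apply_of_ne_of_ne hud hue, Equiv.swap_apply_of_ne_of_ne hua hub]
    rw [this]
  · simp [hl, mem_swapT]

lemma tau_comm_disjoint (t : Finset ι) {a b d e : κ} (h1 : a ≠ d) (h2 : a ≠ e) (h3 : b ≠ d)
    (h4 : b ≠ e) (x : Tab r c) : tau t a b (tau t d e x) = tau t d e (tau t a b x) := by
  by_cases hab : colT t x.1 a = colT t x.1 b <;> by_cases hde : colT t x.1 d = colT t x.1 e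
  · have hab' : colT t (tau t d e x).1 a = colT t (tau t d e x).1 b := by
      rw [colT_tau, colT_tau, hab]
    have hde' : colT t (tau t a b x).1 d = colT t (tau t a b x).1 e := by
      rw [colT_tau, colT_tau, hde]
    apply Subtype.ext
    rw [tau_of_eq hab', tau_of_eq hde', tau_of_eq hde, tau_of_eq hab]
    exact swapT_comm_disjoint t h1 h2 h3 h4 _
  · have hde' : colT t (tau t a b x).1 d ≠ colT t (tau t a b x).1 e := by
      rw [colT_tau, colT_tau]; exact hde
    rw [tau_of_ne hde, tau_of_ne hde']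
  · have hab' : colT t (tau t d e x).1 a ≠ colT t (tau t d e x).1 b := by
      rw [colT_tau, colT_tau]; exact hab
    rw [tau_of_ne hab, tau_of_ne hab']
  · rw [tau_of_ne hab, tau_of_ne hde, tau_of_ne hab]

/-- Guarded version of the swap: acts only if the three columns have the same count. -/
noncomputable def tauG (t : Finset ι) (a b e u v : κ) (x : Tab r c) : Tab r c :=
  by
    classical
    exact if colT t x.1 a = colT t x.1 b ∧ colT t x.1 a = colT t x.1 e then tau t u v x else x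

lemma tauG_guard {t : Finset ι} {a b e u v : κ} {x : Tab r c}
    (h : colT t x.1 a = colT t x.1 b ∧ colT t x.1 a = colT t x.1 e) :
    tauG t a b e u v x = tau t u v x := by
  unfold tauG; exact if_pos h

lemma tauG_off {t : Finset ι} {a b e u v : κ} {x : Tab r c}
    (h : ¬ (colT t x.1 a = colT t x.1 b ∧ colT t x.1 a = colT t x.1 e)) :
    tauG t a b e u v x = x := by
  unfold tauG; exact if_neg h

lemma tauG_invol (t : Finset ι) (a b e u v : κ) (x : Tab r c) :
    tauG t a b e u v (tauG t a b e u v x) = x := by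
  by_cases h : colT t x.1 a = colT t x.1 b ∧ colT t x.1 a = colT t x.1 e
  · have h' : colT t (tau t u v x).1 a = colT t (tau t u v x).1 b
        ∧ colT t (tau t u v x).1 a = colT t (tau t u v x).1 e := by
      simp only [colT_tau]; exact h
    rw [tauG_guard h, tauG_guard h', tau_invol]
  · rw [tauG_off h, tauG_off h]

/-- The composition rule for the guarded swaps. -/
lemma swapT_braid (t : Finset ι) {a b e : κ} (hab : a ≠ b) (hae : a ≠ e) (hbe : b ≠ e)
    (x : ι → Finset κ) :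
    swapT t a b (swapT t a e x) = swapT t a e (swapT t b e x)
    ∧ swapT t a e (swapT t b e x) = swapT t b e (swapT t a b x) := by
  have key1 : ∀ u, Equiv.swap a e (Equiv.swap a b u) = Equiv.swap b e (Equiv.swap a e u) := by
    intro u
    simp only [Equiv.swap_apply_def]
    split_ifs <;> simp_all
  have key2 : ∀ u, Equiv.swap b e (Equiv.swap a e u) = Equiv.swap a b (Equiv.swap b e u) := by
    intro u
    simp only [Equiv.swap_apply_def]
    split_ifs <;> simp_all
  constructor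
  · funext l
    ext u
    by_cases hl : l ∈ t
    · simp only [mem_swapT, hl, if_true]
      rw [key1]
    · simp only [mem_swapT, hl, if_false]
  · funext l
    ext u
    by_cases hl : l ∈ t
    · simp only [mem_swapT, hl, if_true]
      rw [key2]
    · simp only [mem_swapT, hl, if_false]

/-- The three guarded swaps satisfy the relations of the symmetric group on three letters. -/
lemma tauG_braid (t : Finset ι) {a b e : κ} (hab : a ≠ b) (hae : a ≠ e) (hbe : b ≠ e)
    (x : Tab r c) :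
    tauG t a b e a b (tauG t a b e a e x) = tauG t a b e a e (tauG t a b e b e x)
    ∧ tauG t a b e a e (tauG t a b e b e x) = tauG t a b e b e (tauG t a b e a b x) := by
  by_cases h : colT t x.1 a = colT t x.1 b ∧ colT t x.1 a = colT t x.1 e
  · have hg : ∀ (u v : κ), colT t (tau t u v x).1 a = colT t (tau t u v x).1 b
        ∧ colT t (tau t u v x).1 a = colT t (tau t u v x).1 e := by
      intro u v; simp only [colT_tau]; exact h
    have hab1 : colT t x.1 a = colT t x.1 b := h.1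
    have hae1 : colT t x.1 a = colT t x.1 e := h.2
    have hbe1 : colT t x.1 b = colT t x.1 e := h.1.symm.trans h.2
    obtain ⟨b1, b2⟩ := swapT_braid t hab hae hbe x.1
    have col_ab : ∀ (u v w z : κ), colT t x.1 u = colT t x.1 v →
        colT t (tau t w z x).1 u = colT t (tau t w z x).1 v := by
      intro u v w z huv; rw [colT_tau, colT_tau, huv]
    rw [tauG_guard h, tauG_guard (hg _ _), tauG_guard h, tauG_guard (hg _ _), tauG_guard h]
    rw [tauG_guard (hg _ _)]
    constructor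
    · apply Subtype.ext
      rw [tau_of_eq (col_ab a b _ _ hab1), tau_of_eq hae1, tau_of_eq (col_ab a e _ _ hae1),
        tau_of_eq hbe1]
      exact b1
    · apply Subtype.ext
      rw [tau_of_eq (col_ab a e _ _ hae1), tau_of_eq hbe1, tau_of_eq (col_ab b e _ _ hbe1),
        tau_of_eq hab1]
      exact b2
  · simp only [tauG_off h, and_self]

/-- The half difference for the swap of two columns on two rows. -/
noncomputable def Qc (t : Finset ι) (a b : κ) : (Tab r c → ℝ) →ₗ[ℝ] (Tab r c → ℝ) :=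
  Qinv (tau t a b)

lemma Qc_apply (t : Finset ι) (a b : κ) (f : Tab r c → ℝ) (x : Tab r c) :
    Qc t a b f x = (f x - f (tau t a b x)) / 2 := rfl

lemma Qc_symm (t : Finset ι) (a b : κ) : (Qc t a b : (Tab r c → ℝ) →ₗ[ℝ] (Tab r c → ℝ)) = Qc t b a := by
  apply LinearMap.ext
  intro f
  funext x
  rw [Qc_apply, Qc_apply, tau_comm_swap t a b x]

/-- The triple inequality for columns. -/
lemma cols_tri (t : Finset ι) {a b e : κ} (hab : a ≠ b) (hae : a ≠ e) (hbe : b ≠ e)
    (f : Tab r c → ℝ) :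
    0 ≤ ip (Qc t a b f) (Qc t a e f) + ip (Qc t b a f) (Qc t b e f)
      + ip (Qc t e a f) (Qc t e b f) := by
  rw [Qc_symm t b a, Qc_symm t e a, Qc_symm t e b]
  have hmain := s3_ineq (tauG t a b e a b) (tauG t a b e a e) (tauG t a b e b e)
    (tauG_invol t a b e a b) (tauG_invol t a b e a e) (tauG_invol t a b e b e)
    (fun x => (tauG_braid t hab hae hbe x).1) (fun x => (tauG_braid t hab hae hbe x).2) f
  have heq : ip (Qc t a b f) (Qc t a e f) + ip (Qc t a b f) (Qc t b e f)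
      + ip (Qc t a e f) (Qc t b e f)
      = (∑ x, ((f x - f (tauG t a b e a b x)) * (f x - f (tauG t a b e a e x))
        + (f x - f (tauG t a b e a b x)) * (f x - f (tauG t a b e b e x))
        + (f x - f (tauG t a b e a e x)) * (f x - f (tauG t a b e b e x)))) / 4 := by
    unfold ip
    rw [← Finset.sum_add_distrib, ← Finset.sum_add_distrib, Finset.sum_div]
    refine Finset.sum_congr rfl (fun x _ => ?_)
    simp only [Qc_apply]
    by_cases h : colT t x.1 a = colT t x.1 b ∧ colT t x.1 a = colT t x.1 e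
    · rw [tauG_guard h, tauG_guard h, tauG_guard h]
      ring
    · rw [tauG_off h, tauG_off h, tauG_off h]
      -- at least two of the three swaps act trivially
      by_cases h1 : colT t x.1 a = colT t x.1 b
      · have h2 : colT t x.1 a ≠ colT t x.1 e := fun h2 => h ⟨h1, h2⟩
        have h3 : colT t x.1 b ≠ colT t x.1 e := fun h3 => h2 (h1.trans h3)
        rw [tau_of_ne h2, tau_of_ne h3]
        ring
      · rw [tau_of_ne h1]
        by_cases h2 : colT t x.1 a = colT t x.1 e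
        · have h3 : colT t x.1 b ≠ colT t x.1 e := fun h3 => h1 (h2.trans h3.symm)
          rw [tau_of_ne h3]
          ring
        · rw [tau_of_ne h2]
          ring
  rw [heq]
  positivity

end Vale.Agent.Lib.P335
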