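import Vale.Agent.Lib.P335.Tables

/-!
Conditional averages over disjoint sets of rows commute.
-/

open Finset BigOperators

namespace Vale.Agent.Lib.P335

set_option linter.unusedSectionVars false

variable {ι κ : Type*} [Fintype ι] [DecidableEq ι] [Fintype κ] [DecidableEq κ]
variable {r : ι → ℕ} {c : κ → ℕ}

/-- Rows of `s` from `y`, the others from `z`. -/
def mergeRaw (s : Finset ι) (y z : ι → Finset κ) : ι → Finset κ :=
  fun l => if l ∈ s then y l else z l

lemma isTab_merge {s s' : Finset ι} (hs : Disjoint s s') {x y z : Tab r c}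
    (hy : restr s y = restr s x) (hz : restr s' z = restr s' x) :
    IsTab r c (mergeRaw s y.1 z.1) := by
  constructor
  · intro l
    unfold mergeRaw
    split_ifs
    · exact y.2.1 l
    · exact z.2.1 l
  · intro e
    have h1 := colT_add_compl s (mergeRaw s y.1 z.1) e
    rw [← h1]
    have h2 : colT s (mergeRaw s y.1 z.1) e = colT s y.1 e :=
      colT_congr (fun l hl => by simp [mergeRaw, hl]) e
    have h3 : colT sᶜ (mergeRaw s y.1 z.1) e = colT sᶜ z.1 e :=
      colT_congr (fun l hl => by simp [mergeRaw, Finset.mem_compl.1 hl]) e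
    have h4 : colT s y.1 e = colT s x.1 e := colT_eq_of_restr hy e
    have h5 : colT s z.1 e = colT s x.1 e :=
      colT_congr (fun l hl => restr_eq_iff.1 hz l (Finset.disjoint_left.1 hs hl)) e
    have h6 := colT_add_compl s z.1 e
    rw [z.2.2] at h6
    omega

/-- The merged table, as a total function. -/
noncomputable def mergeT (s : Finset ι) (y z : Tab r c) : Tab r c :=
  by
    classical
    exact if h : IsTab r c (mergeRaw s y.1 z.1) then ⟨mergeRaw s y.1 z.1, h⟩ else y

lemma mergeT_val {s s' : Finset ι} (hs : Disjoint s s') {x y z : Tab r c}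
    (hy : restr s y = restr s x) (hz : restr s' z = restr s' x) :
    (mergeT s y z).1 = mergeRaw s y.1 z.1 := by
  unfold mergeT
  rw [dif_pos (isTab_merge hs hy hz)]

lemma sum_cls_merge {s s' : Finset ι} (hs : Disjoint s s') {x y : Tab r c}
    (hy : restr s y = restr s x) (f : Tab r c → ℝ) :
    ∑ w ∈ cls (restr s') y, f w = ∑ z ∈ cls (restr s') x, f (mergeT s y z) := by
  symm
  have hoff : ∀ l, l ∉ s → y.1 l = x.1 l := restr_eq_iff.1 hy
  refine Finset.sum_bij' (fun z _ => mergeT s y z) (fun w _ => mergeT s x w) ?_ ?_ ?_ ?_ ?_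
  · intro z hz
    have hz' : restr s' z = restr s' x := mem_cls.1 hz
    rw [mem_cls, restr_eq_iff]
    intro l hl
    rw [mergeT_val hs hy hz']
    unfold mergeRaw
    split_ifs with h
    · rfl
    · rw [restr_eq_iff.1 hz' l hl, hoff l h]
  · intro w hw
    have hw' : restr s' w = restr s' y := mem_cls.1 hw
    rw [mem_cls, restr_eq_iff]
    intro l hl
    rw [mergeT_val hs hy.symm hw']
    unfold mergeRaw
    split_ifs with h
    · rfl
    · rw [restr_eq_iff.1 hw' l hl, hoff l h]
  · intro z hz
    have hz' : restr s' z = restr s' x := mem_cls.1 hz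
    have h1 : restr s' (mergeT s y z) = restr s' y := by
      rw [restr_eq_iff]
      intro l hl
      rw [mergeT_val hs hy hz']
      unfold mergeRaw
      split_ifs with h
      · rfl
      · rw [restr_eq_iff.1 hz' l hl, hoff l h]
    apply Subtype.ext
    rw [mergeT_val hs hy.symm h1, mergeT_val hs hy hz']
    funext l
    unfold mergeRaw
    split_ifs with h
    · exact (restr_eq_iff.1 hz' l (Finset.disjoint_left.1 hs h)).symm
    · rfl
  · intro w hw
    have hw' : restr s' w = restr s' y := mem_cls.1 hw
    have h1 : restr s' (mergeT s x w) = restr s' x := by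
      rw [restr_eq_iff]
      intro l hl
      rw [mergeT_val hs hy.symm hw']
      unfold mergeRaw
      split_ifs with h
      · rfl
      · rw [restr_eq_iff.1 hw' l hl, hoff l h]
    apply Subtype.ext
    rw [mergeT_val hs hy h1, mergeT_val hs hy.symm hw']
    funext l
    unfold mergeRaw
    split_ifs with h
    · exact (restr_eq_iff.1 hw' l (Finset.disjoint_left.1 hs h)).symm
    · rfl
  · intro _ _; rfl

lemma card_cls_merge {s s' : Finset ι} (hs : Disjoint s s') {x y : Tab r c}
    (hy : restr s y = restr s x) :
    (cls (restr s') y).card = (cls (restr s') x).card := by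
  have h := sum_cls_merge (s' := s') hs hy (fun _ => (1 : ℝ))
  simp only [Finset.sum_const, nsmul_eq_mul, mul_one] at h
  exact_mod_cast h

lemma mergeT_comm {s s' : Finset ι} (hs : Disjoint s s') {x y z : Tab r c}
    (hy : restr s y = restr s x) (hz : restr s' z = restr s' x) :
    mergeT s y z = mergeT s' z y := by
  apply Subtype.ext
  rw [mergeT_val hs hy hz, mergeT_val hs.symm hz hy]
  funext l
  unfold mergeRaw
  by_cases h : l ∈ s
  · have h' : l ∉ s' := Finset.disjoint_left.1 hs h
    simp [h, h']
  · by_cases h' : l ∈ s'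
    · simp [h, h']
    · simp only [h, h', if_false]
      rw [restr_eq_iff.1 hz l h', restr_eq_iff.1 hy l h]

/-- Conditional averages over disjoint sets of rows commute. -/
theorem cavg_restr_comm {s s' : Finset ι} (hs : Disjoint s s') (f : Tab r c → ℝ) :
    cavg (restr s) (cavg (restr s') f) = cavg (restr s') (cavg (restr s) f) := by
  funext x
  have key : ∀ {u u' : Finset ι} (hu : Disjoint u u') (g : Tab r c → ℝ),
      cavg (restr u) (cavg (restr u') g) x =
        (∑ y ∈ cls (restr u) x, ∑ z ∈ cls (restr u') x, g (mergeT u y z))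
          / (((cls (restr u) x).card : ℝ) * (cls (restr u') x).card) := by
    intro u u' hu g
    unfold cavg
    have : ∀ y ∈ cls (restr u) x,
        (∑ w ∈ cls (restr u') y, g w) / ((cls (restr u') y).card : ℝ)
          = (∑ z ∈ cls (restr u') x, g (mergeT u y z)) / ((cls (restr u') x).card : ℝ) := by
      intro y hy
      have hy' := mem_cls.1 hy
      rw [sum_cls_merge hu hy', card_cls_merge hu hy']
    rw [Finset.sum_congr rfl this, ← Finset.sum_div, div_div, mul_comm]
  rw [key hs, key hs.symm, mul_comm]
  congr 1
  rw [Finset.sum_comm]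
  refine Finset.sum_congr rfl (fun z hz => Finset.sum_congr rfl (fun y hy => ?_))
  rw [mergeT_comm hs (mem_cls.1 hy) (mem_cls.1 hz)]

end Vale.Agent.Lib.P335
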