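import Vale.Agent.Lib.P335.Columns

/-!
The column level gap inside two rows, and the Poincare inequality for switches.
-/

open Finset BigOperators

namespace Vale.Agent.Lib.P335

set_option linter.unusedSectionVars false

variable {ι κ : Type*} [Fintype ι] [DecidableEq ι] [Fintype κ] [DecidableEq κ]
variable {r : ι → ℕ} {c : κ → ℕ}

lemma tau_self (t : Finset ι) (a : κ) (x : Tab r c) : tau t a a x = x := by
  apply Subtype.ext
  rw [tau_of_eq rfl]
  funext l
  unfold swapT
  by_cases hl : l ∈ t
  · simp [hl]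
  · simp [hl]

/-- The gap for column swaps inside a pair of rows. -/
theorem col_gap {i j : ι} (hij : i ≠ j) (f₀ : Tab r c → ℝ) :
    2 * ip (Qs {i, j} f₀) (Qs {i, j} f₀)
      ≤ ∑ a, ∑ b, (if a = b then 0 else ip (Qc {i, j} a b f₀) (Qc {i, j} a b f₀)) := by
  classical
  have hkill : ∀ (a b : κ) (g : Tab r c → ℝ), Qc {i, j} a b (cavg (restr {i, j}) g) = 0 := by
    intro a b g
    funext x
    rw [Qc_apply, cavg_congr g (restr_tau_self {i, j} a b x)]
    simp
  have hQ : ∀ a b, Qc {i, j} a b (Qs {i, j} f₀) = Qc {i, j} a b f₀ := by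
    intro a b
    rw [Qs_apply, map_sub, hkill, sub_zero]
  have key := knabe_gap (fun a b => (Qc {i, j} a b : (Tab r c → ℝ) →ₗ[ℝ] (Tab r c → ℝ)))
    (fun a b => Qc_symm _ a b)
    (fun a b => Qinv_sa (tau_invol _ a b))
    (fun a b => Qinv_id (tau_invol _ a b)) ?_ ?_
    (fun w => ∀ x y : Tab r c, restr {i, j} y = restr {i, j} x → w x = w y) ?_ (Qs {i, j} f₀) ?_
  · simpa only [hQ] using key
  · intro a b d e h1 h2 h3 h4 h5 h6 g
    refine ip_nonneg_of_comm _ _ (Qinv_sa (tau_invol _ a b)) (Qinv_sa (tau_invol _ d e))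
      (Qinv_id (tau_invol _ a b)) (Qinv_id (tau_invol _ d e)) ?_ g
    intro g'
    exact Qinv_comm (tau_comm_disjoint _ h3 h4 h5 h6) g'
  · intro a b e h1 h2 h3 g
    exact cols_tri _ h1 h2 h3 g
  · intro v hv x y hxy
    symm
    refine connect {i, j} v ?_ y x ?_
    · intro i' j' a b z hi' hj' hne
      have hpair : ({i', j'} : Finset ι) = {i, j} := by
        simp only [Finset.mem_insert, Finset.mem_singleton] at hi' hj'
        rcases hi' with rfl | rfl <;> rcases hj' with rfl | rfl
        · exact absurd rfl hne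
        · rfl
        · exact Finset.pair_comm _ _
        · exact absurd rfl hne
      rw [hpair]
      by_cases hab : a = b
      · subst hab; rw [tau_self]
      · have h0 := congrFun (hv a b hab) z
        simp only [Qc_apply, Pi.zero_apply] at h0
        linarith
    · intro l hl
      exact restr_eq_iff.1 hxy l hl
  · intro w hw
    rw [Qs_sa]
    have : Qs {i, j} w = 0 := by
      funext x
      rw [Qs_apply]
      simp only [Pi.sub_apply, Pi.zero_apply, sub_eq_zero]
      exact (cavg_of_const (fun y hy => (hw x y hy).symm)).symm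
    rw [this, ip_zero_right]

/-- The Poincare inequality for the switches: for every margins and every mean zero function. -/
theorem switch_poincare (f : Tab r c → ℝ) (hf : ∑ x, f x = 0) :
    16 * ∑ x, f x ^ 2 ≤ ∑ i, ∑ j, ∑ a, ∑ b, (if i = j ∨ a = b then 0 else
      ∑ x, (f x - f (tau {i, j} a b x)) ^ 2) := by
  have h1 := row_gap f hf
  have hself : ip f f = ∑ x, f x ^ 2 := by
    unfold ip
    exact Finset.sum_congr rfl (fun x _ => by ring)
  rw [hself] at h1
  have h2 : ∀ i j, (if i = j then (0 : ℝ) else ip (Qs {i, j} f) (Qs {i, j} f)) * 8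
      ≤ ∑ a, ∑ b, (if i = j ∨ a = b then 0 else ∑ x, (f x - f (tau {i, j} a b x)) ^ 2) := by
    intro i j
    by_cases hij : i = j
    · simp [hij]
    · have := col_gap hij f
      simp only [hij, if_false, false_or]
      have e : ∀ a b, (if a = b then (0 : ℝ) else ip (Qc {i, j} a b f) (Qc {i, j} a b f))
          = (if a = b then 0 else ∑ x, (f x - f (tau {i, j} a b x)) ^ 2) / 4 := by
        intro a b
        by_cases hab : a = b
        · simp [hab]
        · simp only [hab, if_false]
          exact ip_Qinv_self _ _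
      simp only [e, ← Finset.sum_div] at this
      linarith
  have h3 : (∑ i, ∑ j, (if i = j then (0 : ℝ) else ip (Qs {i, j} f) (Qs {i, j} f))) * 8
      ≤ ∑ i, ∑ j, ∑ a, ∑ b, (if i = j ∨ a = b then 0 else
      ∑ x, (f x - f (tau {i, j} a b x)) ^ 2) := by
    rw [Finset.sum_mul]
    refine Finset.sum_le_sum (fun i _ => ?_)
    rw [Finset.sum_mul]
    exact Finset.sum_le_sum (fun j _ => h2 i j)
  linarith

end Vale.Agent.Lib.P335
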