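import Mathlib

/-!
A flow lemma on the line, and its instance for the hypergeometric weights.
-/

open Finset BigOperators

namespace Vale.Agent.Lib.P335

/-- Mass on the points of a path and on its edges. -/
lemma flow_identity (N ω a b φ : ℕ → ℝ) (D : ℝ)
    (hN0 : D * N 0 = ω 0 * b 0)
    (hNs : ∀ z, D * N (z + 1) = ω z * a (z + 1) + ω (z + 1) * b (z + 1)) (n : ℕ) :
    D * ∑ z ∈ Finset.range (n + 1), N z * φ z
      = ∑ z ∈ Finset.range n, ω z * a (z + 1) * φ (z + 1)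
        + ∑ z ∈ Finset.range (n + 1), ω z * b z * φ z := by
  induction n with
  | zero =>
    simp only [Finset.sum_range_one, Finset.sum_range_zero, zero_add]
    rw [← mul_assoc, hN0]
  | succ n ih =>
    rw [Finset.sum_range_succ (fun z => N z * φ z) (n + 1), mul_add, ih,
      Finset.sum_range_succ (fun z => ω z * a (z + 1) * φ (z + 1)) n,
      Finset.sum_range_succ (fun z => ω z * b z * φ z) (n + 1), ← mul_assoc D, hNs n]
    ring

theorem flow_bound (Z : ℕ) (N ω a b φ φ' : ℕ → ℝ) (D κ L : ℝ)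
    (hD : 0 < D) (hκ : 0 < κ)
    (hN0 : D * N 0 = ω 0 * b 0)
    (hNs : ∀ z, D * N (z + 1) = ω z * a (z + 1) + ω (z + 1) * b (z + 1))
    (hab : ∀ z, a (z + 1) + b z = κ)
    (hω0 : ∀ z, 0 ≤ ω z) (hωZ : ∀ z, Z ≤ z → ω z = 0)
    (ha : ∀ z, ω z ≠ 0 → 0 ≤ a (z + 1)) (hb : ∀ z, ω z ≠ 0 → 0 ≤ b z)
    (h1 : ∀ z, ω z ≠ 0 → |φ z - φ' z| ≤ L)
    (h2 : ∀ z, ω z ≠ 0 → |φ (z + 1) - φ' z| ≤ L)
    (hne : 0 < ∑ z ∈ Finset.range Z, ω z) :
    |(∑ z ∈ Finset.range (Z + 1), N z * φ z) / (∑ z ∈ Finset.range (Z + 1), N z)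
      - (∑ z ∈ Finset.range Z, ω z * φ' z) / (∑ z ∈ Finset.range Z, ω z)| ≤ L := by
  set Ω := ∑ z ∈ Finset.range Z, ω z with hΩ
  have hid := flow_identity N ω a b φ D hN0 hNs Z
  have hid1 := flow_identity N ω a b (fun _ => 1) D hN0 hNs Z
  have hZ0 : ω Z = 0 := hωZ Z le_rfl
  have e3 : ∑ z ∈ Finset.range (Z + 1), ω z * b z * φ z = ∑ z ∈ Finset.range Z, ω z * b z * φ z := by
    rw [Finset.sum_range_succ]; simp [hZ0]
  have e4 : ∑ z ∈ Finset.range (Z + 1), ω z * b z * 1 = ∑ z ∈ Finset.range Z, ω z * b z * 1 := by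
    rw [Finset.sum_range_succ]; simp [hZ0]
  rw [e3] at hid
  rw [e4] at hid1
  simp only [mul_one] at hid1
  have hM : D * ∑ z ∈ Finset.range (Z + 1), N z = κ * Ω := by
    rw [hid1, hΩ, ← Finset.sum_add_distrib, Finset.mul_sum]
    refine Finset.sum_congr rfl (fun z _ => ?_)
    rw [← hab z]; ring
  set M := ∑ z ∈ Finset.range (Z + 1), N z with hMdef
  set Sφ := ∑ z ∈ Finset.range (Z + 1), N z * φ z with hSφ
  set S' := ∑ z ∈ Finset.range Z, ω z * φ' z with hS'
  have hMpos : 0 < M := by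
    have : 0 < D * M := by rw [hM]; positivity
    exact (pos_iff_pos_of_mul_pos this).1 hD
  have hnum : D * Sφ - κ * S' = ∑ z ∈ Finset.range Z,
      (ω z * (a (z + 1) * (φ (z + 1) - φ' z) + b z * (φ z - φ' z))) := by
    rw [hid, ← Finset.sum_add_distrib, hS', Finset.mul_sum, ← Finset.sum_sub_distrib]
    refine Finset.sum_congr rfl (fun z _ => ?_)
    rw [← hab z]; ring
  have hnumbd : |D * Sφ - κ * S'| ≤ L * (κ * Ω) := by
    rw [hnum]
    refine (Finset.abs_sum_le_sum_abs _ _).trans ?_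
    rw [hΩ, Finset.mul_sum, Finset.mul_sum]
    refine Finset.sum_le_sum (fun z _ => ?_)
    by_cases hz : ω z = 0
    · simp [hz]
    have haz := ha z hz
    have hbz := hb z hz
    have h1z := h1 z hz
    have h2z := h2 z hz
    rw [abs_mul, abs_of_nonneg (hω0 z)]
    have hk : |a (z + 1) * (φ (z + 1) - φ' z) + b z * (φ z - φ' z)| ≤ L * κ := by
      refine (abs_add_le _ _).trans ?_
      rw [abs_mul, abs_mul, abs_of_nonneg haz, abs_of_nonneg hbz, ← hab z]
      nlinarith [mul_le_mul_of_nonneg_left h2z haz, mul_le_mul_of_nonneg_left h1z hbz]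
    nlinarith [mul_le_mul_of_nonneg_left hk (hω0 z)]
  have hW : Sφ / M - S' / Ω = (D * Sφ - κ * S') / (κ * Ω) := by
    have hMne : M ≠ 0 := hMpos.ne'
    have hΩne : Ω ≠ 0 := hne.ne'
    have hκne : κ ≠ 0 := hκ.ne'
    have hDne : D ≠ 0 := hD.ne'
    have hM' : M = κ * Ω / D := by
      field_simp
      linarith
    rw [hM']
    field_simp
  rw [hW, abs_div, abs_of_pos (mul_pos hκ hne), div_le_iff₀ (mul_pos hκ hne)]
  exact hnumbd

/-- Hypergeometric point weights. -/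
def hypN (t₁ t₂ ρ z : ℕ) : ℕ := if z ≤ ρ then t₁.choose z * t₂.choose (ρ - z) else 0

lemma hyp_edge_left (u w m z : ℕ) :
    (((u + 1) * (w + 1) * hypN u w m z : ℕ) : ℝ)
      = (hypN (u + 1) (w + 1) (m + 1) z : ℝ) * (((u : ℝ) + 1 - z) * ((m : ℝ) + 1 - z)) := by
  unfold hypN
  by_cases hz : z ≤ m
  · have hz' : z ≤ m + 1 := by omega
    rw [if_pos hz, if_pos hz']
    have e : m + 1 - z = (m - z) + 1 := by omega
    rw [e]
    have h1 : u.choose z * (u + 1) = (u + 1).choose z * (u + 1 - z) := Nat.choose_mul_succ_eq u z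
    have h2 : (w + 1) * w.choose (m - z) = (w + 1).choose (m - z + 1) * (m - z + 1) :=
      Nat.add_one_mul_choose_eq w (m - z)
    by_cases hzu : z ≤ u + 1
    · have h1' : (u.choose z : ℝ) * (u + 1) = ((u + 1).choose z : ℝ) * ((u : ℝ) + 1 - z) := by
        have := congrArg (fun n : ℕ => (n : ℝ)) h1
        simp only [Nat.cast_mul, Nat.cast_add, Nat.cast_one] at this
        rw [this, Nat.cast_sub hzu]
        push_cast; ring
      have h2' : ((w : ℝ) + 1) * (w.choose (m - z) : ℝ)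
          = ((w + 1).choose (m - z + 1) : ℝ) * ((m : ℝ) + 1 - z) := by
        have := congrArg (fun n : ℕ => (n : ℝ)) h2
        simp only [Nat.cast_mul, Nat.cast_add, Nat.cast_one] at this
        rw [this, Nat.cast_sub hz]
        push_cast; ring
      push_cast
      calc ((u : ℝ) + 1) * ((w : ℝ) + 1) * ((u.choose z : ℝ) * (w.choose (m - z) : ℝ))
          = ((u.choose z : ℝ) * (u + 1)) * (((w : ℝ) + 1) * (w.choose (m - z) : ℝ)) := by ring
        _ = _ := by rw [h1', h2']; ring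
    · have h0 : u.choose z = 0 := Nat.choose_eq_zero_of_lt (by omega)
      have h0' : (u + 1).choose z = 0 := Nat.choose_eq_zero_of_lt (by omega)
      simp [h0, h0']
  · rw [if_neg hz]
    by_cases hz2 : z = m + 1
    · subst hz2
      push_cast
      simp
    · have hz' : ¬ z ≤ m + 1 := by omega
      rw [if_neg hz']
      simp

lemma hyp_edge_right (u w m z : ℕ) :
    (((u + 1) * (w + 1) * hypN u w m z : ℕ) : ℝ)
      = (hypN (u + 1) (w + 1) (m + 1) (z + 1) : ℝ)
        * (((z : ℝ) + 1) * ((w : ℝ) - m + (z : ℝ) + 1)) := by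
  unfold hypN
  by_cases hz : z ≤ m
  · have hz' : z + 1 ≤ m + 1 := by omega
    rw [if_pos hz, if_pos hz']
    have e : m + 1 - (z + 1) = m - z := by omega
    rw [e]
    have h1 : (u + 1) * u.choose z = (u + 1).choose (z + 1) * (z + 1) :=
      Nat.add_one_mul_choose_eq u z
    have h2 : w.choose (m - z) * (w + 1) = (w + 1).choose (m - z) * (w + 1 - (m - z)) :=
      Nat.choose_mul_succ_eq w (m - z)
    by_cases hw : m - z ≤ w + 1
    · have h1' : ((u : ℝ) + 1) * (u.choose z : ℝ) = ((u + 1).choose (z + 1) : ℝ) * ((z : ℝ) + 1) := by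
        have := congrArg (fun n : ℕ => (n : ℝ)) h1
        simpa using this
      have h2' : (w.choose (m - z) : ℝ) * ((w : ℝ) + 1)
          = ((w + 1).choose (m - z) : ℝ) * ((w : ℝ) - m + (z : ℝ) + 1) := by
        have := congrArg (fun n : ℕ => (n : ℝ)) h2
        simp only [Nat.cast_mul, Nat.cast_add, Nat.cast_one] at this
        rw [this, Nat.cast_sub hw, Nat.cast_sub hz]
        push_cast; ring
      push_cast
      calc ((u : ℝ) + 1) * ((w : ℝ) + 1) * ((u.choose z : ℝ) * (w.choose (m - z) : ℝ))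
          = (((u : ℝ) + 1) * (u.choose z : ℝ)) * ((w.choose (m - z) : ℝ) * ((w : ℝ) + 1)) := by ring
        _ = _ := by rw [h1', h2']; ring
    · have h0 : w.choose (m - z) = 0 := Nat.choose_eq_zero_of_lt (by omega)
      have h0' : (w + 1).choose (m - z) = 0 := Nat.choose_eq_zero_of_lt (by omega)
      simp [h0, h0']
  · have hz' : ¬ z + 1 ≤ m + 1 := by omega
    rw [if_neg hz, if_neg hz']
    simp

/-- The instance of the flow bound for hypergeometric weights. `φ` and `φ'` are the values on the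
two fibres. -/
theorem hyp_flow_bound (u w m : ℕ) (φ φ' : ℕ → ℝ) (L : ℝ)
    (hne : ∑ z ∈ Finset.range (m + 1), (hypN u w m z : ℝ) ≠ 0)
    (h1 : ∀ z, hypN u w m z ≠ 0 → |φ z - φ' z| ≤ L)
    (h2 : ∀ z, hypN u w m z ≠ 0 → |φ (z + 1) - φ' z| ≤ L) :
    |(∑ z ∈ Finset.range (m + 2), (hypN (u + 1) (w + 1) (m + 1) z : ℝ) * φ z)
        / (∑ z ∈ Finset.range (m + 2), (hypN (u + 1) (w + 1) (m + 1) z : ℝ))
      - (∑ z ∈ Finset.range (m + 1), (hypN u w m z : ℝ) * φ' z)
        / (∑ z ∈ Finset.range (m + 1), (hypN u w m z : ℝ))| ≤ L := by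
  -- feasibility: m ≤ u + w
  obtain ⟨z₀, hz₀⟩ : ∃ z₀, hypN u w m z₀ ≠ 0 := by
    by_contra hcon
    push Not at hcon
    apply hne
    exact Finset.sum_eq_zero (fun z _ => by rw [hcon z]; simp)
  have hsupp : ∀ z, hypN u w m z ≠ 0 → z ≤ m ∧ z ≤ u ∧ m - z ≤ w := by
    intro z hz
    unfold hypN at hz
    by_cases hzm : z ≤ m
    · rw [if_pos hzm] at hz
      have h3 : u.choose z ≠ 0 := fun h => hz (by rw [h]; simp)
      have h4 : w.choose (m - z) ≠ 0 := fun h => hz (by rw [h]; simp)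
      refine ⟨hzm, ?_, ?_⟩
      · by_contra h5; exact h3 (Nat.choose_eq_zero_of_lt (by omega))
      · by_contra h5; exact h4 (Nat.choose_eq_zero_of_lt (by omega))
    · rw [if_neg hzm] at hz; exact absurd rfl hz
  have hmuw : m ≤ u + w := by
    have := hsupp z₀ hz₀
    omega
  set s : ℝ := (u : ℝ) + w + 2 with hs
  set D : ℝ := ((u : ℝ) + 1) * ((w : ℝ) + 1) * ((m : ℝ) + 1) * (s - ((m : ℝ) + 1)) with hDdef
  set κ : ℝ := s * (s - 1) with hκdef
  have hmr : (m : ℝ) ≤ (u : ℝ) + w := by exact_mod_cast hmuw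
  have hu0 : (0 : ℝ) ≤ u := Nat.cast_nonneg u
  have hw0 : (0 : ℝ) ≤ w := Nat.cast_nonneg w
  have hm0 : (0 : ℝ) ≤ m := Nat.cast_nonneg m
  have hs1 : 0 < s - ((m : ℝ) + 1) := by rw [hs]; linarith
  have hDpos : 0 < D := by rw [hDdef]; positivity
  have hκpos : 0 < κ := by
    rw [hκdef, hs]
    have : 0 < (u : ℝ) + w + 2 - 1 := by linarith
    positivity
  set ω : ℕ → ℝ := fun z => (((u + 1) * (w + 1) * hypN u w m z : ℕ) : ℝ) with hω
  set N : ℕ → ℝ := fun z => (hypN (u + 1) (w + 1) (m + 1) z : ℝ) with hN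
  set a : ℕ → ℝ := fun z => s * ((m : ℝ) + 1 + ((u : ℝ) + 1) - z) - ((u : ℝ) + 1) * ((m : ℝ) + 1)
    with ha
  set b : ℕ → ℝ := fun z => s * ((z : ℝ) + ((w : ℝ) + 1)) - ((w : ℝ) + 1) * ((m : ℝ) + 1) with hb
  have hωne : ∀ z, ω z ≠ 0 → hypN u w m z ≠ 0 := by
    intro z hz h0
    apply hz
    simp [hω, h0]
  have hmain := flow_bound (m + 1) N ω a b φ φ' D κ L hDpos hκpos ?_ ?_ ?_ ?_ ?_ ?_ ?_ ?_ ?_ ?_
  · -- rewrite the conclusion
    have hfac : (0 : ℝ) < ((u : ℝ) + 1) * ((w : ℝ) + 1) := by positivity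
    have e1 : ∑ z ∈ Finset.range (m + 1), ω z * φ' z
        = ((u : ℝ) + 1) * ((w : ℝ) + 1) * ∑ z ∈ Finset.range (m + 1), (hypN u w m z : ℝ) * φ' z := by
      rw [Finset.mul_sum]
      refine Finset.sum_congr rfl (fun z _ => ?_)
      simp only [hω]; push_cast; ring
    have e2 : ∑ z ∈ Finset.range (m + 1), ω z
        = ((u : ℝ) + 1) * ((w : ℝ) + 1) * ∑ z ∈ Finset.range (m + 1), (hypN u w m z : ℝ) := by
      rw [Finset.mul_sum]
      refine Finset.sum_congr rfl (fun z _ => ?_)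
      simp only [hω]; push_cast; ring
    rw [e1, e2, mul_div_mul_left _ _ hfac.ne'] at hmain
    exact hmain
  · -- hN0
    simp only [hN, hω, hb]
    rw [hyp_edge_left u w m 0]
    have hz : hypN (u + 1) (w + 1) (m + 1) 0 = (u + 1).choose 0 * (w + 1).choose (m + 1) := by
      simp [hypN]
    simp only [hDdef, hs]
    push_cast
    ring
  · -- hNs
    intro z
    have e1 : ω z = N (z + 1) * (((z : ℝ) + 1) * ((w : ℝ) - m + (z : ℝ) + 1)) := hyp_edge_right u w m z
    have e2 : ω (z + 1) = N (z + 1) * (((u : ℝ) + 1 - ((z + 1 : ℕ) : ℝ)) * ((m : ℝ) + 1 - ((z + 1 : ℕ) : ℝ))) :=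
      hyp_edge_left u w m (z + 1)
    rw [e1, e2]
    simp only [ha, hb, hDdef, hs]
    push_cast
    ring
  · -- hab
    intro z
    simp only [ha, hb, hκdef, hs]
    push_cast
    ring
  · intro z; simp only [hω]; positivity
  · intro z hz
    have : hypN u w m z = 0 := by
      unfold hypN
      rw [if_neg (by omega)]
    simp [hω, this]
  · -- a nonneg
    intro z hz
    obtain ⟨h3, h4, h5⟩ := hsupp z (hωne z hz)
    have h3' : (z : ℝ) ≤ m := by exact_mod_cast h3
    simp only [ha]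
    push_cast
    have h6 : ((u : ℝ) + 1) * (s - ((m : ℝ) + 1)) ≥ 0 := by positivity
    nlinarith [mul_nonneg (by rw [hs]; positivity : (0 : ℝ) ≤ s) (sub_nonneg.2 h3')]
  · -- b nonneg
    intro z hz
    simp only [hb]
    have hz0 : (0 : ℝ) ≤ z := Nat.cast_nonneg z
    have h6 : ((w : ℝ) + 1) * (s - ((m : ℝ) + 1)) ≥ 0 := by positivity
    nlinarith [mul_nonneg (by rw [hs]; positivity : (0 : ℝ) ≤ s) hz0]
  · intro z hz; exact h1 z (hωne z hz)
  · intro z hz; exact h2 z (hωne z hz)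
  · -- total positive
    refine Finset.sum_pos' (fun z _ => ?_) ⟨z₀, ?_, ?_⟩
    · simp only [hω]; positivity
    · have := hsupp z₀ hz₀
      simp only [Finset.mem_range]; omega
    · simp only [hω]
      have : 0 < hypN u w m z₀ := Nat.pos_of_ne_zero hz₀
      positivity

end Vale.Agent.Lib.P335
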