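import Vale.Agent.Lib.P335.Columns

/-!
Generic tools for the general degree sequence argument: complements of conditional averages,
commutation from a rectangle property, towers, restriction to a saturated set, and the local to
global expansion with a free constant.
-/

open Finset BigOperators

namespace Vale.Agent.Lib.P335

set_option linter.unusedSectionVars false

section generic

variable {X : Type*} [Fintype X] {Z Z₁ Z₂ : Type*}

/-- Complement of a conditional average. -/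
noncomputable def Qf (φ : X → Z) : (X → ℝ) →ₗ[ℝ] (X → ℝ) := LinearMap.id - cavgL φ

lemma Qf_apply (φ : X → Z) (f : X → ℝ) : Qf φ f = f - cavg φ f := rfl

lemma Qf_sa (φ : X → Z) (f g : X → ℝ) : ip (Qf φ f) g = ip f (Qf φ g) := by
  rw [Qf_apply, Qf_apply, ip_sub_left, ip_sub_right, ip_cavg_comm]

lemma Qf_id (φ : X → Z) (f : X → ℝ) : Qf φ (Qf φ f) = Qf φ f := by
  rw [Qf_apply, Qf_apply, cavg_sub, cavg_cavg]
  abel

lemma cavgL_sa (φ : X → Z) (f g : X → ℝ) : ip (cavgL φ f) g = ip f (cavgL φ g) :=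
  ip_cavg_comm φ f g

lemma cavgL_id (φ : X → Z) (f : X → ℝ) : cavgL φ (cavgL φ f) = cavgL φ f := cavg_cavg φ f

lemma cavg_one (φ : X → Z) : cavg φ (fun _ => (1 : ℝ)) = fun _ => 1 := by
  funext x
  exact cavg_of_const (fun _ _ => rfl)

/-- The sum of a conditional average is the sum of the function. -/
lemma sum_cavg (φ : X → Z) (A : X → ℝ) : ∑ x, cavg φ A x = ∑ x, A x := by
  have h := ip_cavg_comm φ A (fun _ => (1 : ℝ))
  rw [cavg_one] at h
  unfold ip at h
  simpa using h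

/-- A function with nonnegative sums over all classes has a nonnegative sum. -/
lemma sum_nonneg_of_cls (φ : X → Z) (A : X → ℝ) (h : ∀ x, 0 ≤ ∑ y ∈ cls φ x, A y) :
    0 ≤ ∑ x, A x := by
  rw [← sum_cavg φ A]
  refine Finset.sum_nonneg (fun x _ => ?_)
  unfold cavg
  exact div_nonneg (h x) (Nat.cast_nonneg _)

/-- Conditioning on something finer, after the coarser average, changes nothing. -/
lemma cavg_fine_coarse {φ' : X → Z₁} {φ : X → Z₂} (href : ∀ x y, φ' y = φ' x → φ y = φ x)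
    (h : X → ℝ) : cavg φ' (cavg φ h) = cavg φ h := by
  funext x
  exact cavg_of_const (fun y hy => cavg_congr h (href x y hy))

/-- The tower property. -/
lemma cavg_coarse_fine {φ' : X → Z₁} {φ : X → Z₂} (href : ∀ x y, φ' y = φ' x → φ y = φ x)
    (h : X → ℝ) : cavg φ (cavg φ' h) = cavg φ h := by
  classical
  funext x
  unfold cavg
  congr 1
  set c : X → ℝ := fun y => if φ y = φ x then 1 else 0 with hc
  have hconst : cavg φ' c = c := by
    funext y
    refine cavg_of_const (fun w hw => ?_)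
    simp only [hc, href y w hw]
  have h1 := ip_cavg_comm φ' c h
  rw [hconst] at h1
  have e : ∀ u : X → ℝ, ip c u = ∑ y ∈ cls φ x, u y := by
    intro u
    unfold ip cls
    rw [Finset.sum_filter]
    refine Finset.sum_congr rfl (fun y _ => ?_)
    by_cases hy : φ y = φ x <;> simp [hc, hy]
  rw [← e, ← e]
  exact h1.symm

/-- The rectangle property of two partitions at a point. -/
def Rect (φ₁ : X → Z₁) (φ₂ : X → Z₂) (x : X) : Prop :=
  ∀ y z, φ₁ y = φ₁ x → φ₂ z = φ₂ x → ∃! w, φ₂ w = φ₂ y ∧ φ₁ w = φ₁ z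

/-- Two conditional averages commute at the points of a saturated set with the rectangle
property. -/
theorem cavg_comm_of_rect {φ₁ : X → Z₁} {φ₂ : X → Z₂} (Y : X → Prop)
    (hR : ∀ b, Y b → Rect φ₁ φ₂ b)
    (s1 : ∀ x y, Y x → φ₁ y = φ₁ x → Y y) (s2 : ∀ x z, Y x → φ₂ z = φ₂ x → Y z)
    (f : X → ℝ) {x : X} (hx : Y x) :
    cavg φ₁ (cavg φ₂ f) x = cavg φ₂ (cavg φ₁ f) x := by
  classical
  -- the merge map
  have hex := hR x hx
  let m : X → X → X := fun y z =>
    if h : φ₁ y = φ₁ x ∧ φ₂ z = φ₂ x then (hex y z h.1 h.2).choose else y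
  have hm : ∀ y z, φ₁ y = φ₁ x → φ₂ z = φ₂ x → φ₂ (m y z) = φ₂ y ∧ φ₁ (m y z) = φ₁ z := by
    intro y z hy hz
    have : m y z = (hex y z hy hz).choose := by
      simp only [m]; rw [dif_pos ⟨hy, hz⟩]
    rw [this]
    exact (hex y z hy hz).choose_spec.1
  have hu : ∀ y z w, φ₁ y = φ₁ x → φ₂ z = φ₂ x → φ₂ w = φ₂ y → φ₁ w = φ₁ z → w = m y z := by
    intro y z w hy hz h1 h2
    exact (hex y z hy hz).unique ⟨h1, h2⟩ (hm y z hy hz)
  -- fibre sums for the second partition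
  have hin2 : ∀ (g : X → ℝ) y, φ₁ y = φ₁ x →
      ∑ w ∈ cls φ₂ y, g w = ∑ z ∈ cls φ₂ x, g (m y z) := by
    intro g y hy
    have hYy : Y y := s1 x y hx hy
    symm
    refine Finset.sum_bij (fun z _ => m y z) ?_ ?_ ?_ ?_
    · intro z hz
      exact mem_cls.2 (hm y z hy (mem_cls.1 hz)).1
    · intro z hz z' hz' he
      have hz1 := mem_cls.1 hz
      have hz2 := mem_cls.1 hz'
      have h1 := (hm y z hy hz1)
      have h2 := (hm y z' hy hz2)
      have hw2 : φ₂ (m y z) = φ₂ y := h1.1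
      obtain ⟨w', _, huniq⟩ := hR y hYy x (m y z) hy.symm hw2
      have e1 := huniq z ⟨hz1, h1.2.symm⟩
      have e2 := huniq z' ⟨hz2, by rw [he]; exact h2.2.symm⟩
      rw [e1, e2]
    · intro w hw
      have hw' := mem_cls.1 hw
      obtain ⟨z, ⟨hz1, hz2⟩, _⟩ := hR y hYy x w hy.symm hw'
      refine ⟨z, mem_cls.2 hz1, ?_⟩
      exact (hu y z w hy hz1 hw' hz2.symm).symm
    · intro _ _; rfl
  have hin1 : ∀ (g : X → ℝ) z, φ₂ z = φ₂ x →
      ∑ w ∈ cls φ₁ z, g w = ∑ y ∈ cls φ₁ x, g (m y z) := by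
    intro g z hz
    have hYz : Y z := s2 x z hx hz
    symm
    refine Finset.sum_bij (fun y _ => m y z) ?_ ?_ ?_ ?_
    · intro y hy
      exact mem_cls.2 (hm y z (mem_cls.1 hy) hz).2
    · intro y hy y' hy' he
      have hy1 := mem_cls.1 hy
      have hy2 := mem_cls.1 hy'
      have h1 := hm y z hy1 hz
      have h2 := hm y' z hy2 hz
      have hw1 : φ₁ (m y z) = φ₁ z := h1.2
      obtain ⟨w', _, huniq⟩ := hR z hYz (m y z) x hw1 hz.symm
      have e1 := huniq y ⟨h1.1.symm, hy1⟩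
      have e2 := huniq y' ⟨by rw [he]; exact h2.1.symm, hy2⟩
      rw [e1, e2]
    · intro w hw
      have hw' := mem_cls.1 hw
      obtain ⟨y, ⟨hy1, hy2⟩, _⟩ := hR z hYz w x hw' hz.symm
      refine ⟨y, mem_cls.2 hy2, ?_⟩
      exact (hu y z w hy2 hz hy1.symm hw').symm
    · intro _ _; rfl
  have hc2 : ∀ y, φ₁ y = φ₁ x → (cls φ₂ y).card = (cls φ₂ x).card := by
    intro y hy
    have := hin2 (fun _ => (1 : ℝ)) y hy
    simp only [Finset.sum_const, nsmul_eq_mul, mul_one] at this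
    exact_mod_cast this
  have hc1 : ∀ z, φ₂ z = φ₂ x → (cls φ₁ z).card = (cls φ₁ x).card := by
    intro z hz
    have := hin1 (fun _ => (1 : ℝ)) z hz
    simp only [Finset.sum_const, nsmul_eq_mul, mul_one] at this
    exact_mod_cast this
  have e1 : cavg φ₁ (cavg φ₂ f) x = (∑ y ∈ cls φ₁ x, ∑ z ∈ cls φ₂ x, f (m y z))
      / (((cls φ₁ x).card : ℝ) * (cls φ₂ x).card) := by
    unfold cavg
    have : ∀ y ∈ cls φ₁ x, (∑ w ∈ cls φ₂ y, f w) / ((cls φ₂ y).card : ℝ)
        = (∑ z ∈ cls φ₂ x, f (m y z)) / ((cls φ₂ x).card : ℝ) := by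
      intro y hy
      have hy' := mem_cls.1 hy
      rw [hin2 f y hy', hc2 y hy']
    rw [Finset.sum_congr rfl this, ← Finset.sum_div, div_div, mul_comm]
  have e2 : cavg φ₂ (cavg φ₁ f) x = (∑ z ∈ cls φ₂ x, ∑ y ∈ cls φ₁ x, f (m y z))
      / (((cls φ₂ x).card : ℝ) * (cls φ₁ x).card) := by
    unfold cavg
    have : ∀ z ∈ cls φ₂ x, (∑ w ∈ cls φ₁ z, f w) / ((cls φ₁ z).card : ℝ)
        = (∑ y ∈ cls φ₁ x, f (m y z)) / ((cls φ₁ x).card : ℝ) := by
      intro z hz
      have hz' := mem_cls.1 hz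
      rw [hin1 f z hz', hc1 z hz']
    rw [Finset.sum_congr rfl this, ← Finset.sum_div, div_div, mul_comm]
  rw [e1, e2, Finset.sum_comm, mul_comm]

/-- Restriction to a set, as a linear map. -/
noncomputable def indL (Y : X → Prop) : (X → ℝ) →ₗ[ℝ] (X → ℝ) := by
  classical
  exact
  { toFun := fun h x => if Y x then h x else 0
    map_add' := by
      intro f g; funext x
      by_cases hx : Y x <;> simp [hx]
    map_smul' := by
      intro c f; funext x
      by_cases hx : Y x <;> simp [hx] }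

open Classical in
lemma indL_apply (Y : X → Prop) (h : X → ℝ) (x : X) : indL Y h x = if Y x then h x else 0 := by
  unfold indL
  change (if Y x then h x else 0) = _
  congr

open Classical in
lemma cavg_indL {φ : X → Z} {Y : X → Prop} (hs : ∀ x y, φ y = φ x → (Y y ↔ Y x)) (h : X → ℝ)
    (x : X) : cavg φ (indL Y h) x = indL Y (cavg φ h) x := by
  rw [indL_apply]
  by_cases hx : Y x
  · rw [if_pos hx]
    unfold cavg
    congr 1
    refine Finset.sum_congr rfl (fun y hy => ?_)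
    rw [indL_apply, if_pos ((hs x y (mem_cls.1 hy)).2 hx)]
  · rw [if_neg hx]
    unfold cavg
    have : ∑ y ∈ cls φ x, indL Y h y = 0 := by
      refine Finset.sum_eq_zero (fun y hy => ?_)
      rw [indL_apply, if_neg (fun hy' => hx ((hs x y (mem_cls.1 hy)).1 hy'))]
    rw [this, zero_div]

open Classical in
/-- Commuting on a saturated set gives a nonnegative mixed form on that set. -/
lemma ip_on_nonneg (a b : (X → ℝ) →ₗ[ℝ] (X → ℝ)) (Y : X → Prop)
    (hasa : ∀ f g, ip (a f) g = ip f (a g)) (hbsa : ∀ f g, ip (b f) g = ip f (b g))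
    (haid : ∀ f, a (a f) = a f) (hbid : ∀ f, b (b f) = b f)
    (ha : ∀ h, a (indL Y h) = indL Y (a h)) (hb : ∀ h, b (indL Y h) = indL Y (b h))
    (hcomm : ∀ h x, Y x → a (b h) x = b (a h) x) (g : X → ℝ) :
    0 ≤ ∑ x, if Y x then a g x * b g x else 0 := by
  have hindsa : ∀ f g : X → ℝ, ip (indL Y f) g = ip f (indL Y g) := by
    intro f g
    unfold ip
    refine Finset.sum_congr rfl (fun x _ => ?_)
    rw [indL_apply, indL_apply]
    by_cases hx : Y x <;> simp [hx]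
  have hindid : ∀ f : X → ℝ, indL Y (indL Y f) = indL Y f := by
    intro f; funext x
    rw [indL_apply, indL_apply]
    by_cases hx : Y x <;> simp [hx]
  have key := ip_nonneg_of_comm (indL Y ∘ₗ a) (indL Y ∘ₗ b)
    (by
      intro f g
      simp only [LinearMap.comp_apply]
      rw [hindsa, hasa, ha])
    (by
      intro f g
      simp only [LinearMap.comp_apply]
      rw [hindsa, hbsa, hb])
    (by
      intro f
      simp only [LinearMap.comp_apply]
      rw [ha, hindid, haid])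
    (by
      intro f
      simp only [LinearMap.comp_apply]
      rw [hb, hindid, hbid])
    (by
      intro f
      simp only [LinearMap.comp_apply]
      rw [ha, hb, hindid, hindid]
      funext x
      rw [indL_apply, indL_apply]
      by_cases hx : Y x
      · rw [if_pos hx, if_pos hx]
        exact hcomm f x hx
      · rw [if_neg hx, if_neg hx])
    g
  simp only [LinearMap.comp_apply] at key
  unfold ip at key
  refine key.trans (le_of_eq ?_)
  refine Finset.sum_congr rfl (fun x _ => ?_)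
  rw [indL_apply, indL_apply]
  by_cases hx : Y x <;> simp [hx]

end generic

section knabe

variable {X : Type*} [Fintype X] {ι : Type*} [Fintype ι] [DecidableEq ι]

omit [Fintype ι] in
private lemma ind_aux' (i j k l : ι) (v : ℝ) (hij : i ≠ j) (hkl : k ≠ l) : v =
      (if k = i then v else 0) + (if k = j then v else 0)
      + (if l = i then v else 0) + (if l = j then v else 0)
      - (if k = i ∧ l = j then v else 0) - (if k = j ∧ l = i then v else 0)
      + (if k ≠ i ∧ k ≠ j ∧ l ≠ i ∧ l ≠ j then v else 0) := by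
  by_cases h1 : k = i <;> by_cases h2 : k = j <;> by_cases h3 : l = i <;> by_cases h4 : l = j <;>
    simp_all

private lemma sum_delta2' (G : ι → ι → ℝ) (u v : ι) :
    ∑ k, ∑ l, (if k = u ∧ l = v then G k l else 0) = G u v := by
  have h : ∀ k, ∑ l, (if k = u ∧ l = v then G k l else 0) = if k = u then G k v else 0 := by
    intro k
    by_cases hk : k = u
    · simp [hk]
    · simp [hk]
  simp only [h]
  simp

/-- The square of a double sum, expanded. -/
theorem knabe_expand (F : ι → ι → X → ℝ)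
    (hdiag : ∀ i, F i i = 0) (hsymm : ∀ i j, F i j = F j i) :
    ip (∑ i, ∑ j, F i j) (∑ k, ∑ l, F k l)
      = 2 * (∑ i, ∑ j, ip (F i j) (F i j))
        + 4 * (∑ i, ∑ j, ∑ k, if i ≠ j ∧ i ≠ k ∧ j ≠ k then ip (F i j) (F i k) else 0)
        + ∑ i, ∑ j, ∑ k, ∑ l,
            (if k ≠ i ∧ k ≠ j ∧ l ≠ i ∧ l ≠ j then ip (F i j) (F k l) else 0) := by
  set q : ι → ι → ι → ι → ℝ := fun i j k l => ip (F i j) (F k l) with hq
  have hq0 : ∀ i k l, q i i k l = 0 := by
    intro i k l; simp [hq, hdiag, ip_zero_left]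
  have hq0' : ∀ i j k, q i j k k = 0 := by
    intro i j k; simp [hq, hdiag, ip_zero_right]
  have hexpand : ip (∑ i, ∑ j, F i j) (∑ k, ∑ l, F k l) = ∑ i, ∑ j, ∑ k, ∑ l, q i j k l := by
    rw [ip_sum_left]
    refine Finset.sum_congr rfl (fun i _ => ?_)
    rw [ip_sum_left]
    refine Finset.sum_congr rfl (fun j _ => ?_)
    rw [ip_sum_right]
    refine Finset.sum_congr rfl (fun k _ => ?_)
    rw [ip_sum_right]
  set A : ℝ := ∑ i, ∑ j, ∑ l, q i j i l with hA
  set B : ℝ := ∑ i, ∑ j, q i j i j with hB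
  set R : ℝ := ∑ i, ∑ j, ∑ k, ∑ l,
    (if k ≠ i ∧ k ≠ j ∧ l ≠ i ∧ l ≠ j then q i j k l else 0) with hR
  have hpt : ∀ i j k l, q i j k l =
      (if k = i then q i j k l else 0) + (if k = j then q i j k l else 0)
      + (if l = i then q i j k l else 0) + (if l = j then q i j k l else 0)
      - (if k = i ∧ l = j then q i j k l else 0) - (if k = j ∧ l = i then q i j k l else 0)
      + (if k ≠ i ∧ k ≠ j ∧ l ≠ i ∧ l ≠ j then q i j k l else 0) := by
    intro i j k l
    by_cases hij : i = j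
    · subst hij; simp [hq0]
    by_cases hkl : k = l
    · subst hkl; simp [hq0']
    exact ind_aux' i j k l _ hij hkl
  have hS1 : ∑ i, ∑ j, ∑ k, ∑ l, (if k = i then q i j k l else 0) = A := by
    refine Finset.sum_congr rfl (fun i _ => Finset.sum_congr rfl (fun j _ => ?_))
    rw [Finset.sum_comm]
    refine Finset.sum_congr rfl (fun l _ => ?_)
    simp
  have hS2 : ∑ i, ∑ j, ∑ k, ∑ l, (if k = j then q i j k l else 0) = A := by
    have : ∀ i j, ∑ k, ∑ l, (if k = j then q i j k l else 0) = ∑ l, q j i j l := by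
      intro i j
      rw [Finset.sum_comm]
      refine Finset.sum_congr rfl (fun l _ => ?_)
      simp only [Finset.sum_ite_eq', Finset.mem_univ, if_true]
      simp only [hq, hsymm i j]
    simp only [this]
    rw [Finset.sum_comm]
  have hS3 : ∑ i, ∑ j, ∑ k, ∑ l, (if l = i then q i j k l else 0) = A := by
    refine Finset.sum_congr rfl (fun i _ => Finset.sum_congr rfl (fun j _ => ?_))
    refine Finset.sum_congr rfl (fun k _ => ?_)
    simp only [Finset.sum_ite_eq', Finset.mem_univ, if_true]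
    simp only [hq, hsymm k i]
  have hS4 : ∑ i, ∑ j, ∑ k, ∑ l, (if l = j then q i j k l else 0) = A := by
    have : ∀ i j, ∑ k, ∑ l, (if l = j then q i j k l else 0) = ∑ k, q j i j k := by
      intro i j
      refine Finset.sum_congr rfl (fun k _ => ?_)
      simp only [Finset.sum_ite_eq', Finset.mem_univ, if_true]
      simp only [hq, hsymm i j, hsymm k j]
    simp only [this]
    rw [Finset.sum_comm]
  have hS5 : ∑ i, ∑ j, ∑ k, ∑ l, (if k = i ∧ l = j then q i j k l else 0) = B := by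
    refine Finset.sum_congr rfl (fun i _ => Finset.sum_congr rfl (fun j _ => ?_))
    rw [sum_delta2' (fun k l => q i j k l) i j]
  have hS6 : ∑ i, ∑ j, ∑ k, ∑ l, (if k = j ∧ l = i then q i j k l else 0) = B := by
    refine Finset.sum_congr rfl (fun i _ => Finset.sum_congr rfl (fun j _ => ?_))
    rw [sum_delta2' (fun k l => q i j k l) j i]
    simp only [hq]
    rw [hsymm j i]
  have htotal : ∑ i, ∑ j, ∑ k, ∑ l, q i j k l = 4 * A - 2 * B + R := by
    calc ∑ i, ∑ j, ∑ k, ∑ l, q i j k l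
        = ∑ i, ∑ j, ∑ k, ∑ l, ((if k = i then q i j k l else 0) + (if k = j then q i j k l else 0)
      + (if l = i then q i j k l else 0) + (if l = j then q i j k l else 0)
      - (if k = i ∧ l = j then q i j k l else 0) - (if k = j ∧ l = i then q i j k l else 0)
      + (if k ≠ i ∧ k ≠ j ∧ l ≠ i ∧ l ≠ j then q i j k l else 0)) :=
          Finset.sum_congr rfl (fun i _ => Finset.sum_congr rfl (fun j _ =>
            Finset.sum_congr rfl (fun k _ => Finset.sum_congr rfl (fun l _ => hpt i j k l))))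
      _ = 4 * A - 2 * B + R := by
          simp only [Finset.sum_add_distrib, Finset.sum_sub_distrib]
          rw [hS1, hS2, hS3, hS4, hS5, hS6]
          ring
  set a : ι → ι → ι → ℝ := fun i j k => if i ≠ j ∧ i ≠ k ∧ j ≠ k then q i j i k else 0 with ha
  have hAa : A = (∑ i, ∑ j, ∑ k, a i j k) + B := by
    rw [hA, hB, ← Finset.sum_add_distrib]
    refine Finset.sum_congr rfl (fun i _ => ?_)
    rw [← Finset.sum_add_distrib]
    refine Finset.sum_congr rfl (fun j _ => ?_)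
    rw [← Finset.add_sum_erase _ _ (Finset.mem_univ j), add_comm]
    have hj : a i j j = 0 := by simp [ha]
    rw [← Finset.add_sum_erase _ (a i j) (Finset.mem_univ j), hj, zero_add]
    congr 1
    refine Finset.sum_congr rfl (fun k hk => ?_)
    have hkj : j ≠ k := (Finset.ne_of_mem_erase hk).symm
    by_cases hij : i = j
    · subst hij; simp [ha, hq0]
    by_cases hik : i = k
    · subst hik; simp [ha, hq0']
    simp [ha, hij, hik, hkj]
  rw [hexpand, htotal, hAa]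
  ring

/-- The lower bound on the adjacent part from the triple inequality with a constant. -/
theorem adj_lower (F : ι → ι → X → ℝ) (hdiag : ∀ i, F i i = 0) (hsymm : ∀ i j, F i j = F j i)
    (θ : ℝ)
    (htri : ∀ i j k, i ≠ j → i ≠ k → j ≠ k →
      θ * (ip (F i j) (F i j) + ip (F i k) (F i k) + ip (F j k) (F j k))
        ≤ ip (F i j) (F i k) + ip (F j i) (F j k) + ip (F k i) (F k j)) :
    θ * (((Fintype.card ι : ℝ) - 2) * ∑ i, ∑ j, ip (F i j) (F i j))
      ≤ ∑ i, ∑ j, ∑ k, if i ≠ j ∧ i ≠ k ∧ j ≠ k then ip (F i j) (F i k) else 0 := by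
  set q : ι → ι → ι → ι → ℝ := fun i j k l => ip (F i j) (F k l) with hq
  set a : ι → ι → ι → ℝ := fun i j k => if i ≠ j ∧ i ≠ k ∧ j ≠ k then q i j i k else 0 with ha
  set n2 : ι → ι → ℝ := fun i j => ip (F i j) (F i j) with hn2
  set b : ι → ι → ι → ℝ := fun i j k => if i ≠ j ∧ i ≠ k ∧ j ≠ k then n2 i j else 0 with hb
  have hb1 : ∑ i, ∑ j, ∑ k, b i j k = ((Fintype.card ι : ℝ) - 2) * ∑ i, ∑ j, n2 i j := by
    rw [Finset.mul_sum]
    refine Finset.sum_congr rfl (fun i _ => ?_)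
    rw [Finset.mul_sum]
    refine Finset.sum_congr rfl (fun j _ => ?_)
    by_cases hij : i = j
    · subst hij
      have : n2 i i = 0 := by simp [hn2, hdiag, ip_zero_left]
      simp [hb, this]
    · have h1 : ∀ k, b i j k = if k ∈ ((Finset.univ.erase i).erase j) then n2 i j else 0 := by
        intro k
        simp only [hb, Finset.mem_erase, Finset.mem_univ, and_true]
        by_cases hk : k ≠ j ∧ k ≠ i
        · rw [if_pos hk, if_pos ⟨hij, hk.2.symm, hk.1.symm⟩]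
        · rw [if_neg hk, if_neg]
          rintro ⟨_, h2, h3⟩
          exact hk ⟨h3.symm, h2.symm⟩
      simp only [h1]
      rw [Finset.sum_ite_mem, Finset.univ_inter, Finset.sum_const, nsmul_eq_mul]
      congr 1
      rw [Finset.card_erase_of_mem (Finset.mem_erase.2 ⟨Ne.symm hij, Finset.mem_univ j⟩),
        Finset.card_erase_of_mem (Finset.mem_univ i), Finset.card_univ]
      have h2 : 2 ≤ Fintype.card ι := by
        have := Finset.card_le_univ ({i, j} : Finset ι)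
        rwa [Finset.card_pair hij] at this
      have : Fintype.card ι - 1 - 1 = Fintype.card ι - 2 := by omega
      rw [this]
      push_cast [Nat.cast_sub h2]
      ring
  have h1 : ∑ i, ∑ j, ∑ k, a j i k = ∑ i, ∑ j, ∑ k, a i j k := by
    rw [Finset.sum_comm]
  have h2 : ∑ i, ∑ j, ∑ k, a k i j = ∑ i, ∑ j, ∑ k, a i j k := by
    calc ∑ i, ∑ j, ∑ k, a k i j = ∑ i, ∑ k, ∑ j, a k i j :=
          Finset.sum_congr rfl (fun i _ => Finset.sum_comm)
      _ = ∑ k, ∑ i, ∑ j, a k i j := Finset.sum_comm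
  have hb2 : ∑ i, ∑ j, ∑ k, b i k j = ∑ i, ∑ j, ∑ k, b i j k :=
    Finset.sum_congr rfl (fun i _ => Finset.sum_comm)
  have hb3 : ∑ i, ∑ j, ∑ k, b k i j = ∑ i, ∑ j, ∑ k, b i j k := by
    calc ∑ i, ∑ j, ∑ k, b k i j = ∑ i, ∑ k, ∑ j, b k i j :=
          Finset.sum_congr rfl (fun i _ => Finset.sum_comm)
      _ = ∑ k, ∑ i, ∑ j, b k i j := Finset.sum_comm
  have h3 : ∑ i, ∑ j, ∑ k, θ * (b i j k + b i k j + b j k i)
      ≤ ∑ i, ∑ j, ∑ k, (a i j k + a j i k + a k i j) := by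
    refine Finset.sum_le_sum (fun i _ => Finset.sum_le_sum (fun j _ =>
      Finset.sum_le_sum (fun k _ => ?_)))
    by_cases h : i ≠ j ∧ i ≠ k ∧ j ≠ k
    · have hh := htri i j k h.1 h.2.1 h.2.2
      have e1 : a i j k = ip (F i j) (F i k) := if_pos h
      have e2 : a j i k = ip (F j i) (F j k) := if_pos ⟨h.1.symm, h.2.2, h.2.1⟩
      have e3 : a k i j = ip (F k i) (F k j) := if_pos ⟨h.2.1.symm, h.2.2.symm, h.1⟩
      have e4 : b i j k = ip (F i j) (F i j) := if_pos h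
      have e5 : b i k j = ip (F i k) (F i k) := if_pos ⟨h.2.1, h.1, h.2.2.symm⟩
      have e6 : b j k i = ip (F j k) (F j k) := if_pos ⟨h.2.2, h.1.symm, h.2.1.symm⟩
      rw [e1, e2, e3, e4, e5, e6]
      exact hh
    · have h1' : ¬ (j ≠ i ∧ j ≠ k ∧ i ≠ k) := fun hh => h ⟨hh.1.symm, hh.2.2, hh.2.1⟩
      have h2' : ¬ (k ≠ i ∧ k ≠ j ∧ i ≠ j) := fun hh => h ⟨hh.2.2, hh.1.symm, hh.2.1.symm⟩
      have h3' : ¬ (i ≠ k ∧ i ≠ j ∧ k ≠ j) := fun hh => h ⟨hh.2.1, hh.1, hh.2.2.symm⟩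
      have h4' : ¬ (j ≠ k ∧ j ≠ i ∧ k ≠ i) := fun hh => h ⟨hh.2.1.symm, hh.2.2.symm, hh.1⟩
      have e1 : a i j k = 0 := if_neg h
      have e2 : a j i k = 0 := if_neg h1'
      have e3 : a k i j = 0 := if_neg h2'
      have e4 : b i j k = 0 := if_neg h
      have e5 : b i k j = 0 := if_neg h3'
      have e6 : b j k i = 0 := if_neg h4'
      rw [e1, e2, e3, e4, e5, e6]
      simp
  simp only [Finset.sum_add_distrib, ← Finset.mul_sum] at h3
  rw [h1, h2, hb2] at h3
  have hb4 : ∑ i, ∑ j, ∑ k, b j k i = ∑ i, ∑ j, ∑ k, b i j k := by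
    calc ∑ i, ∑ j, ∑ k, b j k i = ∑ j, ∑ i, ∑ k, b j k i := Finset.sum_comm
      _ = ∑ j, ∑ k, ∑ i, b j k i := Finset.sum_congr rfl (fun j _ => Finset.sum_comm)
  rw [hb4] at h3
  rw [← hb1]
  linarith

end knabe

section s3

variable {X : Type*} [Fintype X]

/-- The triple inequality with a constant, for three involutions with the relations of the
symmetric group on three letters. -/
theorem s3_ineq_quarter (s₁ s₂ s₃ : X → X) (h₁ : ∀ x, s₁ (s₁ x) = x) (h₂ : ∀ x, s₂ (s₂ x) = x)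
    (h₃ : ∀ x, s₃ (s₃ x) = x) (r₁ : ∀ x, s₁ (s₂ x) = s₂ (s₃ x)) (r₂ : ∀ x, s₂ (s₃ x) = s₃ (s₁ x))
    (f : X → ℝ) :
    0 ≤ ∑ x, ((f x - f (s₁ x)) * (f x - f (s₂ x)) + (f x - f (s₁ x)) * (f x - f (s₃ x))
      + (f x - f (s₂ x)) * (f x - f (s₃ x))
      - ((f x - f (s₁ x)) ^ 2 + (f x - f (s₂ x)) ^ 2 + (f x - f (s₃ x)) ^ 2) / 4) := by
  set Ψ : X → ℝ := fun x => (f x - f (s₁ x)) * (f x - f (s₂ x))
    + (f x - f (s₁ x)) * (f x - f (s₃ x)) + (f x - f (s₂ x)) * (f x - f (s₃ x))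
    - ((f x - f (s₁ x)) ^ 2 + (f x - f (s₂ x)) ^ 2 + (f x - f (s₃ x)) ^ 2) / 4 with hΨ
  let e₁ : X ≃ X := Function.Involutive.toPerm s₁ h₁
  let e₂ : X ≃ X := Function.Involutive.toPerm s₂ h₂
  let ρ : X ≃ X := e₂.trans e₁
  let ρ' : X ≃ X := e₁.trans e₂
  have hρ : ∀ x, ρ x = s₁ (s₂ x) := fun _ => rfl
  have hρ' : ∀ x, ρ' x = s₂ (s₁ x) := fun _ => rfl
  have ρ1 : ∀ x, s₁ (ρ x) = s₂ x := by intro x; rw [hρ, h₁]
  have ρ2 : ∀ x, s₂ (ρ x) = s₃ x := by intro x; rw [hρ, r₁, h₂]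
  have ρ3 : ∀ x, s₃ (ρ x) = s₁ x := by intro x; rw [hρ, r₁, r₂, h₃]
  have hA : ∀ y, s₃ y = s₁ (s₂ (s₁ y)) := by
    intro y
    rw [r₁ (s₁ y), r₂ (s₁ y), h₁]
  have hB : ∀ y, s₃ y = s₂ (s₁ (s₂ y)) := by
    intro y
    rw [r₁ y, h₂]
  have ρ'1 : ∀ x, s₁ (ρ' x) = s₃ x := by intro x; rw [hρ', hA x]
  have ρ'2 : ∀ x, s₂ (ρ' x) = s₁ x := by intro x; rw [hρ', h₂]
  have ρ'3 : ∀ x, s₃ (ρ' x) = s₂ x := by intro x; rw [hρ', hB, h₂, h₁]
  have s21 : ∀ x, s₂ (s₁ x) = ρ' x := fun x => (hρ' x).symm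
  have s31 : ∀ x, s₃ (s₁ x) = ρ x := by intro x; rw [hρ, r₁, r₂]
  have s12 : ∀ x, s₁ (s₂ x) = ρ x := fun x => (hρ x).symm
  have s32 : ∀ x, s₃ (s₂ x) = ρ' x := by intro x; rw [hρ', hB, h₂]
  have s13 : ∀ x, s₁ (s₃ x) = ρ' x := by intro x; rw [hρ', hA, h₁]
  have s23 : ∀ x, s₂ (s₃ x) = ρ x := by intro x; rw [hρ, r₁]
  have hpt : ∀ x, 0 ≤ Ψ x + Ψ (ρ x) + Ψ (ρ' x) + Ψ (s₁ x) + Ψ (s₂ x) + Ψ (s₃ x) := by
    intro x
    simp only [hΨ, ρ1, ρ2, ρ3, ρ'1, ρ'2, ρ'3, h₁, h₂, h₃, s21, s31, s12, s32, s13, s23]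
    generalize f x = u₀
    generalize f (ρ x) = u₁
    generalize f (ρ' x) = u₂
    generalize f (s₁ x) = v₁
    generalize f (s₂ x) = v₂
    generalize f (s₃ x) = v₃
    nlinarith [sq_nonneg (u₀ + u₁ + u₂ - v₁ - v₂ - v₃)]
  have hs1 : ∑ x, Ψ (ρ x) = ∑ x, Ψ x := Equiv.sum_comp ρ Ψ
  have hs2 : ∑ x, Ψ (ρ' x) = ∑ x, Ψ x := Equiv.sum_comp ρ' Ψ
  have hs3 : ∑ x, Ψ (s₁ x) = ∑ x, Ψ x := sum_invol h₁ Ψ
  have hs4 : ∑ x, Ψ (s₂ x) = ∑ x, Ψ x := sum_invol h₂ Ψ
  have hs5 : ∑ x, Ψ (s₃ x) = ∑ x, Ψ x := sum_invol h₃ Ψ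
  have htot : 0 ≤ ∑ x, (Ψ x + Ψ (ρ x) + Ψ (ρ' x) + Ψ (s₁ x) + Ψ (s₂ x) + Ψ (s₃ x)) :=
    Finset.sum_nonneg (fun x _ => hpt x)
  simp only [Finset.sum_add_distrib] at htot
  rw [hs1, hs2, hs3, hs4, hs5] at htot
  change 0 ≤ ∑ x, Ψ x
  linarith

end s3

end Vale.Agent.Lib.P335
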