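import Vale.Agent.Lib.P335.GenTog

/-!
The four pairs between two disjoint vertex pairs: away from two present edges, margins determine
the entries, and the blocks of the two vertex pairs have the rectangle property.
-/

open Finset BigOperators

namespace Vale.Agent.Lib.P335

set_option linter.unusedSectionVars false

variable {n : ℕ} {d : Fin n → ℕ}

lemma cell_exists_bool : ∀ y1 y2 y3 y4 z1 z2 z3 z4 : Bool,
    y1.toNat + y2.toNat + y3.toNat + y4.toNat = z1.toNat + z2.toNat + z3.toNat + z4.toNat →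
    y1.toNat + y2.toNat + y3.toNat + y4.toNat ≠ 2 →
    ∃ c1 c2 c3 c4 : Bool, c1.toNat + c2.toNat = y1.toNat + y2.toNat ∧
      c3.toNat + c4.toNat = y3.toNat + y4.toNat ∧ c1.toNat + c3.toNat = z1.toNat + z3.toNat ∧
      c2.toNat + c4.toNat = z2.toNat + z4.toNat := by
  decide

lemma cell_unique_bool : ∀ c1 c2 c3 c4 e1 e2 e3 e4 : Bool,
    c1.toNat + c2.toNat = e1.toNat + e2.toNat → c3.toNat + c4.toNat = e3.toNat + e4.toNat →
    c1.toNat + c3.toNat = e1.toNat + e3.toNat → c2.toNat + c4.toNat = e2.toNat + e4.toNat →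
    e1.toNat + e2.toNat + e3.toNat + e4.toNat ≠ 2 → c1 = e1 ∧ c2 = e2 ∧ c3 = e3 ∧ c4 = e4 := by
  decide

lemma iv_bool (c : Bool) : iv (c = true) = c.toNat := by
  cases c <;> simp [iv]

lemma cell_exists (y1 y2 y3 y4 e1 e2 e3 e4 : Prop)
    (h : iv y1 + iv y2 + iv y3 + iv y4 = iv e1 + iv e2 + iv e3 + iv e4)
    (h2 : iv y1 + iv y2 + iv y3 + iv y4 ≠ 2) :
    ∃ c1 c2 c3 c4 : Prop, iv c1 + iv c2 = iv y1 + iv y2 ∧ iv c3 + iv c4 = iv y3 + iv y4 ∧
      iv c1 + iv c3 = iv e1 + iv e3 ∧ iv c2 + iv c4 = iv e2 + iv e4 := by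
  classical
  simp only [iv_eq_toNat] at h h2
  obtain ⟨c1, c2, c3, c4, m1, m2, m3, m4⟩ := cell_exists_bool _ _ _ _ _ _ _ _ h h2
  refine ⟨c1 = true, c2 = true, c3 = true, c4 = true, ?_, ?_, ?_, ?_⟩
  · rw [iv_bool, iv_bool, m1, iv_eq_toNat y1, iv_eq_toNat y2]
  · rw [iv_bool, iv_bool, m2, iv_eq_toNat y3, iv_eq_toNat y4]
  · rw [iv_bool, iv_bool, m3, iv_eq_toNat e1, iv_eq_toNat e3]
  · rw [iv_bool, iv_bool, m4, iv_eq_toNat e2, iv_eq_toNat e4]

lemma cell_unique (c1 c2 c3 c4 e1 e2 e3 e4 : Prop)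
    (m1 : iv c1 + iv c2 = iv e1 + iv e2) (m2 : iv c3 + iv c4 = iv e3 + iv e4)
    (m3 : iv c1 + iv c3 = iv e1 + iv e3) (m4 : iv c2 + iv c4 = iv e2 + iv e4)
    (h : iv e1 + iv e2 + iv e3 + iv e4 ≠ 2) :
    (c1 ↔ e1) ∧ (c2 ↔ e2) ∧ (c3 ↔ e3) ∧ (c4 ↔ e4) := by
  classical
  simp only [iv_eq_toNat] at m1 m2 m3 m4 h
  obtain ⟨h1, h2, h3, h4⟩ := cell_unique_bool _ _ _ _ _ _ _ _ m1 m2 m3 m4 h
  exact ⟨decide_eq_decide.1 h1, decide_eq_decide.1 h2, decide_eq_decide.1 h3, decide_eq_decide.1 h4⟩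

/-- The adjacency on the four pairs from four truth values. -/
def cellA (u v w z : Fin n) (c1 c2 c3 c4 : Prop) (a b : Fin n) : Prop :=
  (a = u ∧ b = w ∧ c1) ∨ (a = w ∧ b = u ∧ c1) ∨ (a = u ∧ b = z ∧ c2) ∨ (a = z ∧ b = u ∧ c2)
  ∨ (a = v ∧ b = w ∧ c3) ∨ (a = w ∧ b = v ∧ c3) ∨ (a = v ∧ b = z ∧ c4) ∨ (a = z ∧ b = v ∧ c4)

lemma cellA_symm {u v w z : Fin n} {c1 c2 c3 c4 : Prop} {a b : Fin n}
    (h : cellA u v w z c1 c2 c3 c4 a b) : cellA u v w z c1 c2 c3 c4 b a := by
  unfold cellA at *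
  rcases h with h | h | h | h | h | h | h | h
  · exact Or.inr (Or.inl ⟨h.2.1, h.1, h.2.2⟩)
  · exact Or.inl ⟨h.2.1, h.1, h.2.2⟩
  · exact Or.inr (Or.inr (Or.inr (Or.inl ⟨h.2.1, h.1, h.2.2⟩)))
  · exact Or.inr (Or.inr (Or.inl ⟨h.2.1, h.1, h.2.2⟩))
  · exact Or.inr (Or.inr (Or.inr (Or.inr (Or.inr (Or.inl ⟨h.2.1, h.1, h.2.2⟩)))))
  · exact Or.inr (Or.inr (Or.inr (Or.inr (Or.inl ⟨h.2.1, h.1, h.2.2⟩))))
  · exact Or.inr (Or.inr (Or.inr (Or.inr (Or.inr (Or.inr (Or.inr ⟨h.2.1, h.1, h.2.2⟩))))))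
  · exact Or.inr (Or.inr (Or.inr (Or.inr (Or.inr (Or.inr (Or.inl ⟨h.2.1, h.1, h.2.2⟩))))))

section positions

variable {u v w z : Fin n} {c1 c2 c3 c4 : Prop} (D : Dis4 u v w z)
include D

lemma cellA_uw : cellA u v w z c1 c2 c3 c4 u w ↔ c1 := by
  obtain ⟨h1, h2, h3, h4, h5, h6⟩ := D
  simp [cellA, h1, h2, h3, h4, h5, h6, h1.symm, h2.symm, h3.symm, h4.symm, h5.symm, h6.symm]

lemma cellA_uz : cellA u v w z c1 c2 c3 c4 u z ↔ c2 := by
  obtain ⟨h1, h2, h3, h4, h5, h6⟩ := D
  simp [cellA, h1, h2, h3, h4, h5, h6, h1.symm, h2.symm, h3.symm, h4.symm, h5.symm, h6.symm]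

lemma cellA_vw : cellA u v w z c1 c2 c3 c4 v w ↔ c3 := by
  obtain ⟨h1, h2, h3, h4, h5, h6⟩ := D
  simp [cellA, h1, h2, h3, h4, h5, h6, h1.symm, h2.symm, h3.symm, h4.symm, h5.symm, h6.symm]

lemma cellA_vz : cellA u v w z c1 c2 c3 c4 v z ↔ c4 := by
  obtain ⟨h1, h2, h3, h4, h5, h6⟩ := D
  simp [cellA, h1, h2, h3, h4, h5, h6, h1.symm, h2.symm, h3.symm, h4.symm, h5.symm, h6.symm]

lemma cellA_wu : cellA u v w z c1 c2 c3 c4 w u ↔ c1 :=
  ⟨fun h => (cellA_uw D).1 (cellA_symm h), fun h => cellA_symm ((cellA_uw D).2 h)⟩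

lemma cellA_zu : cellA u v w z c1 c2 c3 c4 z u ↔ c2 :=
  ⟨fun h => (cellA_uz D).1 (cellA_symm h), fun h => cellA_symm ((cellA_uz D).2 h)⟩

lemma cellA_wv : cellA u v w z c1 c2 c3 c4 w v ↔ c3 :=
  ⟨fun h => (cellA_vw D).1 (cellA_symm h), fun h => cellA_symm ((cellA_vw D).2 h)⟩

lemma cellA_zv : cellA u v w z c1 c2 c3 c4 z v ↔ c4 :=
  ⟨fun h => (cellA_vz D).1 (cellA_symm h), fun h => cellA_symm ((cellA_vz D).2 h)⟩

end positions

/-- The number of present pairs among the four. -/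
noncomputable def ss (y : Realization d) (u v w z : Fin n) : ℕ :=
  iv (y.1.Adj u w) + iv (y.1.Adj u z) + iv (y.1.Adj v w) + iv (y.1.Adj v z)

lemma ss_left {u v w z : Fin n} (D : Dis4 u v w z) {x y : Realization d}
    (h : off (pb u v) y = off (pb u v) x) : ss y u v w z = ss x u v w z := by
  have h1 := col_inv' D.1 (D.swap.not_inn (Or.inl rfl)) h
  have h2 := col_inv' D.1 (D.swap.not_inn (Or.inr rfl)) h
  unfold ss
  omega

lemma ss_right {u v w z : Fin n} (D : Dis4 u v w z) {x y : Realization d}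
    (h : off (pb w z) y = off (pb w z) x) : ss y u v w z = ss x u v w z := by
  have h1 := col_inv D.swap.1 (D.not_inn (Or.inl rfl)) h
  have h2 := col_inv D.swap.1 (D.not_inn (Or.inr rfl)) h
  unfold ss
  omega

/-- Away from two present pairs, the blocks of two disjoint pairs have the rectangle property. -/
lemma rect_cell {u v w z : Fin n} (D : Dis4 u v w z) (x : Realization d)
    (hs : ss x u v w z ≠ 2) : Rect (off (pb u v)) (off (pb w z)) x := by
  classical
  intro y e hy he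
  have hsy := ss_left D hy
  have hse := ss_right D he
  have hy' := off_eq_iff.1 hy
  have he' := off_eq_iff.1 he
  obtain ⟨c1, c2, c3, c4, m1, m2, m3, m4⟩ := cell_exists (y.1.Adj u w) (y.1.Adj u z) (y.1.Adj v w)
    (y.1.Adj v z) (e.1.Adj u w) (e.1.Adj u z) (e.1.Adj v w) (e.1.Adj v z)
    (by
      have h1 : ss y u v w z = ss e u v w z := by rw [hsy, hse]
      exact h1)
    (by
      have h1 : ss y u v w z ≠ 2 := by rw [hsy]; exact hs
      exact h1)
  set C := cellA u v w z c1 c2 c3 c4 with hC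
  set A : Fin n → Fin n → Prop := fun a b =>
    if pbm u v w z a b then y.1.Adj a b else if cel u v w z a b then C a b else e.1.Adj a b with hA
  have A1 : ∀ a b, pbm u v w z a b → (A a b ↔ y.1.Adj a b) := by
    intro a b h; simp only [hA, if_pos h]
  have A2 : ∀ a b, cel u v w z a b → (A a b ↔ C a b) := by
    intro a b h; simp only [hA, if_neg (cel_not_pbm h), if_pos h]
  have A3 : ∀ a b, ¬ pbm u v w z a b → ¬ cel u v w z a b → (A a b ↔ e.1.Adj a b) := by
    intro a b h1 h2; simp only [hA, if_neg h1, if_neg h2]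
  have hsA : ∀ a b, A a b → A b a := by
    intro a b h
    by_cases h1 : pbm u v w z a b
    · rw [A1 _ _ (pbm_symm h1)]
      exact ((A1 _ _ h1).1 h).symm
    by_cases h2 : cel u v w z a b
    · rw [A2 _ _ (cel_symm h2)]
      exact cellA_symm ((A2 _ _ h2).1 h)
    · rw [A3 _ _ (fun h' => h1 (pbm_symm h')) (fun h' => h2 (cel_symm h'))]
      exact ((A3 _ _ h1 h2).1 h).symm
  have hiA : ∀ a, ¬ A a a := by
    intro a h
    have h1 : ¬ pbm u v w z a a := by
      intro h'
      have := h'.1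
      unfold pb at this
      tauto
    have h2 : ¬ cel u v w z a a := by
      rintro (⟨h3, h4⟩ | ⟨h3, h4⟩)
      · exact D.not_inn h3 h4
      · exact D.not_inn h4 h3
    exact e.1.loopless.irrefl a ((A3 _ _ h1 h2).1 h)
  have hdA : ∀ t, ∑ s, iv (A t s) = d t := by
    intro t
    by_cases ht1 : inn u v t
    · refine deg_of_compare y {w, z} ?_ ?_
      · intro s hs'
        simp only [Finset.mem_insert, Finset.mem_singleton, not_or] at hs'
        have hsn : ¬ inn w z s := by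
          rintro (h | h)
          · exact hs'.1 h
          · exact hs'.2 h
        have hcel : ¬ cel u v w z t s := by
          rintro (⟨_, h⟩ | ⟨h, _⟩)
          · exact hsn h
          · exact D.not_inn ht1 h
        by_cases hp : pb u v t s
        · exact A1 _ _ ⟨hp, D.not_inn ht1, hsn⟩
        · rw [A3 _ _ (fun h' => hp h'.1) hcel]
          have hq : ¬ pb w z t s := by
            have := D.not_inn ht1
            unfold pb
            tauto
          rw [he' _ _ hq, hy' _ _ hp]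
      · rw [Finset.sum_pair D.2.2.2.2.2, Finset.sum_pair D.2.2.2.2.2]
        rw [iv_congr (A2 t w (Or.inl ⟨ht1, Or.inl rfl⟩)), iv_congr (A2 t z (Or.inl ⟨ht1, Or.inr rfl⟩))]
        rcases ht1 with rfl | rfl
        · rw [iv_congr (cellA_uw D), iv_congr (cellA_uz D)]; exact m1
        · rw [iv_congr (cellA_vw D), iv_congr (cellA_vz D)]; exact m2
    by_cases ht2 : inn w z t
    · refine deg_of_compare e {u, v} ?_ ?_
      · intro s hs'
        simp only [Finset.mem_insert, Finset.mem_singleton, not_or] at hs'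
        have hsn : ¬ inn u v s := by
          rintro (h | h)
          · exact hs'.1 h
          · exact hs'.2 h
        have hcel : ¬ cel u v w z t s := by
          rintro (⟨h, _⟩ | ⟨_, h⟩)
          · exact ht1 h
          · exact hsn h
        have hp : ¬ pbm u v w z t s := by
          rintro ⟨h, _⟩
          unfold pb at h
          tauto
        exact A3 _ _ hp hcel
      · rw [Finset.sum_pair D.1, Finset.sum_pair D.1]
        rw [iv_congr (A2 t u (Or.inr ⟨ht2, Or.inl rfl⟩)), iv_congr (A2 t v (Or.inr ⟨ht2, Or.inr rfl⟩))]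
        rcases ht2 with rfl | rfl
        · rw [iv_congr (cellA_wu D), iv_congr (cellA_wv D), iv_congr (adj_comm' e _ u),
            iv_congr (adj_comm' e _ v)]
          exact m3
        · rw [iv_congr (cellA_zu D), iv_congr (cellA_zv D), iv_congr (adj_comm' e _ u),
            iv_congr (adj_comm' e _ v)]
          exact m4
    · refine deg_of_compare e {u, v} ?_ ?_
      · intro s hs'
        simp only [Finset.mem_insert, Finset.mem_singleton, not_or] at hs'
        have hsn : ¬ inn u v s := by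
          rintro (h | h)
          · exact hs'.1 h
          · exact hs'.2 h
        have hcel : ¬ cel u v w z t s := by
          rintro (⟨h, _⟩ | ⟨h, _⟩)
          · exact ht1 h
          · exact ht2 h
        have hp : ¬ pbm u v w z t s := by
          rintro ⟨h, _⟩
          unfold pb at h
          tauto
        exact A3 _ _ hp hcel
      · rw [Finset.sum_pair D.1, Finset.sum_pair D.1]
        have hsu : pbm u v w z t u :=
          ⟨Or.inr ⟨ht1, Or.inl rfl⟩, ht2, D.not_inn (Or.inl rfl)⟩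
        have hsv : pbm u v w z t v :=
          ⟨Or.inr ⟨ht1, Or.inr rfl⟩, ht2, D.not_inn (Or.inr rfl)⟩
        rw [iv_congr (A1 _ _ hsu), iv_congr (A1 _ _ hsv), col_inv D.1 ht1 hy]
        have hq : ∀ s, inn u v s → (e.1.Adj t s ↔ x.1.Adj t s) := by
          intro s hs'
          refine he' _ _ ?_
          have := D.not_inn hs'
          unfold pb
          tauto
        rw [iv_congr (hq u (Or.inl rfl)), iv_congr (hq v (Or.inr rfl))]
  refine ⟨mkG A hsA hiA hdA, ⟨?_, ?_⟩, ?_⟩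
  · rw [off_eq_iff]
    intro a b hab
    rw [mkG_adj]
    by_cases h1 : pbm u v w z a b
    · exact A1 _ _ h1
    · have h2 : ¬ cel u v w z a b := fun h => hab (cel_pb' D h)
      rw [A3 _ _ h1 h2, he' _ _ hab]
      have h3 : ¬ pb u v a b := by
        rw [pb_iff D]
        tauto
      exact (hy' _ _ h3).symm
  · rw [off_eq_iff]
    intro a b hab
    rw [mkG_adj]
    have h1 : ¬ pbm u v w z a b := fun h => hab h.1
    have h2 : ¬ cel u v w z a b := fun h => hab (cel_pb D h)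
    exact A3 _ _ h1 h2
  · rintro r ⟨h1, h2⟩
    have h1' := off_eq_iff.1 h1
    have h2' := off_eq_iff.1 h2
    apply state_ext
    intro a b
    rw [mkG_adj]
    by_cases h3 : pbm u v w z a b
    · rw [A1 _ _ h3]
      exact h1' _ _ (pbm_not_pb h3)
    by_cases h4 : cel u v w z a b
    · rw [A2 _ _ h4]
      -- the margins of `r`
      have n1 := col_inv D.swap.1 (D.not_inn (Or.inl rfl)) h1
      have n2 := col_inv D.swap.1 (D.not_inn (Or.inr rfl)) h1
      have n3 := col_inv' D.1 (D.swap.not_inn (Or.inl rfl)) h2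
      have n4 := col_inv' D.1 (D.swap.not_inn (Or.inr rfl)) h2
      have hc2 : iv c1 + iv c2 + iv c3 + iv c4 ≠ 2 := by
        have h5 : ss y u v w z ≠ 2 := by rw [hsy]; exact hs
        unfold ss at h5
        omega
      obtain ⟨r1, r2, r3, r4⟩ := cell_unique (r.1.Adj u w) (r.1.Adj u z) (r.1.Adj v w)
        (r.1.Adj v z) c1 c2 c3 c4 (by omega) (by omega) (by omega) (by omega) hc2
      have hC1 := cellA_uw (c1 := c1) (c2 := c2) (c3 := c3) (c4 := c4) D
      have hC2 := cellA_uz (c1 := c1) (c2 := c2) (c3 := c3) (c4 := c4) D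
      have hC3 := cellA_vw (c1 := c1) (c2 := c2) (c3 := c3) (c4 := c4) D
      have hC4 := cellA_vz (c1 := c1) (c2 := c2) (c3 := c3) (c4 := c4) D
      have hC5 := cellA_wu (c1 := c1) (c2 := c2) (c3 := c3) (c4 := c4) D
      have hC6 := cellA_zu (c1 := c1) (c2 := c2) (c3 := c3) (c4 := c4) D
      have hC7 := cellA_wv (c1 := c1) (c2 := c2) (c3 := c3) (c4 := c4) D
      have hC8 := cellA_zv (c1 := c1) (c2 := c2) (c3 := c3) (c4 := c4) D
      rcases h4 with ⟨ha | ha, hb | hb⟩ | ⟨ha | ha, hb | hb⟩ <;> subst ha <;> subst hb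
      · rw [hC, hC1]; exact r1
      · rw [hC, hC2]; exact r2
      · rw [hC, hC3]; exact r3
      · rw [hC, hC4]; exact r4
      · rw [hC, hC5, adj_comm']; exact r1
      · rw [hC, hC7, adj_comm']; exact r3
      · rw [hC, hC6, adj_comm']; exact r2
      · rw [hC, hC8, adj_comm']; exact r4
    · rw [A3 _ _ h3 h4]
      have h5 : ¬ pb u v a b := by
        rw [pb_iff D]
        tauto
      exact h2' _ _ h5

end Vale.Agent.Lib.P335
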