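import Vale.Agent.Lib.P335.GenTog

/-!
Any two realizations of a degree vector are joined by toggles of four cycles.
-/

open Finset BigOperators

namespace Vale.Agent.Lib.P335

set_option linter.unusedSectionVars false

variable {n : ℕ} {d : Fin n → ℕ}

lemma exists_t (W : Finset (Fin n)) (G : Realization d) {u w w' : Fin n} (hu : u ∈ W) (hw : w ∈ W)
    (hw' : w' ∈ W) (huw : u ≠ w) (huw' : u ≠ w') (hww' : w ≠ w') (h1 : G.1.Adj u w)
    (h2 : ¬ G.1.Adj u w')
    (hr : ∑ s ∈ W, iv (G.1.Adj w s) ≤ ∑ s ∈ W, iv (G.1.Adj w' s)) :
    ∃ t ∈ W, t ≠ u ∧ t ≠ w ∧ t ≠ w' ∧ G.1.Adj t w' ∧ ¬ G.1.Adj t w := by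
  classical
  by_contra hcon
  push Not at hcon
  have hsplit : ∀ F : Fin n → ℕ, ∑ s ∈ W, F s
      = F u + (F w + (F w' + ∑ s ∈ ((W.erase u).erase w).erase w', F s)) := by
    intro F
    rw [Finset.add_sum_erase _ _ (Finset.mem_erase.2 ⟨hww'.symm, Finset.mem_erase.2 ⟨huw'.symm, hw'⟩⟩),
      Finset.add_sum_erase _ _ (Finset.mem_erase.2 ⟨huw.symm, hw⟩),
      Finset.add_sum_erase _ _ hu]
  rw [hsplit, hsplit] at hr
  have hrest : ∑ s ∈ ((W.erase u).erase w).erase w', iv (G.1.Adj w' s)
      ≤ ∑ s ∈ ((W.erase u).erase w).erase w', iv (G.1.Adj w s) := by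
    refine Finset.sum_le_sum (fun s hs => ?_)
    rw [Finset.mem_erase, Finset.mem_erase, Finset.mem_erase] at hs
    by_cases h3 : G.1.Adj w' s
    · have h4 := hcon s hs.2.2.2 hs.2.2.1 hs.2.1 hs.1 h3.symm
      rw [iv_true h3, iv_true h4.symm]
    · rw [iv_false h3]
      exact Nat.zero_le _
  have e1 : iv (G.1.Adj w u) = 1 := iv_true h1.symm
  have e2 : iv (G.1.Adj w w) = 0 := iv_false (G.1.loopless.irrefl w)
  have e3 : iv (G.1.Adj w' u) = 0 := iv_false (fun h => h2 h.symm)
  have e4 : iv (G.1.Adj w' w') = 0 := iv_false (G.1.loopless.irrefl w')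
  have e5 : iv (G.1.Adj w' w) = iv (G.1.Adj w w') := iv_congr (adj_comm' G w' w)
  omega

lemma cel_u_iff {u t w w' s : Fin n} (D : Dis4 u t w w') : cel u t w w' u s ↔ s = w ∨ s = w' := by
  unfold cel
  constructor
  · rintro (⟨_, h⟩ | ⟨h, _⟩)
    · exact h
    · exact absurd h (D.not_inn (Or.inl rfl))
  · intro h
    exact Or.inl ⟨Or.inl rfl, h⟩

/-- Any function invariant under all toggles is constant. -/
theorem const_of_tog (v : Realization d → ℝ) (hinv : ∀ u t w z y, v (tog u t w z y) = v y)
    (x y : Realization d) : v x = v y := by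
  classical
  suffices H : ∀ U : Finset (Fin n), ∀ G G' : Realization d,
      (∀ a b, ¬ (a ∈ U ∧ b ∈ U) → (G.1.Adj a b ↔ G'.1.Adj a b)) → v G = v G' from
    H Finset.univ x y (fun a b h => absurd ⟨Finset.mem_univ a, Finset.mem_univ b⟩ h)
  intro U
  induction U using Finset.induction_on with
  | empty =>
    intro G G' h
    have : G = G' := state_ext (fun a b => h a b (by simp))
    rw [this]
  | insert u U hu ih =>
    set W := insert u U with hW
    set nb : Realization d → Finset (Fin n) := fun G => Finset.univ.filter (fun s => G.1.Adj u s)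
      with hnb
    have mem_nb : ∀ G s, s ∈ nb G ↔ G.1.Adj u s := by
      intro G s
      simp [hnb]
    have card_nb : ∀ G, (nb G).card = d u := by
      intro G
      rw [← sum_iv_adj G u]
      simp only [hnb]
      rw [Finset.card_filter]
      exact Finset.sum_congr rfl (fun t _ => by unfold iv; congr)
    suffices H : ∀ m : ℕ, ∀ G G' : Realization d,
        (∀ a b, ¬ (a ∈ W ∧ b ∈ W) → (G.1.Adj a b ↔ G'.1.Adj a b)) →
        (nb G \ nb G').card = m → v G = v G' by
      intro G G' h
      exact H _ G G' h rfl
    intro m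
    induction m with
    | zero =>
      intro G G' h hm
      have h1 : nb G ⊆ nb G' := by
        rwa [Finset.card_eq_zero, Finset.sdiff_eq_empty_iff_subset] at hm
      have h2 : nb G = nb G' := Finset.eq_of_subset_of_card_le h1 (by rw [card_nb, card_nb])
      apply ih
      intro a b hab
      by_cases ha : a = u
      · subst ha
        rw [← mem_nb, ← mem_nb, h2]
      by_cases hb : b = u
      · subst hb
        rw [adj_comm' G, adj_comm' G', ← mem_nb, ← mem_nb, h2]
      · refine h a b ?_
        rintro ⟨h3, h4⟩
        rw [hW, Finset.mem_insert] at h3 h4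
        exact hab ⟨h3.resolve_left ha, h4.resolve_left hb⟩
    | succ m ihm =>
      intro G G' h hm
      have hcard2 : (nb G' \ nb G).card = (nb G \ nb G').card :=
        Finset.card_sdiff_comm (by rw [card_nb, card_nb])
      obtain ⟨w, hw⟩ : (nb G \ nb G').Nonempty := by
        rw [← Finset.card_pos]; omega
      obtain ⟨w', hw'⟩ : (nb G' \ nb G).Nonempty := by
        rw [← Finset.card_pos]; omega
      rw [Finset.mem_sdiff, mem_nb, mem_nb] at hw hw'
      have hdiff : ∀ s, (G.1.Adj u s ↔ ¬ G'.1.Adj u s) → s ∈ W := by
        intro s hs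
        by_contra hsW
        have huW : u ∈ W := Finset.mem_insert_self _ _
        have := h u s (fun h' => hsW h'.2)
        tauto
      have hwW : w ∈ W := hdiff w (by tauto)
      have hw'W : w' ∈ W := hdiff w' (by tauto)
      have huW : u ∈ W := Finset.mem_insert_self _ _
      have huw : u ≠ w := (G.1.ne_of_adj hw.1)
      have huw' : u ≠ w' := (G'.1.ne_of_adj hw'.1)
      have hww' : w ≠ w' := fun h' => hw.2 (h' ▸ hw'.1)
      have hres : ∀ t, t ∈ W → ∑ s ∈ W, iv (G.1.Adj t s) = ∑ s ∈ W, iv (G'.1.Adj t s) := by
        intro t ht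
        apply sum_iv_off
        intro s hs
        exact h t s (fun h' => hs h'.2)
      by_cases hcmp : ∑ s ∈ W, iv (G.1.Adj w s) ≤ ∑ s ∈ W, iv (G.1.Adj w' s)
      · -- move in `G`
        obtain ⟨t, htW, htu, htw, htw', h1, h2⟩ := exists_t W G huW hwW hw'W huw huw' hww' hw.1 hw'.2 hcmp
        have D : Dis4 u t w w' := ⟨htu.symm, huw, huw', htw, htw', hww'⟩
        have hc : chk1 G u t w w' := ⟨hw.1, h1, hw'.2, h2⟩
        have hadj := tog_adj (x := G) D (Or.inl hc)
        rw [← hinv u t w w' G]
        apply ihm
        · intro a b hab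
          rw [hadj, togA_not_cel, h a b hab]
          intro hcel
          apply hab
          have hmem : ∀ r, inn u t r ∨ inn w w' r → r ∈ W := by
            rintro r (h3 | h3)
            · rcases h3 with rfl | rfl
              · exact huW
              · exact htW
            · rcases h3 with rfl | rfl
              · exact hwW
              · exact hw'W
          rcases hcel with ⟨h3, h4⟩ | ⟨h3, h4⟩
          · exact ⟨hmem a (Or.inl h3), hmem b (Or.inr h4)⟩
          · exact ⟨hmem a (Or.inr h3), hmem b (Or.inl h4)⟩
        · have : nb (tog u t w w' G) \ nb G' = (nb G \ nb G').erase w := by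
            ext s
            rw [Finset.mem_sdiff, mem_nb, mem_nb, Finset.mem_erase, Finset.mem_sdiff, mem_nb, mem_nb,
              hadj]
            by_cases h3 : s = w
            · subst h3
              rw [togA_cel (cel_uw u t s w')]
              simp [hw.1]
            by_cases h4 : s = w'
            · subst h4
              simp [hw'.1]
            · rw [togA_not_cel (fun h' => by
                rcases (cel_u_iff D).1 h' with h5 | h5
                · exact h3 h5
                · exact h4 h5)]
              simp [h3]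
          rw [this, Finset.card_erase_of_mem (Finset.mem_sdiff.2 ⟨(mem_nb _ _).2 hw.1,
            fun h' => hw.2 ((mem_nb _ _).1 h')⟩), hm]
          rfl
      · -- move in `G'`
        have hcmp' : ∑ s ∈ W, iv (G'.1.Adj w' s) ≤ ∑ s ∈ W, iv (G'.1.Adj w s) := by
          rw [← hres w hwW, ← hres w' hw'W]
          omega
        obtain ⟨t, htW, htu, htw', htw, h1, h2⟩ :=
          exists_t W G' huW hw'W hwW huw' huw hww'.symm hw'.1 hw.2 hcmp'
        have D : Dis4 u t w' w := ⟨htu.symm, huw', huw, htw', htw, hww'.symm⟩
        have hc : chk1 G' u t w' w := ⟨hw'.1, h1, hw.2, h2⟩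
        have hadj := tog_adj (x := G') D (Or.inl hc)
        rw [← hinv u t w' w G']
        apply ihm
        · intro a b hab
          rw [hadj, togA_not_cel, h a b hab]
          intro hcel
          apply hab
          have hmem : ∀ r, inn u t r ∨ inn w' w r → r ∈ W := by
            rintro r (h3 | h3)
            · rcases h3 with rfl | rfl
              · exact huW
              · exact htW
            · rcases h3 with rfl | rfl
              · exact hw'W
              · exact hwW
          rcases hcel with ⟨h3, h4⟩ | ⟨h3, h4⟩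
          · exact ⟨hmem a (Or.inl h3), hmem b (Or.inr h4)⟩
          · exact ⟨hmem a (Or.inr h3), hmem b (Or.inl h4)⟩
        · have : nb G \ nb (tog u t w' w G') = (nb G \ nb G').erase w := by
            ext s
            rw [Finset.mem_sdiff, mem_nb, mem_nb, Finset.mem_erase, Finset.mem_sdiff, mem_nb, mem_nb,
              hadj]
            by_cases h3 : s = w
            · subst h3
              rw [togA_cel (cel_uz u t w' s)]
              simp [hw.2]
            by_cases h4 : s = w'
            · subst h4
              simp [hw'.2]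
            · rw [togA_not_cel (fun h' => by
                rcases (cel_u_iff D).1 h' with h5 | h5
                · exact h4 h5
                · exact h3 h5)]
              simp [h3]
          rw [this, Finset.card_erase_of_mem (Finset.mem_sdiff.2 ⟨(mem_nb _ _).2 hw.1,
            fun h' => hw.2 ((mem_nb _ _).1 h')⟩), hm]
          rfl

end Vale.Agent.Lib.P335
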