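import Vale.Agent.Lib.P335.GenCell

/-!
The inequality for two disjoint vertex pairs.
-/

open Finset BigOperators

namespace Vale.Agent.Lib.P335

set_option linter.unusedSectionVars false

section abstract

variable {X : Type*} [Fintype X]

/-- The first splitting of the mixed form. -/
lemma abstract_A (E E' X₀ : (X → ℝ) →ₗ[ℝ] (X → ℝ))
    (hE : ∀ f g, ip (E f) g = ip f (E g)) (hE' : ∀ f g, ip (E' f) g = ip f (E' g))
    (hX : ∀ f g, ip (X₀ f) g = ip f (X₀ g)) (iX : ∀ f, X₀ (X₀ f) = X₀ f)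
    (h1 : ∀ f, E (X₀ f) = 0) (h2 : ∀ f, E' (X₀ f) = 0) (f : X → ℝ) :
    ip (f - E f) (f - E' f)
      = ip (X₀ f) (X₀ f) + ip ((f - X₀ f) - E (f - X₀ f)) ((f - X₀ f) - E' (f - X₀ f)) := by
  set g := f - X₀ f with hg
  have e1 : f - E f = X₀ f + (g - E g) := by
    rw [hg, map_sub, h1]
    abel
  have e2 : f - E' f = X₀ f + (g - E' g) := by
    rw [hg, map_sub, h2]
    abel
  have hXg : X₀ g = 0 := by
    rw [hg, map_sub, iX]
    abel
  have h3 : ip (X₀ f) (g - E' g) = 0 := by
    rw [ip_sub_right, ← hE', h2, ip_zero_left, sub_zero, hX, hXg, ip_zero_right]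
  have h4 : ip (g - E g) (X₀ f) = 0 := by
    rw [ip_sub_left, hE, h1, ip_zero_right, sub_zero, ← hX, hXg, ip_zero_left]
  rw [e1, e2, ip_add_left, ip_add_right, ip_add_right, h3, h4]
  ring

/-- The second step: the mixed form dominates the mixed form of the coarser parts. -/
lemma abstract_B (E E' Em Em' : (X → ℝ) →ₗ[ℝ] (X → ℝ))
    (hE : ∀ f g, ip (E f) g = ip f (E g)) (hE' : ∀ f g, ip (E' f) g = ip f (E' g))
    (hEm : ∀ f g, ip (Em f) g = ip f (Em g)) (hEm' : ∀ f g, ip (Em' f) g = ip f (Em' g))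
    (iE' : ∀ f, E' (E' f) = E' f) (iEm : ∀ f, Em (Em f) = Em f) (iEm' : ∀ f, Em' (Em' f) = Em' f)
    (t1 : ∀ f, Em (E f) = E f) (t2 : ∀ f, E (Em f) = E f) (iE : ∀ f, E (E f) = E f)
    (c1 : ∀ f, Em (E' f) = E' (Em f)) (c2 : ∀ f, Em (Em' f) = Em' (Em f))
    (c3 : ∀ f, E (Em' f) = Em' (E f)) (g : X → ℝ) :
    ip (Em g - E g) (Em' g - E' g) ≤ ip (g - E g) (g - E' g) := by
  -- the complementary projection of `Em` and the complement of `E'`
  have h1 : 0 ≤ ip ((LinearMap.id - Em : (X → ℝ) →ₗ[ℝ] (X → ℝ)) g)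
      ((LinearMap.id - E' : (X → ℝ) →ₗ[ℝ] (X → ℝ)) g) := by
    refine ip_nonneg_of_comm (LinearMap.id - Em) (LinearMap.id - E') ?_ ?_ ?_ ?_ ?_ g
    · intro f h
      simp only [LinearMap.sub_apply, LinearMap.id_apply, ip_sub_left, ip_sub_right, hEm]
    · intro f h
      simp only [LinearMap.sub_apply, LinearMap.id_apply, ip_sub_left, ip_sub_right, hE']
    · intro f
      simp only [LinearMap.sub_apply, LinearMap.id_apply, map_sub, iEm]
      abel
    · intro f
      simp only [LinearMap.sub_apply, LinearMap.id_apply, map_sub, iE']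
      abel
    · intro f
      simp only [LinearMap.sub_apply, LinearMap.id_apply, map_sub, c1]
      abel
  have h2 : 0 ≤ ip ((Em - E : (X → ℝ) →ₗ[ℝ] (X → ℝ)) g)
      ((LinearMap.id - Em' : (X → ℝ) →ₗ[ℝ] (X → ℝ)) g) := by
    refine ip_nonneg_of_comm (Em - E) (LinearMap.id - Em') ?_ ?_ ?_ ?_ ?_ g
    · intro f h
      simp only [LinearMap.sub_apply, ip_sub_left, ip_sub_right, hEm, hE]
    · intro f h
      simp only [LinearMap.sub_apply, LinearMap.id_apply, ip_sub_left, ip_sub_right, hEm']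
    · intro f
      simp only [LinearMap.sub_apply, map_sub, iEm, t1, t2, iE]
      abel
    · intro f
      simp only [LinearMap.sub_apply, LinearMap.id_apply, map_sub, iEm']
      abel
    · intro f
      simp only [LinearMap.sub_apply, LinearMap.id_apply, map_sub, c2, c3]
      abel
  simp only [LinearMap.sub_apply, LinearMap.id_apply] at h1 h2
  have e1 : g - E g = (g - Em g) + (Em g - E g) := by abel
  have e2 : g - E' g = (g - Em' g) + (Em' g - E' g) := by abel
  have h3 : ip (g - E g) (g - E' g)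
      = ip (g - Em g) (g - E' g) + ip (Em g - E g) (g - Em' g) + ip (Em g - E g) (Em' g - E' g) := by
    have e3 : ip (g - E g) (g - E' g) = ip (g - Em g) (g - E' g) + ip (Em g - E g) (g - E' g) := by
      conv_lhs => rw [e1]
      rw [ip_add_left]
    have e4 : ip (Em g - E g) (g - E' g)
        = ip (Em g - E g) (g - Em' g) + ip (Em g - E g) (Em' g - E' g) := by
      conv_lhs => rw [e2]
      rw [ip_add_right]
    rw [e3, e4]
    ring
  rw [h3]
  linarith

lemma cavg_invol {Z : Type*} {φ : X → Z} {τ : X → X} (hτ : ∀ x, τ (τ x) = x) (hφ : ∀ x, φ (τ x) = φ x)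
    (f : X → ℝ) : cavg φ (fun x => f (τ x)) = cavg φ f := by
  funext x
  let σ : X ≃ X := Function.Involutive.toPerm τ hτ
  have h1 := cavg_comp_equiv (φ := φ) σ f x (by
    intro y
    change φ (τ y) = φ (τ x) ↔ φ y = φ x
    rw [hφ, hφ])
  have h2 : cavg φ f (σ x) = cavg φ f x := cavg_congr f (hφ x)
  rw [← h2, h1]
  rfl

lemma cavg_Qinv {Z : Type*} {φ : X → Z} {τ : X → X} (hτ : ∀ x, τ (τ x) = x)
    (hφ : ∀ x, φ (τ x) = φ x) (f : X → ℝ) : cavg φ (Qinv τ f) = 0 := by
  have h := cavg_invol hτ hφ f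
  have e : Qinv τ f = (1 / 2 : ℝ) • (f - fun x => f (τ x)) := by
    funext x
    simp only [Qinv_apply, Pi.smul_apply, Pi.sub_apply, smul_eq_mul]
    ring
  rw [e, cavg_smul, cavg_sub, h, sub_self, smul_zero]

lemma cavg_eq_of_cls {Z₁ Z₂ : Type*} {φ : X → Z₁} {φ' : X → Z₂} {y : X}
    (h : ∀ y', φ y' = φ y ↔ φ' y' = φ' y) (g : X → ℝ) : cavg φ g y = cavg φ' g y := by
  unfold cavg
  have : cls φ y = cls φ' y := by
    ext y'
    rw [mem_cls, mem_cls, h]
  rw [this]

end abstract

variable {n : ℕ} {d : Fin n → ℕ}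

/-- The symmetrization along a toggle. -/
noncomputable def smf (τ : Realization d → Realization d) (f : Realization d → ℝ) :
    Realization d → ℝ := f - Qinv τ f

/-- The difference of the two averages of the symmetrized function. -/
noncomputable def A1 (u v w z : Fin n) (f : Realization d → ℝ) : Realization d → ℝ :=
  cavg (off (pbm u v w z)) (smf (tog u v w z) f) - cavg (off (pb u v)) (smf (tog u v w z) f)

open Classical in
/-- The correction term for a pair `u v` and a pair `w z`. -/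
noncomputable def WW (u v w z : Fin n) (f : Realization d → ℝ) : ℝ :=
  ∑ y : Realization d, if chk y u v w z then A1 u v w z f y ^ 2 else 0

lemma iv_pair_frozen {p q p' q' : Prop} (h : iv p' + iv q' = iv p + iv q) (h' : iv p + iv q ≠ 1) :
    (p' ↔ p) ∧ (q' ↔ q) := by
  by_cases h1 : p <;> by_cases h2 : q <;> by_cases h3 : p' <;> by_cases h4 : q' <;>
    simp_all [iv_true, iv_false]

lemma adj_of_cel_four {u v w z a b : Fin n} {x y : Realization d}
    (h1 : y.1.Adj u w ↔ x.1.Adj u w) (h2 : y.1.Adj u z ↔ x.1.Adj u z)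
    (h3 : y.1.Adj v w ↔ x.1.Adj v w) (h4 : y.1.Adj v z ↔ x.1.Adj v z)
    (h : cel u v w z a b) : y.1.Adj a b ↔ x.1.Adj a b := by
  rcases h with ⟨ha | ha, hb | hb⟩ | ⟨ha | ha, hb | hb⟩ <;> subst ha <;> subst hb
  · exact h1
  · exact h2
  · exact h3
  · exact h4
  · rw [adj_comm' y, adj_comm' x]; exact h1
  · rw [adj_comm' y, adj_comm' x]; exact h3
  · rw [adj_comm' y, adj_comm' x]; exact h2
  · rw [adj_comm' y, adj_comm' x]; exact h4

/-- If the two columns of the cell are frozen, the two classes coincide. -/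
lemma cavg_pbm_eq {u v w z : Fin n} (D : Dis4 u v w z) {y : Realization d}
    (h1 : iv (y.1.Adj u w) + iv (y.1.Adj v w) ≠ 1) (h2 : iv (y.1.Adj u z) + iv (y.1.Adj v z) ≠ 1)
    (g : Realization d → ℝ) : cavg (off (pbm u v w z)) g y = cavg (off (pb u v)) g y := by
  refine cavg_eq_of_cls (fun y' => ⟨off_mono (fun a b h => h.1), fun h => ?_⟩) g
  have n1 := col_inv' D.1 (D.swap.not_inn (Or.inl rfl)) h
  have n2 := col_inv' D.1 (D.swap.not_inn (Or.inr rfl)) h
  obtain ⟨f1, f3⟩ := iv_pair_frozen n1 h1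
  obtain ⟨f2, f4⟩ := iv_pair_frozen n2 h2
  have h' := off_eq_iff.1 h
  rw [off_eq_iff]
  intro a b hab
  by_cases hp : pb u v a b
  · rcases (pb_iff D).1 hp with h3 | h3
    · exact absurd h3 hab
    · exact adj_of_cel_four f1 f2 f3 f4 h3
  · exact h' a b hp

lemma bits_not_chk {u v w z : Fin n} {y : Realization d} (h : ss y u v w z = 2)
    (hc : ¬ chk y u v w z) :
    (iv (y.1.Adj u w) + iv (y.1.Adj v w) ≠ 1 ∧ iv (y.1.Adj u z) + iv (y.1.Adj v z) ≠ 1)
    ∨ (iv (y.1.Adj u w) + iv (y.1.Adj u z) ≠ 1 ∧ iv (y.1.Adj v w) + iv (y.1.Adj v z) ≠ 1) := by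
  unfold ss at h
  unfold chk chk1 at hc
  by_cases h1 : y.1.Adj u w <;> by_cases h2 : y.1.Adj u z <;> by_cases h3 : y.1.Adj v w <;>
    by_cases h4 : y.1.Adj v z <;> simp_all [iv_true, iv_false]

/-- The disjoint pair inequality. -/
theorem disjoint_ineq {u v w z : Fin n} (D : Dis4 u v w z) (f : Realization d → ℝ) :
    ip (Qinv (tog u v w z) f) (Qinv (tog u v w z) f) - WW u v w z f / 2 - WW w z u v f / 2
      ≤ ip (Qf (off (pb u v)) f) (Qf (off (pb w z)) f) := by
  classical
  set τ := tog (d := d) u v w z with hτ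
  have hτi : ∀ x, τ (τ x) = x := tog_tog u v w z
  set φ := off (d := d) (pb u v) with hφ
  set φ' := off (d := d) (pb w z) with hφ'
  set ψ := off (d := d) (pbm u v w z) with hψ
  set ψ' := off (d := d) (pbm w z u v) with hψ'
  have hτφ : ∀ x, φ (τ x) = φ x := fun x => off_tog_left D
  have hτφ' : ∀ x, φ' (τ x) = φ' x := fun x => off_tog_right D
  have hA := abstract_A (cavgL φ) (cavgL φ') (Qinv τ) (cavgL_sa φ) (cavgL_sa φ') (Qinv_sa hτi)
    (Qinv_id hτi) (fun g => cavg_Qinv hτi hτφ g) (fun g => cavg_Qinv hτi hτφ' g) f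
  have rψφ : ∀ x y, ψ y = ψ x → φ y = φ x := fun x y h => off_mono (fun a b h => h.1) h
  have rψφ' : ∀ x y, ψ' y = ψ' x → φ' y = φ' x := fun x y h => off_mono (fun a b h => h.1) h
  have c1 : ∀ h, cavg ψ (cavg φ' h) = cavg φ' (cavg ψ h) :=
    cavg_off_comm (fun a b h => pbm_symm h) (fun a b h => pbm_not_pb h)
  have c2 : ∀ h, cavg ψ (cavg ψ' h) = cavg ψ' (cavg ψ h) :=
    cavg_off_comm (fun a b h => pbm_symm h) (fun a b h h' => pbm_not_pb h h'.1)
  have c3 : ∀ h, cavg φ (cavg ψ' h) = cavg ψ' (cavg φ h) :=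
    cavg_off_comm (fun a b h => pb_symm h) (fun a b h => pb_not_pbm h)
  set g := smf τ f with hg
  have hB := abstract_B (cavgL φ) (cavgL φ') (cavgL ψ) (cavgL ψ') (cavgL_sa φ) (cavgL_sa φ')
    (cavgL_sa ψ) (cavgL_sa ψ') (cavgL_id φ') (cavgL_id ψ) (cavgL_id ψ')
    (fun h => cavg_fine_coarse rψφ h) (fun h => cavg_coarse_fine rψφ h) (cavgL_id φ)
    c1 c2 c3 g
  simp only [cavgL_apply] at hA hB
  -- the form of the two differences
  have hsymm : smf (tog w z u v) f = g := by
    rw [hg, hτ]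
    unfold smf
    have : (tog w z u v : Realization d → Realization d) = tog u v w z := by
      funext x; exact tog_symm u v w z x
    rw [this]
  have ha : A1 u v w z f = cavg ψ g - cavg φ g := rfl
  have hb : A1 w z u v f = cavg ψ' g - cavg φ' g := by
    unfold A1
    rw [hsymm]
  -- the restriction to the states away from two present pairs
  obtain ⟨Y, hY⟩ : ∃ Y : Realization d → Prop, ∀ y, Y y ↔ ss y u v w z ≠ 2 :=
    ⟨_, fun _ => Iff.rfl⟩
  have sφ : ∀ x y, φ y = φ x → (Y y ↔ Y x) := by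
    intro x y h
    simp only [hY, ss_left D h]
  have sφ' : ∀ x y, φ' y = φ' x → (Y y ↔ Y x) := by
    intro x y h
    simp only [hY, ss_right D h]
  have sψ : ∀ x y, ψ y = ψ x → (Y y ↔ Y x) := fun x y h => sφ x y (rψφ x y h)
  have sψ' : ∀ x y, ψ' y = ψ' x → (Y y ↔ Y x) := fun x y h => sφ' x y (rψφ' x y h)
  have hpos : 0 ≤ ∑ y, if Y y then (cavgL ψ - cavgL φ) g y * (cavgL ψ' - cavgL φ') g y else 0 := by
    refine ip_on_nonneg (cavgL ψ - cavgL φ) (cavgL ψ' - cavgL φ') Y ?_ ?_ ?_ ?_ ?_ ?_ ?_ g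
    · intro f' h
      simp only [LinearMap.sub_apply, ip_sub_left, ip_sub_right, cavgL_sa]
    · intro f' h
      simp only [LinearMap.sub_apply, ip_sub_left, ip_sub_right, cavgL_sa]
    · intro f'
      simp only [LinearMap.sub_apply, map_sub, cavgL_apply]
      rw [cavg_cavg, cavg_fine_coarse rψφ, cavg_coarse_fine rψφ, cavg_cavg]
      abel
    · intro f'
      simp only [LinearMap.sub_apply, map_sub, cavgL_apply]
      rw [cavg_cavg, cavg_fine_coarse rψφ', cavg_coarse_fine rψφ', cavg_cavg]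
      abel
    · intro h
      funext x
      simp only [LinearMap.sub_apply, cavgL_apply, Pi.sub_apply, map_sub]
      rw [cavg_indL sψ, cavg_indL sφ]
    · intro h
      funext x
      simp only [LinearMap.sub_apply, cavgL_apply, Pi.sub_apply, map_sub]
      rw [cavg_indL sψ', cavg_indL sφ']
    · intro h x hx
      simp only [LinearMap.sub_apply, cavgL_apply, map_sub, Pi.sub_apply]
      rw [c2 h, c3 h, c1 h]
      have c4 : cavg φ (cavg φ' h) x = cavg φ' (cavg φ h) x :=
        cavg_comm_of_rect Y (fun b hb' => rect_cell D b ((hY b).1 hb'))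
          (fun x' y' hx' hy' => (sφ x' y' hy').2 hx') (fun x' y' hx' hy' => (sφ' x' y' hy').2 hx')
          h hx
      rw [c4]
      ring
  -- the pointwise inequality
  set a := cavg ψ g - cavg φ g with hadef
  set b := cavg ψ' g - cavg φ' g with hbdef
  have hpos' : 0 ≤ ∑ y, if Y y then a y * b y else 0 := hpos
  have hpt : ∀ y, (if Y y then a y * b y else 0) - (if chk y u v w z then a y ^ 2 else 0) / 2
      - (if chk y w z u v then b y ^ 2 else 0) / 2 ≤ a y * b y := by
    intro y
    by_cases hc : chk y u v w z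
    · have hc' : chk y w z u v := chk_swap.2 hc
      have hnY : ¬ Y y := by
        rw [hY, not_not]
        exact s_of_chk hc
      rw [if_neg hnY, if_pos hc, if_pos hc']
      nlinarith [sq_nonneg (a y + b y)]
    · have hc' : ¬ chk y w z u v := fun h => hc (chk_swap.1 h)
      rw [if_neg hc, if_neg hc']
      by_cases hy : Y y
      · rw [if_pos hy]
        simp
      · rw [if_neg hy]
        have hs2 : ss y u v w z = 2 := by
          rw [hY, not_not] at hy
          exact hy
        have hzero : a y = 0 ∨ b y = 0 := by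
          rcases bits_not_chk hs2 hc with h | h
          · left
            simp only [hadef, Pi.sub_apply]
            rw [cavg_pbm_eq D h.1 h.2 g, sub_self]
          · right
            simp only [hbdef, Pi.sub_apply]
            have h1 : iv (y.1.Adj w u) + iv (y.1.Adj z u) ≠ 1 := by
              rw [iv_congr (adj_comm' y w u), iv_congr (adj_comm' y z u)]
              exact h.1
            have h2 : iv (y.1.Adj w v) + iv (y.1.Adj z v) ≠ 1 := by
              rw [iv_congr (adj_comm' y w v), iv_congr (adj_comm' y z v)]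
              exact h.2
            rw [cavg_pbm_eq D.swap h1 h2 g, sub_self]
        rcases hzero with h | h <;> simp [h]
  have hsum : (∑ y, if Y y then a y * b y else 0)
      - (∑ y, if chk y u v w z then a y ^ 2 else 0) / 2
      - (∑ y, if chk y w z u v then b y ^ 2 else 0) / 2 ≤ ∑ y, a y * b y := by
    rw [Finset.sum_div, Finset.sum_div, ← Finset.sum_sub_distrib, ← Finset.sum_sub_distrib]
    exact Finset.sum_le_sum (fun y _ => hpt y)
  have hW1 : WW u v w z f = ∑ y, if chk y u v w z then a y ^ 2 else 0 := by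
    unfold WW
    rw [ha]
  have hW2 : WW w z u v f = ∑ y, if chk y w z u v then b y ^ 2 else 0 := by
    unfold WW
    rw [hb]
  have hip : ip a b = ∑ y, a y * b y := rfl
  have hgdef : f - Qinv τ f = g := rfl
  rw [Qf_apply, Qf_apply]
  rw [hgdef] at hA
  rw [hA, hW1, hW2]
  have hB' : ip a b ≤ ip (g - cavg φ g) (g - cavg φ' g) := hB
  rw [hip] at hB'
  linarith

end Vale.Agent.Lib.P335
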