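import Vale.Agent.Lib.P335.GenDisjoint

/-!
The classes of the block of a vertex pair are slices: the free columns and the subset of them
joined to the first vertex.
-/

open Finset BigOperators

namespace Vale.Agent.Lib.P335

set_option linter.unusedSectionVars false

variable {n : ℕ} {d : Fin n → ℕ}

/-- The free columns of the pair `u v` in the state `x`. -/
def fr (u v : Fin n) (x : Realization d) (t : Fin n) : Prop :=
  ¬ inn u v t ∧ ¬ (x.1.Adj u t ↔ x.1.Adj v t)

/-- The set of free columns. -/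
abbrev KK (u v : Fin n) (x : Realization d) := {t : Fin n // fr u v x t}

noncomputable instance (u v : Fin n) (x : Realization d) : Fintype (KK u v x) := Fintype.ofFinite _

open Classical in
/-- The number of free columns joined to the first vertex. -/
noncomputable def aa (u v : Fin n) (x : Realization d) : ℕ :=
  (Finset.univ.filter (fun t : KK u v x => x.1.Adj u t.1)).card

section fixed

variable {u v : Fin n} {x : Realization d}

/-- Membership in a subset of the free columns, for an arbitrary vertex. -/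
def ins (S : Sl (KK u v x) (aa u v x)) (t : Fin n) : Prop :=
  ∃ h : fr u v x t, (⟨t, h⟩ : KK u v x) ∈ S.1

lemma ins_val {S : Sl (KK u v x) (aa u v x)} {t : KK u v x} : ins S t.1 ↔ t ∈ S.1 :=
  ⟨fun ⟨_, h⟩ => h, fun h => ⟨t.2, h⟩⟩

/-- The adjacency of `u`, `v` to a free column. -/
def RR (S : Sl (KK u v x) (aa u v x)) (p q : Fin n) : Prop :=
  (p = u ∧ ins S q) ∨ (p = v ∧ ¬ ins S q)

/-- The adjacency of the state in the class with the given subset. -/
def fibA (S : Sl (KK u v x) (aa u v x)) (p q : Fin n) : Prop :=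
  (fr u v x q ∧ inn u v p ∧ RR S p q) ∨ (fr u v x p ∧ inn u v q ∧ RR S q p)
    ∨ (¬ (fr u v x q ∧ inn u v p) ∧ ¬ (fr u v x p ∧ inn u v q) ∧ x.1.Adj p q)

lemma not_fr_inn {t : Fin n} (h : inn u v t) : ¬ fr u v x t := fun h' => h'.1 h

lemma fibA_row {S : Sl (KK u v x) (aa u v x)} {p q : Fin n} (hp : inn u v p) (hq : fr u v x q) :
    fibA S p q ↔ RR S p q := by
  have h1 := not_fr_inn (x := x) hp
  unfold fibA
  constructor
  · rintro (⟨_, _, h⟩ | ⟨h, _, _⟩ | ⟨h, _, _⟩)
    · exact h
    · exact absurd h h1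
    · exact absurd ⟨hq, hp⟩ h
  · intro h
    exact Or.inl ⟨hq, hp, h⟩

lemma fibA_col {S : Sl (KK u v x) (aa u v x)} {p q : Fin n} (hp : fr u v x p) (hq : inn u v q) :
    fibA S p q ↔ RR S q p := by
  have h1 := not_fr_inn (x := x) hq
  unfold fibA
  constructor
  · rintro (⟨h, _, _⟩ | ⟨_, _, h⟩ | ⟨_, h, _⟩)
    · exact absurd h h1
    · exact h
    · exact absurd ⟨hp, hq⟩ h
  · intro h
    exact Or.inr (Or.inl ⟨hp, hq, h⟩)

lemma fibA_else {S : Sl (KK u v x) (aa u v x)} {p q : Fin n} (h1 : ¬ (fr u v x q ∧ inn u v p))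
    (h2 : ¬ (fr u v x p ∧ inn u v q)) : fibA S p q ↔ x.1.Adj p q := by
  unfold fibA
  tauto

lemma RR_u (huv : u ≠ v) {S : Sl (KK u v x) (aa u v x)} {q : Fin n} : RR S u q ↔ ins S q := by
  unfold RR
  simp [huv]

lemma RR_v (huv : u ≠ v) {S : Sl (KK u v x) (aa u v x)} {q : Fin n} : RR S v q ↔ ¬ ins S q := by
  unfold RR
  simp [huv.symm]

lemma iv_not_add' (p : Prop) : iv (¬ p) + iv p = 1 := by
  by_cases h : p
  · rw [iv_false (not_not.2 h), iv_true h]
  · rw [iv_true h, iv_false h]

open Classical in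
lemma sum_fr (F : Fin n → ℕ) :
    ∑ s ∈ Finset.univ.filter (fr u v x), F s = ∑ t : KK u v x, F t.1 :=
  Finset.sum_subtype _ (fun s => by simp) F

lemma sum_ins (S : Sl (KK u v x) (aa u v x)) : ∑ t : KK u v x, iv (ins S t.1) = aa u v x := by
  classical
  have : ∀ t : KK u v x, iv (ins S t.1) = if t ∈ S.1 then 1 else 0 := by
    intro t
    by_cases h : t ∈ S.1
    · rw [if_pos h, iv_true (ins_val.2 h)]
    · rw [if_neg h, iv_false (fun h' => h (ins_val.1 h'))]
  simp only [this]
  rw [Finset.sum_ite_mem, Finset.univ_inter, Finset.sum_const, smul_eq_mul, mul_one, S.2]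

lemma sum_adj_u : ∑ t : KK u v x, iv (x.1.Adj u t.1) = aa u v x := by
  classical
  unfold aa
  rw [Finset.card_filter]
  exact Finset.sum_congr rfl (fun t _ => by unfold iv; congr)

lemma fr_v {t : Fin n} (h : fr u v x t) : x.1.Adj v t ↔ ¬ x.1.Adj u t := by
  have := h.2
  tauto

lemma fibA_deg_u (huv : u ≠ v) (S : Sl (KK u v x) (aa u v x)) : ∑ s, iv (fibA S u s) = d u := by
  classical
  have h1 : inn u v u := Or.inl rfl
  refine deg_of_compare x (Finset.univ.filter (fr u v x)) ?_ ?_
  · intro s hs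
    have hs' : ¬ fr u v x s := by simpa using hs
    refine fibA_else (fun h => hs' h.1) (fun h => not_fr_inn h1 h.1)
  · rw [sum_fr, sum_fr]
    have e : ∀ t : KK u v x, fibA S u t.1 ↔ RR S u t.1 := fun t => fibA_row h1 t.2
    simp only [iv_congr (e _)]
    simp only [iv_congr (RR_u huv)]
    rw [sum_ins, sum_adj_u]

lemma fibA_deg_v (huv : u ≠ v) (S : Sl (KK u v x) (aa u v x)) : ∑ s, iv (fibA S v s) = d v := by
  classical
  have h1 : inn u v v := Or.inr rfl
  refine deg_of_compare x (Finset.univ.filter (fr u v x)) ?_ ?_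
  · intro s hs
    have hs' : ¬ fr u v x s := by simpa using hs
    refine fibA_else (fun h => hs' h.1) (fun h => not_fr_inn h1 h.1)
  · rw [sum_fr, sum_fr]
    have e : ∀ t : KK u v x, fibA S v t.1 ↔ RR S v t.1 := fun t => fibA_row h1 t.2
    simp only [iv_congr (e _)]
    simp only [iv_congr (RR_v huv)]
    have e2 : ∀ t : KK u v x, x.1.Adj v t.1 ↔ ¬ x.1.Adj u t.1 := fun t => fr_v t.2
    simp only [iv_congr (e2 _)]
    have h3 : ∑ t : KK u v x, (iv (¬ ins S t.1) + iv (ins S t.1)) = Fintype.card (KK u v x) := by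
      simp [iv_not_add']
    have h4 : ∑ t : KK u v x, (iv (¬ x.1.Adj u t.1) + iv (x.1.Adj u t.1))
        = Fintype.card (KK u v x) := by
      simp [iv_not_add']
    rw [Finset.sum_add_distrib, sum_ins] at h3
    rw [Finset.sum_add_distrib, sum_adj_u] at h4
    omega

lemma fibA_deg (huv : u ≠ v) (S : Sl (KK u v x) (aa u v x)) (t₀ : Fin n) :
    ∑ s, iv (fibA S t₀ s) = d t₀ := by
  classical
  by_cases h1 : inn u v t₀
  · rcases h1 with rfl | rfl
    · exact fibA_deg_u huv S
    · exact fibA_deg_v huv S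
  by_cases h2 : fr u v x t₀
  · refine deg_of_compare x {u, v} ?_ ?_
    · intro s hs
      simp only [Finset.mem_insert, Finset.mem_singleton, not_or] at hs
      refine fibA_else (fun h => h1 h.2) ?_
      rintro ⟨_, h | h⟩
      · exact hs.1 h
      · exact hs.2 h
    · rw [Finset.sum_pair huv, Finset.sum_pair huv]
      rw [iv_congr (fibA_col h2 (Or.inl rfl)), iv_congr (fibA_col h2 (Or.inr rfl))]
      rw [iv_congr (RR_u huv), iv_congr (RR_v huv), add_comm, iv_not_add']
      have e2 := fr_v h2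
      rw [iv_congr (adj_comm' x t₀ u), iv_congr (adj_comm' x t₀ v), iv_congr e2, add_comm,
        iv_not_add']
  · refine deg_of_compare x ∅ ?_ (by simp)
    intro s _
    refine fibA_else (fun h => h1 h.2) (fun h => h2 h.1)

/-- The state in the class of `x` with the given subset of free columns. -/
noncomputable def iot (huv : u ≠ v) (S : Sl (KK u v x) (aa u v x)) : Realization d :=
  mkG (fibA S)
    (by
      intro p q h
      rcases h with ⟨h1, h2, h3⟩ | ⟨h1, h2, h3⟩ | ⟨h1, h2, h3⟩
      · exact Or.inr (Or.inl ⟨h1, h2, h3⟩)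
      · exact Or.inl ⟨h1, h2, h3⟩
      · exact Or.inr (Or.inr ⟨h2, h1, h3.symm⟩))
    (by
      intro p h
      rcases h with ⟨h1, h2, _⟩ | ⟨h1, h2, _⟩ | ⟨_, _, h3⟩
      · exact not_fr_inn h2 h1
      · exact not_fr_inn h2 h1
      · exact x.1.loopless.irrefl p h3)
    (fibA_deg huv S)

lemma iot_adj (huv : u ≠ v) (S : Sl (KK u v x) (aa u v x)) (p q : Fin n) :
    (iot huv S).1.Adj p q ↔ fibA S p q := Iff.rfl

lemma iot_mem (huv : u ≠ v) (S : Sl (KK u v x) (aa u v x)) :
    off (pb u v) (iot huv S) = off (pb u v) x := by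
  rw [off_eq_iff]
  intro a b hab
  rw [iot_adj]
  refine fibA_else ?_ ?_
  · rintro ⟨h1, h2⟩
    exact hab (Or.inl ⟨h2, h1.1⟩)
  · rintro ⟨h1, h2⟩
    exact hab (Or.inr ⟨h1.1, h2⟩)

lemma iot_u (huv : u ≠ v) (S : Sl (KK u v x) (aa u v x)) (t : KK u v x) :
    (iot huv S).1.Adj u t.1 ↔ t ∈ S.1 := by
  rw [iot_adj, fibA_row (Or.inl rfl) t.2, RR_u huv, ins_val]

lemma iot_v (huv : u ≠ v) (S : Sl (KK u v x) (aa u v x)) (t : KK u v x) :
    (iot huv S).1.Adj v t.1 ↔ t ∉ S.1 := by
  rw [iot_adj, fibA_row (Or.inr rfl) t.2, RR_v huv, ins_val]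

/-- A frozen column stays as it is within a class. -/
lemma frozen_col (huv : u ≠ v) {y : Realization d} (hy : off (pb u v) y = off (pb u v) x)
    {s : Fin n} (h1 : ¬ inn u v s) (h2 : ¬ fr u v x s) :
    (y.1.Adj u s ↔ x.1.Adj u s) ∧ (y.1.Adj v s ↔ x.1.Adj v s) := by
  have h3 : x.1.Adj u s ↔ x.1.Adj v s := by
    by_contra h
    exact h2 ⟨h1, h⟩
  have h4 := col_inv' huv h1 hy
  refine iv_pair_frozen h4 ?_
  by_cases h5 : x.1.Adj v s
  · rw [iv_true (h3.2 h5), iv_true h5]; norm_num
  · rw [iv_false (fun h6 => h5 (h3.1 h6)), iv_false h5]; norm_num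

/-- A free column has exactly one of the two edges within a class. -/
lemma free_col (huv : u ≠ v) {y : Realization d} (hy : off (pb u v) y = off (pb u v) x)
    (t : KK u v x) : y.1.Adj v t.1 ↔ ¬ y.1.Adj u t.1 := by
  have h4 := col_inv' huv t.2.1 hy
  have h5 := iv_congr (fr_v t.2)
  have h6 := iv_not_add' (x.1.Adj u t.1)
  by_cases h7 : y.1.Adj u t.1 <;> by_cases h8 : y.1.Adj v t.1 <;>
    simp_all [iv_true, iv_false] <;> omega

/-- A state of the class is determined by its neighbours among the free columns. -/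
lemma fiber_ext (huv : u ≠ v) {y y' : Realization d} (hy : off (pb u v) y = off (pb u v) x)
    (hy' : off (pb u v) y' = off (pb u v) x) (h : ∀ t : KK u v x, y.1.Adj u t.1 ↔ y'.1.Adj u t.1) :
    y = y' := by
  have e1 := off_eq_iff.1 hy
  have e2 := off_eq_iff.1 hy'
  have key : ∀ p q, inn u v p → ¬ inn u v q → (y.1.Adj p q ↔ y'.1.Adj p q) := by
    intro p q hp hq
    by_cases hf : fr u v x q
    · have h1 := h ⟨q, hf⟩
      rcases hp with rfl | rfl
      · exact h1
      · have h2 := free_col huv hy ⟨q, hf⟩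
        have h3 := free_col huv hy' ⟨q, hf⟩
        simp only at h1 h2 h3
        rw [h2, h3, h1]
    · have h1 := frozen_col huv hy hq hf
      have h2 := frozen_col huv hy' hq hf
      rcases hp with rfl | rfl
      · rw [h1.1, h2.1]
      · rw [h1.2, h2.2]
  apply state_ext
  intro a b
  by_cases hp : pb u v a b
  · rcases hp with ⟨h1, h2⟩ | ⟨h1, h2⟩
    · exact key a b h1 h2
    · rw [adj_comm' y', adj_comm' y]
      exact key b a h2 h1
  · rw [e1 a b hp, e2 a b hp]

open Classical in
/-- The subset of a state of the class has the right size. -/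
lemma card_sof (huv : u ≠ v) {y : Realization d} (hy : off (pb u v) y = off (pb u v) x) :
    (Finset.univ.filter (fun t : KK u v x => y.1.Adj u t.1)).card = aa u v x := by
  classical
  have e := off_eq_iff.1 hy
  have h1 : ∑ s ∈ Finset.univ.filter (fr u v x), iv (y.1.Adj u s)
      = ∑ s ∈ Finset.univ.filter (fr u v x), iv (x.1.Adj u s) := by
    apply sum_iv_off
    intro s hs
    have hs' : ¬ fr u v x s := by simpa using hs
    by_cases h2 : inn u v s
    · refine e u s ?_
      unfold pb
      have : inn u v u := Or.inl rfl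
      tauto
    · exact (frozen_col huv hy h2 hs').1
  rw [sum_fr, sum_fr, sum_adj_u] at h1
  rw [Finset.card_filter, ← h1]
  exact Finset.sum_congr rfl (fun t _ => by unfold iv; congr)

/-- The subset of a state of the class. -/
noncomputable def sof (huv : u ≠ v) {y : Realization d} (hy : off (pb u v) y = off (pb u v) x) :
    Sl (KK u v x) (aa u v x) := by
  classical
  exact ⟨Finset.univ.filter (fun t : KK u v x => y.1.Adj u t.1), card_sof huv hy⟩

lemma mem_sof (huv : u ≠ v) {y : Realization d} (hy : off (pb u v) y = off (pb u v) x)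
    (t : KK u v x) : t ∈ (sof huv hy).1 ↔ y.1.Adj u t.1 := by
  classical
  simp [sof]

lemma iot_sof (huv : u ≠ v) {y : Realization d} (hy : off (pb u v) y = off (pb u v) x) :
    iot huv (sof huv hy) = y := by
  refine fiber_ext huv (iot_mem huv _) hy ?_
  intro t
  rw [iot_u, mem_sof]

lemma iot_inj (huv : u ≠ v) {S S' : Sl (KK u v x) (aa u v x)} (h : iot huv S = iot huv S') :
    S = S' := by
  apply Subtype.ext
  ext t
  rw [← iot_u huv S, ← iot_u huv S', h]

/-- Sums over a class are sums over the slice. -/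
lemma sum_cls_iot (huv : u ≠ v) (G : Realization d → ℝ) :
    ∑ y ∈ cls (off (pb u v)) x, G y = ∑ S : Sl (KK u v x) (aa u v x), G (iot huv S) := by
  symm
  refine Finset.sum_bij (fun S _ => iot huv S) ?_ ?_ ?_ ?_
  · intro S _
    exact mem_cls.2 (iot_mem huv S)
  · intro S _ S' _ h
    exact iot_inj huv h
  · intro y hy
    exact ⟨sof huv (mem_cls.1 hy), Finset.mem_univ _, iot_sof huv _⟩
  · intro _ _; rfl

/-- The size of the class. -/
lemma card_cls_iot (huv : u ≠ v) :
    ((cls (off (pb u v)) x).card : ℝ) = (Fintype.card (Sl (KK u v x) (aa u v x)) : ℝ) := by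
  have := sum_cls_iot (x := x) huv (fun _ => (1 : ℝ))
  simpa using this

/-- The average over the class is the mean on the slice. -/
lemma cavg_iot (huv : u ≠ v) (f : Realization d → ℝ) (S : Sl (KK u v x) (aa u v x)) :
    cavg (off (pb u v)) f (iot huv S)
      = mn (fun S' : Sl (KK u v x) (aa u v x) => f (iot huv S')) := by
  rw [cavg_congr f (iot_mem huv S)]
  unfold cavg mn
  rw [sum_cls_iot huv, card_cls_iot huv]

end fixed

end Vale.Agent.Lib.P335
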