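import Vale.Agent.Lib.P335.GenFiber

/-!
The inequality on a class of the block of a vertex pair, from the inequality on the slice.
-/

open Finset BigOperators

namespace Vale.Agent.Lib.P335

set_option linter.unusedSectionVars false

section slicepart

variable {K : Type*} [Fintype K] [DecidableEq K] {a : ℕ}

open Classical in
/-- The average over the sets with the same behaviour at `w`, `z` as a separating set, for the
symmetrized function, is the average over all separating sets. -/
lemma avg_half {w z : K} {S : Sl K a} (hS : hh w z S.1) (g : Sl K a → ℝ) :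
    (∑ S', if (w ∈ S'.1 ↔ w ∈ S.1) ∧ (z ∈ S'.1 ↔ z ∈ S.1) then (g S' + g (sw w z S')) / 2 else 0)
      / (∑ S' : Sl K a, if (w ∈ S'.1 ↔ w ∈ S.1) ∧ (z ∈ S'.1 ↔ z ∈ S.1) then (1 : ℝ) else 0)
      = avgH w z g := by
  set ind : Sl K a → ℝ := fun S' =>
    if (w ∈ S'.1 ↔ w ∈ S.1) ∧ (z ∈ S'.1 ↔ z ∈ S.1) then (1 : ℝ) else 0 with hind
  have hadd : ∀ S', ind S' + ind (sw w z S') = hr w z S' := by
    intro S'
    simp only [hind, hr, mem_sw, Equiv.swap_apply_left, Equiv.swap_apply_right, hh]
    unfold hh at hS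
    by_cases h1 : w ∈ S'.1 <;> by_cases h2 : z ∈ S'.1 <;> by_cases h3 : w ∈ S.1 <;>
      by_cases h4 : z ∈ S.1 <;> simp_all
  have hsw : ∀ G : Sl K a → ℝ, ∑ S', G (sw w z S') = ∑ S', G S' := sum_invol (sw_sw w z)
  set N1 : ℝ := ∑ S', ind S' with hN1
  have h1 : ∑ S' : Sl K a, hr w z S' = 2 * N1 := by
    simp only [← hadd, Finset.sum_add_distrib]
    rw [hsw ind]
    ring
  have h2 : ∑ S', g S' * hr w z S' = (∑ S', ind S' * g S') + ∑ S', ind S' * g (sw w z S') := by
    have e : ∑ S', ind S' * g (sw w z S') = ∑ S', ind (sw w z S') * g S' := by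
      rw [← hsw (fun S' => ind (sw w z S') * g S')]
      simp only [sw_sw]
    rw [e, ← Finset.sum_add_distrib]
    refine Finset.sum_congr rfl (fun S' _ => ?_)
    rw [← hadd]
    ring
  have h3 : (∑ S', if (w ∈ S'.1 ↔ w ∈ S.1) ∧ (z ∈ S'.1 ↔ z ∈ S.1) then
        (g S' + g (sw w z S')) / 2 else 0)
      = ((∑ S', ind S' * g S') + ∑ S', ind S' * g (sw w z S')) / 2 := by
    rw [← Finset.sum_add_distrib, Finset.sum_div]
    refine Finset.sum_congr rfl (fun S' _ => ?_)
    simp only [hind]
    split_ifs <;> ring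
  rw [h3]
  change ((∑ S', ind S' * g S') + ∑ S', ind S' * g (sw w z S')) / 2 / N1 = _
  unfold avgH
  rw [h1, h2, div_div, mul_comm 2 N1]

end slicepart

variable {n : ℕ} {d : Fin n → ℕ} {u v : Fin n} {x : Realization d}

lemma dis4_of_KK (huv : u ≠ v) {w z : KK u v x} (hwz : w ≠ z) : Dis4 u v w.1 z.1 := by
  have h1 : ∀ t : KK u v x, u ≠ t.1 ∧ v ≠ t.1 := by
    intro t
    constructor
    · intro h
      exact t.2.1 (Or.inl h.symm)
    · intro h
      exact t.2.1 (Or.inr h.symm)
  exact ⟨huv, (h1 w).1, (h1 z).1, (h1 w).2, (h1 z).2, fun h => hwz (Subtype.ext h)⟩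

lemma chk_iot (huv : u ≠ v) (w z : KK u v x) (S : Sl (KK u v x) (aa u v x)) :
    chk (iot huv S) u v w.1 z.1 ↔ hh w z S.1 := by
  unfold chk chk1 hh
  rw [iot_u, iot_u, iot_v, iot_v]
  tauto

lemma tog_iot (huv : u ≠ v) {w z : KK u v x} (hwz : w ≠ z) (S : Sl (KK u v x) (aa u v x)) :
    tog u v w.1 z.1 (iot huv S) = iot huv (sw w z S) := by
  have D := dis4_of_KK huv hwz
  by_cases hS : hh w z S.1
  · have hc : chk (iot huv S) u v w.1 z.1 := (chk_iot huv w z S).2 hS
    refine fiber_ext huv ?_ (iot_mem huv _) ?_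
    · rw [off_tog_left D, iot_mem]
    · intro t
      rw [iot_u, mem_sw, tog_adj D hc]
      by_cases h1 : t = w
      · subst h1
        rw [togA_cel (cel_uw u v t.1 z.1), iot_u, Equiv.swap_apply_left]
        unfold hh at hS
        tauto
      by_cases h2 : t = z
      · subst h2
        rw [togA_cel (cel_uz u v w.1 t.1), iot_u, Equiv.swap_apply_right]
        unfold hh at hS
        tauto
      · have h3 : ¬ cel u v w.1 z.1 u t.1 := by
          rintro (⟨_, h4 | h4⟩ | ⟨h4, _⟩)
          · exact h1 (Subtype.ext h4)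
          · exact h2 (Subtype.ext h4)
          · exact D.not_inn (Or.inl rfl) h4
        rw [togA_not_cel h3, iot_u, Equiv.swap_apply_of_ne_of_ne h1 h2]
  · rw [tog_of_not (fun h => hS ((chk_iot huv w z S).1 h)), sw_of_not_hh hS]

/-- Without two free columns there is no checkerboard in a class. -/
lemma not_chk_of_not_fr (huv : u ≠ v) {y : Realization d} (hy : off (pb u v) y = off (pb u v) x)
    {w z : Fin n} (D : Dis4 u v w z) (h : ¬ fr u v x w ∨ ¬ fr u v x z) : ¬ chk y u v w z := by
  intro hc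
  have hb : ¬ (y.1.Adj u w ↔ y.1.Adj v w) ∧ ¬ (y.1.Adj u z ↔ y.1.Adj v z) := by
    rcases hc with ⟨h1, h2, h3, h4⟩ | ⟨h1, h2, h3, h4⟩
    · exact ⟨by tauto, by tauto⟩
    · exact ⟨by tauto, by tauto⟩
  rcases h with h | h
  · have h1 : ¬ inn u v w := D.swap.not_inn (Or.inl rfl)
    have h2 := frozen_col huv hy h1 h
    have h3 : x.1.Adj u w ↔ x.1.Adj v w := by
      by_contra h'
      exact h ⟨h1, h'⟩
    exact hb.1 (by rw [h2.1, h2.2, h3])
  · have h1 : ¬ inn u v z := D.swap.not_inn (Or.inr rfl)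
    have h2 := frozen_col huv hy h1 h
    have h3 : x.1.Adj u z ↔ x.1.Adj v z := by
      by_contra h'
      exact h ⟨h1, h'⟩
    exact hb.2 (by rw [h2.1, h2.2, h3])

open Classical in
/-- Sums over a class of the smaller block, on the slice. -/
lemma sum_cls_pbm (huv : u ≠ v) {w z : KK u v x} (hwz : w ≠ z) (S : Sl (KK u v x) (aa u v x))
    (G : Realization d → ℝ) :
    ∑ y ∈ cls (off (pbm u v w.1 z.1)) (iot huv S), G y
      = ∑ S' : Sl (KK u v x) (aa u v x),
          if (w ∈ S'.1 ↔ w ∈ S.1) ∧ (z ∈ S'.1 ↔ z ∈ S.1) then G (iot huv S') else 0 := by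
  have D := dis4_of_KK huv hwz
  rw [← Finset.sum_filter]
  symm
  refine Finset.sum_bij (fun S' _ => iot huv S') ?_ ?_ ?_ ?_
  · intro S' hS'
    rw [Finset.mem_filter] at hS'
    obtain ⟨_, h1, h2⟩ := hS'
    rw [mem_cls, off_eq_iff]
    intro a b hab
    have e1 := off_eq_iff.1 (iot_mem huv S')
    have e2 := off_eq_iff.1 (iot_mem huv S)
    by_cases hp : pb u v a b
    · rcases (pb_iff D).1 hp with h3 | h3
      · exact absurd h3 hab
      · refine adj_of_cel_four ?_ ?_ ?_ ?_ h3
        · rw [iot_u, iot_u]; exact h1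
        · rw [iot_u, iot_u]; exact h2
        · rw [iot_v, iot_v]; exact not_congr h1
        · rw [iot_v, iot_v]; exact not_congr h2
    · rw [e1 a b hp, e2 a b hp]
  · intro S' _ S'' _ h
    exact iot_inj huv h
  · intro y hy
    have hy1 := mem_cls.1 hy
    have hy2 : off (pb u v) y = off (pb u v) (iot huv S) := off_mono (fun a b h => h.1) hy1
    rw [iot_mem] at hy2
    refine ⟨sof huv hy2, ?_, iot_sof huv hy2⟩
    rw [Finset.mem_filter]
    refine ⟨Finset.mem_univ _, ?_, ?_⟩
    · rw [mem_sof, ← iot_u huv S]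
      exact off_eq_iff.1 hy1 _ _ (cel_not_pbm (cel_uw _ _ _ _))
    · rw [mem_sof, ← iot_u huv S]
      exact off_eq_iff.1 hy1 _ _ (cel_not_pbm (cel_uz _ _ _ _))
  · intro _ _; rfl

/-- The correction term on the slice. -/
lemma A1_iot (huv : u ≠ v) {w z : KK u v x} (hwz : w ≠ z) (S : Sl (KK u v x) (aa u v x))
    (hS : hh w z S.1) (f : Realization d → ℝ) :
    A1 u v w.1 z.1 f (iot huv S)
      = avgH w z (fun S' : Sl (KK u v x) (aa u v x) => f (iot huv S'))
        - mn (fun S' : Sl (KK u v x) (aa u v x) => f (iot huv S')) := by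
  classical
  have D := dis4_of_KK huv hwz
  set g : Sl (KK u v x) (aa u v x) → ℝ := fun S' => f (iot huv S') with hg
  set τ := tog (d := d) u v w.1 z.1 with hτ
  have h1 : cavg (off (pb u v)) (smf τ f) (iot huv S) = mn g := by
    have : cavg (off (pb u v)) (smf τ f) = cavg (off (pb u v)) f := by
      unfold smf
      rw [cavg_sub, cavg_Qinv (tog_tog u v w.1 z.1) (fun x => off_tog_left D), sub_zero]
    rw [this]
    exact cavg_iot huv f S
  have h2 : cavg (off (pbm u v w.1 z.1)) (smf τ f) (iot huv S) = avgH w z g := by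
    rw [← avg_half hS g]
    unfold cavg
    rw [sum_cls_pbm huv hwz]
    have hcard : ((cls (off (pbm u v w.1 z.1)) (iot huv S)).card : ℝ)
        = ∑ S' : Sl (KK u v x) (aa u v x),
          if (w ∈ S'.1 ↔ w ∈ S.1) ∧ (z ∈ S'.1 ↔ z ∈ S.1) then (1 : ℝ) else 0 := by
      have := sum_cls_pbm huv hwz S (fun _ => (1 : ℝ))
      simpa using this
    rw [hcard]
    congr 1
    refine Finset.sum_congr rfl (fun S' _ => ?_)
    by_cases hP : (w ∈ S'.1 ↔ w ∈ S.1) ∧ (z ∈ S'.1 ↔ z ∈ S.1)
    · rw [if_pos hP, if_pos hP]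
      unfold smf
      simp only [Pi.sub_apply, Qinv_apply]
      rw [hτ, tog_iot huv hwz]
      simp only [hg]
      ring
    · rw [if_neg hP, if_neg hP]
  unfold A1
  simp only [Pi.sub_apply]
  rw [h1, h2]

/-- The term of the sum over `w`, `z` on a class. -/
noncomputable def TT (u v w z : Fin n) (f : Realization d → ℝ) (x : Realization d) : ℝ := by
  classical
  exact if Dis4 u v w z then
    ∑ y ∈ cls (off (pb u v)) x, ((Qinv (tog u v w z) f y) ^ 2
      - if chk y u v w z then A1 u v w z f y ^ 2 else 0)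
  else 0

lemma TT_of_not_fr (huv : u ≠ v) {w z : Fin n} (h : ¬ fr u v x w ∨ ¬ fr u v x z)
    (f : Realization d → ℝ) : TT u v w z f x = 0 := by
  classical
  unfold TT
  by_cases D : Dis4 u v w z
  · rw [if_pos D]
    refine Finset.sum_eq_zero (fun y hy => ?_)
    have hc := not_chk_of_not_fr huv (mem_cls.1 hy) D h
    rw [if_neg hc, Qinv_apply, tog_of_not hc]
    simp
  · rw [if_neg D]

lemma TT_KK (huv : u ≠ v) (w z : KK u v x) (f : Realization d → ℝ) :
    TT u v w.1 z.1 f x
      = ip (Qinv (sw w z) (fun S' : Sl (KK u v x) (aa u v x) => f (iot huv S')))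
          (Qinv (sw w z) (fun S' : Sl (KK u v x) (aa u v x) => f (iot huv S')))
        - Wt w z (fun S' : Sl (KK u v x) (aa u v x) => f (iot huv S')) := by
  classical
  set g : Sl (KK u v x) (aa u v x) → ℝ := fun S' => f (iot huv S') with hg
  by_cases hwz : w = z
  · subst hwz
    have hD : ¬ Dis4 u v w.1 w.1 := fun D => D.2.2.2.2.2 rfl
    unfold TT
    rw [if_neg hD, Qinv_sw_self, ip_zero_left]
    unfold Wt
    simp [hr_self]
  · have D := dis4_of_KK huv hwz
    unfold TT
    rw [if_pos D, sum_cls_iot huv, Finset.sum_sub_distrib]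
    congr 1
    · unfold ip
      refine Finset.sum_congr rfl (fun S _ => ?_)
      simp only [Qinv_apply]
      rw [tog_iot huv hwz]
      ring
    · unfold Wt
      rw [Finset.sum_mul]
      refine Finset.sum_congr rfl (fun S _ => ?_)
      by_cases hS : hh w z S.1
      · rw [if_pos ((chk_iot huv w z S).2 hS), A1_iot huv hwz S hS]
        simp only [hr, if_pos hS, one_mul]
        rfl
      · rw [if_neg (fun h => hS ((chk_iot huv w z S).1 h))]
        simp only [hr, if_neg hS, zero_mul]

open Classical in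
lemma sum_over_KK (F : Fin n → ℝ) (h : ∀ t, ¬ fr u v x t → F t = 0) :
    ∑ t, F t = ∑ t : KK u v x, F t.1 := by
  have h1 : ∑ t, F t = ∑ t ∈ Finset.univ.filter (fr u v x), F t := by
    symm
    apply Finset.sum_filter_of_ne
    intro t _ ht
    by_contra hf
    exact ht (h t hf)
  rw [h1]
  exact Finset.sum_subtype _ (fun s => by simp) F

/-- The inequality on a class of the block of a vertex pair. -/
theorem fiber_ineq (huv : u ≠ v) (f : Realization d → ℝ) (x : Realization d) :
    2 * ∑ y ∈ cls (off (pb u v)) x, (Qf (off (pb u v)) f y) ^ 2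
      ≤ ∑ w, ∑ z, TT u v w z f x := by
  set g : Sl (KK u v x) (aa u v x) → ℝ := fun S' => f (iot huv S') with hg
  have hJ := slice_J g
  have h1 : ∑ y ∈ cls (off (pb u v)) x, (Qf (off (pb u v)) f y) ^ 2 = ip (cen g) (cen g) := by
    rw [sum_cls_iot huv]
    unfold ip
    refine Finset.sum_congr rfl (fun S _ => ?_)
    rw [Qf_apply]
    simp only [Pi.sub_apply]
    rw [cavg_iot huv]
    simp only [cen, hg]
    ring
  have h2 : ∑ w, ∑ z, TT u v w z f x
      = ∑ w : KK u v x, ∑ z : KK u v x, (ip (Qinv (sw w z) g) (Qinv (sw w z) g) - Wt w z g) := by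
    rw [sum_over_KK (u := u) (v := v) (x := x)]
    · refine Finset.sum_congr rfl (fun w _ => ?_)
      rw [sum_over_KK (u := u) (v := v) (x := x)]
      · exact Finset.sum_congr rfl (fun z _ => TT_KK huv w z f)
      · intro t ht
        exact TT_of_not_fr huv (Or.inr ht) f
    · intro t ht
      exact Finset.sum_eq_zero (fun z _ => TT_of_not_fr huv (Or.inl ht) f)
  rw [h1, h2]
  exact hJ

open Classical in
/-- The inequality for a vertex pair. -/
theorem pair_ineq (huv : u ≠ v) (f : Realization d → ℝ) :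
    2 * ip (Qf (off (pb u v)) f) (Qf (off (pb u v)) f)
      ≤ ∑ w, ∑ z, (if Dis4 u v w z then
          ip (Qinv (tog u v w z) f) (Qinv (tog u v w z) f) - WW u v w z f else 0) := by
  set A : Realization d → ℝ := fun y =>
    (∑ w, ∑ z, (if Dis4 u v w z then (Qinv (tog u v w z) f y) ^ 2
      - (if chk y u v w z then A1 u v w z f y ^ 2 else 0) else 0))
    - 2 * (Qf (off (pb u v)) f y) ^ 2 with hA
  have h1 : 0 ≤ ∑ y, A y := by
    refine sum_nonneg_of_cls (off (pb u v)) A (fun x => ?_)
    have h2 := fiber_ineq huv f x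
    have h3 : ∑ y ∈ cls (off (pb u v)) x, A y = (∑ w, ∑ z, TT u v w z f x)
        - 2 * ∑ y ∈ cls (off (pb u v)) x, (Qf (off (pb u v)) f y) ^ 2 := by
      simp only [hA]
      rw [Finset.sum_sub_distrib, ← Finset.mul_sum]
      congr 1
      rw [Finset.sum_comm]
      refine Finset.sum_congr rfl (fun w _ => ?_)
      rw [Finset.sum_comm]
      refine Finset.sum_congr rfl (fun z _ => ?_)
      unfold TT
      by_cases D : Dis4 u v w z
      · rw [if_pos D]
        refine Finset.sum_congr rfl (fun y _ => ?_)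
        rw [if_pos D]
      · rw [if_neg D]
        exact Finset.sum_eq_zero (fun y _ => by rw [if_neg D])
    rw [h3]
    linarith
  have h4 : ∑ y, A y = (∑ w, ∑ z, (if Dis4 u v w z then
      ip (Qinv (tog u v w z) f) (Qinv (tog u v w z) f) - WW u v w z f else 0))
      - 2 * ip (Qf (off (pb u v)) f) (Qf (off (pb u v)) f) := by
    simp only [hA]
    rw [Finset.sum_sub_distrib, ← Finset.mul_sum]
    congr 1
    · rw [Finset.sum_comm]
      refine Finset.sum_congr rfl (fun w _ => ?_)
      rw [Finset.sum_comm]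
      refine Finset.sum_congr rfl (fun z _ => ?_)
      by_cases D : Dis4 u v w z
      · rw [if_pos D]
        unfold ip WW
        rw [← Finset.sum_sub_distrib]
        refine Finset.sum_congr rfl (fun y _ => ?_)
        rw [if_pos D]
        ring
      · rw [if_neg D]
        exact Finset.sum_eq_zero (fun y _ => by rw [if_neg D])
    · unfold ip
      congr 1
      exact Finset.sum_congr rfl (fun y _ => by ring)
  rw [h4] at h1
  linarith

end Vale.Agent.Lib.P335
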