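import Vale.Agent.Lib.P335.GraphDefs
import Vale.Agent.Lib.P335.Mixing

/-!
Basic facts on the switch chain on simple graphs: perfect matchings of four points, degrees are
preserved, symmetry of the kernel.
-/

open Finset BigOperators

namespace Vale.Agent.Lib.P335

set_option linter.unusedSectionVars false

variable {n : ℕ}

/-- The pairing `{p q, u v}` on four distinct points. -/
lemma pm_of_four {S : Finset (Fin n)} {p q u v : Fin n} (hpq : p ≠ q) (hpu : p ≠ u) (hpv : p ≠ v)
    (hqu : q ≠ u) (hqv : q ≠ v) (huv : u ≠ v) (hS : ∀ a, a ∈ S ↔ a = p ∨ a = q ∨ a = u ∨ a = v) :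
    IsPerfectMatching S {s(p, q), s(u, v)} := by
  refine ⟨?_, ?_, ?_⟩
  · rw [Finset.card_pair]
    intro h
    rw [Sym2.eq_iff] at h
    rcases h with ⟨h1, _⟩ | ⟨h1, _⟩
    · exact hpu h1
    · exact hpv h1
  · intro e he
    simp only [Finset.mem_insert, Finset.mem_singleton] at he
    rcases he with rfl | rfl
    · exact ⟨p, (hS p).2 (by simp), q, (hS q).2 (by simp), hpq, rfl⟩
    · exact ⟨u, (hS u).2 (by simp), v, (hS v).2 (by simp), huv, rfl⟩
  · intro a ha
    rcases (hS a).1 ha with rfl | rfl | rfl | rfl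
    · exact ⟨s(a, q), by simp, Sym2.mem_mk_left _ _⟩
    · exact ⟨s(p, a), by simp, Sym2.mem_mk_right _ _⟩
    · exact ⟨s(a, v), by simp, Sym2.mem_mk_left _ _⟩
    · exact ⟨s(u, a), by simp, Sym2.mem_mk_right _ _⟩

/-- Any perfect matching containing `pq` is `{pq, uv}`. -/
lemma pm_form_aux {F : Finset (Sym2 (Fin n))} (hF : F.card = 2) {p q u v : Fin n}
    (he : s(p, q) ∈ F) (huv : u ≠ v) (hu : u ≠ p ∧ u ≠ q) (hv : v ≠ p ∧ v ≠ q)
    (hcu : ∃ e ∈ F, u ∈ e) (hcv : ∃ e ∈ F, v ∈ e) : F = {s(p, q), s(u, v)} := by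
  obtain ⟨a, b, hab, rfl⟩ := Finset.card_eq_two.1 hF
  have hnot : ∀ {w : Fin n}, w ≠ p ∧ w ≠ q → w ∉ s(p, q) := by
    intro w hw hmem
    rw [Sym2.mem_iff] at hmem
    rcases hmem with h | h
    · exact hw.1 h
    · exact hw.2 h
  simp only [Finset.mem_insert, Finset.mem_singleton] at he
  rcases he with he | he
  · -- s(p,q) = a, so both u,v lie in b
    subst he
    have h1 : u ∈ b := by
      obtain ⟨e, he, hue⟩ := hcu
      simp only [Finset.mem_insert, Finset.mem_singleton] at he
      rcases he with rfl | rfl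
      · exact absurd hue (hnot hu)
      · exact hue
    have h2 : v ∈ b := by
      obtain ⟨e, he, hue⟩ := hcv
      simp only [Finset.mem_insert, Finset.mem_singleton] at he
      rcases he with rfl | rfl
      · exact absurd hue (hnot hv)
      · exact hue
    rw [(Sym2.mem_and_mem_iff huv).1 ⟨h1, h2⟩]
  · subst he
    have h1 : u ∈ a := by
      obtain ⟨e, he, hue⟩ := hcu
      simp only [Finset.mem_insert, Finset.mem_singleton] at he
      rcases he with rfl | rfl
      · exact hue
      · exact absurd hue (hnot hu)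
    have h2 : v ∈ a := by
      obtain ⟨e, he, hue⟩ := hcv
      simp only [Finset.mem_insert, Finset.mem_singleton] at he
      rcases he with rfl | rfl
      · exact hue
      · exact absurd hue (hnot hv)
    rw [(Sym2.mem_and_mem_iff huv).1 ⟨h1, h2⟩, Finset.pair_comm]

/-- The perfect matchings of a four element set. -/
lemma pm_enum {S : Finset (Fin n)} {w x y z : Fin n} (h1 : w ≠ x) (h2 : w ≠ y) (h3 : w ≠ z)
    (h4 : x ≠ y) (h5 : x ≠ z) (h6 : y ≠ z) (hS : ∀ a, a ∈ S ↔ a = w ∨ a = x ∨ a = y ∨ a = z)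
    (F : Finset (Sym2 (Fin n))) :
    IsPerfectMatching S F ↔
      F = {s(w, x), s(y, z)} ∨ F = {s(w, y), s(x, z)} ∨ F = {s(w, z), s(x, y)} := by
  constructor
  · rintro ⟨hc, he, hcov⟩
    obtain ⟨e, heF, hwe⟩ := hcov w ((hS w).2 (by simp))
    obtain ⟨u, hu, v, hv, huv, rfl⟩ := he e heF
    -- e = s(w, t)
    obtain ⟨t, ht, htw, het⟩ : ∃ t, t ∈ S ∧ t ≠ w ∧ s(u, v) = s(w, t) := by
      rw [Sym2.mem_iff] at hwe
      rcases hwe with rfl | rfl
      · exact ⟨v, hv, huv.symm, rfl⟩
      · exact ⟨u, hu, huv, Sym2.eq_swap⟩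
    rw [het] at heF
    have hcx := hcov x ((hS x).2 (by simp))
    have hcy := hcov y ((hS y).2 (by simp))
    have hcz := hcov z ((hS z).2 (by simp))
    rcases (hS t).1 ht with rfl | rfl | rfl | rfl
    · exact absurd rfl htw
    · left
      exact pm_form_aux hc heF h6 ⟨h2.symm, h4.symm⟩ ⟨h3.symm, h5.symm⟩ hcy hcz
    · right; left
      exact pm_form_aux hc heF h5 ⟨h1.symm, h4⟩ ⟨h3.symm, h6.symm⟩ hcx hcz
    · right; right
      exact pm_form_aux hc heF h4 ⟨h1.symm, h5⟩ ⟨h2.symm, h6⟩ hcx hcy
  · rintro (rfl | rfl | rfl)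
    · exact pm_of_four h1 h2 h3 h4 h5 h6 hS
    · exact pm_of_four h2 h1 h3 h4.symm h6 h5 (by intro a; rw [hS]; tauto)
    · exact pm_of_four h3 h1 h2 h5.symm h6.symm h4 (by intro a; rw [hS]; tauto)

lemma exists_four {S : Finset (Fin n)} (hS : S.card = 4) :
    ∃ w x y z : Fin n, w ≠ x ∧ w ≠ y ∧ w ≠ z ∧ x ≠ y ∧ x ≠ z ∧ y ≠ z ∧
      ∀ a, a ∈ S ↔ a = w ∨ a = x ∨ a = y ∨ a = z := by
  obtain ⟨w, T, hw, rfl, hT⟩ := Finset.card_eq_succ.1 hS
  obtain ⟨x, y, z, hxy, hxz, hyz, rfl⟩ := Finset.card_eq_three.1 hT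
  simp only [Finset.mem_insert, Finset.mem_singleton, not_or] at hw
  refine ⟨w, x, y, z, hw.1, hw.2.1, hw.2.2, hxy, hxz, hyz, ?_⟩
  intro a
  simp

/-- There are exactly six ordered pairs of distinct perfect matchings. -/
lemma card_matchingPairs {S : Finset (Fin n)} (hS : S.card = 4) : (matchingPairs S).card = 6 := by
  classical
  obtain ⟨w, x, y, z, h1, h2, h3, h4, h5, h6, hmem⟩ := exists_four hS
  set F₁ : Finset (Sym2 (Fin n)) := {s(w, x), s(y, z)} with hF₁
  set F₂ : Finset (Sym2 (Fin n)) := {s(w, y), s(x, z)} with hF₂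
  set F₃ : Finset (Sym2 (Fin n)) := {s(w, z), s(x, y)} with hF₃
  have hne12 : F₁ ≠ F₂ := by
    intro h
    have : s(w, x) ∈ F₂ := by rw [← h]; simp [hF₁]
    simp only [hF₂, Finset.mem_insert, Finset.mem_singleton, Sym2.eq_iff] at this
    simp_all
  have hne13 : F₁ ≠ F₃ := by
    intro h
    have : s(w, x) ∈ F₃ := by rw [← h]; simp [hF₁]
    simp only [hF₃, Finset.mem_insert, Finset.mem_singleton, Sym2.eq_iff] at this
    simp_all
  have hne23 : F₂ ≠ F₃ := by
    intro h
    have : s(w, y) ∈ F₃ := by rw [← h]; simp [hF₂]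
    simp only [hF₃, Finset.mem_insert, Finset.mem_singleton, Sym2.eq_iff] at this
    simp_all
  have hset : matchingPairs S = (({F₁, F₂, F₃} : Finset (Finset (Sym2 (Fin n)))).offDiag) := by
    ext p
    simp only [matchingPairs, Finset.mem_filter, Finset.mem_univ, true_and, Finset.mem_offDiag,
      Finset.mem_insert, Finset.mem_singleton]
    rw [pm_enum h1 h2 h3 h4 h5 h6 hmem, pm_enum h1 h2 h3 h4 h5 h6 hmem]
  rw [hset, Finset.offDiag_card, Finset.card_insert_of_notMem, Finset.card_insert_of_notMem,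
    Finset.card_singleton]
  · simp [hne23]
  · simp [hne12, hne13]

/-- Incidence of a vertex with a perfect matching on a four element set. -/
lemma pm_incidence {S : Finset (Fin n)} (hS : S.card = 4) {F : Finset (Sym2 (Fin n))}
    (hF : IsPerfectMatching S F) (y : Fin n) :
    ({t : Fin n | s(y, t) ∈ F}).ncard = if y ∈ S then 1 else 0 := by
  classical
  obtain ⟨w, x, u, v, h1, h2, h3, h4, h5, h6, hmem⟩ := exists_four hS
  have key : ∀ (p q a b : Fin n), p ≠ q → p ≠ a → p ≠ b → q ≠ a → q ≠ b → a ≠ b →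
      (∀ t : Fin n, s(p, t) ∈ ({s(p, q), s(a, b)} : Finset (Sym2 (Fin n))) ↔ t = q) := by
    intro p q a b hpq hpa hpb hqa hqb hab t
    simp only [Finset.mem_insert, Finset.mem_singleton, Sym2.eq_iff]
    constructor
    · rintro ((⟨_, h⟩ | ⟨h, h'⟩) | (⟨h, _⟩ | ⟨h, _⟩))
      · exact h
      · exact absurd h hpq
      · exact absurd h hpa
      · exact absurd h hpb
    · rintro rfl
      simp
  have hsingle : ∀ (p q a b : Fin n), p ≠ q → p ≠ a → p ≠ b → q ≠ a → q ≠ b → a ≠ b →
      ({t : Fin n | s(p, t) ∈ ({s(p, q), s(a, b)} : Finset (Sym2 (Fin n)))}).ncard = 1 := by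
    intro p q a b hpq hpa hpb hqa hqb hab
    have : {t : Fin n | s(p, t) ∈ ({s(p, q), s(a, b)} : Finset (Sym2 (Fin n)))} = {q} := by
      ext t
      simp only [Set.mem_ofPred_eq, Set.mem_singleton_iff]
      exact key p q a b hpq hpa hpb hqa hqb hab t
    rw [this, Set.ncard_singleton]
  have hcomm : ∀ (a b c d : Fin n), ({s(a, b), s(c, d)} : Finset (Sym2 (Fin n)))
      = {s(b, a), s(c, d)} := by
    intro a b c d; rw [Sym2.eq_swap]
  have hcomm2 : ∀ (a b c d : Fin n), ({s(a, b), s(c, d)} : Finset (Sym2 (Fin n)))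
      = {s(c, d), s(a, b)} := by
    intro a b c d; rw [Finset.pair_comm]
  -- the general statement for one form of matching
  have hform : ∀ (p q a b : Fin n), p ≠ q → p ≠ a → p ≠ b → q ≠ a → q ≠ b → a ≠ b →
      (∀ c, c ∈ S ↔ c = p ∨ c = q ∨ c = a ∨ c = b) →
      ({t : Fin n | s(y, t) ∈ ({s(p, q), s(a, b)} : Finset (Sym2 (Fin n)))}).ncard
        = if y ∈ S then 1 else 0 := by
    intro p q a b hpq hpa hpb hqa hqb hab hSm
    by_cases hy : y ∈ S
    · rw [if_pos hy]
      rcases (hSm y).1 hy with rfl | rfl | rfl | rfl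
      · exact hsingle _ q a b hpq hpa hpb hqa hqb hab
      · rw [hcomm p y a b]
        exact hsingle _ p a b hpq.symm hqa hqb hpa hpb hab
      · rw [hcomm2 p q y b]
        exact hsingle _ b p q hab hpa.symm hqa.symm hpb.symm hqb.symm hpq
      · rw [hcomm2 p q a y, hcomm a y p q]
        exact hsingle _ a p q hab.symm hpb.symm hqb.symm hpa.symm hqa.symm hpq
    · rw [if_neg hy]
      have : {t : Fin n | s(y, t) ∈ ({s(p, q), s(a, b)} : Finset (Sym2 (Fin n)))} = ∅ := by
        ext t
        simp only [Set.mem_ofPred_eq, Set.mem_empty_iff_false, iff_false, Finset.mem_insert,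
          Finset.mem_singleton, Sym2.eq_iff, not_or]
        refine ⟨⟨?_, ?_⟩, ⟨?_, ?_⟩⟩
        · rintro ⟨rfl, _⟩
          exact hy ((hSm _).2 (by simp))
        · rintro ⟨rfl, _⟩
          exact hy ((hSm _).2 (by simp))
        · rintro ⟨rfl, _⟩
          exact hy ((hSm _).2 (by simp))
        · rintro ⟨rfl, _⟩
          exact hy ((hSm _).2 (by simp))
      rw [this, Set.ncard_empty]
  rcases (pm_enum h1 h2 h3 h4 h5 h6 hmem F).1 hF with rfl | rfl | rfl
  · exact hform _ _ _ _ h1 h2 h3 h4 h5 h6 hmem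
  · exact hform _ _ _ _ h2 h1 h3 h4.symm h6 h5 (by intro a; rw [hmem]; tauto)
  · exact hform _ _ _ _ h3 h1 h2 h5.symm h6.symm h4 (by intro a; rw [hmem]; tauto)

lemma pm_not_diag {S : Finset (Fin n)} {F : Finset (Sym2 (Fin n))} (hF : IsPerfectMatching S F)
    {e : Sym2 (Fin n)} (he : e ∈ F) : ¬ e.IsDiag := by
  obtain ⟨u, _, v, _, huv, rfl⟩ := hF.2.1 e he
  simpa using huv

/-- The edge set after an effective switch. -/
lemma switchStep_edgeSet {S : Finset (Fin n)} {G : SimpleGraph (Fin n)}
    {F F' : Finset (Sym2 (Fin n))} (hF' : IsPerfectMatching S F') :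
    (SimpleGraph.fromEdgeSet ((G.edgeSet \ (F : Set (Sym2 (Fin n)))) ∪ (F' : Set (Sym2 (Fin n))))).edgeSet
      = (G.edgeSet \ (F : Set (Sym2 (Fin n)))) ∪ (F' : Set (Sym2 (Fin n))) := by
  rw [SimpleGraph.edgeSet_fromEdgeSet]
  ext e
  simp only [Set.mem_sdiff, Set.mem_union, Set.mem_ofPred_eq]
  constructor
  · exact fun h => h.1
  · intro h
    refine ⟨h, ?_⟩
    rcases h with h | h
    · exact G.not_isDiag_of_mem_edgeSet h.1
    · exact pm_not_diag hF' h

/-- Effective switches are reversible. -/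
lemma switchStep_reverse {S : Finset (Fin n)} {G G' : SimpleGraph (Fin n)}
    {F F' : Finset (Sym2 (Fin n))} (hF : IsPerfectMatching S F) (hF' : IsPerfectMatching S F')
    (hne : G ≠ G') (h : switchStep G F F' = G') : switchStep G' F' F = G := by
  classical
  unfold switchStep at h
  split_ifs at h with hact
  · obtain ⟨h1, h2⟩ := hact
    have hE : G'.edgeSet = (G.edgeSet \ (F : Set (Sym2 (Fin n)))) ∪ (F' : Set (Sym2 (Fin n))) := by
      rw [← h]; exact switchStep_edgeSet hF'
    unfold switchStep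
    have hact' : (∀ e ∈ F', e ∈ G'.edgeSet) ∧ (∀ e ∈ F, e ∉ G'.edgeSet) := by
      constructor
      · intro e he
        rw [hE]
        exact Or.inr he
      · intro e he hmem
        rw [hE] at hmem
        rcases hmem with hmem | hmem
        · exact hmem.2 he
        · exact h2 e hmem (h1 e he)
    rw [if_pos hact']
    have hset : (G'.edgeSet \ (F' : Set (Sym2 (Fin n)))) ∪ (F : Set (Sym2 (Fin n))) = G.edgeSet := by
      rw [hE]
      ext e
      simp only [Set.mem_union, Set.mem_sdiff, Finset.mem_coe]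
      constructor
      · rintro (⟨h3 | h3, h4⟩ | h3)
        · exact h3.1
        · exact absurd h3 h4
        · exact h1 e h3
      · intro h3
        by_cases h4 : e ∈ F
        · exact Or.inr h4
        · refine Or.inl ⟨Or.inl ⟨h3, h4⟩, ?_⟩
          intro h5
          exact h2 e h5 h3
    rw [hset, SimpleGraph.fromEdgeSet_edgeSet]
  · exact absurd h hne

/-- Switches preserve all degrees. -/
lemma switchStep_degree {S : Finset (Fin n)} (hS : S.card = 4) {G : SimpleGraph (Fin n)}
    {F F' : Finset (Sym2 (Fin n))} (hF : IsPerfectMatching S F) (hF' : IsPerfectMatching S F')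
    (v : Fin n) : ((switchStep G F F').neighborSet v).ncard = (G.neighborSet v).ncard := by
  classical
  unfold switchStep
  split_ifs with hact
  swap
  · rfl
  obtain ⟨h1, h2⟩ := hact
  set A : Set (Fin n) := {t | s(v, t) ∈ G.edgeSet ∧ s(v, t) ∉ F} with hA
  set B : Set (Fin n) := {t | s(v, t) ∈ F'} with hB
  set C : Set (Fin n) := {t | s(v, t) ∈ F} with hC
  have e1 : (SimpleGraph.fromEdgeSet ((G.edgeSet \ (F : Set (Sym2 (Fin n)))) ∪ (F' : Set (Sym2 (Fin n))))).neighborSet v
      = A ∪ B := by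
    ext t
    simp only [SimpleGraph.mem_neighborSet, SimpleGraph.fromEdgeSet_adj, Set.mem_union,
      Set.mem_sdiff, Finset.mem_coe, hA, hB, Set.mem_ofPred_eq]
    constructor
    · exact fun h => h.1
    · intro h
      refine ⟨h, ?_⟩
      rcases h with h | h
      · exact G.ne_of_adj h.1
      · have := pm_not_diag hF' h
        simpa using this
  have e2 : G.neighborSet v = A ∪ C := by
    ext t
    simp only [SimpleGraph.mem_neighborSet, Set.mem_union, hA, hC, Set.mem_ofPred_eq,
      SimpleGraph.mem_edgeSet]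
    constructor
    · intro h
      by_cases h3 : s(v, t) ∈ F
      · exact Or.inr h3
      · exact Or.inl ⟨h, h3⟩
    · rintro (h | h)
      · exact h.1
      · exact h1 _ h
  have d1 : Disjoint A B := by
    rw [Set.disjoint_left]
    intro t h3 h4
    exact h2 _ h4 h3.1
  have d2 : Disjoint A C := by
    rw [Set.disjoint_left]
    intro t h3 h4
    exact h3.2 h4
  rw [e1, e2, Set.ncard_union_eq d1 (Set.toFinite _) (Set.toFinite _),
    Set.ncard_union_eq d2 (Set.toFinite _) (Set.toFinite _),
    pm_incidence hS hF' v, pm_incidence hS hF v]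

/-- The switch chain on the realizations is a lazy symmetric stochastic matrix. -/
lemma switchKernel_lazy (hn : 4 ≤ n) (d : Fin n → ℕ) : LazyKernel (switchKernel d) := by
  classical
  have hC : (0 : ℝ) < (n.choose 4 : ℝ) := by
    exact_mod_cast Nat.choose_pos hn
  have hnn : ∀ G G' : Realization d, 0 ≤ (1 / 2 : ℝ) * (1 / (n.choose 4 : ℝ)) *
      ∑ S ∈ Finset.powersetCard 4 (Finset.univ : Finset (Fin n)), (1 / 6) *
      ∑ p ∈ matchingPairs S, (if switchStep G.1 p.1 p.2 = G'.1 then (1 : ℝ) else 0) := by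
    intro G G'
    refine mul_nonneg (by positivity) (Finset.sum_nonneg (fun S _ => mul_nonneg (by norm_num)
      (Finset.sum_nonneg (fun p _ => ?_))))
    split_ifs <;> norm_num
  refine ⟨?_, ?_, ?_, ?_⟩
  · intro G G'
    by_cases hGG : G = G'
    · rw [hGG]
    · have hne : G.1 ≠ G'.1 := fun h => hGG (Subtype.ext h)
      unfold switchKernel
      rw [if_neg hGG, if_neg (Ne.symm hGG)]
      have key : ∀ S, ∑ p ∈ matchingPairs S, (if switchStep G.1 p.1 p.2 = G'.1 then (1 : ℝ) else 0)
          = ∑ p ∈ matchingPairs S, (if switchStep G'.1 p.1 p.2 = G.1 then (1 : ℝ) else 0) := by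
        intro S
        refine Finset.sum_nbij' Prod.swap Prod.swap ?_ ?_ ?_ ?_ ?_
        · intro p hp
          simp only [matchingPairs, Finset.mem_filter, Finset.mem_univ, true_and] at hp ⊢
          exact ⟨hp.2.1, hp.1, fun h => hp.2.2 h.symm⟩
        · intro p hp
          simp only [matchingPairs, Finset.mem_filter, Finset.mem_univ, true_and] at hp ⊢
          exact ⟨hp.2.1, hp.1, fun h => hp.2.2 h.symm⟩
        · intro p _; rfl
        · intro p _; rfl
        · intro p hp
          simp only [matchingPairs, Finset.mem_filter, Finset.mem_univ, true_and] at hp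
          simp only [Prod.fst_swap, Prod.snd_swap]
          by_cases h : switchStep G.1 p.1 p.2 = G'.1
          · rw [if_pos h, if_pos (switchStep_reverse hp.1 hp.2.1 hne h)]
          · rw [if_neg h, if_neg]
            intro h2
            exact h (switchStep_reverse hp.2.1 hp.1 (Ne.symm hne) h2)
      simp only [key]
  · intro G G'
    unfold switchKernel
    refine add_nonneg ?_ (hnn G G')
    split_ifs <;> norm_num
  · intro G
    unfold switchKernel
    have hstep : ∀ S ∈ Finset.powersetCard 4 (Finset.univ : Finset (Fin n)),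
        ∑ G' : Realization d, ∑ p ∈ matchingPairs S,
          (if switchStep G.1 p.1 p.2 = G'.1 then (1 : ℝ) else 0) = 6 := by
      intro S hS
      have hS4 : S.card = 4 := (Finset.mem_powersetCard.1 hS).2
      rw [Finset.sum_comm]
      have : ∀ p ∈ matchingPairs S, ∑ G' : Realization d,
          (if switchStep G.1 p.1 p.2 = G'.1 then (1 : ℝ) else 0) = 1 := by
        intro p hp
        simp only [matchingPairs, Finset.mem_filter, Finset.mem_univ, true_and] at hp
        set H : Realization d := ⟨switchStep G.1 p.1 p.2, fun v => by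
          rw [switchStep_degree hS4 hp.1 hp.2.1 v]; exact G.2 v⟩ with hH
        have e : ∀ G' : Realization d, (if switchStep G.1 p.1 p.2 = G'.1 then (1 : ℝ) else 0)
            = if H = G' then 1 else 0 := by
          intro G'
          by_cases h : H = G'
          · rw [if_pos h, if_pos (congrArg Subtype.val h)]
          · rw [if_neg h, if_neg (fun h' => h (Subtype.ext h'))]
        simp only [e]
        simp
      rw [Finset.sum_congr rfl this]
      simp [card_matchingPairs hS4]
    rw [Finset.sum_add_distrib]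
    have h1 : ∑ G' : Realization d, (if G = G' then (1 / 2 : ℝ) else 0) = 1 / 2 := by simp
    rw [h1, ← Finset.mul_sum, Finset.sum_comm]
    have h2 : ∑ S ∈ Finset.powersetCard 4 (Finset.univ : Finset (Fin n)), ∑ G' : Realization d,
        (1 / 6 : ℝ) * ∑ p ∈ matchingPairs S,
          (if switchStep G.1 p.1 p.2 = G'.1 then (1 : ℝ) else 0) = (n.choose 4 : ℝ) := by
      have : ∀ S ∈ Finset.powersetCard 4 (Finset.univ : Finset (Fin n)), ∑ G' : Realization d,
          (1 / 6 : ℝ) * ∑ p ∈ matchingPairs S,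
          (if switchStep G.1 p.1 p.2 = G'.1 then (1 : ℝ) else 0) = 1 := by
        intro S hS
        rw [← Finset.mul_sum, hstep S hS]
        norm_num
      rw [Finset.sum_congr rfl this]
      simp [Finset.card_powersetCard]
    rw [h2]
    field_simp
    norm_num
  · intro G
    unfold switchKernel
    have := hnn G G
    simp only [if_true]
    linarith

open Classical in
/-- The Dirichlet form of the switch chain. -/
lemma switchKernel_dirichlet (d : Fin n → ℕ) (f : Realization d → ℝ) (G : Realization d) :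
    ∑ G', switchKernel d G G' * (f G - f G') ^ 2
      = (1 / 2) * (1 / (n.choose 4 : ℝ)) * (1 / 6) *
        ∑ S ∈ Finset.powersetCard 4 (Finset.univ : Finset (Fin n)), ∑ p ∈ matchingPairs S,
          ∑ G' : Realization d, (if switchStep G.1 p.1 p.2 = G'.1 then (f G - f G') ^ 2 else 0) := by
  classical
  unfold switchKernel
  simp only [add_mul, Finset.sum_add_distrib]
  have h1 : ∑ G' : Realization d, (if G = G' then (1 / 2 : ℝ) else 0) * (f G - f G') ^ 2 = 0 := by
    refine Finset.sum_eq_zero (fun G' _ => ?_)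
    by_cases h : G = G'
    · simp [h]
    · simp [h]
  rw [h1, zero_add]
  simp only [mul_assoc, ← Finset.mul_sum]
  congr 2
  simp only [Finset.sum_mul, Finset.mul_sum]
  rw [Finset.sum_comm]
  refine Finset.sum_congr rfl (fun S _ => ?_)
  rw [Finset.sum_comm]
  refine Finset.sum_congr rfl (fun p _ => ?_)
  refine Finset.sum_congr rfl (fun G' _ => ?_)
  split_ifs <;> simp

end Vale.Agent.Lib.P335
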