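import Vale.Agent.Lib.P335.GenSpectral
import Vale.Agent.Lib.P335.GraphFacts

/-!
Comparison of the toggles with the switch chain, and the mixing bound for every degree vector.
-/

open Finset BigOperators

namespace Vale.Agent.Lib.P335

set_option linter.unusedSectionVars false

variable {n : ℕ} {d : Fin n → ℕ}

lemma tog_col_swap (u v w z : Fin n) (x : Realization d) : tog u v z w x = tog u v w z x := by
  have hcel : ∀ a b, cel u v z w a b ↔ cel u v w z a b := by
    intro a b
    simp only [cel, inn]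
    tauto
  have hchk : chk x u v z w ↔ chk x u v w z := by
    unfold chk
    tauto
  by_cases h : Dis4 u v w z
  · have h' : Dis4 u v z w :=
      ⟨h.1, h.2.2.1, h.2.1, h.2.2.2.2.1, h.2.2.2.1, h.2.2.2.2.2.symm⟩
    by_cases hc : chk x u v w z
    · apply state_ext
      intro a b
      rw [tog_adj h hc, tog_adj h' (hchk.2 hc)]
      unfold togA
      rw [hcel]
    · rw [tog_of_not hc, tog_of_not (fun h'' => hc (hchk.1 h''))]
  · have h' : ¬ Dis4 u v z w := fun h'' => h
      ⟨h''.1, h''.2.2.1, h''.2.1, h''.2.2.2.2.1, h''.2.2.2.1, h''.2.2.2.2.2.symm⟩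
    rw [tog_of_not_dis h, tog_of_not_dis h']

/-- A toggle is a switch. -/
lemma switchStep_eq_tog {y : Realization d} {u v w z : Fin n} (D : Dis4 u v w z)
    (h : chk1 y u v w z) :
    switchStep y.1 ({s(u, w), s(v, z)} : Finset (Sym2 (Fin n))) {s(u, z), s(v, w)}
      = (tog u v w z y).1 := by
  classical
  obtain ⟨h1, h2, h3, h4⟩ := h
  have hc : chk y u v w z := Or.inl ⟨h1, h2, h3, h4⟩
  unfold switchStep
  rw [if_pos]
  · ext a b
    rw [tog_adj D hc, SimpleGraph.fromEdgeSet_adj]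
    simp only [Set.mem_union, Set.mem_sdiff, SimpleGraph.mem_edgeSet, Finset.mem_coe,
      Finset.mem_insert, Finset.mem_singleton, Sym2.eq_iff]
    obtain ⟨d1, d2, d3, d4, d5, d6⟩ := D
    unfold togA cel inn
    constructor
    · rintro ⟨(⟨h5, h6⟩ | h5), h7⟩
      · right
        refine ⟨?_, h5⟩
        rintro (⟨ha, hb⟩ | ⟨ha, hb⟩)
        · rcases ha with rfl | rfl <;> rcases hb with rfl | rfl
          · exact h6 (Or.inl (Or.inl ⟨rfl, rfl⟩))
          · exact h3 h5
          · exact h4 h5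
          · exact h6 (Or.inr (Or.inl ⟨rfl, rfl⟩))
        · rcases ha with rfl | rfl <;> rcases hb with rfl | rfl
          · exact h6 (Or.inl (Or.inr ⟨rfl, rfl⟩))
          · exact h4 h5.symm
          · exact h3 h5.symm
          · exact h6 (Or.inr (Or.inr ⟨rfl, rfl⟩))
      · left
        rcases h5 with (⟨rfl, rfl⟩ | ⟨rfl, rfl⟩) | (⟨rfl, rfl⟩ | ⟨rfl, rfl⟩)
        · exact ⟨Or.inl ⟨Or.inl rfl, Or.inr rfl⟩, h3⟩
        · exact ⟨Or.inr ⟨Or.inr rfl, Or.inl rfl⟩, fun h => h3 h.symm⟩
        · exact ⟨Or.inl ⟨Or.inr rfl, Or.inl rfl⟩, h4⟩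
        · exact ⟨Or.inr ⟨Or.inl rfl, Or.inr rfl⟩, fun h => h4 h.symm⟩
    · rintro (⟨h5, h6⟩ | ⟨h5, h6⟩)
      · have hne : a ≠ b := by
          rcases h5 with ⟨ha, hb⟩ | ⟨ha, hb⟩ <;> rcases ha with rfl | rfl <;>
            rcases hb with rfl | rfl <;> first | assumption | exact Ne.symm ‹_›
        refine ⟨Or.inr ?_, hne⟩
        rcases h5 with ⟨ha, hb⟩ | ⟨ha, hb⟩ <;> rcases ha with rfl | rfl <;>
          rcases hb with rfl | rfl
        · exact absurd h1 h6
        · exact Or.inl (Or.inl ⟨rfl, rfl⟩)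
        · exact Or.inr (Or.inl ⟨rfl, rfl⟩)
        · exact absurd h2 h6
        · exact absurd h1.symm h6
        · exact Or.inr (Or.inr ⟨rfl, rfl⟩)
        · exact Or.inl (Or.inr ⟨rfl, rfl⟩)
        · exact absurd h2.symm h6
      · refine ⟨Or.inl ⟨h6, ?_⟩, y.1.ne_of_adj h6⟩
        rintro ((⟨rfl, rfl⟩ | ⟨rfl, rfl⟩) | (⟨rfl, rfl⟩ | ⟨rfl, rfl⟩))
        · exact h5 (Or.inl ⟨Or.inl rfl, Or.inl rfl⟩)
        · exact h5 (Or.inr ⟨Or.inl rfl, Or.inl rfl⟩)
        · exact h5 (Or.inl ⟨Or.inr rfl, Or.inr rfl⟩)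
        · exact h5 (Or.inr ⟨Or.inr rfl, Or.inr rfl⟩)
  · constructor
    · intro e he
      simp only [Finset.mem_insert, Finset.mem_singleton] at he
      rcases he with rfl | rfl
      · exact h1
      · exact h2
    · intro e he
      simp only [Finset.mem_insert, Finset.mem_singleton] at he
      rcases he with rfl | rfl
      · exact h3
      · exact h4

open Classical in
/-- What the chain can do from `y` on the four set `S`. -/
noncomputable def TS (f : Realization d → ℝ) (y : Realization d) (S : Finset (Fin n)) : ℝ :=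
  ∑ p ∈ matchingPairs S, ∑ G' : Realization d,
    (if switchStep y.1 p.1 p.2 = G'.1 then (f y - f G') ^ 2 else 0)

lemma TS_nonneg (f : Realization d → ℝ) (y : Realization d) (S : Finset (Fin n)) :
    0 ≤ TS f y S := by
  classical
  refine Finset.sum_nonneg (fun p _ => Finset.sum_nonneg (fun G' _ => ?_))
  split_ifs
  · exact sq_nonneg _
  · exact le_refl _

lemma tog_term_aux (f : Realization d → ℝ) {y : Realization d} {u v w z : Fin n} (D : Dis4 u v w z)
    (h : chk1 y u v w z) {S : Finset (Fin n)} (hS : ∀ a, a ∈ S ↔ a = u ∨ a = v ∨ a = w ∨ a = z) :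
    (f y - f (tog u v w z y)) ^ 2 ≤ TS f y S := by
  classical
  obtain ⟨d1, d2, d3, d4, d5, d6⟩ := id D
  set p : Finset (Sym2 (Fin n)) × Finset (Sym2 (Fin n)) :=
    ({s(u, w), s(v, z)}, {s(u, z), s(v, w)}) with hp
  have hpm : p ∈ matchingPairs S := by
    simp only [matchingPairs, Finset.mem_filter, Finset.mem_univ, true_and]
    refine ⟨?_, ?_, ?_⟩
    · exact pm_of_four d2 d1 d3 d4.symm d6 d5 (by intro a; rw [hS]; tauto)
    · exact pm_of_four d3 d1 d2 d5.symm d6.symm d4 (by intro a; rw [hS]; tauto)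
    · intro hne
      have hm : s(u, w) ∈ ({s(u, z), s(v, w)} : Finset (Sym2 (Fin n))) := by
        have h0 : s(u, w) ∈ ({s(u, w), s(v, z)} : Finset (Sym2 (Fin n))) := by simp
        have h00 := congrArg (fun t => s(u, w) ∈ t) hne
        simp only [hp] at h00 hne
        rw [← hne]
        exact h0
      simp only [Finset.mem_insert, Finset.mem_singleton, Sym2.eq_iff] at hm
      rcases hm with (⟨_, h1⟩ | ⟨h1, _⟩) | (⟨h1, _⟩ | ⟨h1, _⟩)
      · exact d6 h1
      · exact d3 h1
      · exact d1 h1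
      · exact d2 h1
  have hinner : ∀ p ∈ matchingPairs S, 0 ≤ ∑ G' : Realization d,
      (if switchStep y.1 p.1 p.2 = G'.1 then (f y - f G') ^ 2 else 0) := by
    intro p _
    refine Finset.sum_nonneg (fun G' _ => ?_)
    split_ifs
    · exact sq_nonneg _
    · exact le_refl _
  have h1 := Finset.single_le_sum hinner hpm
  have hnn2 : ∀ G' ∈ (Finset.univ : Finset (Realization d)), 0 ≤
      (if switchStep y.1 p.1 p.2 = G'.1 then (f y - f G') ^ 2 else 0) := by
    intro G' _
    split_ifs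
    · exact sq_nonneg _
    · exact le_refl _
  have h3 := Finset.single_le_sum hnn2 (Finset.mem_univ (tog u v w z y))
  rw [if_pos (switchStep_eq_tog D h)] at h3
  exact le_trans h3 h1

/-- A toggle is seen by the switch chain on its four set. -/
lemma tog_term (f : Realization d → ℝ) (y : Realization d) {u v w z : Fin n} (D : Dis4 u v w z)
    {S : Finset (Fin n)} (hS : ∀ a, a ∈ S ↔ a = u ∨ a = v ∨ a = w ∨ a = z) :
    (f y - f (tog u v w z y)) ^ 2 ≤ TS f y S := by
  by_cases hc : chk y u v w z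
  · rcases hc with h | h
    · exact tog_term_aux f D h hS
    · rw [← tog_col_swap]
      have D' : Dis4 u v z w :=
        ⟨D.1, D.2.2.1, D.2.1, D.2.2.2.2.1, D.2.2.2.1, D.2.2.2.2.2.symm⟩
      exact tog_term_aux f D' h (by intro a; rw [hS]; tauto)
  · rw [tog_of_not hc, sub_self, zero_pow (by norm_num)]
    exact TS_nonneg f y S

/-- The four set of a quadruple. -/
def four (q : Fin n × Fin n × Fin n × Fin n) : Finset (Fin n) :=
  {q.1, q.2.1, q.2.2.1, q.2.2.2}

lemma mem_four' (q : Fin n × Fin n × Fin n × Fin n) (a : Fin n) :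
    a ∈ four q ↔ a = q.1 ∨ a = q.2.1 ∨ a = q.2.2.1 ∨ a = q.2.2.2 := by
  simp [four]

lemma four_card {q : Fin n × Fin n × Fin n × Fin n} (h : Dis4 q.1 q.2.1 q.2.2.1 q.2.2.2) :
    (four q).card = 4 := by
  obtain ⟨d1, d2, d3, d4, d5, d6⟩ := h
  unfold four
  rw [Finset.card_insert_of_notMem, Finset.card_insert_of_notMem, Finset.card_pair d6]
  · simp [d4, d5]
  · simp [d1, d2, d3]

open Classical in
/-- At most twenty four quadruples have a given four set. -/
lemma fiber_card {S : Finset (Fin n)} (hS : S.card = 4) :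
    ((Finset.univ.filter (fun q : Fin n × Fin n × Fin n × Fin n =>
      Dis4 q.1 q.2.1 q.2.2.1 q.2.2.2)).filter (fun q => four q = S)).card ≤ 24 := by
  have hE : Fintype.card (Fin 4 ↪ S) = 24 := by
    rw [Fintype.card_embedding_eq, Fintype.card_coe, hS]
    rfl
  rw [← hE, ← Finset.card_univ]
  refine Finset.card_le_card_of_surjOn
    (fun e : Fin 4 ↪ S => ((e 0).1, (e 1).1, (e 2).1, (e 3).1)) ?_
  intro q hq
  simp only [Finset.coe_filter, Finset.mem_filter, Finset.mem_univ, true_and,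
    Set.mem_ofPred_eq] at hq
  obtain ⟨⟨d1, d2, d3, d4, d5, d6⟩, hq2⟩ := hq
  have hm : ∀ i : Fin 4, (![q.1, q.2.1, q.2.2.1, q.2.2.2] i) ∈ S := by
    intro i
    rw [← hq2, mem_four']
    fin_cases i <;> simp
  refine ⟨⟨fun i => ⟨![q.1, q.2.1, q.2.2.1, q.2.2.2] i, hm i⟩, ?_⟩, by simp, ?_⟩
  · intro i j hij
    have hv := congrArg Subtype.val hij
    fin_cases i <;> fin_cases j <;> simp_all
  · rfl

open Classical in
/-- Summing the toggles over all quadruples. -/
lemma sum_tog_le (f : Realization d → ℝ) (y : Realization d) :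
    ∑ u : Fin n, ∑ v : Fin n, ∑ w : Fin n, ∑ z : Fin n,
      (if Dis4 u v w z then (f y - f (tog u v w z y)) ^ 2 else 0)
      ≤ 24 * ∑ S ∈ Finset.powersetCard 4 (Finset.univ : Finset (Fin n)), TS f y S := by
  set Q : Finset (Fin n × Fin n × Fin n × Fin n) := Finset.univ.filter
    (fun q => Dis4 q.1 q.2.1 q.2.2.1 q.2.2.2) with hQ
  have e1 : ∑ u : Fin n, ∑ v : Fin n, ∑ w : Fin n, ∑ z : Fin n,
      (if Dis4 u v w z then (f y - f (tog u v w z y)) ^ 2 else 0)
      = ∑ q ∈ Q, (f y - f (tog q.1 q.2.1 q.2.2.1 q.2.2.2 y)) ^ 2 := by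
    rw [hQ, Finset.sum_filter]
    simp only [Fintype.sum_prod_type]
  rw [e1]
  have hmaps : ∀ q ∈ Q, four q ∈ Finset.powersetCard 4 (Finset.univ : Finset (Fin n)) := by
    intro q hq
    rw [hQ, Finset.mem_filter] at hq
    rw [Finset.mem_powersetCard]
    exact ⟨Finset.subset_univ _, four_card hq.2⟩
  calc ∑ q ∈ Q, (f y - f (tog q.1 q.2.1 q.2.2.1 q.2.2.2 y)) ^ 2
      ≤ ∑ q ∈ Q, TS f y (four q) := by
        refine Finset.sum_le_sum (fun q hq => ?_)
        rw [hQ, Finset.mem_filter] at hq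
        exact tog_term f y hq.2 (mem_four' q)
    _ = ∑ S ∈ Finset.powersetCard 4 (Finset.univ : Finset (Fin n)),
          ∑ q ∈ Q.filter (fun q => four q = S), TS f y (four q) :=
        (Finset.sum_fiberwise_of_maps_to hmaps _).symm
    _ ≤ ∑ S ∈ Finset.powersetCard 4 (Finset.univ : Finset (Fin n)), 24 * TS f y S := by
        refine Finset.sum_le_sum (fun S hS => ?_)
        have hS4 : S.card = 4 := (Finset.mem_powersetCard.1 hS).2
        have e2 : ∑ q ∈ Q.filter (fun q => four q = S), TS f y (four q)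
            = ∑ q ∈ Q.filter (fun q => four q = S), TS f y S := by
          refine Finset.sum_congr rfl (fun q hq => ?_)
          rw [(Finset.mem_filter.1 hq).2]
        rw [e2, Finset.sum_const, nsmul_eq_mul]
        refine mul_le_mul_of_nonneg_right ?_ (TS_nonneg f y S)
        exact_mod_cast fiber_card hS4
    _ = 24 * ∑ S ∈ Finset.powersetCard 4 (Finset.univ : Finset (Fin n)), TS f y S := by
        rw [Finset.mul_sum]

lemma WW_nonneg (u v w z : Fin n) (f : Realization d → ℝ) : 0 ≤ WW u v w z f := by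
  classical
  unfold WW
  refine Finset.sum_nonneg (fun y _ => ?_)
  split_ifs
  · exact sq_nonneg _
  · exact le_refl _

lemma sum4_comm {Y : Type*} [Fintype Y] (A : Fin n → Fin n → Fin n → Fin n → Y → ℝ) :
    ∑ y, ∑ u, ∑ v, ∑ w, ∑ z, A u v w z y = ∑ u, ∑ v, ∑ w, ∑ z, ∑ y, A u v w z y := by
  calc ∑ y, ∑ u, ∑ v, ∑ w, ∑ z, A u v w z y = ∑ u, ∑ y, ∑ v, ∑ w, ∑ z, A u v w z y :=
        Finset.sum_comm
    _ = ∑ u, ∑ v, ∑ y, ∑ w, ∑ z, A u v w z y :=
        Finset.sum_congr rfl (fun u _ => Finset.sum_comm)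
    _ = ∑ u, ∑ v, ∑ w, ∑ y, ∑ z, A u v w z y :=
        Finset.sum_congr rfl (fun u _ => Finset.sum_congr rfl (fun v _ => Finset.sum_comm))
    _ = ∑ u, ∑ v, ∑ w, ∑ z, ∑ y, A u v w z y :=
        Finset.sum_congr rfl (fun u _ => Finset.sum_congr rfl (fun v _ =>
          Finset.sum_congr rfl (fun w _ => Finset.sum_comm)))

open Classical in
/-- The Poincare inequality in terms of the toggles. -/
lemma poincare_tog (f : Realization d → ℝ) (hf : ∑ x, f x = 0) :
    32 * ip f f ≤ ∑ u : Fin n, ∑ v : Fin n, ∑ w : Fin n, ∑ z : Fin n,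
      (if Dis4 u v w z then ∑ y, (f y - f (tog u v w z y)) ^ 2 else 0) := by
  have h1 := QQ_gap f hf
  have h2 : 2 * (∑ u : Fin n, ∑ v : Fin n, ip (Qd u v f) (Qd u v f))
      ≤ ∑ u : Fin n, ∑ v : Fin n, ∑ w : Fin n, ∑ z : Fin n,
        (if Dis4 u v w z then (∑ y, (f y - f (tog u v w z y)) ^ 2) / 4 else 0) := by
    rw [Finset.mul_sum]
    refine Finset.sum_le_sum (fun u _ => ?_)
    rw [Finset.mul_sum]
    refine Finset.sum_le_sum (fun v _ => ?_)
    by_cases huv : u = v
    · subst huv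
      rw [Qd_self]
      have : ∀ w z : Fin n, ¬ Dis4 u u w z := fun w z h => h.1 rfl
      simp [this, ip_zero_left]
    · rw [Qd_of_ne huv]
      refine (pair_ineq huv f).trans ?_
      refine Finset.sum_le_sum (fun w _ => Finset.sum_le_sum (fun z _ => ?_))
      by_cases D : Dis4 u v w z
      · rw [if_pos D, if_pos D, ip_Qinv_self]
        linarith [WW_nonneg u v w z f]
      · rw [if_neg D, if_neg D]
  have e : ∑ u : Fin n, ∑ v : Fin n, ∑ w : Fin n, ∑ z : Fin n,
        (if Dis4 u v w z then (∑ y, (f y - f (tog u v w z y)) ^ 2) / 4 else 0)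
      = (∑ u : Fin n, ∑ v : Fin n, ∑ w : Fin n, ∑ z : Fin n,
        (if Dis4 u v w z then ∑ y, (f y - f (tog u v w z y)) ^ 2 else 0)) / 4 := by
    simp only [Finset.sum_div]
    refine Finset.sum_congr rfl (fun u _ => Finset.sum_congr rfl (fun v _ =>
      Finset.sum_congr rfl (fun w _ => Finset.sum_congr rfl (fun z _ => ?_))))
    split_ifs
    · rw [Finset.sum_div]
    · simp
  rw [e] at h2
  linarith

/-- The spectral gap of the switch chain for every degree vector. -/
theorem full_gap (hn : 4 ≤ n) (f : Realization d → ℝ) (hf : ∑ x, f x = 0) :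
    (1 / ((18 * n.choose 4 : ℕ) : ℝ)) * ip f f
      ≤ (∑ G, ∑ G', switchKernel d G G' * (f G - f G') ^ 2) / 2 := by
  classical
  have hC : (0 : ℝ) < (n.choose 4 : ℝ) := by
    exact_mod_cast Nat.choose_pos hn
  set Y : ℝ := ∑ y : Realization d, ∑ S ∈ Finset.powersetCard 4 (Finset.univ : Finset (Fin n)),
    TS f y S with hY
  have h1 := poincare_tog f hf
  have h2 : ∑ u : Fin n, ∑ v : Fin n, ∑ w : Fin n, ∑ z : Fin n,
      (if Dis4 u v w z then ∑ y, (f y - f (tog u v w z y)) ^ 2 else 0) ≤ 24 * Y := by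
    have e : ∑ u : Fin n, ∑ v : Fin n, ∑ w : Fin n, ∑ z : Fin n,
        (if Dis4 u v w z then ∑ y, (f y - f (tog u v w z y)) ^ 2 else 0)
        = ∑ y, ∑ u : Fin n, ∑ v : Fin n, ∑ w : Fin n, ∑ z : Fin n,
        (if Dis4 u v w z then (f y - f (tog u v w z y)) ^ 2 else 0) := by
      rw [sum4_comm]
      refine Finset.sum_congr rfl (fun u _ => Finset.sum_congr rfl (fun v _ =>
        Finset.sum_congr rfl (fun w _ => Finset.sum_congr rfl (fun z _ => ?_))))
      split_ifs
      · rfl
      · simp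
    rw [e, hY, Finset.mul_sum]
    exact Finset.sum_le_sum (fun y _ => sum_tog_le f y)
  have hD : ∑ G, ∑ G', switchKernel d G G' * (f G - f G') ^ 2
      = (1 / 2) * (1 / (n.choose 4 : ℝ)) * (1 / 6) * Y := by
    rw [hY, Finset.mul_sum]
    refine Finset.sum_congr rfl (fun x _ => ?_)
    rw [switchKernel_dirichlet]
    rfl
  rw [hD]
  push_cast
  have e1 : (1 / 2 : ℝ) * (1 / (n.choose 4 : ℝ)) * (1 / 6) * Y / 2
      = (1 / (18 * (n.choose 4 : ℝ))) * (3 * Y / 4) := by
    field_simp
    ring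
  rw [e1]
  exact mul_le_mul_of_nonneg_left (by linarith) (by positivity)

/-- The mixing bound for every degree vector. -/
theorem full_mixing (hn : 4 ≤ n) (d : Fin n → ℕ) (t : ℕ) (ht : n ^ 6 ≤ t) (G : Realization d) :
    (∑ G', |(switchKernel d ^ t) G G' - 1 / (Fintype.card (Realization d) : ℝ)|) / 2 ≤ 1 / 4 := by
  classical
  have hNpos : 0 < 18 * n.choose 4 := Nat.mul_pos (by norm_num) (Nat.choose_pos hn)
  have hcard : 4 * Fintype.card (Realization d) ≤ 2 ^ (n * n + 2) := by
    have h1 : Fintype.card (Realization d) ≤ Fintype.card (Fin n → Finset (Fin n)) := by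
      refine Fintype.card_le_of_injective
        (fun G a => Finset.univ.filter (fun b => G.1.Adj a b)) ?_
      intro x y hxy
      apply state_ext
      intro a b
      have := congrFun hxy a
      have h2 := Finset.ext_iff.1 this b
      simp only [Finset.mem_filter, Finset.mem_univ, true_and] at h2
      exact h2
    have h2 : Fintype.card (Fin n → Finset (Fin n)) = 2 ^ (n * n) := by
      simp only [Fintype.card_fun, Fintype.card_finset, Fintype.card_fin]
      rw [← pow_mul]
    rw [pow_add]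
    omega
  have hbound : (18 * n.choose 4) * (n * n + 2) ≤ t := by
    refine le_trans ?_ ht
    have h1 : 24 * n.choose 4 ≤ n ^ 4 := by
      have e1 := Nat.descFactorial_eq_factorial_mul_choose n 4
      have e2 := Nat.descFactorial_le_pow n 4
      have e3 : Nat.factorial 4 = 24 := rfl
      rw [e3] at e1
      omega
    have h2 : 3 * (n * n + 2) ≤ 4 * (n * n) := by
      have : 16 ≤ n * n := Nat.mul_le_mul hn hn
      omega
    calc (18 * n.choose 4) * (n * n + 2) = 6 * n.choose 4 * (3 * (n * n + 2)) := by ring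
      _ ≤ 6 * n.choose 4 * (4 * (n * n)) := Nat.mul_le_mul_left _ h2
      _ = (24 * n.choose 4) * (n * n) := by ring
      _ ≤ n ^ 4 * (n * n) := Nat.mul_le_mul_right _ h1
      _ = n ^ 6 := by ring
  exact (switchKernel_lazy hn d).tv_le_quarter hNpos
    (fun f hf => full_gap hn f hf) hcard t hbound G

end Vale.Agent.Lib.P335
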