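import Vale.Agent.Lib.P335.GenTriple

/-!
The inverse of the table map, and the triple inequality for general graphs.
-/

open Finset BigOperators

namespace Vale.Agent.Lib.P335

set_option linter.unusedSectionVars false

variable {n : ℕ} {d : Fin n → ℕ}

section tau

variable {R : Finset (Fin n)} {s₀ : Fin n} {x : Realization d} {i j k : Fin n}

/-- Shorthand for the type of tables of the class of `x`. -/
abbrev TabX (R : Finset (Fin n)) (s₀ : Fin n) (x : Realization d) :=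
  Tab (rowM R s₀ x) (colM R s₀ x)

lemma tx_off (τ : TabX R s₀ x) {l : Fin n} (hl : l ∉ R) : τ.1 l = ∅ := by
  have h := τ.2.1 l
  unfold rowM at h
  rw [tb_off hl, Finset.card_empty] at h
  exact Finset.card_eq_zero.1 h

lemma tx_other (τ : TabX R s₀ x) {l t : Fin n} (ht : t ∈ R) (hs : t ≠ s₀) : t ∉ τ.1 l := by
  have h := τ.2.2 t
  unfold colM at h
  rw [col_other x ht hs, Finset.card_eq_zero, Finset.filter_eq_empty_iff] at h
  exact h (Finset.mem_univ l)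

lemma tx_row (T : Tri R i j k) (hs₀ : s₀ ∈ R) (τ : TabX R s₀ x) {l : Fin n} (hl : l ∈ R) :
    (τ.1 l).card + hf (mmT R x) = d l := by
  rw [τ.2.1 l]
  exact row_tb T hs₀ x hl

lemma tx_col (hs₀ : s₀ ∈ R) (τ : TabX R s₀ x) {t : Fin n} (ht : t ∉ R) :
    ∑ l ∈ R, iv (t ∈ τ.1 l) = ∑ l ∈ R, iv (x.1.Adj t l) := by
  have h := τ.2.2 t
  unfold colM at h
  rw [col_out hs₀ x ht, card_filter_iv] at h
  rw [← h, ← Finset.sum_add_sum_compl R]
  have : ∑ l ∈ Rᶜ, iv (t ∈ τ.1 l) = 0 := by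
    refine Finset.sum_eq_zero (fun l hl => iv_false ?_)
    rw [tx_off τ (Finset.mem_compl.1 hl)]
    simp
  rw [this, add_zero]

lemma tx_star (T : Tri R i j k) (hs₀ : s₀ ∈ R) (τ : TabX R s₀ x) :
    ∑ l ∈ R, iv (s₀ ∈ τ.1 l) = kap (mmT R x) := by
  have h := τ.2.2 s₀
  unfold colM at h
  rw [col_star hs₀, count_star T x, card_filter_iv] at h
  rw [← h, ← Finset.sum_add_sum_compl R]
  have : ∑ l ∈ Rᶜ, iv (s₀ ∈ τ.1 l) = 0 := by
    refine Finset.sum_eq_zero (fun l hl => iv_false ?_)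
    rw [tx_off τ (Finset.mem_compl.1 hl)]
    simp
  rw [this, add_zero]

/-- The adjacency of the state of a table. -/
def BB (τ : TabX R s₀ x) (p q : Fin n) : Prop :=
  (p ∈ R ∧ q ∈ R ∧ p ≠ q ∧ trig (mmT R x) (s₀ ∈ τ.1 p) (s₀ ∈ τ.1 q))
    ∨ (p ∈ R ∧ q ∉ R ∧ q ∈ τ.1 p) ∨ (p ∉ R ∧ q ∈ R ∧ p ∈ τ.1 q) ∨ (p ∉ R ∧ q ∉ R ∧ x.1.Adj p q)

lemma BB_rr {τ : TabX R s₀ x} {p q : Fin n} (hp : p ∈ R) (hq : q ∈ R) :
    BB τ p q ↔ p ≠ q ∧ trig (mmT R x) (s₀ ∈ τ.1 p) (s₀ ∈ τ.1 q) := by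
  unfold BB
  simp [hp, hq]

lemma BB_ro {τ : TabX R s₀ x} {p q : Fin n} (hp : p ∈ R) (hq : q ∉ R) : BB τ p q ↔ q ∈ τ.1 p := by
  unfold BB
  simp [hp, hq]

lemma BB_or {τ : TabX R s₀ x} {p q : Fin n} (hp : p ∉ R) (hq : q ∈ R) : BB τ p q ↔ p ∈ τ.1 q := by
  unfold BB
  simp [hp, hq]

lemma BB_oo {τ : TabX R s₀ x} {p q : Fin n} (hp : p ∉ R) (hq : q ∉ R) : BB τ p q ↔ x.1.Adj p q := by
  unfold BB
  simp [hp, hq]

lemma BB_symm {τ : TabX R s₀ x} {p q : Fin n} (h : BB τ p q) : BB τ q p := by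
  by_cases hp : p ∈ R <;> by_cases hq : q ∈ R
  · rw [BB_rr hp hq] at h
    rw [BB_rr hq hp, trig_comm]
    exact ⟨h.1.symm, h.2⟩
  · rw [BB_ro hp hq] at h
    rwa [BB_or hq hp]
  · rw [BB_or hp hq] at h
    rwa [BB_ro hq hp]
  · rw [BB_oo hp hq] at h
    rw [BB_oo hq hp]
    exact h.symm

lemma BB_irr {τ : TabX R s₀ x} {p : Fin n} : ¬ BB τ p p := by
  by_cases hp : p ∈ R
  · rw [BB_rr hp hp]
    exact fun h => h.1 rfl
  · rw [BB_oo hp hp]
    exact x.1.loopless.irrefl p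

lemma tx_row_sum (hs₀ : s₀ ∈ R) (τ : TabX R s₀ x) (l : Fin n) :
    (τ.1 l).card = ∑ t ∈ Rᶜ, iv (t ∈ τ.1 l) + iv (s₀ ∈ τ.1 l) :=
  row_sum _ (fun _ ht hts => tx_other τ ht hts) hs₀

/-- The neighbours in `R`. -/
lemma sum_BB_first (T : Tri R i j k) (hs₀ : s₀ ∈ R) (τ : TabX R s₀ x) :
    ∑ s ∈ R, iv (BB τ i s) = iv (trig (mmT R x) (s₀ ∈ τ.1 i) (s₀ ∈ τ.1 j))
      + iv (trig (mmT R x) (s₀ ∈ τ.1 i) (s₀ ∈ τ.1 k)) := by
  rw [T.sum, iv_false BB_irr, zero_add]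
  congr 1
  · refine iv_congr ?_
    rw [BB_rr T.mem1 T.mem2]
    simp [T.1]
  · refine iv_congr ?_
    rw [BB_rr T.mem1 T.mem3]
    simp [T.2.1]

lemma count_tau (T : Tri R i j k) (hs₀ : s₀ ∈ R) (τ : TabX R s₀ x) :
    iv (s₀ ∈ τ.1 i) + iv (s₀ ∈ τ.1 j) + iv (s₀ ∈ τ.1 k) = kap (mmT R x) := by
  have := tx_star T hs₀ τ
  rwa [T.sum] at this

lemma sum_BB_first' (T : Tri R i j k) (hs₀ : s₀ ∈ R) (τ : TabX R s₀ x) :
    ∑ s ∈ R, iv (BB τ i s) = iv (s₀ ∈ τ.1 i) + hf (mmT R x) := by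
  rw [sum_BB_first T hs₀ τ]
  have hM := mm_vals T x
  have hc := count_tau T hs₀ τ
  have h1 := star_L3 _ _ _ _ hM hc
  have h2 := star_L3' _ _ _ _ hM hc
  have h3 := star_L1 (trig (mmT R x) (s₀ ∈ τ.1 i) (s₀ ∈ τ.1 j))
    (trig (mmT R x) (s₀ ∈ τ.1 i) (s₀ ∈ τ.1 k)) (trig (mmT R x) (s₀ ∈ τ.1 j) (s₀ ∈ τ.1 k))
  rw [h1] at h3
  rw [h3, iv_congr h2]

lemma BB_deg (T : Tri R i j k) (hs₀ : s₀ ∈ R) (τ : TabX R s₀ x) (t₀ : Fin n) :
    ∑ s, iv (BB τ t₀ s) = d t₀ := by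
  by_cases ht : t₀ ∈ R
  · obtain ⟨q, r, T'⟩ := T.pick1 ht
    rw [← Finset.sum_add_sum_compl R, sum_BB_first' T' hs₀ τ]
    have e1 : ∑ s ∈ Rᶜ, iv (BB τ t₀ s) = ∑ s ∈ Rᶜ, iv (s ∈ τ.1 t₀) :=
      Finset.sum_congr rfl (fun s hs => iv_congr (BB_ro ht (Finset.mem_compl.1 hs)))
    rw [e1]
    have e2 := tx_row_sum hs₀ τ t₀
    have e3 := tx_row T hs₀ τ ht
    omega
  · refine deg_of_compare x R ?_ ?_
    · intro s hs
      exact BB_oo ht hs
    · rw [← tx_col hs₀ τ ht]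
      exact Finset.sum_congr rfl (fun s hs => iv_congr (BB_or ht hs))

/-- The state of a table. -/
noncomputable def ofT (hT : ∃ i j k, Tri R i j k) (hs₀ : s₀ ∈ R) (τ : TabX R s₀ x) : Realization d :=
  mkG (BB τ) (fun _ _ h => BB_symm h) (fun _ => BB_irr)
    (by
      obtain ⟨i, j, k, T⟩ := hT
      exact BB_deg T hs₀ τ)

lemma ofT_adj (hT : ∃ i j k, Tri R i j k) (hs₀ : s₀ ∈ R) (τ : TabX R s₀ x) (p q : Fin n) :
    (ofT hT hs₀ τ).1.Adj p q ↔ BB τ p q := Iff.rfl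

lemma ofT_mem (hT : ∃ i j k, Tri R i j k) (hs₀ : s₀ ∈ R) (τ : TabX R s₀ x) :
    off (tch R) (ofT hT hs₀ τ) = off (tch R) x := by
  rw [off_eq_iff]
  intro p q hpq
  rw [ofT_adj]
  refine BB_oo (fun h => hpq (Or.inl h)) (fun h => hpq (Or.inr h))

lemma mm_ofT (hT : ∃ i j k, Tri R i j k) (hs₀ : s₀ ∈ R) (τ : TabX R s₀ x) :
    mmT R (ofT hT hs₀ τ) = mmT R x := mm_inv (ofT_mem hT hs₀ τ)

lemma ee_ofT (T : Tri R i j k) (hs₀ : s₀ ∈ R) (τ : TabX R s₀ x) :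
    ee R (ofT ⟨i, j, k, T⟩ hs₀ τ) i = iv (trig (mmT R x) (s₀ ∈ τ.1 i) (s₀ ∈ τ.1 j))
      + iv (trig (mmT R x) (s₀ ∈ τ.1 i) (s₀ ∈ τ.1 k)) :=
  sum_BB_first T hs₀ τ

lemma star_ofT (hT : ∃ i j k, Tri R i j k) (hs₀ : s₀ ∈ R) (τ : TabX R s₀ x) {l : Fin n}
    (hl : l ∈ R) : star (mmT R x) (ee R (ofT hT hs₀ τ) l) ↔ s₀ ∈ τ.1 l := by
  obtain ⟨i, j, k, T⟩ := hT
  obtain ⟨q, r, T'⟩ := T.pick1 hl
  have : ofT ⟨i, j, k, T⟩ hs₀ τ = ofT ⟨l, q, r, T'⟩ hs₀ τ := rfl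
  rw [this, ee_ofT T' hs₀ τ]
  exact star_L3' _ _ _ _ (mm_vals T' x) (count_tau T' hs₀ τ)

/-- The table of the state of a table. -/
lemma tb_ofT (hT : ∃ i j k, Tri R i j k) (hs₀ : s₀ ∈ R) (τ : TabX R s₀ x) (l : Fin n) :
    tb R s₀ (mmT R x) (ofT hT hs₀ τ) l = τ.1 l := by
  by_cases hl : l ∈ R
  · ext t
    by_cases ht : t ∈ R
    · by_cases hs : t = s₀
      · subst hs
        rw [tb_star hl hs₀, star_ofT hT hs₀ τ hl]
      · constructor
        · intro h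
          exact absurd h (tb_other ht hs)
        · intro h
          exact absurd h (tx_other τ ht hs)
    · rw [tb_out hl ht hs₀, ofT_adj, BB_ro hl ht]
  · rw [tb_off hl, tx_off τ hl]

lemma ofT_inj (hT : ∃ i j k, Tri R i j k) (hs₀ : s₀ ∈ R) {τ τ' : TabX R s₀ x}
    (h : ofT hT hs₀ τ = ofT hT hs₀ τ') : τ = τ' := by
  apply Subtype.ext
  funext l
  rw [← tb_ofT hT hs₀ τ, ← tb_ofT hT hs₀ τ', h]

/-- The table of a state of the class, as a table. -/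
noncomputable def toT (hT : ∃ i j k, Tri R i j k) (hs₀ : s₀ ∈ R) {y : Realization d}
    (hy : off (tch R) y = off (tch R) x) : TabX R s₀ x :=
  ⟨tb R s₀ (mmT R x) y, by
    obtain ⟨i, j, k, T⟩ := hT
    exact isTab_tb T hs₀ hy⟩

lemma ofT_toT (hT : ∃ i j k, Tri R i j k) (hs₀ : s₀ ∈ R) {y : Realization d}
    (hy : off (tch R) y = off (tch R) x) : ofT hT hs₀ (toT hT hs₀ hy) = y := by
  have e := off_eq_iff.1 hy
  have hm := mm_inv hy
  obtain ⟨i, j, k, T⟩ := id hT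
  apply state_ext
  intro p q
  rw [ofT_adj]
  by_cases hp : p ∈ R <;> by_cases hq : q ∈ R
  · rw [BB_rr hp hq]
    by_cases hpq : p = q
    · subst hpq
      simp [y.1.loopless.irrefl p]
    · obtain ⟨r, T'⟩ := T.pick hp hq hpq
      change _ ∧ trig _ (s₀ ∈ tb R s₀ (mmT R x) y p) (s₀ ∈ tb R s₀ (mmT R x) y q) ↔ _
      rw [tb_star hp hs₀, tb_star hq hs₀, ← hm, trig_star T' y]
      simp [hpq]
  · rw [BB_ro hp hq]
    exact tb_out hp hq hs₀
  · rw [BB_or hp hq, adj_comm' y]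
    exact tb_out hq hp hs₀
  · rw [BB_oo hp hq]
    refine (e p q ?_).symm
    rintro (h | h)
    · exact hp h
    · exact hq h

/-- Sums over a class are sums over the tables. -/
lemma sum_cls_ofT (hT : ∃ i j k, Tri R i j k) (hs₀ : s₀ ∈ R) (G : Realization d → ℝ) :
    ∑ y ∈ cls (off (tch R)) x, G y = ∑ τ : TabX R s₀ x, G (ofT hT hs₀ τ) := by
  classical
  symm
  refine Finset.sum_bij (fun τ _ => ofT hT hs₀ τ) ?_ ?_ ?_ ?_
  · intro τ _
    exact mem_cls.2 (ofT_mem hT hs₀ τ)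
  · intro τ _ τ' _ h
    exact ofT_inj hT hs₀ h
  · intro y hy
    exact ⟨toT hT hs₀ (mem_cls.1 hy), Finset.mem_univ _, ofT_toT hT hs₀ _⟩
  · intro _ _; rfl

/-- The classes of the block of a pair of `R` on the tables are the classes of the rows. -/
lemma off_pb_iff (T : Tri R i j k) (hs₀ : s₀ ∈ R) (τ τ' : TabX R s₀ x) :
    off (pb i j) (ofT ⟨i, j, k, T⟩ hs₀ τ') = off (pb i j) (ofT ⟨i, j, k, T⟩ hs₀ τ)
      ↔ restr {i, j} τ' = restr {i, j} τ := by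
  set hT : ∃ i j k, Tri R i j k := ⟨i, j, k, T⟩ with hhT
  set y := ofT hT hs₀ τ with hy
  set y' := ofT hT hs₀ τ' with hy'
  have hk : ¬ inn i j k := by
    rintro (h | h)
    · exact T.2.1 h.symm
    · exact T.2.2.1 h.symm
  have hl : ∀ l, l ∈ R → l ∉ ({i, j} : Finset (Fin n)) → l = k := by
    intro l h1 h2
    simp only [Finset.mem_insert, Finset.mem_singleton, not_or] at h2
    rcases (T.2.2.2 l).1 h1 with h | h | h
    · exact absurd h h2.1
    · exact absurd h h2.2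
    · exact h
  have hout : ∀ t, t ∉ R → ¬ inn i j t := by
    rintro t ht (h | h)
    · exact ht (h ▸ T.mem1)
    · exact ht (h ▸ T.mem2)
  rw [restr_eq_iff]
  constructor
  · intro h
    have e := off_eq_iff.1 h
    intro l hl'
    by_cases hlR : l ∈ R
    · have hlk := hl l hlR hl'
      subst hlk
      rw [← tb_ofT hT hs₀ τ' l, ← tb_ofT hT hs₀ τ l]
      have hee : ee R y' l = ee R y l := by
        rw [ee_first T.p31, ee_first T.p31]
        exact col_inv T.1 hk h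
      ext t
      rw [mem_tb, mem_tb, hee]
      have hadj : t ∉ R → (y'.1.Adj l t ↔ y.1.Adj l t) := by
        intro ht
        refine e l t ?_
        have := hout t ht
        unfold pb
        tauto
      constructor
      · rintro ⟨h1, ⟨h2, h3⟩ | h2⟩
        · exact ⟨h1, Or.inl ⟨h2, (hadj h2).1 h3⟩⟩
        · exact ⟨h1, Or.inr h2⟩
      · rintro ⟨h1, ⟨h2, h3⟩ | h2⟩
        · exact ⟨h1, Or.inl ⟨h2, (hadj h2).2 h3⟩⟩
        · exact ⟨h1, Or.inr h2⟩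
    · rw [tx_off τ' hlR, tx_off τ hlR]
  · intro h
    have hτk : τ'.1 k = τ.1 k := h k (by
      simp only [Finset.mem_insert, Finset.mem_singleton, not_or]
      exact ⟨T.2.1.symm, T.2.2.1.symm⟩)
    rw [off_eq_iff]
    intro p q hpq
    change BB τ' p q ↔ BB τ p q
    by_cases hp : p ∈ R <;> by_cases hq : q ∈ R
    · -- both in R
      by_cases hpe : p = q
      · subst hpe
        simp [BB_irr]
      have hstar : star (mmT R x) (ee R y' k) ↔ star (mmT R x) (ee R y k) := by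
        rw [star_ofT hT hs₀ τ' T.mem3, star_ofT hT hs₀ τ T.mem3, hτk]
      have hm' : mmT R y' = mmT R x := mm_ofT hT hs₀ τ'
      have hm : mmT R y = mmT R x := mm_ofT hT hs₀ τ
      have hij : y'.1.Adj i j ↔ y.1.Adj i j := by
        have h1 := mm_eq T y'
        have h2 := mm_eq T y
        rw [hm'] at h1
        rw [hm] at h2
        refine star_L5 (y'.1.Adj i j) (y'.1.Adj i k) (y'.1.Adj j k) (y.1.Adj i j) (y.1.Adj i k)
          (y.1.Adj j k) (by omega) ?_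
        rw [← h1]
        rw [ee_first T.p31, ee_first T.p31, iv_adj_comm y' k i, iv_adj_comm y' k j,
          iv_adj_comm y k i, iv_adj_comm y k j] at hstar
        exact hstar
      -- the pair must be i j
      have hp' : inn i j p := by
        by_contra hn
        rcases (T.2.2.2 p).1 hp with h1 | h1 | h1
        · exact hn (Or.inl h1)
        · exact hn (Or.inr h1)
        · subst h1
          rcases (T.2.2.2 q).1 hq with h2 | h2 | h2
          · subst h2; exact hpq (Or.inr ⟨hn, Or.inl rfl⟩)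
          · subst h2; exact hpq (Or.inr ⟨hn, Or.inr rfl⟩)
          · exact hpe h2.symm
      have hq' : inn i j q := by
        by_contra hn
        exact hpq (Or.inl ⟨hp', hn⟩)
      change y'.1.Adj p q ↔ y.1.Adj p q
      rcases hp' with rfl | rfl <;> rcases hq' with rfl | rfl
      · exact absurd rfl hpe
      · exact hij
      · rw [adj_comm' y', adj_comm' y]; exact hij
      · exact absurd rfl hpe
    · have hpk : p = k := by
        rcases (T.2.2.2 p).1 hp with h1 | h1 | h1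
        · exact absurd (Or.inl ⟨Or.inl h1, hout q hq⟩) hpq
        · exact absurd (Or.inl ⟨Or.inr h1, hout q hq⟩) hpq
        · exact h1
      subst hpk
      rw [BB_ro hp hq, BB_ro hp hq, hτk]
    · have hqk : q = k := by
        rcases (T.2.2.2 q).1 hq with h1 | h1 | h1
        · exact absurd (Or.inr ⟨hout p hp, Or.inl h1⟩) hpq
        · exact absurd (Or.inr ⟨hout p hp, Or.inr h1⟩) hpq
        · exact h1
      subst hqk
      rw [BB_or hp hq, BB_or hp hq, hτk]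
    · rw [BB_oo hp hq, BB_oo hp hq]

end tau

section transport

variable {T₀ X Z Z' : Type*} [Fintype T₀] [Fintype X]

lemma cavg_transport (ι : T₀ → X) (φ : X → Z) (φT : T₀ → Z') (hinj : Function.Injective ι) (τ : T₀)
    (h1 : ∀ τ', φ (ι τ') = φ (ι τ) ↔ φT τ' = φT τ) (h2 : ∀ y, φ y = φ (ι τ) → ∃ τ', ι τ' = y)
    (f : X → ℝ) : cavg φ f (ι τ) = cavg φT (fun t => f (ι t)) τ := by
  have key : ∀ G : X → ℝ, ∑ y ∈ cls φ (ι τ), G y = ∑ t ∈ cls φT τ, G (ι t) := by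
    intro G
    symm
    refine Finset.sum_bij (fun t _ => ι t) ?_ ?_ ?_ ?_
    · intro t ht
      exact mem_cls.2 ((h1 t).2 (mem_cls.1 ht))
    · intro t _ t' _ h
      exact hinj h
    · intro y hy
      obtain ⟨t, ht⟩ := h2 y (mem_cls.1 hy)
      refine ⟨t, mem_cls.2 ((h1 t).1 ?_), ht⟩
      rw [ht]
      exact mem_cls.1 hy
    · intro _ _; rfl
  unfold cavg
  rw [key f]
  have hc : ((cls φ (ι τ)).card : ℝ) = ((cls φT τ).card : ℝ) := by
    have := key (fun _ => (1 : ℝ))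
    simpa using this
  rw [hc]

end transport

section main

variable {R : Finset (Fin n)} {s₀ : Fin n} {x : Realization d} {i j k : Fin n}

lemma pb_tch (T : Tri R i j k) {p q : Fin n} (h : pb i j p q) : tch R p q := by
  have h1 : ∀ t, inn i j t → t ∈ R := by
    rintro t (h2 | h2)
    · exact h2 ▸ T.mem1
    · exact h2 ▸ T.mem2
  rcases h with ⟨h2, _⟩ | ⟨_, h2⟩
  · exact Or.inl (h1 p h2)
  · exact Or.inr (h1 q h2)

/-- The complement of the average over a block on the tables. -/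
lemma Qf_ofT (T : Tri R i j k) (hs₀ : s₀ ∈ R) (f : Realization d → ℝ) (τ : TabX R s₀ x) :
    Qf (off (pb i j)) f (ofT ⟨i, j, k, T⟩ hs₀ τ)
      = Qs {i, j} (fun t : TabX R s₀ x => f (ofT ⟨i, j, k, T⟩ hs₀ t)) τ := by
  rw [Qf_apply, Qs_apply]
  simp only [Pi.sub_apply]
  congr 1
  refine cavg_transport _ _ _ (fun _ _ h => ofT_inj _ hs₀ h) τ (fun τ' => off_pb_iff T hs₀ τ τ') ?_ f
  intro y hy
  have h1 : off (tch R) y = off (tch R) (ofT ⟨i, j, k, T⟩ hs₀ τ) :=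
    off_mono (fun a b h => pb_tch T h) hy
  rw [ofT_mem] at h1
  exact ⟨toT ⟨i, j, k, T⟩ hs₀ h1, ofT_toT _ hs₀ h1⟩

end main

/-- The triple inequality for general graphs. -/
theorem triple_ineq {i j k : Fin n} (hij : i ≠ j) (hik : i ≠ k) (hjk : j ≠ k)
    (f : Realization d → ℝ) :
    0 ≤ ip (Qf (off (pb i j)) f) (Qf (off (pb i k)) f)
      + ip (Qf (off (pb j i)) f) (Qf (off (pb j k)) f)
      + ip (Qf (off (pb k i)) f) (Qf (off (pb k j)) f) := by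
  classical
  set R : Finset (Fin n) := {i, j, k} with hR
  have T : Tri R i j k := ⟨hij, hik, hjk, fun l => by simp [hR]⟩
  have hs₀ : i ∈ R := T.mem1
  set A : Realization d → ℝ := fun y =>
    Qf (off (pb i j)) f y * Qf (off (pb i k)) f y + Qf (off (pb j i)) f y * Qf (off (pb j k)) f y
      + Qf (off (pb k i)) f y * Qf (off (pb k j)) f y with hA
  have h1 : 0 ≤ ∑ y, A y := by
    refine sum_nonneg_of_cls (off (tch R)) A (fun x => ?_)
    have hT : ∃ a b c, Tri R a b c := ⟨i, j, k, T⟩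
    rw [sum_cls_ofT hT hs₀]
    set g : TabX R i x → ℝ := fun t => f (ofT hT hs₀ t) with hg
    have hrows := rows_tri (r := rowM R i x) (c := colM R i x) hij hik hjk g
    have e : ∀ τ : TabX R i x, A (ofT hT hs₀ τ) =
        Qs {i, j} g τ * Qs {i, k} g τ + Qs {j, i} g τ * Qs {j, k} g τ
          + Qs {k, i} g τ * Qs {k, j} g τ := by
      intro τ
      simp only [hA]
      rw [show ofT hT hs₀ τ = ofT ⟨i, j, k, T⟩ hs₀ τ from rfl, Qf_ofT T hs₀ f τ,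
        show ofT ⟨i, j, k, T⟩ hs₀ τ = ofT ⟨i, k, j, T.p23⟩ hs₀ τ from rfl, Qf_ofT T.p23 hs₀ f τ,
        show ofT ⟨i, k, j, T.p23⟩ hs₀ τ = ofT ⟨j, i, k, T.p12⟩ hs₀ τ from rfl, Qf_ofT T.p12 hs₀ f τ,
        show ofT ⟨j, i, k, T.p12⟩ hs₀ τ = ofT ⟨j, k, i, T.p12.p23⟩ hs₀ τ from rfl,
        Qf_ofT T.p12.p23 hs₀ f τ,
        show ofT ⟨j, k, i, T.p12.p23⟩ hs₀ τ = ofT ⟨k, i, j, T.p31⟩ hs₀ τ from rfl,
        Qf_ofT T.p31 hs₀ f τ,
        show ofT ⟨k, i, j, T.p31⟩ hs₀ τ = ofT ⟨k, j, i, T.p31.p23⟩ hs₀ τ from rfl,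
        Qf_ofT T.p31.p23 hs₀ f τ]
    simp only [e]
    have : ∑ τ : TabX R i x, (Qs {i, j} g τ * Qs {i, k} g τ + Qs {j, i} g τ * Qs {j, k} g τ
          + Qs {k, i} g τ * Qs {k, j} g τ)
        = ip (Qs {i, j} g) (Qs {i, k} g) + ip (Qs {j, i} g) (Qs {j, k} g)
          + ip (Qs {k, i} g) (Qs {k, j} g) := by
      unfold ip
      rw [← Finset.sum_add_distrib, ← Finset.sum_add_distrib]
    rw [this]
    exact hrows
  have e : ∑ y, A y = ip (Qf (off (pb i j)) f) (Qf (off (pb i k)) f)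
      + ip (Qf (off (pb j i)) f) (Qf (off (pb j k)) f)
      + ip (Qf (off (pb k i)) f) (Qf (off (pb k j)) f) := by
    unfold ip
    simp only [hA]
    rw [← Finset.sum_add_distrib, ← Finset.sum_add_distrib]
  rw [← e]
  exact h1

end Vale.Agent.Lib.P335
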