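import Vale.Agent.Lib.P335.GenFiberJ
import Vale.Agent.Lib.P335.GenTriple2
import Vale.Agent.Lib.P335.GenConnect

/-!
The global spectral estimate: the sum of the complements of the vertex pair averages has spectral
gap at least four on the functions of mean zero.
-/

open Finset BigOperators

namespace Vale.Agent.Lib.P335

set_option linter.unusedSectionVars false

variable {n : ℕ} {d : Fin n → ℕ}

open Classical in
/-- The vertex pair block, zero on the diagonal. -/
noncomputable def Qd (u v : Fin n) : (Realization d → ℝ) →ₗ[ℝ] (Realization d → ℝ) :=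
  if u = v then 0 else Qf (off (pb u v))

lemma Qd_self (u : Fin n) : (Qd u u : (Realization d → ℝ) →ₗ[ℝ] (Realization d → ℝ)) = 0 := by
  unfold Qd
  rw [if_pos rfl]

lemma Qd_of_ne {u v : Fin n} (h : u ≠ v) :
    (Qd u v : (Realization d → ℝ) →ₗ[ℝ] (Realization d → ℝ)) = Qf (off (pb u v)) := by
  unfold Qd
  rw [if_neg h]

lemma Qd_comm (u v : Fin n) :
    (Qd u v : (Realization d → ℝ) →ₗ[ℝ] (Realization d → ℝ)) = Qd v u := by
  by_cases h : u = v
  · rw [h]
  · rw [Qd_of_ne h, Qd_of_ne (Ne.symm h), pb_comm]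

lemma Qd_sa (u v : Fin n) (f g : Realization d → ℝ) : ip (Qd u v f) g = ip f (Qd u v g) := by
  by_cases h : u = v
  · subst h
    rw [Qd_self]
    simp [ip_zero_left, ip_zero_right]
  · rw [Qd_of_ne h]
    exact Qf_sa _ f g

lemma Qd_id (u v : Fin n) (f : Realization d → ℝ) : Qd u v (Qd u v f) = Qd u v f := by
  by_cases h : u = v
  · subst h
    rw [Qd_self]
    simp
  · rw [Qd_of_ne h]
    exact Qf_id _ f

/-- The sum of the blocks. -/
noncomputable def QQ : (Realization d → ℝ) →ₗ[ℝ] (Realization d → ℝ) :=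
  ∑ u : Fin n, ∑ v : Fin n, Qd u v

lemma QQ_apply (f : Realization d → ℝ) : QQ f = ∑ u : Fin n, ∑ v : Fin n, Qd u v f := by
  unfold QQ
  simp [LinearMap.sum_apply]

lemma QQ_sa (f g : Realization d → ℝ) : ip (QQ f) g = ip f (QQ g) := by
  rw [QQ_apply, QQ_apply, ip_sum_left, ip_sum_right]
  refine Finset.sum_congr rfl (fun u _ => ?_)
  rw [ip_sum_left, ip_sum_right]
  exact Finset.sum_congr rfl (fun v _ => Qd_sa u v f g)

/-- The quadratic form of the sum. -/
lemma ip_QQ (f : Realization d → ℝ) :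
    ip f (QQ f) = ∑ u : Fin n, ∑ v : Fin n, ip (Qd u v f) (Qd u v f) := by
  rw [QQ_apply, ip_sum_right]
  refine Finset.sum_congr rfl (fun u _ => ?_)
  rw [ip_sum_right]
  refine Finset.sum_congr rfl (fun v _ => ?_)
  rw [Qd_sa, Qd_id]

lemma sum_swap_pairs (A : Fin n → Fin n → Fin n → Fin n → ℝ) :
    ∑ i, ∑ j, ∑ k, ∑ l, A k l i j = ∑ i, ∑ j, ∑ k, ∑ l, A i j k l := by
  calc ∑ i, ∑ j, ∑ k, ∑ l, A k l i j = ∑ i, ∑ k, ∑ j, ∑ l, A k l i j :=
        Finset.sum_congr rfl (fun i _ => Finset.sum_comm)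
    _ = ∑ k, ∑ i, ∑ j, ∑ l, A k l i j := Finset.sum_comm
    _ = ∑ k, ∑ i, ∑ l, ∑ j, A k l i j :=
        Finset.sum_congr rfl (fun k _ => Finset.sum_congr rfl (fun i _ => Finset.sum_comm))
    _ = ∑ k, ∑ l, ∑ i, ∑ j, A k l i j :=
        Finset.sum_congr rfl (fun k _ => Finset.sum_comm)

lemma XX_swap (u v w z : Fin n) (f : Realization d → ℝ) :
    ip (Qinv (tog w z u v) f) (Qinv (tog w z u v) f)
      = ip (Qinv (tog u v w z) f) (Qinv (tog u v w z) f) := by
  have : (tog w z u v : Realization d → Realization d) = tog u v w z := by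
    funext x
    exact tog_symm u v w z x
  rw [this]

open Classical in
/-- The far part of the square is at least twice the form. -/
lemma far_lower (f : Realization d → ℝ) :
    2 * (∑ i : Fin n, ∑ j : Fin n, ip (Qd i j f) (Qd i j f))
      ≤ ∑ i : Fin n, ∑ j : Fin n, ∑ k : Fin n, ∑ l : Fin n,
          (if k ≠ i ∧ k ≠ j ∧ l ≠ i ∧ l ≠ j then ip (Qd i j f) (Qd k l f) else 0) := by
  set XX : Fin n → Fin n → Fin n → Fin n → ℝ := fun u v w z =>
    ip (Qinv (tog u v w z) f) (Qinv (tog u v w z) f) with hXX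
  set Z : Fin n → Fin n → Fin n → Fin n → ℝ := fun u v w z => if Dis4 u v w z then
    XX u v w z - WW u v w z f else 0 with hZ
  set Y : Fin n → Fin n → Fin n → Fin n → ℝ := fun u v w z => if Dis4 u v w z then
    XX u v w z - WW u v w z f / 2 - WW w z u v f / 2 else 0 with hY
  have h1 : 2 * (∑ i : Fin n, ∑ j : Fin n, ip (Qd i j f) (Qd i j f))
      ≤ ∑ i : Fin n, ∑ j : Fin n, ∑ k : Fin n, ∑ l : Fin n, Z i j k l := by
    rw [Finset.mul_sum]
    refine Finset.sum_le_sum (fun i _ => ?_)
    rw [Finset.mul_sum]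
    refine Finset.sum_le_sum (fun j _ => ?_)
    by_cases hij : i = j
    · subst hij
      rw [Qd_self]
      have : ∀ k l, Z i i k l = 0 := by
        intro k l
        simp only [hZ]
        rw [if_neg (fun h => h.1 rfl)]
      simp [this, ip_zero_left]
    · rw [Qd_of_ne hij]
      exact pair_ineq hij f
  have h2 : ∑ i : Fin n, ∑ j : Fin n, ∑ k : Fin n, ∑ l : Fin n, Y i j k l
      = ∑ i : Fin n, ∑ j : Fin n, ∑ k : Fin n, ∑ l : Fin n, Z i j k l := by
    have e1 : ∀ i j k l : Fin n, Y i j k l = Z i j k l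
        + ((if Dis4 i j k l then WW i j k l f else 0)
          - (if Dis4 k l i j then WW k l i j f else 0)) / 2 := by
      intro i j k l
      simp only [hY, hZ]
      by_cases h : Dis4 i j k l
      · have h' : Dis4 k l i j := h.swap
        rw [if_pos h, if_pos h, if_pos h, if_pos h']
        ring
      · have h' : ¬ Dis4 k l i j := fun h'' => h h''.swap
        rw [if_neg h, if_neg h, if_neg h, if_neg h']
        ring
    simp only [e1, Finset.sum_add_distrib]
    have e2 : ∑ i : Fin n, ∑ j : Fin n, ∑ k : Fin n, ∑ l : Fin n,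
        ((if Dis4 i j k l then WW i j k l f else 0)
          - (if Dis4 k l i j then WW k l i j f else 0)) / 2 = 0 := by
      simp only [sub_div, Finset.sum_sub_distrib]
      rw [sum_swap_pairs (fun i j k l => (if Dis4 i j k l then WW i j k l f else 0) / 2)]
      ring
    rw [e2, add_zero]
  refine h1.trans (h2.symm.le.trans ?_)
  refine Finset.sum_le_sum (fun i _ => Finset.sum_le_sum (fun j _ =>
    Finset.sum_le_sum (fun k _ => Finset.sum_le_sum (fun l _ => ?_))))
  simp only [hY]
  by_cases h : Dis4 i j k l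
  · rw [if_pos h, if_pos ⟨h.2.1.symm, h.2.2.2.1.symm, h.2.2.1.symm, h.2.2.2.2.1.symm⟩,
      Qd_of_ne h.1, Qd_of_ne h.2.2.2.2.2]
    exact disjoint_ineq h f
  · rw [if_neg h]
    by_cases hc : k ≠ i ∧ k ≠ j ∧ l ≠ i ∧ l ≠ j
    · rw [if_pos hc]
      by_cases hij : i = j
      · subst hij
        rw [Qd_self]
        simp [ip_zero_left]
      · by_cases hkl : k = l
        · subst hkl
          rw [Qd_self]
          simp [ip_zero_right]
        · exact absurd ⟨hij, hc.1.symm, hc.2.2.1.symm, hc.2.1.symm, hc.2.2.2.symm, hkl⟩ h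
    · rw [if_neg hc]

/-- The square of the sum of the blocks dominates four times the sum. -/
lemma QQ_sq (f : Realization d → ℝ) : 4 * ip f (QQ f) ≤ ip (QQ f) (QQ f) := by
  classical
  set F : Fin n → Fin n → Realization d → ℝ := fun u v => Qd u v f with hF
  have hdiag : ∀ i, F i i = 0 := by
    intro i
    simp [hF, Qd_self]
  have hsymm : ∀ i j, F i j = F j i := by
    intro i j
    simp only [hF]
    rw [Qd_comm]
  have hexp := knabe_expand F hdiag hsymm
  have hadj := adj_lower F hdiag hsymm 0 (by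
    intro i j k hij hik hjk
    simp only [hF]
    rw [Qd_of_ne hij, Qd_of_ne hik, Qd_of_ne hij.symm, Qd_of_ne hjk, Qd_of_ne hik.symm,
      Qd_of_ne hjk.symm, zero_mul]
    exact triple_ineq hij hik hjk f)
  have hfar := far_lower f
  have hT : QQ f = ∑ i, ∑ j, F i j := QQ_apply f
  rw [ip_QQ, hT]
  rw [zero_mul] at hadj
  simp only [hF] at hexp hadj ⊢
  rw [hexp]
  nlinarith

lemma QQ_nonneg (f : Realization d → ℝ) : 0 ≤ ip f (QQ f) := by
  rw [ip_QQ]
  exact Finset.sum_nonneg (fun u _ => Finset.sum_nonneg (fun v _ => ip_self_nonneg _))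

lemma tog_of_not_dis {u v w z : Fin n} (h : ¬ Dis4 u v w z) (x : Realization d) :
    tog u v w z x = x := by
  unfold tog
  rw [dif_neg (fun h' => h h'.1)]

/-- The kernel of the sum of the blocks consists of constants. -/
lemma const_of_QQ {v : Realization d → ℝ} (h : ip v (QQ v) = 0) (x y : Realization d) :
    v x = v y := by
  rw [ip_QQ] at h
  have hQ : ∀ i j : Fin n, Qd i j v = 0 := by
    intro i j
    have h1 := (Finset.sum_eq_zero_iff_of_nonneg (fun i _ => Finset.sum_nonneg
      (fun j _ => ip_self_nonneg (Qd i j v)))).1 h i (Finset.mem_univ i)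
    have h2 := (Finset.sum_eq_zero_iff_of_nonneg (fun j _ => ip_self_nonneg (Qd i j v))).1 h1 j
      (Finset.mem_univ j)
    exact ip_self_eq_zero.1 h2
  refine const_of_tog v (fun a b w z s => ?_) x y
  by_cases D : Dis4 a b w z
  · have h3 := hQ a b
    rw [Qd_of_ne D.1, Qf_apply, sub_eq_zero] at h3
    calc v (tog a b w z s) = cavg (off (pb a b)) v (tog a b w z s) := by rw [← h3]
      _ = cavg (off (pb a b)) v s := cavg_congr v (off_tog_left D)
      _ = v s := by rw [← h3]
  · rw [tog_of_not_dis D]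

/-- The spectral gap of the sum of the blocks. -/
theorem QQ_gap (f : Realization d → ℝ) (hf : ∑ x, f x = 0) :
    4 * ip f f ≤ ∑ u : Fin n, ∑ v : Fin n, ip (Qd u v f) (Qd u v f) := by
  classical
  rw [← ip_QQ]
  refine gap_of_square QQ QQ_sa QQ_nonneg 4 QQ_sq (fun v => ∀ x y, v x = v y) ?_ f ?_
  · intro v hv
    exact const_of_QQ hv
  · intro w hw
    unfold ip
    rcases isEmpty_or_nonempty (Realization d) with he | ⟨⟨x₀⟩⟩
    · simp
    · have : ∀ x, f x * w x = f x * w x₀ := fun x => by rw [hw x x₀]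
      simp only [this]
      rw [← Finset.sum_mul, hf, zero_mul]

end Vale.Agent.Lib.P335
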