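import Vale.Agent.Lib.P335.Slice

/-!
The frame bound on the slice for the separation indicators, and the resulting inequality used for
the fibres of the two-vertex blocks.
-/

open Finset BigOperators

namespace Vale.Agent.Lib.P335

set_option linter.unusedSectionVars false

variable {K : Type*} [Fintype K] [DecidableEq K] {a : ℕ}

/-- The separation indicator. -/
noncomputable def hr (x y : K) (S : Sl K a) : ℝ := if hh x y S.1 then 1 else 0

lemma hr_self (x : K) (S : Sl K a) : hr x x S = 0 := by
  unfold hr; rw [if_neg (not_hh_self x S.1)]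

lemma hr_comm (x y : K) (S : Sl K a) : hr x y S = hr y x S := by
  unfold hr; simp only [hh_comm x y]

lemma hr_nonneg (x y : K) (S : Sl K a) : 0 ≤ hr x y S := by
  unfold hr; split_ifs <;> norm_num

/-- The indicator of containing `A` and avoiding `B`. -/
noncomputable def indAB (A B : Finset K) (S : Sl K a) : ℝ :=
  if A ⊆ S.1 ∧ Disjoint S.1 B then 1 else 0

/-- The number of sets of size `a` containing `p` given points and avoiding `q` given points. -/
noncomputable def cn (K : Type*) [Fintype K] (a p q : ℕ) : ℝ :=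
  if p ≤ a then ((Fintype.card K - p - q).choose (a - p) : ℝ) else 0

lemma cn_nonneg (p q : ℕ) : 0 ≤ cn K a p q := by
  unfold cn; split_ifs <;> positivity

lemma sum_indAB {A B : Finset K} (hAB : Disjoint A B) :
    ∑ S : Sl K a, indAB A B S = cn K a A.card B.card := by
  have hcard : ((Finset.univ : Finset K) \ (A ∪ B)).card = Fintype.card K - A.card - B.card := by
    rw [Finset.card_sdiff_of_subset (Finset.subset_univ _), Finset.card_union_of_disjoint hAB,
      Finset.card_univ]
    omega
  have h0 : ∑ S : Sl K a, indAB A B S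
      = ((Finset.univ.filter (fun S : Sl K a => A ⊆ S.1 ∧ Disjoint S.1 B)).card : ℝ) := by
    unfold indAB
    rw [Finset.card_filter]
    push_cast
    rfl
  rw [h0]
  unfold cn
  by_cases h : A.card ≤ a
  · rw [if_pos h, ← hcard, ← Finset.card_powersetCard]
    congr 1
    refine Finset.card_bij (fun S _ => S.1 \ A) ?_ ?_ ?_
    · intro S hS
      rw [Finset.mem_filter] at hS
      rw [Finset.mem_powersetCard]
      constructor
      · intro t ht
        rw [Finset.mem_sdiff] at ht ⊢
        refine ⟨Finset.mem_univ t, ?_⟩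
        rw [Finset.mem_union]
        rintro (h1 | h1)
        · exact ht.2 h1
        · exact Finset.disjoint_left.1 hS.2.2 ht.1 h1
      · rw [Finset.card_sdiff_of_subset hS.2.1, S.2]
    · intro S hS S' hS' he
      rw [Finset.mem_filter] at hS hS'
      apply Subtype.ext
      have h1 := Finset.sdiff_union_of_subset hS.2.1
      have h2 := Finset.sdiff_union_of_subset hS'.2.1
      rw [← h1, ← h2, he]
    · intro T hT
      rw [Finset.mem_powersetCard] at hT
      have hdisj : Disjoint T A := by
        rw [Finset.disjoint_left]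
        intro t ht hA
        have := hT.1 ht
        rw [Finset.mem_sdiff, Finset.mem_union] at this
        exact this.2 (Or.inl hA)
      refine ⟨⟨T ∪ A, ?_⟩, ?_, ?_⟩
      · rw [Finset.card_union_of_disjoint hdisj, hT.2]
        omega
      · rw [Finset.mem_filter]
        refine ⟨Finset.mem_univ _, Finset.subset_union_right, ?_⟩
        rw [Finset.disjoint_left]
        intro t ht hB
        rw [Finset.mem_union] at ht
        rcases ht with ht | ht
        · have := hT.1 ht
          rw [Finset.mem_sdiff, Finset.mem_union] at this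
          exact this.2 (Or.inr hB)
        · exact Finset.disjoint_left.1 hAB ht hB
      · exact Finset.union_sdiff_cancel_right hdisj
  · rw [if_neg h]
    have : Finset.univ.filter (fun S : Sl K a => A ⊆ S.1 ∧ Disjoint S.1 B) = ∅ := by
      rw [Finset.filter_eq_empty_iff]
      intro S _ hS
      have := Finset.card_le_card hS.1
      rw [S.2] at this
      exact h this
    rw [this]
    simp

lemma hr_pat1 {x y : K} (hxy : x ≠ y) (S : Sl K a) :
    hr x y S * hr x y S = indAB {x} {y} S + indAB {y} {x} S := by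
  by_cases h1 : x ∈ S.1 <;> by_cases h2 : y ∈ S.1 <;>
    simp [hr, indAB, hh, h1, h2]

lemma hr_pat2 {x y w : K} (S : Sl K a) :
    hr x y S * hr x w S = indAB {x} {y, w} S + indAB {y, w} {x} S := by
  by_cases h1 : x ∈ S.1 <;> by_cases h2 : y ∈ S.1 <;> by_cases h3 : w ∈ S.1 <;>
    simp [hr, indAB, hh, h1, h2, h3, Finset.insert_subset_iff, Finset.disjoint_insert_right]

lemma hr_pat3 {x y w z : K} (S : Sl K a) :
    hr x y S * hr w z S = indAB {x, w} {y, z} S + indAB {x, z} {y, w} S + indAB {y, w} {x, z} S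
      + indAB {y, z} {x, w} S := by
  by_cases h1 : x ∈ S.1 <;> by_cases h2 : y ∈ S.1 <;> by_cases h3 : w ∈ S.1 <;>
    by_cases h4 : z ∈ S.1 <;>
    simp [hr, indAB, hh, h1, h2, h3, h4, Finset.insert_subset_iff, Finset.disjoint_insert_right]

lemma cn_pascal (hj : 3 ≤ Fintype.card K) : cn K a 1 2 + cn K a 2 1 = cn K a 1 1 := by
  unfold cn
  obtain ⟨m, hm⟩ : ∃ m, Fintype.card K = m + 3 := ⟨Fintype.card K - 3, by omega⟩
  rw [hm]
  rcases a with _ | _ | a
  · simp
  · simp
  · have e1 : m + 3 - 1 - 2 = m := by omega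
    have e2 : m + 3 - 2 - 1 = m := by omega
    have e3 : m + 3 - 1 - 1 = m + 1 := by omega
    have e4 : a + 1 + 1 - 1 = a + 1 := by omega
    have e5 : a + 1 + 1 - 2 = a := by omega
    rw [if_pos (by omega), if_pos (by omega), if_pos (by omega), e1, e2, e3, e4, e5,
      Nat.choose_succ_succ]
    push_cast
    ring

lemma cn_quarter (hj : 4 ≤ Fintype.card K) : 4 * cn K a 2 2 ≤ 2 * cn K a 1 1 := by
  unfold cn
  obtain ⟨m, hm⟩ : ∃ m, Fintype.card K = m + 4 := ⟨Fintype.card K - 4, by omega⟩
  rw [hm]
  rcases a with _ | _ | a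
  · simp
  · simp
  · have e1 : m + 4 - 2 - 2 = m := by omega
    have e2 : m + 4 - 1 - 1 = m + 2 := by omega
    have e3 : a + 1 + 1 - 2 = a := by omega
    have e4 : a + 1 + 1 - 1 = a + 1 := by omega
    rw [if_pos (by omega), if_pos (by omega), e1, e2, e3, e4]
    have h1 : m.choose a ≤ (m + 1).choose a := Nat.choose_le_choose a (by omega)
    have h2 : (m + 2).choose (a + 1) = (m + 1).choose a + (m + 1).choose (a + 1) :=
      Nat.choose_succ_succ _ _
    have h3 : (m + 1).choose (a + 1) = m.choose a + m.choose (a + 1) :=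
      Nat.choose_succ_succ _ _
    have h4 : 2 * m.choose a ≤ (m + 2).choose (a + 1) := by omega
    have h5 : ((2 * m.choose a : ℕ) : ℝ) ≤ ((m + 2).choose (a + 1) : ℝ) := by exact_mod_cast h4
    push_cast at h5
    linarith

/-- The pair correlation of the separation indicators. -/
noncomputable def cc (K : Type*) [Fintype K] [DecidableEq K] (a : ℕ) (x y w z : K) : ℝ :=
  ∑ S : Sl K a, hr x y S * hr w z S

lemma cc_comm_left (x y w z : K) : cc K a x y w z = cc K a y x w z := by
  unfold cc
  exact Finset.sum_congr rfl (fun S _ => by rw [hr_comm x y])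

lemma cc_comm_right (x y w z : K) : cc K a x y w z = cc K a x y z w := by
  unfold cc
  exact Finset.sum_congr rfl (fun S _ => by rw [hr_comm w z])

lemma cc_same {x y : K} (hxy : x ≠ y) : cc K a x y x y = 2 * cn K a 1 1 := by
  unfold cc
  simp only [hr_pat1 hxy, Finset.sum_add_distrib]
  rw [sum_indAB (by simpa using hxy), sum_indAB (by simpa using hxy.symm)]
  simp only [Finset.card_singleton]
  ring

lemma three_le_card {x y w : K} (h1 : x ≠ y) (h2 : x ≠ w) (h3 : y ≠ w) :
    3 ≤ Fintype.card K := by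
  have := Finset.card_le_univ ({x, y, w} : Finset K)
  rwa [Finset.card_eq_three.2 ⟨x, y, w, h1, h2, h3, rfl⟩] at this

lemma four_le_card {x y w z : K} (h1 : x ≠ y) (h2 : x ≠ w) (h3 : x ≠ z) (h4 : y ≠ w) (h5 : y ≠ z)
    (h6 : w ≠ z) : 4 ≤ Fintype.card K := by
  have := Finset.card_le_univ ({x, y, w, z} : Finset K)
  have e : ({x, y, w, z} : Finset K).card = 4 := by
    rw [Finset.card_insert_of_notMem, Finset.card_insert_of_notMem, Finset.card_pair h6]
    · simp [h4, h5]
    · simp [h1, h2, h3]
  rwa [e] at this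

lemma cc_one {x y w : K} (h1 : x ≠ y) (h2 : x ≠ w) (h3 : y ≠ w) :
    cc K a x y x w = cn K a 1 1 := by
  unfold cc
  simp only [hr_pat2, Finset.sum_add_distrib]
  rw [sum_indAB (by simp [h1, h2]), sum_indAB (by simp [h1, h2, h1.symm, h2.symm])]
  rw [Finset.card_singleton, Finset.card_pair h3]
  exact cn_pascal (three_le_card h1 h2 h3)

lemma cc_zero {x y w z : K} (h1 : x ≠ y) (h2 : x ≠ w) (h3 : x ≠ z) (h4 : y ≠ w) (h5 : y ≠ z)
    (h6 : w ≠ z) : cc K a x y w z = 4 * cn K a 2 2 := by
  unfold cc
  simp only [hr_pat3, Finset.sum_add_distrib]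
  rw [sum_indAB (by simp [h1, h3, h4.symm, h6, h1.symm, h3.symm, h4, h6.symm]),
    sum_indAB (by simp [h1, h2, h5.symm, h6.symm, h1.symm, h2.symm, h5, h6]),
    sum_indAB (by simp [h1.symm, h5, h2.symm, h6, h1, h5.symm, h2, h6.symm]),
    sum_indAB (by simp [h1.symm, h4, h3.symm, h6.symm, h1, h4.symm, h3, h6])]
  rw [Finset.card_pair h2, Finset.card_pair h5, Finset.card_pair h3, Finset.card_pair h4]
  ring

/-- The constant for disjoint pairs. -/
noncomputable def qq (K : Type*) [Fintype K] (a : ℕ) : ℝ :=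
  if 4 ≤ Fintype.card K then 4 * cn K a 2 2 else 0

/-- All pair correlations in one formula. -/
lemma cc_pattern {x y w z : K} (hxy : x ≠ y) (hwz : w ≠ z) :
    cc K a x y w z = qq K a + (cn K a 1 1 - qq K a) *
        ((if w = x then 1 else 0) + (if w = y then 1 else 0)
          + (if z = x then 1 else 0) + (if z = y then 1 else 0))
      + qq K a * ((if w = x ∧ z = y then 1 else 0) + (if w = y ∧ z = x then 1 else 0)) := by
  by_cases h1 : w = x
  · subst h1
    by_cases h2 : z = y
    · subst h2
      rw [cc_same hxy]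
      simp only [hxy, hxy.symm, if_true, if_false, and_self, and_true, and_false]
      ring
    · have h3 : w ≠ z := hwz
      rw [cc_one hxy hwz (Ne.symm h2)]
      simp only [hxy, hwz.symm, h2, if_true, if_false, and_self, and_true, and_false, false_and]
      ring
  by_cases h2 : w = y
  · subst h2
    by_cases h3 : z = x
    · subst h3
      rw [cc_comm_right, cc_same hxy]
      simp only [h1, hwz.symm, if_true, if_false, and_self, and_true, and_false, false_and, hxy]
      ring
    · rw [cc_comm_left, cc_one hxy.symm hwz (Ne.symm h3)]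
      simp only [h1, h3, hwz.symm, if_true, if_false, and_self, and_true, and_false, false_and]
      ring
  by_cases h3 : z = x
  · subst h3
    rw [cc_comm_right, cc_one hxy (Ne.symm h1) (Ne.symm h2)]
    simp only [h1, h2, hxy, if_true, if_false, and_self, and_true, and_false, false_and]
    ring
  by_cases h4 : z = y
  · subst h4
    rw [cc_comm_right, cc_comm_left, cc_one hxy.symm (Ne.symm h2) (Ne.symm h1)]
    simp only [h1, h2, hxy.symm, if_true, if_false, and_self, and_true, and_false, false_and]
    ring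
  · rw [cc_zero hxy (Ne.symm h1) (Ne.symm h3) (Ne.symm h2) (Ne.symm h4) hwz]
    have h5 : 4 ≤ Fintype.card K :=
      four_le_card hxy (Ne.symm h1) (Ne.symm h3) (Ne.symm h2) (Ne.symm h4) hwz
    simp only [qq, if_pos h5, h1, h2, h3, h4, if_false, and_self, and_false, false_and]
    ring

/-- The quadratic form of a pattern. -/
lemma quad_sum (n : K → K → ℝ) (hs : ∀ x y, n x y = n y x) (α β γ : ℝ) :
    ∑ x, ∑ y, ∑ w, ∑ z, n x y * n w z * (α + β *
        ((if w = x then 1 else 0) + (if w = y then 1 else 0)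
          + (if z = x then 1 else 0) + (if z = y then 1 else 0))
      + γ * ((if w = x ∧ z = y then 1 else 0) + (if w = y ∧ z = x then 1 else 0)))
      = α * (∑ x, ∑ y, n x y) ^ 2 + 4 * β * ∑ x, (∑ y, n x y) ^ 2
        + 2 * γ * ∑ x, ∑ y, n x y ^ 2 := by
  set C : K → ℝ := fun x => ∑ y, n x y with hC
  set Tot : ℝ := ∑ x, ∑ y, n x y with hTot
  have hC' : ∀ y, ∑ x, n x y = C y := by
    intro y
    simp only [hC]
    exact Finset.sum_congr rfl (fun x _ => hs x y)
  have hinner : ∀ x y, ∑ w, ∑ z, n w z * (α + β *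
        ((if w = x then 1 else 0) + (if w = y then 1 else 0)
          + (if z = x then 1 else 0) + (if z = y then 1 else 0))
      + γ * ((if w = x ∧ z = y then 1 else 0) + (if w = y ∧ z = x then 1 else 0)))
      = α * Tot + β * (2 * C x + 2 * C y) + 2 * γ * n x y := by
    intro x y
    have s1 : ∀ u : K, ∑ w, ∑ z, n w z * (if w = u then (1 : ℝ) else 0) = C u := by
      intro u
      rw [Finset.sum_eq_single u]
      · simp [hC]
      · intro b _ hb
        simp [hb]
      · simp
    have s2 : ∀ u : K, ∑ w, ∑ z, n w z * (if z = u then (1 : ℝ) else 0) = C u := by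
      intro u
      rw [← hC' u]
      refine Finset.sum_congr rfl (fun w _ => ?_)
      simp
    have s3 : ∀ u v : K, ∑ w, ∑ z, n w z * (if w = u ∧ z = v then (1 : ℝ) else 0) = n u v := by
      intro u v
      rw [Finset.sum_eq_single u]
      · rw [Finset.sum_eq_single v]
        · simp
        · intro b _ hb
          simp [hb]
        · simp
      · intro b _ hb
        simp [hb]
      · simp
    have hexp : ∀ w z, n w z * (α + β *
        ((if w = x then 1 else 0) + (if w = y then 1 else 0)
          + (if z = x then 1 else 0) + (if z = y then 1 else 0))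
      + γ * ((if w = x ∧ z = y then 1 else 0) + (if w = y ∧ z = x then 1 else 0)))
      = α * n w z + β * (n w z * (if w = x then (1 : ℝ) else 0))
        + β * (n w z * (if w = y then (1 : ℝ) else 0))
        + β * (n w z * (if z = x then (1 : ℝ) else 0))
        + β * (n w z * (if z = y then (1 : ℝ) else 0))
        + γ * (n w z * (if w = x ∧ z = y then (1 : ℝ) else 0))
        + γ * (n w z * (if w = y ∧ z = x then (1 : ℝ) else 0)) := by
      intro w z; ring
    simp only [hexp, Finset.sum_add_distrib, ← Finset.mul_sum]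
    rw [s1, s1, s2, s2, s3, s3, hs y x]
    ring
  have hout : ∀ x y w z, n x y * n w z * (α + β *
        ((if w = x then 1 else 0) + (if w = y then 1 else 0)
          + (if z = x then 1 else 0) + (if z = y then 1 else 0))
      + γ * ((if w = x ∧ z = y then 1 else 0) + (if w = y ∧ z = x then 1 else 0)))
      = n x y * (n w z * (α + β *
        ((if w = x then 1 else 0) + (if w = y then 1 else 0)
          + (if z = x then 1 else 0) + (if z = y then 1 else 0))
      + γ * ((if w = x ∧ z = y then 1 else 0) + (if w = y ∧ z = x then 1 else 0)))) := by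
    intro x y w z; ring
  simp only [hout, ← Finset.mul_sum, hinner]
  have hexp2 : ∀ x y, n x y * (α * Tot + β * (2 * C x + 2 * C y) + 2 * γ * n x y)
      = α * Tot * n x y + 2 * β * (C x * n x y) + 2 * β * (C y * n x y) + 2 * γ * n x y ^ 2 := by
    intro x y; ring
  simp only [hexp2, Finset.sum_add_distrib, ← Finset.mul_sum]
  have e1 : ∑ x, ∑ y, C y * n x y = ∑ y, C y ^ 2 := by
    rw [Finset.sum_comm]
    refine Finset.sum_congr rfl (fun y _ => ?_)
    rw [← Finset.mul_sum, hC', sq]
  have e2 : ∑ x, C x * ∑ y, n x y = ∑ x, C x ^ 2 := by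
    refine Finset.sum_congr rfl (fun x _ => ?_)
    rw [sq]
  rw [e1, e2]
  ring

/-- The pairing of a function with a separation indicator. -/
noncomputable def nn (g : Sl K a → ℝ) (x y : K) : ℝ := ∑ S, g S * hr x y S

lemma nn_comm (g : Sl K a → ℝ) (x y : K) : nn g x y = nn g y x := by
  unfold nn
  exact Finset.sum_congr rfl (fun S _ => by rw [hr_comm])

lemma nn_self (g : Sl K a → ℝ) (x : K) : nn g x x = 0 := by
  unfold nn
  simp [hr_self]

lemma sum_hr_const (S : Sl K a) :
    ∑ x, ∑ y, hr x y S = ((a * (Fintype.card K - a) + (Fintype.card K - a) * a : ℕ) : ℝ) := by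
  have h1 : ∀ x, ∑ y, hr x y S = if x ∈ S.1 then ((Fintype.card K - a : ℕ) : ℝ) else (a : ℝ) := by
    intro x
    by_cases hx : x ∈ S.1
    · rw [if_pos hx]
      have : ∀ y, hr x y S = if y ∈ S.1ᶜ then 1 else 0 := by
        intro y
        simp [hr, hh, hx]
      simp only [this]
      rw [Finset.sum_ite_mem, Finset.univ_inter, Finset.sum_const, nsmul_eq_mul, mul_one,
        Finset.card_compl, S.2]
    · rw [if_neg hx]
      have : ∀ y, hr x y S = if y ∈ S.1 then 1 else 0 := by
        intro y
        simp [hr, hh, hx]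
      simp only [this]
      rw [Finset.sum_ite_mem, Finset.univ_inter, Finset.sum_const, nsmul_eq_mul, mul_one, S.2]
  simp only [h1]
  have h2 : ∑ x, (if x ∈ S.1 then ((Fintype.card K - a : ℕ) : ℝ) else (a : ℝ))
      = ∑ x, ((if x ∈ S.1 then ((Fintype.card K - a : ℕ) : ℝ) else 0)
        + (if x ∈ S.1ᶜ then (a : ℝ) else 0)) := by
    refine Finset.sum_congr rfl (fun x _ => ?_)
    by_cases hx : x ∈ S.1 <;> simp [hx]
  rw [h2, Finset.sum_add_distrib, Finset.sum_ite_mem, Finset.sum_ite_mem, Finset.univ_inter,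
    Finset.univ_inter, Finset.sum_const, Finset.sum_const, nsmul_eq_mul, nsmul_eq_mul,
    Finset.card_compl, S.2]
  push_cast
  ring

lemma nn_total (g : Sl K a → ℝ) (hg : ∑ S, g S = 0) : ∑ x, ∑ y, nn g x y = 0 := by
  unfold nn
  have h1 : ∑ x, ∑ y, ∑ S, g S * hr x y S = ∑ S, g S * ∑ x, ∑ y, hr x y S := by
    calc ∑ x, ∑ y, ∑ S, g S * hr x y S = ∑ x, ∑ S, ∑ y, g S * hr x y S :=
          Finset.sum_congr rfl (fun x _ => Finset.sum_comm)
      _ = ∑ S, ∑ x, ∑ y, g S * hr x y S := Finset.sum_comm
      _ = ∑ S, g S * ∑ x, ∑ y, hr x y S := by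
          refine Finset.sum_congr rfl (fun S _ => ?_)
          simp only [Finset.mul_sum]
  rw [h1]
  simp only [sum_hr_const]
  rw [← Finset.sum_mul, hg, zero_mul]

/-- The combination of the separation indicators with coefficients `n`. -/
noncomputable def FF (n : K → K → ℝ) (S : Sl K a) : ℝ := ∑ x, ∑ y, n x y * hr x y S

lemma sum_FF_sq (n : K → K → ℝ) :
    ∑ S : Sl K a, FF n S ^ 2 = ∑ x, ∑ y, ∑ w, ∑ z, n x y * n w z * cc K a x y w z := by
  have e : ∀ S : Sl K a, FF n S ^ 2
      = ∑ x, ∑ y, ∑ w, ∑ z, n x y * n w z * (hr x y S * hr w z S) := by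
    intro S
    unfold FF
    rw [sq, Finset.sum_mul]
    refine Finset.sum_congr rfl (fun x _ => ?_)
    rw [Finset.sum_mul]
    refine Finset.sum_congr rfl (fun y _ => ?_)
    rw [Finset.mul_sum]
    refine Finset.sum_congr rfl (fun w _ => ?_)
    rw [Finset.mul_sum]
    refine Finset.sum_congr rfl (fun z _ => ?_)
    ring
  simp only [e]
  rw [Finset.sum_comm]
  refine Finset.sum_congr rfl (fun x _ => ?_)
  rw [Finset.sum_comm]
  refine Finset.sum_congr rfl (fun y _ => ?_)
  rw [Finset.sum_comm]
  refine Finset.sum_congr rfl (fun w _ => ?_)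
  rw [Finset.sum_comm]
  refine Finset.sum_congr rfl (fun z _ => ?_)
  unfold cc
  rw [Finset.mul_sum]

lemma sum_g_FF (g : Sl K a → ℝ) (n : K → K → ℝ) :
    ∑ S, g S * FF n S = ∑ x, ∑ y, n x y * nn g x y := by
  unfold FF nn
  simp only [Finset.mul_sum]
  rw [Finset.sum_comm]
  refine Finset.sum_congr rfl (fun x _ => ?_)
  rw [Finset.sum_comm]
  refine Finset.sum_congr rfl (fun y _ => ?_)
  refine Finset.sum_congr rfl (fun S _ => by ring)

/-- The elementary bound for a symmetric matrix with zero diagonal and zero total. -/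
lemma row_sq_bound (n : K → K → ℝ) (hs : ∀ x y, n x y = n y x) (h0 : ∀ x, n x x = 0)
    (hT : ∑ x, ∑ y, n x y = 0) (hj : 3 ≤ Fintype.card K) :
    2 * ∑ x, (∑ y, n x y) ^ 2 ≤ ((Fintype.card K : ℝ) - 2) * ∑ x, ∑ y, n x y ^ 2 := by
  set J : ℝ := (Fintype.card K : ℝ) with hJ
  have hJ3 : (3 : ℝ) ≤ J := by
    rw [hJ]; exact_mod_cast hj
  set C : K → ℝ := fun x => ∑ y, n x y with hC
  set Sw : ℝ := ∑ x, C x ^ 2 with hSw
  set Sp : ℝ := ∑ x, ∑ y, n x y ^ 2 with hSp
  have hC' : ∀ y, ∑ x, n x y = C y := by
    intro y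
    simp only [hC]
    exact Finset.sum_congr rfl (fun x _ => hs x y)
  set e : K → K → ℝ := fun x y => (J - 2) * n x y - C x - C y with he
  have h1 : ∑ x, e x x ^ 2 = 4 * Sw := by
    rw [hSw, Finset.mul_sum]
    refine Finset.sum_congr rfl (fun x _ => ?_)
    simp only [he, h0]
    ring
  have h2 : ∑ x, e x x ^ 2 ≤ ∑ x, ∑ y, e x y ^ 2 :=
    Finset.sum_le_sum (fun x _ => Finset.single_le_sum
      (f := fun y => e x y ^ 2) (fun y _ => sq_nonneg _) (Finset.mem_univ x))
  have h3 : ∑ x, ∑ y, e x y ^ 2 = (J - 2) ^ 2 * Sp - 4 * (J - 2) * Sw + 2 * J * Sw := by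
    have hexp : ∀ x y, e x y ^ 2 = (J - 2) ^ 2 * n x y ^ 2 - 2 * (J - 2) * (C x * n x y)
        - 2 * (J - 2) * (C y * n x y) + C x ^ 2 + 2 * (C x * C y) + C y ^ 2 := by
      intro x y; simp only [he]; ring
    simp only [hexp, Finset.sum_add_distrib, Finset.sum_sub_distrib, ← Finset.mul_sum]
    have e1 : ∑ x, C x * ∑ y, n x y = Sw := by
      rw [hSw]
      refine Finset.sum_congr rfl (fun x _ => ?_)
      rw [sq]
    have e2 : ∑ x, ∑ y, C y * n x y = Sw := by
      rw [Finset.sum_comm, hSw]
      refine Finset.sum_congr rfl (fun y _ => ?_)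
      rw [← Finset.mul_sum, hC', sq]
    have e3 : ∑ x : K, ∑ _y : K, C x ^ 2 = J * Sw := by
      simp only [Finset.sum_const, Finset.card_univ, nsmul_eq_mul]
      rw [hSw, Finset.mul_sum]
    have e4 : ∑ x : K, ∑ y : K, C y ^ 2 = J * Sw := by
      simp only [Finset.sum_const, Finset.card_univ, nsmul_eq_mul]
      rw [hSw, hJ]
    have e5 : ∑ x, C x * ∑ y, C y = 0 := by
      have : ∑ y, C y = 0 := hT
      simp [this]
    rw [e1, e2, e3, e4, e5]
    ring
  have h4 : 0 ≤ (J - 2) * ((J - 2) * Sp - 2 * Sw) := by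
    have : (J - 2) * ((J - 2) * Sp - 2 * Sw) = (J - 2) ^ 2 * Sp - 4 * (J - 2) * Sw + 2 * J * Sw
        - 4 * Sw := by ring
    rw [this]
    linarith
  have h5 : 0 < J - 2 := by linarith
  have h6 : 0 ≤ (J - 2) * Sp - 2 * Sw := nonneg_of_mul_nonneg_right h4 h5
  linarith

/-- The frame bound for the separation indicators. -/
theorem frame_bound (g : Sl K a → ℝ) (hg : ∑ S, g S = 0) (hj : 2 ≤ Fintype.card K) :
    ∑ x, ∑ y, nn g x y ^ 2 ≤ ((Fintype.card K : ℝ) - 2) * (2 * cn K a 1 1) * ip g g := by
  classical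
  set n : K → K → ℝ := nn g with hn
  have hsym : ∀ x y, n x y = n y x := nn_comm g
  have hzero : ∀ x, n x x = 0 := nn_self g
  have hT : ∑ x, ∑ y, n x y = 0 := nn_total g hg
  set J : ℝ := (Fintype.card K : ℝ) with hJ
  have hG : 0 ≤ ip g g := ip_self_nonneg g
  have hC2 : 0 ≤ cn K a 1 1 := cn_nonneg 1 1
  by_cases hj3 : 3 ≤ Fintype.card K
  · have hJ3 : (3 : ℝ) ≤ J := by
      rw [hJ]; exact_mod_cast hj3
    set Sw : ℝ := ∑ x, (∑ y, n x y) ^ 2 with hSw
    set Sp : ℝ := ∑ x, ∑ y, n x y ^ 2 with hSp
    have hSw0 : 0 ≤ Sw := Finset.sum_nonneg (fun _ _ => sq_nonneg _)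
    have hSp0 : 0 ≤ Sp := Finset.sum_nonneg (fun _ _ => Finset.sum_nonneg (fun _ _ => sq_nonneg _))
    have hSOS : 2 * Sw ≤ (J - 2) * Sp := row_sq_bound n hsym hzero hT hj3
    set C2 : ℝ := cn K a 1 1 with hC2def
    set Q : ℝ := qq K a with hQ
    have hQ0 : 0 ≤ Q := by
      rw [hQ]; unfold qq
      split_ifs
      · have := cn_nonneg (K := K) (a := a) 2 2
        linarith
      · exact le_rfl
    have hF2 : ∑ S : Sl K a, FF n S ^ 2 = 4 * (C2 - Q) * Sw + 2 * Q * Sp := by
      rw [sum_FF_sq]
      have hpt : ∀ x y w z, n x y * n w z * cc K a x y w z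
          = n x y * n w z * (Q + (C2 - Q) *
        ((if w = x then 1 else 0) + (if w = y then 1 else 0)
          + (if z = x then 1 else 0) + (if z = y then 1 else 0))
      + Q * ((if w = x ∧ z = y then 1 else 0) + (if w = y ∧ z = x then 1 else 0))) := by
        intro x y w z
        by_cases h1 : x = y
        · subst h1; simp [hzero]
        by_cases h2 : w = z
        · subst h2; simp [hzero]
        rw [cc_pattern h1 h2]
      simp only [hpt]
      rw [quad_sum n hsym, hT]
      ring
    have hFb : ∑ S : Sl K a, FF n S ^ 2 ≤ (J - 2) * (2 * C2) * Sp := by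
      rw [hF2]
      by_cases hQC : Q ≤ C2
      · have h1 : 0 ≤ (C2 - Q) * ((J - 2) * Sp - 2 * Sw) :=
          mul_nonneg (sub_nonneg.2 hQC) (sub_nonneg.2 hSOS)
        have h2 : 0 ≤ Q * Sp * (J - 3) := mul_nonneg (mul_nonneg hQ0 hSp0) (by linarith)
        nlinarith
      · rw [not_le] at hQC
        have h4 : 4 ≤ Fintype.card K := by
          by_contra h
          have : Q = 0 := by
            rw [hQ]; unfold qq; rw [if_neg h]
          linarith
        have hJ4 : (4 : ℝ) ≤ J := by
          rw [hJ]; exact_mod_cast h4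
        have hQle : Q ≤ 2 * C2 := by
          rw [hQ]; unfold qq
          rw [if_pos h4]
          exact cn_quarter h4
        have h1 : 0 ≤ (Q - C2) * Sw := mul_nonneg (by linarith) hSw0
        have h2 : 0 ≤ (2 * C2 - Q) * Sp := mul_nonneg (by linarith) hSp0
        have h3 : 0 ≤ C2 * Sp * (J - 4) := mul_nonneg (mul_nonneg hC2 hSp0) (by linarith)
        nlinarith
    have hdual : ∑ S, g S * FF n S = Sp := by
      rw [sum_g_FF, hSp]
      refine Finset.sum_congr rfl (fun x _ => Finset.sum_congr rfl (fun y _ => ?_))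
      rw [sq]
    have hCS : Sp ^ 2 ≤ ip g g * ∑ S : Sl K a, FF n S ^ 2 := by
      rw [← hdual]
      have := Finset.sum_mul_sq_le_sq_mul_sq (Finset.univ : Finset (Sl K a)) g (FF n)
      have e : ip g g = ∑ S, g S ^ 2 := by
        unfold ip
        exact Finset.sum_congr rfl (fun S _ => by ring)
      rw [e]
      exact this
    by_cases hSp' : Sp = 0
    · rw [hSp']
      exact mul_nonneg (mul_nonneg (by linarith) (by positivity)) hG
    · have hSpos : 0 < Sp := lt_of_le_of_ne hSp0 (Ne.symm hSp')
      have h1 : Sp * Sp ≤ ((J - 2) * (2 * C2) * ip g g) * Sp := by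
        have h2 : ip g g * ∑ S : Sl K a, FF n S ^ 2 ≤ ip g g * ((J - 2) * (2 * C2) * Sp) :=
          mul_le_mul_of_nonneg_left hFb hG
        nlinarith
      exact le_of_mul_le_mul_right h1 hSpos
  · have h2 : Fintype.card K = 2 := by omega
    obtain ⟨x, y, hxy, hu⟩ := Finset.card_eq_two.1 (by rw [Finset.card_univ]; exact h2 :
      (Finset.univ : Finset K).card = 2)
    have hsum : ∀ F : K → ℝ, ∑ v, F v = F x + F y := by
      intro F
      rw [hu, Finset.sum_pair hxy]
    have h3 : n x y = 0 := by
      have := hT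
      simp only [hsum, hzero] at this
      rw [hsym y x] at this
      linarith
    have h4 : n y x = 0 := by rw [hsym]; exact h3
    simp only [hsum, hzero, h3, h4]
    have hJ2 : J = 2 := by
      rw [hJ, h2]; norm_num
    rw [hJ2]
    norm_num

/-- The mean of a function on the slice. -/
noncomputable def mn (g : Sl K a → ℝ) : ℝ := (∑ S, g S) / (Fintype.card (Sl K a) : ℝ)

/-- The centred function. -/
noncomputable def cen (g : Sl K a → ℝ) : Sl K a → ℝ := fun S => g S - mn g

lemma sum_cen (g : Sl K a → ℝ) : ∑ S, cen g S = 0 := by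
  unfold cen mn
  rw [Finset.sum_sub_distrib, Finset.sum_const, Finset.card_univ, nsmul_eq_mul]
  by_cases h : (Fintype.card (Sl K a) : ℝ) = 0
  · have h' : Fintype.card (Sl K a) = 0 := by exact_mod_cast h
    have : IsEmpty (Sl K a) := Fintype.card_eq_zero_iff.1 h'
    simp
  · field_simp
    ring

lemma Qinv_cen (x y : K) (g : Sl K a → ℝ) : Qinv (sw x y) (cen g) = Qinv (sw x y) g := by
  funext S
  simp only [Qinv_apply, cen]
  ring

/-- The average over the sets separating `x`, `y`. -/
noncomputable def avgH (x y : K) (g : Sl K a → ℝ) : ℝ :=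
  (∑ S, g S * hr x y S) / ∑ S : Sl K a, hr x y S

/-- The weighted square of the deviation of that average from the mean. -/
noncomputable def Wt (x y : K) (g : Sl K a → ℝ) : ℝ :=
  (∑ S : Sl K a, hr x y S) * (avgH x y g - mn g) ^ 2

lemma sum_hr_eq {x y : K} (hxy : x ≠ y) : ∑ S : Sl K a, hr x y S = 2 * cn K a 1 1 := by
  rw [← cc_same hxy]
  unfold cc
  refine Finset.sum_congr rfl (fun S _ => ?_)
  unfold hr
  split_ifs <;> norm_num

lemma Wt_eq (x y : K) (g : Sl K a → ℝ) : Wt x y g = nn (cen g) x y ^ 2 / (2 * cn K a 1 1) := by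
  by_cases hxy : x = y
  · subst hxy
    rw [nn_self]
    unfold Wt
    simp [hr_self]
  · unfold Wt avgH
    rw [sum_hr_eq hxy]
    have e : nn (cen g) x y = (∑ S, g S * hr x y S) - mn g * (2 * cn K a 1 1) := by
      unfold nn cen
      rw [← sum_hr_eq hxy, Finset.mul_sum, ← Finset.sum_sub_distrib]
      exact Finset.sum_congr rfl (fun S _ => by ring)
    rw [e]
    by_cases h : 2 * cn K a 1 1 = 0
    · rw [h]; simp
    · generalize (∑ S, g S * hr x y S) = A at *
      generalize 2 * cn K a 1 1 = c at *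
      have e3 : A / c - mn g = (A - mn g * c) / c := by
        field_simp
      rw [e3, div_pow, sq c]
      field_simp

/-- The inequality on the fibres. -/
theorem slice_J (g : Sl K a → ℝ) :
    2 * ip (cen g) (cen g) ≤
      ∑ x : K, ∑ y : K, (ip (Qinv (sw x y) g) (Qinv (sw x y) g) - Wt x y g) := by
  by_cases hj : 2 ≤ Fintype.card K
  · have h1 := slice_gap (cen g) (sum_cen g)
    simp only [Qinv_cen] at h1
    have h2 := frame_bound (cen g) (sum_cen g) hj
    have hJ : (2 : ℝ) ≤ (Fintype.card K : ℝ) := by exact_mod_cast hj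
    have hG := ip_self_nonneg (cen g)
    have h3 : ∑ x : K, ∑ y : K, Wt x y g ≤ ((Fintype.card K : ℝ) - 2) * ip (cen g) (cen g) := by
      simp only [Wt_eq]
      have e : ∑ x : K, ∑ y : K, nn (cen g) x y ^ 2 / (2 * cn K a 1 1)
          = (∑ x : K, ∑ y : K, nn (cen g) x y ^ 2) / (2 * cn K a 1 1) := by
        rw [Finset.sum_div]
        refine Finset.sum_congr rfl (fun x _ => ?_)
        rw [Finset.sum_div]
      rw [e]
      by_cases h : 2 * cn K a 1 1 = 0
      · rw [h, div_zero]
        exact mul_nonneg (by linarith) hG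
      · have hpos : 0 < 2 * cn K a 1 1 :=
          lt_of_le_of_ne (by have := cn_nonneg (K := K) (a := a) 1 1; linarith) (Ne.symm h)
        rw [div_le_iff₀ hpos]
        nlinarith
    simp only [Finset.sum_sub_distrib]
    have e2 : 2 * ip (cen g) (cen g) = (Fintype.card K : ℝ) * ip (cen g) (cen g)
        - ((Fintype.card K : ℝ) - 2) * ip (cen g) (cen g) := by ring
    rw [e2]
    linarith
  · have hsub : Subsingleton K := Fintype.card_le_one_iff_subsingleton.1 (by omega)
    have hconst : ∀ S S' : Sl K a, g S = g S' := by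
      refine sl_connect g ?_
      intro x y S
      have : y = x := Subsingleton.elim _ _
      rw [this, sw_self]
    have hcen : cen g = 0 := by
      by_cases hne : Nonempty (Sl K a)
      · obtain ⟨S₀⟩ := hne
        funext S
        have hm : mn g = g S₀ := by
          unfold mn
          have : ∀ S, g S = g S₀ := fun S => hconst S S₀
          simp only [this, Finset.sum_const, Finset.card_univ, nsmul_eq_mul]
          have hc : (Fintype.card (Sl K a) : ℝ) ≠ 0 := by
            have : 0 < Fintype.card (Sl K a) := Fintype.card_pos_iff.2 ⟨S₀⟩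
            exact_mod_cast this.ne'
          field_simp
        simp only [cen, hm, hconst S S₀, Pi.zero_apply, sub_self]
      · rw [not_nonempty_iff] at hne
        funext S
        exact (hne.false S).elim
    rw [hcen, ip_zero_left, mul_zero]
    refine Finset.sum_nonneg (fun x _ => Finset.sum_nonneg (fun y _ => ?_))
    have : y = x := Subsingleton.elim _ _
    subst this
    rw [Qinv_sw_self, ip_zero_left]
    unfold Wt
    simp [hr_self]

end Vale.Agent.Lib.P335
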