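import Vale.Agent.Lib.P335.GraphFacts
import Vale.Agent.Lib.P335.SliceW

/-!
States of the general switch chain: adjacency counts, construction of states from adjacency
relations, blocks of edges and the conditional averages given the edges off a block.
-/

open Finset BigOperators

namespace Vale.Agent.Lib.P335

set_option linter.unusedSectionVars false

variable {n : ℕ} {d : Fin n → ℕ}

open Classical in
/-- The indicator of a proposition, as a natural number. -/
noncomputable def iv (p : Prop) : ℕ := if p then 1 else 0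

lemma iv_true {p : Prop} (h : p) : iv p = 1 := by
  unfold iv; simp [h]

lemma iv_false {p : Prop} (h : ¬ p) : iv p = 0 := by
  unfold iv; simp [h]

lemma iv_congr {p q : Prop} (h : p ↔ q) : iv p = iv q := by
  by_cases hp : p
  · rw [iv_true hp, iv_true (h.1 hp)]
  · rw [iv_false hp, iv_false (fun hq => hp (h.2 hq))]

lemma iv_le_one (p : Prop) : iv p ≤ 1 := by
  unfold iv; split_ifs <;> omega

lemma iv_eq_toNat (p : Prop) [Decidable p] : iv p = (decide p).toNat := by
  by_cases h : p <;> simp [iv, h]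

lemma sum_iv_adj (x : Realization d) (v : Fin n) : ∑ t, iv (x.1.Adj v t) = d v := by
  classical
  rw [← x.2 v]
  have h : x.1.neighborSet v = ↑(Finset.univ.filter (fun t => x.1.Adj v t)) := by
    ext t; simp
  rw [h, Set.ncard_coe_finset, Finset.card_filter]
  exact Finset.sum_congr rfl (fun t _ => by unfold iv; congr)

/-- A state from an adjacency relation. -/
noncomputable def mkG (A : Fin n → Fin n → Prop) (hs : ∀ a b, A a b → A b a) (hi : ∀ a, ¬ A a a)
    (hd : ∀ v, ∑ t, iv (A v t) = d v) : Realization d :=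
  ⟨{ Adj := A, symm := ⟨hs⟩, loopless := ⟨hi⟩ }, by
    classical
    intro v
    rw [← hd v]
    have h : SimpleGraph.neighborSet { Adj := A, symm := ⟨hs⟩, loopless := ⟨hi⟩ } v
        = ↑(Finset.univ.filter (fun t => A v t)) := by
      ext t; simp
    rw [h, Set.ncard_coe_finset, Finset.card_filter]
    exact Finset.sum_congr rfl (fun t _ => by unfold iv; congr)⟩

@[simp] lemma mkG_adj (A : Fin n → Fin n → Prop) (hs : ∀ a b, A a b → A b a) (hi : ∀ a, ¬ A a a)
    (hd : ∀ v, ∑ t, iv (A v t) = d v) (a b : Fin n) :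
    (mkG A hs hi hd : Realization d).1.Adj a b ↔ A a b := Iff.rfl

lemma state_ext {x y : Realization d} (h : ∀ a b, y.1.Adj a b ↔ x.1.Adj a b) : y = x := by
  apply Subtype.ext
  ext a b
  exact h a b

lemma adj_comm' (x : Realization d) (a b : Fin n) : x.1.Adj a b ↔ x.1.Adj b a :=
  SimpleGraph.adj_comm _ _ _

/-- The counts of two states at a vertex on a set agree when the states agree off the set. -/
lemma sum_iv_off {x y : Realization d} {v : Fin n} (T : Finset (Fin n))
    (h : ∀ t, t ∉ T → (y.1.Adj v t ↔ x.1.Adj v t)) :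
    ∑ t ∈ T, iv (y.1.Adj v t) = ∑ t ∈ T, iv (x.1.Adj v t) := by
  have h1 := sum_iv_adj y v
  have h2 := sum_iv_adj x v
  rw [← Finset.sum_add_sum_compl T] at h1 h2
  have h3 : ∑ t ∈ Tᶜ, iv (y.1.Adj v t) = ∑ t ∈ Tᶜ, iv (x.1.Adj v t) :=
    Finset.sum_congr rfl (fun t ht => iv_congr (h t (Finset.mem_compl.1 ht)))
  omega

/-- A degree computed by comparison with a state. -/
lemma deg_of_compare (r : Realization d) {A : Fin n → Fin n → Prop} {v : Fin n} (T : Finset (Fin n))
    (h : ∀ t, t ∉ T → (A v t ↔ r.1.Adj v t))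
    (hT : ∑ t ∈ T, iv (A v t) = ∑ t ∈ T, iv (r.1.Adj v t)) :
    ∑ t, iv (A v t) = d v := by
  have h1 := sum_iv_adj r v
  rw [← Finset.sum_add_sum_compl T] at h1 ⊢
  have h3 : ∑ t ∈ Tᶜ, iv (A v t) = ∑ t ∈ Tᶜ, iv (r.1.Adj v t) :=
    Finset.sum_congr rfl (fun t ht => iv_congr (h t (Finset.mem_compl.1 ht)))
  omega

/-- The edges off a block. -/
def off (B : Fin n → Fin n → Prop) (x : Realization d) : Fin n → Fin n → Prop :=
  fun a b => ¬ B a b ∧ x.1.Adj a b

lemma off_eq_iff {B : Fin n → Fin n → Prop} {x y : Realization d} :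
    off B y = off B x ↔ ∀ a b, ¬ B a b → (y.1.Adj a b ↔ x.1.Adj a b) := by
  constructor
  · intro h a b hab
    have := congrFun (congrFun h a) b
    simp only [off, eq_iff_iff] at this
    constructor
    · intro h1; exact (this.1 ⟨hab, h1⟩).2
    · intro h1; exact (this.2 ⟨hab, h1⟩).2
  · intro h
    funext a b
    simp only [off, eq_iff_iff]
    constructor
    · rintro ⟨h1, h2⟩; exact ⟨h1, (h a b h1).1 h2⟩
    · rintro ⟨h1, h2⟩; exact ⟨h1, (h a b h1).2 h2⟩

lemma off_mono {B B' : Fin n → Fin n → Prop} (hB : ∀ a b, B a b → B' a b) {x y : Realization d}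
    (h : off B y = off B x) : off B' y = off B' x := by
  rw [off_eq_iff] at h ⊢
  intro a b hab
  exact h a b (fun h' => hab (hB a b h'))

/-- The rectangle property for blocks with no common edge. -/
lemma rect_disjoint {B₁ B₂ : Fin n → Fin n → Prop} (hs₁ : ∀ a b, B₁ a b → B₁ b a)
    (hdis : ∀ a b, B₁ a b → ¬ B₂ a b) (x : Realization d) : Rect (off B₁) (off B₂) x := by
  classical
  intro y z hy hz
  rw [off_eq_iff] at hy hz
  set A : Fin n → Fin n → Prop := fun a b => if B₁ a b then y.1.Adj a b else z.1.Adj a b with hA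
  have hsA : ∀ a b, A a b → A b a := by
    intro a b h
    simp only [hA] at h ⊢
    by_cases hab : B₁ a b
    · rw [if_pos hab] at h
      rw [if_pos (hs₁ a b hab)]
      exact h.symm
    · rw [if_neg hab] at h
      rw [if_neg (fun h' => hab (hs₁ b a h'))]
      exact h.symm
  have hiA : ∀ a, ¬ A a a := by
    intro a h
    simp only [hA] at h
    split_ifs at h
    · exact y.1.loopless.irrefl a h
    · exact z.1.loopless.irrefl a h
  have hdA : ∀ v, ∑ t, iv (A v t) = d v := by
    intro v
    refine deg_of_compare z (Finset.univ.filter (fun t => B₁ v t)) ?_ ?_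
    · intro t ht
      have : ¬ B₁ v t := by simpa using ht
      simp only [hA, if_neg this]
    · have h1 : ∑ t ∈ Finset.univ.filter (fun t => B₁ v t), iv (y.1.Adj v t)
          = ∑ t ∈ Finset.univ.filter (fun t => B₁ v t), iv (x.1.Adj v t) := by
        apply sum_iv_off
        intro t ht
        exact hy v t (by simpa using ht)
      have h2 : ∑ t ∈ Finset.univ.filter (fun t => B₁ v t), iv (A v t)
          = ∑ t ∈ Finset.univ.filter (fun t => B₁ v t), iv (y.1.Adj v t) := by
        refine Finset.sum_congr rfl (fun t ht => iv_congr ?_)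
        have : B₁ v t := by simpa using ht
        simp only [hA, if_pos this]
      have h3 : ∑ t ∈ Finset.univ.filter (fun t => B₁ v t), iv (z.1.Adj v t)
          = ∑ t ∈ Finset.univ.filter (fun t => B₁ v t), iv (x.1.Adj v t) := by
        refine Finset.sum_congr rfl (fun t ht => iv_congr ?_)
        have : B₁ v t := by simpa using ht
        exact hz v t (hdis v t this)
      rw [h2, h1, h3]
  refine ⟨mkG A hsA hiA hdA, ⟨?_, ?_⟩, ?_⟩
  · rw [off_eq_iff]
    intro a b hab
    rw [mkG_adj]
    simp only [hA]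
    by_cases h1 : B₁ a b
    · rw [if_pos h1]
    · rw [if_neg h1, hz a b hab, hy a b h1]
  · rw [off_eq_iff]
    intro a b hab
    rw [mkG_adj]
    simp only [hA, if_neg hab]
  · rintro w ⟨h1, h2⟩
    rw [off_eq_iff] at h1 h2
    apply state_ext
    intro a b
    rw [mkG_adj]
    simp only [hA]
    by_cases h3 : B₁ a b
    · rw [if_pos h3]
      exact h1 a b (hdis a b h3)
    · rw [if_neg h3]
      exact h2 a b h3

/-- Conditional averages given the edges off blocks with no common edge commute. -/
lemma cavg_off_comm {B₁ B₂ : Fin n → Fin n → Prop} (hs₁ : ∀ a b, B₁ a b → B₁ b a)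
    (hdis : ∀ a b, B₁ a b → ¬ B₂ a b) (f : Realization d → ℝ) :
    cavg (off B₁) (cavg (off B₂) f) = cavg (off B₂) (cavg (off B₁) f) := by
  funext x
  exact cavg_comm_of_rect (fun _ => True) (fun b _ => rect_disjoint hs₁ hdis b)
    (fun _ _ _ _ => trivial) (fun _ _ _ _ => trivial) f trivial

/-- A vertex in a pair. -/
def inn (u v a : Fin n) : Prop := a = u ∨ a = v

/-- The two-vertex block: pairs with exactly one end in `{u, v}`. -/
def pb (u v a b : Fin n) : Prop := (inn u v a ∧ ¬ inn u v b) ∨ (¬ inn u v a ∧ inn u v b)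

lemma pb_symm {u v a b : Fin n} (h : pb u v a b) : pb u v b a := by
  unfold pb at *; tauto

lemma pb_comm (u v : Fin n) : pb u v = pb v u := by
  funext a b
  simp only [pb, inn, eq_iff_iff]
  tauto

/-- Four distinct vertices. -/
def Dis4 (u v w z : Fin n) : Prop :=
  u ≠ v ∧ u ≠ w ∧ u ≠ z ∧ v ≠ w ∧ v ≠ z ∧ w ≠ z

lemma Dis4.swap {u v w z : Fin n} (D : Dis4 u v w z) : Dis4 w z u v :=
  ⟨D.2.2.2.2.2, D.2.1.symm, D.2.2.2.1.symm, D.2.2.1.symm, D.2.2.2.2.1.symm, D.1⟩

lemma Dis4.not_inn {u v w z a : Fin n} (D : Dis4 u v w z) (h : inn u v a) : ¬ inn w z a := by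
  rcases h with rfl | rfl
  · rintro (h | h)
    · exact D.2.1 h
    · exact D.2.2.1 h
  · rintro (h | h)
    · exact D.2.2.2.1 h
    · exact D.2.2.2.2.1 h

/-- The part of the block of `{u, v}` avoiding `{w, z}`. -/
def pbm (u v w z a b : Fin n) : Prop := pb u v a b ∧ ¬ inn w z a ∧ ¬ inn w z b

/-- The four pairs between `{u, v}` and `{w, z}`. -/
def cel (u v w z a b : Fin n) : Prop := (inn u v a ∧ inn w z b) ∨ (inn w z a ∧ inn u v b)

lemma pbm_symm {u v w z a b : Fin n} (h : pbm u v w z a b) : pbm u v w z b a :=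
  ⟨pb_symm h.1, h.2.2, h.2.1⟩

lemma cel_symm {u v w z a b : Fin n} (h : cel u v w z a b) : cel u v w z b a := by
  unfold cel at *; tauto

lemma cel_swap {u v w z a b : Fin n} : cel u v w z a b ↔ cel w z u v a b := by
  unfold cel; tauto

lemma pb_iff {u v w z a b : Fin n} (D : Dis4 u v w z) :
    pb u v a b ↔ pbm u v w z a b ∨ cel u v w z a b := by
  have h1 := D.not_inn (a := a)
  have h2 := D.not_inn (a := b)
  unfold pbm cel pb
  by_cases a1 : inn u v a <;> by_cases a2 : inn w z a <;> by_cases b1 : inn u v b <;>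
    by_cases b2 : inn w z b <;> simp_all

lemma pbm_pb {u v w z a b : Fin n} (h : pbm u v w z a b) : pb u v a b := h.1

lemma cel_pb {u v w z a b : Fin n} (D : Dis4 u v w z) (h : cel u v w z a b) : pb u v a b :=
  (pb_iff D).2 (Or.inr h)

lemma cel_pb' {u v w z a b : Fin n} (D : Dis4 u v w z) (h : cel u v w z a b) : pb w z a b :=
  cel_pb D.swap (cel_swap.1 h)

lemma pbm_not_pb {u v w z a b : Fin n} (h : pbm u v w z a b) : ¬ pb w z a b := by
  have := h.2
  unfold pb
  tauto

lemma pb_not_pbm {u v w z a b : Fin n} (h : pb u v a b) : ¬ pbm w z u v a b := by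
  intro h'
  exact pbm_not_pb h' h

lemma cel_not_pbm {u v w z a b : Fin n} (h : cel u v w z a b) :
    ¬ pbm u v w z a b := by
  intro h'
  have h1 := h'.2
  unfold cel at h
  tauto

/-- The two ends of a column have a fixed number of neighbours in a pair. -/
lemma col_inv {u v t : Fin n} (huv : u ≠ v) (ht : ¬ inn u v t) {x y : Realization d}
    (h : off (pb u v) y = off (pb u v) x) :
    iv (y.1.Adj t u) + iv (y.1.Adj t v) = iv (x.1.Adj t u) + iv (x.1.Adj t v) := by
  rw [off_eq_iff] at h
  have := sum_iv_off (x := x) (y := y) (v := t) {u, v} (by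
    intro s hs
    refine h t s ?_
    simp only [Finset.mem_insert, Finset.mem_singleton, not_or] at hs
    unfold pb inn at *
    tauto)
  rwa [Finset.sum_pair huv, Finset.sum_pair huv] at this

/-- The same with the ends of the pairs exchanged. -/
lemma col_inv' {u v t : Fin n} (huv : u ≠ v) (ht : ¬ inn u v t) {x y : Realization d}
    (h : off (pb u v) y = off (pb u v) x) :
    iv (y.1.Adj u t) + iv (y.1.Adj v t) = iv (x.1.Adj u t) + iv (x.1.Adj v t) := by
  have := col_inv huv ht h
  simp only [adj_comm' _ t u, adj_comm' _ t v] at this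
  exact this

end Vale.Agent.Lib.P335
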