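import Vale.Agent.Lib.P335.GenState

/-!
The toggle of a four cycle: exchange the two perfect matchings of a checkerboard.
-/

open Finset BigOperators

namespace Vale.Agent.Lib.P335

set_option linter.unusedSectionVars false

variable {n : ℕ} {d : Fin n → ℕ}

/-- One orientation of a checkerboard on the four cycle `u w v z`. -/
def chk1 (x : Realization d) (u v w z : Fin n) : Prop :=
  x.1.Adj u w ∧ x.1.Adj v z ∧ ¬ x.1.Adj u z ∧ ¬ x.1.Adj v w

/-- A checkerboard on the four cycle `u w v z`. -/
def chk (x : Realization d) (u v w z : Fin n) : Prop :=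
  chk1 x u v w z ∨ chk1 x u v z w

/-- The adjacency after complementing the four cycle. -/
def togA (x : Realization d) (u v w z a b : Fin n) : Prop :=
  (cel u v w z a b ∧ ¬ x.1.Adj a b) ∨ (¬ cel u v w z a b ∧ x.1.Adj a b)

lemma togA_cel {x : Realization d} {u v w z a b : Fin n} (h : cel u v w z a b) :
    togA x u v w z a b ↔ ¬ x.1.Adj a b := by
  unfold togA; tauto

lemma togA_not_cel {x : Realization d} {u v w z a b : Fin n} (h : ¬ cel u v w z a b) :
    togA x u v w z a b ↔ x.1.Adj a b := by
  unfold togA; tauto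

lemma cel_uw (u v w z : Fin n) : cel u v w z u w := Or.inl ⟨Or.inl rfl, Or.inl rfl⟩
lemma cel_uz (u v w z : Fin n) : cel u v w z u z := Or.inl ⟨Or.inl rfl, Or.inr rfl⟩
lemma cel_vw (u v w z : Fin n) : cel u v w z v w := Or.inl ⟨Or.inr rfl, Or.inl rfl⟩
lemma cel_vz (u v w z : Fin n) : cel u v w z v z := Or.inl ⟨Or.inr rfl, Or.inr rfl⟩

lemma iv_not_add {p q : Prop} (h : p ↔ ¬ q) : iv (¬ p) + iv (¬ q) = iv p + iv q := by
  by_cases hq : q
  · have hp : ¬ p := fun hp => h.1 hp hq
    rw [iv_true hp, iv_false (not_not.2 hq), iv_false hp, iv_true hq]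
  · have hp : p := h.2 hq
    rw [iv_false (not_not.2 hp), iv_true hq, iv_true hp, iv_false hq]

lemma togA_deg {x : Realization d} {u v w z : Fin n} (D : Dis4 u v w z) (hc : chk x u v w z)
    (t : Fin n) : ∑ s, iv (togA x u v w z t s) = d t := by
  have hb : (x.1.Adj u w ↔ ¬ x.1.Adj u z) ∧ (x.1.Adj v w ↔ ¬ x.1.Adj v z) := by
    rcases hc with h | h
    · obtain ⟨h1, h2, h3, h4⟩ := h
      simp [h1, h2, h3, h4]
    · obtain ⟨h1, h2, h3, h4⟩ := h
      simp [h1, h2, h3, h4]
  have hb' : (x.1.Adj w u ↔ ¬ x.1.Adj w v) ∧ (x.1.Adj z u ↔ ¬ x.1.Adj z v) := by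
    rw [adj_comm' x w u, adj_comm' x w v, adj_comm' x z u, adj_comm' x z v]
    rcases hc with h | h
    · obtain ⟨h1, h2, h3, h4⟩ := h
      simp [h1, h2, h3, h4]
    · obtain ⟨h1, h2, h3, h4⟩ := h
      simp [h1, h2, h3, h4]
  have hcolumn : ∀ {i : Fin n}, inn u v i → ∀ s, s ∉ ({w, z} : Finset (Fin n)) →
      ¬ cel u v w z i s := by
    intro i hi s hs hcel
    simp only [Finset.mem_insert, Finset.mem_singleton, not_or] at hs
    rcases hcel with ⟨_, h | h⟩ | ⟨h1, _⟩
    · exact hs.1 h
    · exact hs.2 h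
    · exact D.not_inn hi h1
  have hrow : ∀ {i : Fin n}, inn w z i → ∀ s, s ∉ ({u, v} : Finset (Fin n)) →
      ¬ cel u v w z i s := by
    intro i hi s hs hcel
    simp only [Finset.mem_insert, Finset.mem_singleton, not_or] at hs
    rcases hcel with ⟨h1, _⟩ | ⟨_, h | h⟩
    · exact D.not_inn h1 hi
    · exact hs.1 h
    · exact hs.2 h
  by_cases h1 : inn u v t
  · refine deg_of_compare x {w, z} (fun s hs => togA_not_cel (hcolumn h1 s hs)) ?_
    rw [Finset.sum_pair D.2.2.2.2.2, Finset.sum_pair D.2.2.2.2.2]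
    have hcw : cel u v w z t w := Or.inl ⟨h1, Or.inl rfl⟩
    have hcz : cel u v w z t z := Or.inl ⟨h1, Or.inr rfl⟩
    rw [iv_congr (togA_cel hcw), iv_congr (togA_cel hcz)]
    apply iv_not_add
    rcases h1 with rfl | rfl
    · exact hb.1
    · exact hb.2
  by_cases h2 : inn w z t
  · refine deg_of_compare x {u, v} (fun s hs => togA_not_cel (hrow h2 s hs)) ?_
    rw [Finset.sum_pair D.1, Finset.sum_pair D.1]
    have hcu : cel u v w z t u := Or.inr ⟨h2, Or.inl rfl⟩
    have hcv : cel u v w z t v := Or.inr ⟨h2, Or.inr rfl⟩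
    rw [iv_congr (togA_cel hcu), iv_congr (togA_cel hcv)]
    apply iv_not_add
    rcases h2 with rfl | rfl
    · exact hb'.1
    · exact hb'.2
  · refine deg_of_compare x ∅ (fun s _ => togA_not_cel ?_) (by simp)
    rintro (h | h)
    · exact h1 h.1
    · exact h2 h.1

open Classical in
/-- Exchange the two matchings of a checkerboard, otherwise do nothing. -/
noncomputable def tog (u v w z : Fin n) (x : Realization d) : Realization d :=
  if h : Dis4 u v w z ∧ chk x u v w z then
    mkG (togA x u v w z)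
      (by
        intro a b hab
        rcases hab with ⟨h1, h2⟩ | ⟨h1, h2⟩
        · exact Or.inl ⟨cel_symm h1, fun h3 => h2 h3.symm⟩
        · exact Or.inr ⟨fun h3 => h1 (cel_symm h3), h2.symm⟩)
      (by
        intro a hab
        rcases hab with ⟨h1, _⟩ | ⟨_, h2⟩
        · rcases h1 with ⟨h3, h4⟩ | ⟨h3, h4⟩
          · exact h.1.not_inn h3 h4
          · exact h.1.not_inn h4 h3
        · exact x.1.loopless.irrefl a h2)
      (togA_deg h.1 h.2)
  else x

lemma tog_adj {x : Realization d} {u v w z : Fin n} (D : Dis4 u v w z) (hc : chk x u v w z)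
    (a b : Fin n) : (tog u v w z x).1.Adj a b ↔ togA x u v w z a b := by
  unfold tog
  rw [dif_pos ⟨D, hc⟩]
  exact Iff.rfl

lemma tog_of_not {x : Realization d} {u v w z : Fin n} (h : ¬ chk x u v w z) :
    tog u v w z x = x := by
  unfold tog
  rw [dif_neg (fun h' => h h'.2)]

lemma chk_tog {x : Realization d} {u v w z : Fin n} (D : Dis4 u v w z) :
    chk (tog u v w z x) u v w z ↔ chk x u v w z := by
  by_cases hc : chk x u v w z
  · refine ⟨fun _ => hc, fun _ => ?_⟩
    have e := tog_adj D hc
    rcases hc with h | h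
    · right
      obtain ⟨h1, h2, h3, h4⟩ := h
      refine ⟨?_, ?_, ?_, ?_⟩
      · rw [e, togA_cel (cel_uz u v w z)]; exact h3
      · rw [e, togA_cel (cel_vw u v w z)]; exact h4
      · rw [e, togA_cel (cel_uw u v w z)]; exact not_not.2 h1
      · rw [e, togA_cel (cel_vz u v w z)]; exact not_not.2 h2
    · left
      obtain ⟨h1, h2, h3, h4⟩ := h
      refine ⟨?_, ?_, ?_, ?_⟩
      · rw [e, togA_cel (cel_uw u v w z)]; exact h3
      · rw [e, togA_cel (cel_vz u v w z)]; exact h4
      · rw [e, togA_cel (cel_uz u v w z)]; exact not_not.2 h1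
      · rw [e, togA_cel (cel_vw u v w z)]; exact not_not.2 h2
  · rw [tog_of_not hc]

lemma tog_tog (u v w z : Fin n) (x : Realization d) : tog u v w z (tog u v w z x) = x := by
  by_cases h : Dis4 u v w z ∧ chk x u v w z
  · obtain ⟨D, hc⟩ := h
    have hc' : chk (tog u v w z x) u v w z := (chk_tog D).2 hc
    apply state_ext
    intro a b
    rw [tog_adj D hc', tog_adj' D hc]
    unfold togA
    by_cases h1 : cel u v w z a b
    · tauto
    · tauto
  · unfold tog
    rw [dif_neg h]
    rw [dif_neg h]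
where
  tog_adj' {x : Realization d} {u v w z : Fin n} (D : Dis4 u v w z) (hc : chk x u v w z) :
      togA (tog u v w z x) u v w z = fun a b => (cel u v w z a b ∧ ¬ togA x u v w z a b)
        ∨ (¬ cel u v w z a b ∧ togA x u v w z a b) := by
    funext a b
    unfold togA
    rw [tog_adj D hc a b]
    rfl

/-- The toggle preserves the edges off the blocks of both diagonals. -/
lemma off_tog_left {x : Realization d} {u v w z : Fin n} (D : Dis4 u v w z) :
    off (pb u v) (tog u v w z x) = off (pb u v) x := by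
  by_cases hc : chk x u v w z
  · rw [off_eq_iff]
    intro a b hab
    rw [tog_adj D hc]
    exact togA_not_cel (fun h => hab (cel_pb D h))
  · rw [tog_of_not hc]

lemma off_tog_right {x : Realization d} {u v w z : Fin n} (D : Dis4 u v w z) :
    off (pb w z) (tog u v w z x) = off (pb w z) x := by
  by_cases hc : chk x u v w z
  · rw [off_eq_iff]
    intro a b hab
    rw [tog_adj D hc]
    exact togA_not_cel (fun h => hab (cel_pb' D h))
  · rw [tog_of_not hc]

lemma chk_swap {x : Realization d} {u v w z : Fin n} : chk x w z u v ↔ chk x u v w z := by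
  unfold chk chk1
  rw [adj_comm' x w u, adj_comm' x z v, adj_comm' x w v, adj_comm' x z u]
  tauto

lemma tog_symm (u v w z : Fin n) (x : Realization d) : tog w z u v x = tog u v w z x := by
  by_cases h : Dis4 u v w z
  · by_cases hc : chk x u v w z
    · apply state_ext
      intro a b
      rw [tog_adj h hc, tog_adj h.swap (chk_swap.2 hc)]
      unfold togA
      simp only [cel_swap (u := w) (v := z) (w := u) (z := v)]
    · rw [tog_of_not hc, tog_of_not (fun h' => hc (chk_swap.1 h'))]
  · have h' : ¬ Dis4 w z u v := fun h' => h h'.swap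
    unfold tog
    rw [dif_neg (fun h'' => h' h''.1), dif_neg (fun h'' => h h''.1)]

lemma s_of_chk {x : Realization d} {u v w z : Fin n} (hc : chk x u v w z) :
    iv (x.1.Adj u w) + iv (x.1.Adj u z) + iv (x.1.Adj v w) + iv (x.1.Adj v z) = 2 := by
  rcases hc with ⟨h1, h2, h3, h4⟩ | ⟨h1, h2, h3, h4⟩
  · rw [iv_true h1, iv_true h2, iv_false h3, iv_false h4]
  · rw [iv_true h1, iv_true h2, iv_false h3, iv_false h4]

end Vale.Agent.Lib.P335
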