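import Vale.Agent.Lib.P335.ThreeC

/-!
The row level gap: the local to global theorem applied to pairs of rows.
-/

open Finset BigOperators

namespace Vale.Agent.Lib.P335

set_option linter.unusedSectionVars false

variable {ι κ : Type*} [Fintype ι] [DecidableEq ι] [Fintype κ] [DecidableEq κ]
variable {r : ι → ℕ} {c : κ → ℕ}

/-- The complementary projection of the average given the rows outside `s`. -/
noncomputable def Qs (s : Finset ι) : (Tab r c → ℝ) →ₗ[ℝ] (Tab r c → ℝ) :=
  LinearMap.id - cavgL (restr s)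

lemma Qs_apply (s : Finset ι) (f : Tab r c → ℝ) : Qs s f = f - cavg (restr s) f := rfl

lemma Qs_sa (s : Finset ι) (f g : Tab r c → ℝ) : ip (Qs s f) g = ip f (Qs s g) := by
  rw [Qs_apply, Qs_apply, ip_sub_left, ip_sub_right, ip_cavg_comm]

lemma Qs_id (s : Finset ι) (f : Tab r c → ℝ) : Qs s (Qs s f) = Qs s f := by
  rw [Qs_apply, Qs_apply, cavg_sub, cavg_cavg]
  abel

lemma Qs_comm {s s' : Finset ι} (hs : Disjoint s s') (f : Tab r c → ℝ) :
    Qs s (Qs s' f) = Qs s' (Qs s f) := by
  simp only [Qs_apply, cavg_sub, cavg_restr_comm hs f]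
  abel

lemma erase_left {i j k : ι} (hij : i ≠ j) (hik : i ≠ k) :
    ({i, j, k} : Finset ι).erase i = {j, k} := by
  ext e
  simp only [mem_erase, mem_insert, mem_singleton]
  constructor
  · rintro ⟨h1, h2 | h2 | h2⟩
    · exact absurd h2 h1
    · exact Or.inl h2
    · exact Or.inr h2
  · rintro (h | h)
    · subst h; exact ⟨hij.symm, Or.inr (Or.inl rfl)⟩
    · subst h; exact ⟨hik.symm, Or.inr (Or.inr rfl)⟩

lemma erase_mid {i j k : ι} (hij : i ≠ j) (hjk : j ≠ k) :
    ({i, j, k} : Finset ι).erase j = {i, k} := by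
  ext e
  simp only [mem_erase, mem_insert, mem_singleton]
  constructor
  · rintro ⟨h1, h2 | h2 | h2⟩
    · exact Or.inl h2
    · exact absurd h2 h1
    · exact Or.inr h2
  · rintro (h | h)
    · subst h; exact ⟨hij, Or.inl rfl⟩
    · subst h; exact ⟨hjk.symm, Or.inr (Or.inr rfl)⟩

/-- The triple inequality at the level of rows. -/
lemma rows_tri {i j k : ι} (hij : i ≠ j) (hik : i ≠ k) (hjk : j ≠ k) (f : Tab r c → ℝ) :
    0 ≤ ip (Qs {i, j} f) (Qs {i, k} f) + ip (Qs {j, i} f) (Qs {j, k} f)
      + ip (Qs {k, i} f) (Qs {k, j} f) := by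
  rw [Finset.pair_comm j i, Finset.pair_comm k i, Finset.pair_comm k j]
  refine tri_of_eigen (Qs {i, j}) (Qs {i, k}) (Qs {j, k}) (Qs_sa _) (Qs_sa _) (Qs_sa _)
    (Qs_id _) (Qs_id _) (Qs_id _) ?_ f
  intro l v hv he
  have hspec := tri_spectrum (t := {i, j, k}) hij hik hjk rfl v (l := l) ?_
  · rcases hspec with h | h
    · exact absurd h hv
    · exact h
  · intro x
    have h1 := congrFun he x
    simp only [LinearMap.add_apply, Pi.add_apply, Qs_apply, Pi.sub_apply, Pi.smul_apply,
      smul_eq_mul] at h1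
    unfold Gv
    rw [erase3 hik hjk, erase_mid hij hjk, erase_left hij hik]
    linarith

/-- A function with vanishing row projections is constant. -/
lemma const_of_Qs_zero (v : Tab r c → ℝ) (h : ∀ i j, i ≠ j → Qs {i, j} v = 0) (x y : Tab r c) :
    v x = v y := by
  refine connect Finset.univ v ?_ x y (fun l hl => absurd (Finset.mem_univ l) hl)
  intro i j a b z _ _ hij
  have h1 : v = cavg (restr {i, j}) v := by
    have := h i j hij
    rw [Qs_apply, sub_eq_zero] at this
    exact this
  rw [h1]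
  exact cavg_congr v (restr_tau_self _ a b z)

/-- The gap at the level of pairs of rows, for all margins. -/
theorem row_gap (f : Tab r c → ℝ) (hf : ∑ x, f x = 0) :
    2 * ip f f ≤ ∑ i, ∑ j, (if i = j then 0 else ip (Qs {i, j} f) (Qs {i, j} f)) := by
  classical
  refine knabe_gap (fun i j => Qs {i, j}) (fun i j => by rw [Finset.pair_comm]) (fun i j => Qs_sa _)
    (fun i j => Qs_id _) ?_ ?_ (fun w => ∀ x y, w x = w y) ?_ f ?_
  · intro i j k l h1 h2 h3 h4 h5 h6 g
    refine ip_nonneg_of_comm _ _ (Qs_sa _) (Qs_sa _) (Qs_id _) (Qs_id _) ?_ g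
    intro g'
    apply Qs_comm
    rw [Finset.disjoint_left]
    intro e he1 he2
    simp only [Finset.mem_insert, Finset.mem_singleton] at he1 he2
    rcases he1 with rfl | rfl <;> rcases he2 with rfl | rfl <;> simp_all
  · intro i j k h1 h2 h3 g
    exact rows_tri h1 h2 h3 g
  · intro v hv
    exact const_of_Qs_zero v hv
  · intro w hw
    by_cases hne : Nonempty (Tab r c)
    · obtain ⟨x₀⟩ := hne
      have : ip f w = w x₀ * ∑ x, f x := by
        unfold ip
        rw [Finset.mul_sum]
        refine Finset.sum_congr rfl (fun x _ => ?_)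
        rw [hw x x₀]; ring
      rw [this, hf, mul_zero]
    · unfold ip
      rw [not_nonempty_iff] at hne
      simp

end Vale.Agent.Lib.P335
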