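import Vale.Agent.Lib.P335.GenFiberJ
import Vale.Agent.Lib.P335.Rows

/-!
The triple inequality for general graphs: with the edges avoiding three vertices frozen, the state
is a binary table with three rows, the triangle on the three vertices becoming one more column.
-/

open Finset BigOperators

namespace Vale.Agent.Lib.P335

set_option linter.unusedSectionVars false

/-- The rule for the extra column. -/
def star (M e : ℕ) : Prop := if M ≤ 2 then e = 1 else e = 2

/-- The rule for the triangle edges from the extra column. -/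
def trig (M : ℕ) (s s' : Prop) : Prop := if M ≤ 2 then s ∧ s' else s ∨ s'

/-- The correction in the row sums. -/
noncomputable def hf (M : ℕ) : ℕ := if M ≤ 2 then 0 else 1

/-- The sum of the extra column. -/
def kap (M : ℕ) : ℕ := if M ≤ 2 then M else M - 3

lemma trig_comm (M : ℕ) (s s' : Prop) : trig M s s' ↔ trig M s' s := by
  unfold trig
  split_ifs <;> tauto

lemma star_L1 (p q r : Prop) : iv p + iv q
    = iv (star (2 * (iv p + iv q + iv r)) (iv p + iv q)) + hf (2 * (iv p + iv q + iv r)) := by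
  by_cases h1 : p <;> by_cases h2 : q <;> by_cases h3 : r <;>
    simp [iv_true, iv_false, h1, h2, h3, star, hf]

lemma star_L2 (p q r : Prop) : iv (star (2 * (iv p + iv q + iv r)) (iv p + iv q))
    + iv (star (2 * (iv p + iv q + iv r)) (iv p + iv r))
    + iv (star (2 * (iv p + iv q + iv r)) (iv q + iv r)) = kap (2 * (iv p + iv q + iv r)) := by
  by_cases h1 : p <;> by_cases h2 : q <;> by_cases h3 : r <;>
    simp [iv_true, iv_false, h1, h2, h3, star, kap]

lemma star_L4 (p q r : Prop) : trig (2 * (iv p + iv q + iv r))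
    (star (2 * (iv p + iv q + iv r)) (iv p + iv q))
    (star (2 * (iv p + iv q + iv r)) (iv p + iv r)) ↔ p := by
  by_cases h1 : p <;> by_cases h2 : q <;> by_cases h3 : r <;>
    simp [iv_true, iv_false, h1, h2, h3, star, trig]

lemma star_L5 (p q r p' q' r' : Prop) (h : iv p + iv q + iv r = iv p' + iv q' + iv r')
    (hs : star (2 * (iv p + iv q + iv r)) (iv q + iv r)
      ↔ star (2 * (iv p + iv q + iv r)) (iv q' + iv r')) :
    (p ↔ p') := by
  by_cases h1 : p <;> by_cases h2 : q <;> by_cases h3 : r <;>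
  by_cases h4 : p' <;> by_cases h5 : q' <;> by_cases h6 : r' <;>
    simp_all [iv_true, iv_false, star]

lemma star_L3 (M : ℕ) (s1 s2 s3 : Prop) (hM : M = 0 ∨ M = 2 ∨ M = 4 ∨ M = 6)
    (hc : iv s1 + iv s2 + iv s3 = kap M) :
    2 * (iv (trig M s1 s2) + iv (trig M s1 s3) + iv (trig M s2 s3)) = M := by
  rcases hM with rfl | rfl | rfl | rfl <;>
  by_cases h1 : s1 <;> by_cases h2 : s2 <;> by_cases h3 : s3 <;>
    simp_all [iv_true, iv_false, trig, kap]

lemma star_L3' (M : ℕ) (s1 s2 s3 : Prop) (hM : M = 0 ∨ M = 2 ∨ M = 4 ∨ M = 6)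
    (hc : iv s1 + iv s2 + iv s3 = kap M) :
    star M (iv (trig M s1 s2) + iv (trig M s1 s3)) ↔ s1 := by
  rcases hM with rfl | rfl | rfl | rfl <;>
  by_cases h1 : s1 <;> by_cases h2 : s2 <;> by_cases h3 : s3 <;>
    simp_all [iv_true, iv_false, trig, kap, star]

variable {n : ℕ} {d : Fin n → ℕ}

section defs

variable (R : Finset (Fin n)) (s₀ : Fin n)

/-- The pairs touching `R`. -/
def tch (p q : Fin n) : Prop := p ∈ R ∨ q ∈ R

/-- The number of neighbours in `R`. -/
noncomputable def ee (y : Realization d) (l : Fin n) : ℕ := ∑ t ∈ R, iv (y.1.Adj l t)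

/-- Twice the number of edges inside `R`. -/
noncomputable def mmT (y : Realization d) : ℕ := ∑ l ∈ R, ee R y l

/-- Three distinct vertices forming `R`. -/
def Tri (i j k : Fin n) : Prop := i ≠ j ∧ i ≠ k ∧ j ≠ k ∧ ∀ l, l ∈ R ↔ l = i ∨ l = j ∨ l = k

open Classical in
/-- The row of `l` in the table of a state. -/
noncomputable def tb (M : ℕ) (y : Realization d) (l : Fin n) : Finset (Fin n) :=
  Finset.univ.filter (fun t => l ∈ R ∧ ((t ∉ R ∧ y.1.Adj l t) ∨ (t = s₀ ∧ star M (ee R y l))))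

/-- The row sums. -/
noncomputable def rowM (x : Realization d) (l : Fin n) : ℕ := (tb R s₀ (mmT R x) x l).card

/-- The column sums. -/
noncomputable def colM (x : Realization d) (t : Fin n) : ℕ :=
  (Finset.univ.filter (fun l => t ∈ tb R s₀ (mmT R x) x l)).card

end defs

section tri

variable {R : Finset (Fin n)} {s₀ : Fin n} {i j k : Fin n}

lemma Tri.p12 (T : Tri R i j k) : Tri R j i k :=
  ⟨T.1.symm, T.2.2.1, T.2.1, fun l => by rw [T.2.2.2 l]; tauto⟩

lemma Tri.p23 (T : Tri R i j k) : Tri R i k j :=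
  ⟨T.2.1, T.1, T.2.2.1.symm, fun l => by rw [T.2.2.2 l]; tauto⟩

lemma Tri.p31 (T : Tri R i j k) : Tri R k i j :=
  ⟨T.2.1.symm, T.2.2.1.symm, T.1, fun l => by rw [T.2.2.2 l]; tauto⟩

lemma Tri.mem1 (T : Tri R i j k) : i ∈ R := (T.2.2.2 i).2 (Or.inl rfl)
lemma Tri.mem2 (T : Tri R i j k) : j ∈ R := (T.2.2.2 j).2 (Or.inr (Or.inl rfl))
lemma Tri.mem3 (T : Tri R i j k) : k ∈ R := (T.2.2.2 k).2 (Or.inr (Or.inr rfl))

lemma Tri.sum (T : Tri R i j k) (F : Fin n → ℕ) : ∑ t ∈ R, F t = F i + F j + F k := by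
  have h : R = {i, j, k} := by
    ext l
    rw [T.2.2.2 l]
    simp
  rw [h, Finset.sum_insert (by simp [T.1, T.2.1]), Finset.sum_pair T.2.2.1]
  ring

/-- Pick the labelling with the first two prescribed. -/
lemma Tri.pick (T : Tri R i j k) {p q : Fin n} (hp : p ∈ R) (hq : q ∈ R) (hpq : p ≠ q) :
    ∃ r, Tri R p q r := by
  rcases (T.2.2.2 p).1 hp with rfl | rfl | rfl <;> rcases (T.2.2.2 q).1 hq with rfl | rfl | rfl
  · exact absurd rfl hpq
  · exact ⟨_, T⟩
  · exact ⟨_, T.p23⟩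
  · exact ⟨_, T.p12⟩
  · exact absurd rfl hpq
  · exact ⟨_, T.p12.p23⟩
  · exact ⟨_, T.p31⟩
  · exact ⟨_, T.p31.p23⟩
  · exact absurd rfl hpq

/-- Pick a labelling with the first vertex prescribed. -/
lemma Tri.pick1 (T : Tri R i j k) {p : Fin n} (hp : p ∈ R) : ∃ q r, Tri R p q r := by
  rcases (T.2.2.2 p).1 hp with rfl | rfl | rfl
  · exact ⟨_, _, T⟩
  · exact ⟨_, _, T.p12⟩
  · exact ⟨_, _, T.p31⟩

lemma iv_adj_self (y : Realization d) (a : Fin n) : iv (y.1.Adj a a) = 0 :=
  iv_false (y.1.loopless.irrefl a)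

lemma iv_adj_comm (y : Realization d) (a b : Fin n) : iv (y.1.Adj a b) = iv (y.1.Adj b a) :=
  iv_congr (adj_comm' y a b)

lemma ee_first (T : Tri R i j k) (y : Realization d) :
    ee R y i = iv (y.1.Adj i j) + iv (y.1.Adj i k) := by
  unfold ee
  rw [T.sum, iv_adj_self]
  ring

lemma mm_eq (T : Tri R i j k) (y : Realization d) :
    mmT R y = 2 * (iv (y.1.Adj i j) + iv (y.1.Adj i k) + iv (y.1.Adj j k)) := by
  unfold mmT
  rw [T.sum, ee_first T, ee_first T.p12, ee_first T.p31, iv_adj_comm y j i, iv_adj_comm y k i,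
    iv_adj_comm y k j]
  ring

lemma mm_vals (T : Tri R i j k) (y : Realization d) :
    mmT R y = 0 ∨ mmT R y = 2 ∨ mmT R y = 4 ∨ mmT R y = 6 := by
  rw [mm_eq T]
  have h1 := iv_le_one (y.1.Adj i j)
  have h2 := iv_le_one (y.1.Adj i k)
  have h3 := iv_le_one (y.1.Adj j k)
  omega

lemma ee_star (T : Tri R i j k) (y : Realization d) :
    ee R y i = iv (star (mmT R y) (ee R y i)) + hf (mmT R y) := by
  rw [mm_eq T, ee_first T]
  exact star_L1 _ _ _

lemma count_star (T : Tri R i j k) (y : Realization d) :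
    ∑ l ∈ R, iv (star (mmT R y) (ee R y l)) = kap (mmT R y) := by
  rw [T.sum, mm_eq T, ee_first T, ee_first T.p12, ee_first T.p31, iv_adj_comm y j i,
    iv_adj_comm y k i, iv_adj_comm y k j]
  exact star_L2 _ _ _

lemma trig_star (T : Tri R i j k) (y : Realization d) :
    trig (mmT R y) (star (mmT R y) (ee R y i)) (star (mmT R y) (ee R y j)) ↔ y.1.Adj i j := by
  rw [mm_eq T, ee_first T, ee_first T.p12, iv_adj_comm y j i]
  exact star_L4 _ _ _

lemma deg_split_R (R : Finset (Fin n)) (y : Realization d) (l : Fin n) :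
    ∑ t ∈ Rᶜ, iv (y.1.Adj l t) + ee R y l = d l := by
  have h := sum_iv_adj y l
  rw [← Finset.sum_add_sum_compl R] at h
  unfold ee
  omega

/-- Twice the number of edges inside `R` is fixed when the edges avoiding `R` are. -/
lemma mm_inv {x y : Realization d} (hy : off (tch R) y = off (tch R) x) : mmT R y = mmT R x := by
  have e := off_eq_iff.1 hy
  have key : ∀ z : Realization d, ∑ l ∈ R, d l = mmT R z + ∑ l ∈ R, ∑ t ∈ Rᶜ, iv (z.1.Adj t l) := by
    intro z
    unfold mmT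
    rw [← Finset.sum_add_distrib]
    refine Finset.sum_congr rfl (fun l _ => ?_)
    rw [← deg_split_R R z l, add_comm]
    congr 1
    exact Finset.sum_congr rfl (fun t _ => iv_adj_comm z l t)
  have h1 : ∑ l ∈ R, ∑ t ∈ Rᶜ, iv (y.1.Adj t l) = ∑ l ∈ R, ∑ t ∈ Rᶜ, iv (x.1.Adj t l) := by
    rw [Finset.sum_comm, Finset.sum_comm (s := R) (t := Rᶜ) (f := fun l t => iv (x.1.Adj t l))]
    refine Finset.sum_congr rfl (fun t ht => ?_)
    apply sum_iv_off
    intro s hs
    refine e t s ?_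
    rintro (h | h)
    · exact Finset.mem_compl.1 ht h
    · exact hs h
  have h2 := key x
  have h3 := key y
  omega

lemma mem_tb {M : ℕ} {y : Realization d} {l t : Fin n} :
    t ∈ tb R s₀ M y l ↔ l ∈ R ∧ ((t ∉ R ∧ y.1.Adj l t) ∨ (t = s₀ ∧ star M (ee R y l))) := by
  classical
  simp [tb]

lemma tb_off {M : ℕ} {y : Realization d} {l : Fin n} (hl : l ∉ R) : tb R s₀ M y l = ∅ := by
  ext t
  rw [mem_tb]
  simp [hl]

lemma tb_other {M : ℕ} {y : Realization d} {l t : Fin n} (ht : t ∈ R) (hs : t ≠ s₀) :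
    t ∉ tb R s₀ M y l := by
  rw [mem_tb]
  rintro ⟨_, ⟨h1, _⟩ | ⟨h1, _⟩⟩
  · exact h1 ht
  · exact hs h1

lemma tb_out {M : ℕ} {y : Realization d} {l t : Fin n} (hl : l ∈ R) (ht : t ∉ R) (hs₀ : s₀ ∈ R) :
    t ∈ tb R s₀ M y l ↔ y.1.Adj l t := by
  rw [mem_tb]
  have : t ≠ s₀ := fun h => ht (h ▸ hs₀)
  simp [hl, ht, this]

lemma tb_star {M : ℕ} {y : Realization d} {l : Fin n} (hl : l ∈ R) (hs₀ : s₀ ∈ R) :
    s₀ ∈ tb R s₀ M y l ↔ star M (ee R y l) := by
  rw [mem_tb]
  simp [hl, hs₀]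

lemma card_eq_sum_iv (A : Finset (Fin n)) : A.card = ∑ t, iv (t ∈ A) := by
  classical
  have h : (Finset.univ.filter (fun t => t ∈ A)) = A := by
    ext t; simp
  conv_lhs => rw [← h]
  rw [Finset.card_filter]
  exact Finset.sum_congr rfl (fun t _ => by unfold iv; congr)

lemma row_sum (A : Finset (Fin n)) (hA : ∀ t ∈ R, t ≠ s₀ → t ∉ A) (hs₀ : s₀ ∈ R) :
    A.card = ∑ t ∈ Rᶜ, iv (t ∈ A) + iv (s₀ ∈ A) := by
  rw [card_eq_sum_iv, ← Finset.sum_add_sum_compl R, add_comm]
  congr 1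
  refine Finset.sum_eq_single_of_mem s₀ hs₀ (fun t ht hts => iv_false (hA t ht hts))

lemma sum_iv_and (P : Fin n → Prop) : ∑ l, iv (l ∈ R ∧ P l) = ∑ l ∈ R, iv (P l) := by
  rw [← Finset.sum_add_sum_compl R]
  have h1 : ∑ l ∈ Rᶜ, iv (l ∈ R ∧ P l) = 0 :=
    Finset.sum_eq_zero (fun l hl => iv_false (fun h => Finset.mem_compl.1 hl h.1))
  rw [h1, add_zero]
  exact Finset.sum_congr rfl (fun l hl => iv_congr (by simp [hl]))

lemma card_filter_iv (P : Fin n → Prop) [DecidablePred P] :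
    (Finset.univ.filter P).card = ∑ l, iv (P l) := by
  rw [Finset.card_filter]
  exact Finset.sum_congr rfl (fun t _ => by unfold iv; congr)

/-- The row sum of the table of a state. -/
lemma row_tb (T : Tri R i j k) (hs₀ : s₀ ∈ R) (y : Realization d) {l : Fin n} (hl : l ∈ R) :
    (tb R s₀ (mmT R y) y l).card + hf (mmT R y) = d l := by
  obtain ⟨q, r, T'⟩ := T.pick1 hl
  rw [row_sum _ (fun t ht hts => tb_other ht hts) hs₀, iv_congr (tb_star hl hs₀)]
  have e1 : ∑ t ∈ Rᶜ, iv (t ∈ tb R s₀ (mmT R y) y l) = ∑ t ∈ Rᶜ, iv (y.1.Adj l t) :=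
    Finset.sum_congr rfl (fun t ht => iv_congr (tb_out hl (Finset.mem_compl.1 ht) hs₀))
  rw [e1]
  have e2 := ee_star T' y
  have e3 := deg_split_R R y l
  omega

/-- The column sums of the table of a state. -/
lemma col_out (hs₀ : s₀ ∈ R) {M : ℕ} (y : Realization d) {t : Fin n} (ht : t ∉ R) :
    (Finset.univ.filter (fun l => t ∈ tb R s₀ M y l)).card = ∑ l ∈ R, iv (y.1.Adj t l) := by
  rw [card_filter_iv, ← sum_iv_and (R := R)]
  refine Finset.sum_congr rfl (fun l _ => iv_congr ?_)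
  rw [adj_comm' y t l]
  constructor
  · intro h
    have hl : l ∈ R := (mem_tb.1 h).1
    exact ⟨hl, (tb_out hl ht hs₀).1 h⟩
  · rintro ⟨hl, h⟩
    exact (tb_out hl ht hs₀).2 h

lemma col_star (hs₀ : s₀ ∈ R) {M : ℕ} (y : Realization d) :
    (Finset.univ.filter (fun l => s₀ ∈ tb R s₀ M y l)).card = ∑ l ∈ R, iv (star M (ee R y l)) := by
  rw [card_filter_iv, ← sum_iv_and (R := R)]
  refine Finset.sum_congr rfl (fun l _ => iv_congr ?_)
  constructor
  · intro h
    have hl : l ∈ R := (mem_tb.1 h).1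
    exact ⟨hl, (tb_star hl hs₀).1 h⟩
  · rintro ⟨hl, h⟩
    exact (tb_star hl hs₀).2 h

lemma col_other {M : ℕ} (y : Realization d) {t : Fin n} (ht : t ∈ R) (hs : t ≠ s₀) :
    (Finset.univ.filter (fun l => t ∈ tb R s₀ M y l)).card = 0 := by
  rw [Finset.card_eq_zero, Finset.filter_eq_empty_iff]
  intro l _
  exact tb_other ht hs

/-- The table of a state in the class of `x`. -/
lemma isTab_tb (T : Tri R i j k) (hs₀ : s₀ ∈ R) {x y : Realization d}
    (hy : off (tch R) y = off (tch R) x) :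
    IsTab (rowM R s₀ x) (colM R s₀ x) (tb R s₀ (mmT R x) y) := by
  have hm := mm_inv hy
  have e := off_eq_iff.1 hy
  constructor
  · intro l
    unfold rowM
    by_cases hl : l ∈ R
    · have h1 := row_tb T hs₀ y hl
      have h2 := row_tb T hs₀ x hl
      rw [hm] at h1
      omega
    · rw [tb_off hl, tb_off hl]
  · intro t
    unfold colM
    by_cases ht : t ∈ R
    · by_cases hs : t = s₀
      · subst hs
        rw [col_star hs₀, col_star hs₀]
        have h1 := count_star T y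
        have h2 := count_star T x
        rw [hm] at h1
        omega
      · rw [col_other _ ht hs, col_other _ ht hs]
    · rw [col_out hs₀ _ ht, col_out hs₀ _ ht]
      apply sum_iv_off
      intro s hs
      refine e t s ?_
      rintro (h | h)
      · exact ht h
      · exact hs h

end tri

end Vale.Agent.Lib.P335
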