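import Mathlib

/-!
The switch chain on labeled simple graphs with a given degree vector.
-/

open Finset BigOperators

namespace Vale.Agent.Lib.P335

variable {n : ℕ}

/-- The simple graphs on `Fin n` with degree `d v` at every vertex `v`. -/
abbrev Realization (d : Fin n → ℕ) :=
  {G : SimpleGraph (Fin n) // ∀ v, (G.neighborSet v).ncard = d v}

noncomputable instance (d : Fin n → ℕ) : Fintype (Realization d) := Fintype.ofFinite _

noncomputable instance (d : Fin n → ℕ) : DecidableEq (Realization d) := Classical.decEq _

/-- `F` is a perfect matching of the complete graph on the four element set `S`: two edges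
joining distinct points of `S`, covering `S`. -/
def IsPerfectMatching (S : Finset (Fin n)) (F : Finset (Sym2 (Fin n))) : Prop :=
  F.card = 2 ∧ (∀ e ∈ F, ∃ u ∈ S, ∃ v ∈ S, u ≠ v ∧ e = s(u, v)) ∧ ∀ v ∈ S, ∃ e ∈ F, v ∈ e

open Classical in
/-- The ordered pairs of distinct perfect matchings on `S`. -/
noncomputable def matchingPairs (S : Finset (Fin n)) :
    Finset (Finset (Sym2 (Fin n)) × Finset (Sym2 (Fin n))) :=
  Finset.univ.filter (fun p => IsPerfectMatching S p.1 ∧ IsPerfectMatching S p.2 ∧ p.1 ≠ p.2)

open Classical in
/-- If both edges of `F` are present and both edges of `F'` are absent, replace `F` by `F'`;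
otherwise stay put. -/
noncomputable def switchStep (G : SimpleGraph (Fin n)) (F F' : Finset (Sym2 (Fin n))) :
    SimpleGraph (Fin n) :=
  if (∀ e ∈ F, e ∈ G.edgeSet) ∧ (∀ e ∈ F', e ∉ G.edgeSet) then
    SimpleGraph.fromEdgeSet ((G.edgeSet \ (F : Set (Sym2 (Fin n)))) ∪ (F' : Set (Sym2 (Fin n))))
  else G

open Classical in
/-- The transition matrix of the switch chain: with probability `1/2` stay put; otherwise choose
a four element set `S` uniformly, then one of the six ordered pairs of distinct perfect matchings
of `S` uniformly, and apply `switchStep`. -/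
noncomputable def switchKernel (d : Fin n → ℕ) : Matrix (Realization d) (Realization d) ℝ :=
  fun G G' => (if G = G' then 1 / 2 else 0) + (1 / 2) * (1 / (n.choose 4 : ℝ)) *
    ∑ S ∈ Finset.powersetCard 4 (Finset.univ : Finset (Fin n)), (1 / 6) *
      ∑ p ∈ matchingPairs S, (if switchStep G.1 p.1 p.2 = G'.1 then 1 else 0)

end Vale.Agent.Lib.P335
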