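import Vale.Agent.Lib.P335.Basic

/-!
The local to global inequality: from the triple and the disjoint pair inequalities to the
square inequality for the total sum, and from there to a spectral gap.
-/

open Finset BigOperators

namespace Vale.Agent.Lib.P335

variable {X : Type*} [Fintype X] {ι : Type*} [Fintype ι] [DecidableEq ι]

omit [Fintype ι] in
private lemma ind_aux (i j k l : ι) (v : ℝ) (hij : i ≠ j) (hkl : k ≠ l) : v =
      (if k = i then v else 0) + (if k = j then v else 0)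
      + (if l = i then v else 0) + (if l = j then v else 0)
      - (if k = i ∧ l = j then v else 0) - (if k = j ∧ l = i then v else 0)
      + (if k ≠ i ∧ k ≠ j ∧ l ≠ i ∧ l ≠ j then v else 0) := by
  by_cases h1 : k = i <;> by_cases h2 : k = j <;> by_cases h3 : l = i <;> by_cases h4 : l = j <;>
    simp_all

private lemma sum_delta2 (G : ι → ι → ℝ) (u v : ι) :
    ∑ k, ∑ l, (if k = u ∧ l = v then G k l else 0) = G u v := by
  have h : ∀ k, ∑ l, (if k = u ∧ l = v then G k l else 0) = if k = u then G k v else 0 := by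
    intro k
    by_cases hk : k = u
    · simp [hk]
    · simp [hk]
  simp only [h]
  simp

/-- Purely algebraic decomposition of the square of a double sum. -/
theorem knabe_quadratic (F : ι → ι → X → ℝ)
    (hdiag : ∀ i, F i i = 0) (hsymm : ∀ i j, F i j = F j i)
    (hdis : ∀ i j k l, i ≠ j → k ≠ l → i ≠ k → i ≠ l → j ≠ k → j ≠ l →
      0 ≤ ip (F i j) (F k l))
    (htri : ∀ i j k, i ≠ j → i ≠ k → j ≠ k →
      0 ≤ ip (F i j) (F i k) + ip (F j i) (F j k) + ip (F k i) (F k j)) :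
    2 * ∑ i, ∑ j, ip (F i j) (F i j) ≤ ip (∑ i, ∑ j, F i j) (∑ k, ∑ l, F k l) := by
  set q : ι → ι → ι → ι → ℝ := fun i j k l => ip (F i j) (F k l) with hq
  have hq0 : ∀ i k l, q i i k l = 0 := by
    intro i k l; simp [hq, hdiag, ip_zero_left]
  have hq0' : ∀ i j k, q i j k k = 0 := by
    intro i j k; simp [hq, hdiag, ip_zero_right]
  have hexpand : ip (∑ i, ∑ j, F i j) (∑ k, ∑ l, F k l) = ∑ i, ∑ j, ∑ k, ∑ l, q i j k l := by
    rw [ip_sum_left]
    refine Finset.sum_congr rfl (fun i _ => ?_)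
    rw [ip_sum_left]
    refine Finset.sum_congr rfl (fun j _ => ?_)
    rw [ip_sum_right]
    refine Finset.sum_congr rfl (fun k _ => ?_)
    rw [ip_sum_right]
  set A : ℝ := ∑ i, ∑ j, ∑ l, q i j i l with hA
  set B : ℝ := ∑ i, ∑ j, q i j i j with hB
  set R : ℝ := ∑ i, ∑ j, ∑ k, ∑ l,
    (if k ≠ i ∧ k ≠ j ∧ l ≠ i ∧ l ≠ j then q i j k l else 0) with hR
  have hRnn : 0 ≤ R := by
    refine Finset.sum_nonneg (fun i _ => Finset.sum_nonneg (fun j _ =>
      Finset.sum_nonneg (fun k _ => Finset.sum_nonneg (fun l _ => ?_))))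
    split_ifs with h
    · by_cases hij : i = j
      · subst hij; simp [hq0]
      by_cases hkl : k = l
      · subst hkl; simp [hq0']
      exact hdis i j k l hij hkl (Ne.symm h.1) (Ne.symm h.2.2.1) (Ne.symm h.2.1) (Ne.symm h.2.2.2)
    · exact le_rfl
  -- pointwise decomposition
  have hpt : ∀ i j k l, q i j k l =
      (if k = i then q i j k l else 0) + (if k = j then q i j k l else 0)
      + (if l = i then q i j k l else 0) + (if l = j then q i j k l else 0)
      - (if k = i ∧ l = j then q i j k l else 0) - (if k = j ∧ l = i then q i j k l else 0)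
      + (if k ≠ i ∧ k ≠ j ∧ l ≠ i ∧ l ≠ j then q i j k l else 0) := by
    intro i j k l
    by_cases hij : i = j
    · subst hij; simp [hq0]
    by_cases hkl : k = l
    · subst hkl; simp [hq0']
    exact ind_aux i j k l _ hij hkl
  -- each of the four sums equals A
  have hS1 : ∑ i, ∑ j, ∑ k, ∑ l, (if k = i then q i j k l else 0) = A := by
    refine Finset.sum_congr rfl (fun i _ => Finset.sum_congr rfl (fun j _ => ?_))
    rw [Finset.sum_comm]
    refine Finset.sum_congr rfl (fun l _ => ?_)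
    simp
  have hS2 : ∑ i, ∑ j, ∑ k, ∑ l, (if k = j then q i j k l else 0) = A := by
    have : ∀ i j, ∑ k, ∑ l, (if k = j then q i j k l else 0) = ∑ l, q j i j l := by
      intro i j
      rw [Finset.sum_comm]
      refine Finset.sum_congr rfl (fun l _ => ?_)
      simp only [Finset.sum_ite_eq', Finset.mem_univ, if_true]
      simp only [hq, hsymm i j]
    simp only [this]
    rw [Finset.sum_comm]
  have hS3 : ∑ i, ∑ j, ∑ k, ∑ l, (if l = i then q i j k l else 0) = A := by
    refine Finset.sum_congr rfl (fun i _ => Finset.sum_congr rfl (fun j _ => ?_))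
    refine Finset.sum_congr rfl (fun k _ => ?_)
    simp only [Finset.sum_ite_eq', Finset.mem_univ, if_true]
    simp only [hq, hsymm k i]
  have hS4 : ∑ i, ∑ j, ∑ k, ∑ l, (if l = j then q i j k l else 0) = A := by
    have : ∀ i j, ∑ k, ∑ l, (if l = j then q i j k l else 0) = ∑ k, q j i j k := by
      intro i j
      refine Finset.sum_congr rfl (fun k _ => ?_)
      simp only [Finset.sum_ite_eq', Finset.mem_univ, if_true]
      simp only [hq, hsymm i j, hsymm k j]
    simp only [this]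
    rw [Finset.sum_comm]
  have hS5 : ∑ i, ∑ j, ∑ k, ∑ l, (if k = i ∧ l = j then q i j k l else 0) = B := by
    refine Finset.sum_congr rfl (fun i _ => Finset.sum_congr rfl (fun j _ => ?_))
    rw [sum_delta2 (fun k l => q i j k l) i j]
  have hS6 : ∑ i, ∑ j, ∑ k, ∑ l, (if k = j ∧ l = i then q i j k l else 0) = B := by
    refine Finset.sum_congr rfl (fun i _ => Finset.sum_congr rfl (fun j _ => ?_))
    rw [sum_delta2 (fun k l => q i j k l) j i]
    simp only [hq]
    rw [hsymm j i]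
  have htotal : ∑ i, ∑ j, ∑ k, ∑ l, q i j k l = 4 * A - 2 * B + R := by
    calc ∑ i, ∑ j, ∑ k, ∑ l, q i j k l
        = ∑ i, ∑ j, ∑ k, ∑ l, ((if k = i then q i j k l else 0) + (if k = j then q i j k l else 0)
      + (if l = i then q i j k l else 0) + (if l = j then q i j k l else 0)
      - (if k = i ∧ l = j then q i j k l else 0) - (if k = j ∧ l = i then q i j k l else 0)
      + (if k ≠ i ∧ k ≠ j ∧ l ≠ i ∧ l ≠ j then q i j k l else 0)) :=
          Finset.sum_congr rfl (fun i _ => Finset.sum_congr rfl (fun j _ =>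
            Finset.sum_congr rfl (fun k _ => Finset.sum_congr rfl (fun l _ => hpt i j k l))))
      _ = 4 * A - 2 * B + R := by
          simp only [Finset.sum_add_distrib, Finset.sum_sub_distrib]
          rw [hS1, hS2, hS3, hS4, hS5, hS6]
          ring
  -- the adjacent sum
  set a : ι → ι → ι → ℝ := fun i j k => if i ≠ j ∧ i ≠ k ∧ j ≠ k then q i j i k else 0 with ha
  have hAa : A = (∑ i, ∑ j, ∑ k, a i j k) + B := by
    rw [hA, hB, ← Finset.sum_add_distrib]
    refine Finset.sum_congr rfl (fun i _ => ?_)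
    rw [← Finset.sum_add_distrib]
    refine Finset.sum_congr rfl (fun j _ => ?_)
    rw [← Finset.add_sum_erase _ _ (Finset.mem_univ j), add_comm]
    have hj : a i j j = 0 := by simp [ha]
    rw [← Finset.add_sum_erase _ (a i j) (Finset.mem_univ j), hj, zero_add]
    congr 1
    refine Finset.sum_congr rfl (fun k hk => ?_)
    have hkj : j ≠ k := (Finset.ne_of_mem_erase hk).symm
    by_cases hij : i = j
    · subst hij; simp [ha, hq0]
    by_cases hik : i = k
    · subst hik; simp [ha, hq0']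
    simp [ha, hij, hik, hkj]
  have hSnn : 0 ≤ ∑ i, ∑ j, ∑ k, a i j k := by
    have h1 : ∑ i, ∑ j, ∑ k, a j i k = ∑ i, ∑ j, ∑ k, a i j k := by
      rw [Finset.sum_comm]
    have h2 : ∑ i, ∑ j, ∑ k, a k i j = ∑ i, ∑ j, ∑ k, a i j k := by
      calc ∑ i, ∑ j, ∑ k, a k i j = ∑ i, ∑ k, ∑ j, a k i j :=
            Finset.sum_congr rfl (fun i _ => Finset.sum_comm)
        _ = ∑ k, ∑ i, ∑ j, a k i j := Finset.sum_comm
    have h3 : 0 ≤ ∑ i, ∑ j, ∑ k, (a i j k + a j i k + a k i j) := by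
      refine Finset.sum_nonneg (fun i _ => Finset.sum_nonneg (fun j _ =>
        Finset.sum_nonneg (fun k _ => ?_)))
      by_cases h : i ≠ j ∧ i ≠ k ∧ j ≠ k
      · have hh := htri i j k h.1 h.2.1 h.2.2
        simp only [ha, hq]
        rw [if_pos h, if_pos ⟨h.1.symm, h.2.2, h.2.1⟩, if_pos ⟨h.2.1.symm, h.2.2.symm, h.1⟩]
        exact hh
      · have h1' : ¬ (j ≠ i ∧ j ≠ k ∧ i ≠ k) := fun hh => h ⟨hh.1.symm, hh.2.2, hh.2.1⟩
        have h2' : ¬ (k ≠ i ∧ k ≠ j ∧ i ≠ j) := fun hh => h ⟨hh.2.2, hh.1.symm, hh.2.1.symm⟩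
        simp only [ha]
        rw [if_neg h, if_neg h1', if_neg h2']
        simp
    simp only [Finset.sum_add_distrib] at h3
    rw [h1, h2] at h3
    linarith
  rw [hexpand, htotal, hAa]
  change 2 * B ≤ _
  linarith

/-- From the algebraic square inequality to a spectral gap. -/
theorem gap_of_square [DecidableEq X] (T : (X → ℝ) →ₗ[ℝ] (X → ℝ))
    (hT : ∀ f g, ip (T f) g = ip f (T g))
    (hpos : ∀ f, 0 ≤ ip f (T f))
    (c : ℝ)
    (hsq : ∀ f, c * ip f (T f) ≤ ip (T f) (T f))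
    (W : (X → ℝ) → Prop) (hW : ∀ v, ip v (T v) = 0 → W v)
    (f : X → ℝ) (hf : ∀ w, W w → ip f w = 0) :
    c * ip f f ≤ ip f (T f) := by
  refine gap_of_eigen T hT c W ?_ f hf
  intro l v hv hTv
  have hvpos : 0 < ip v v := lt_of_le_of_ne (ip_self_nonneg v)
    (fun h => hv (ip_self_eq_zero.1 h.symm))
  have h1 : ip v (T v) = l * ip v v := by rw [hTv, ip_smul_right]
  have h2 : ip (T v) (T v) = l * l * ip v v := by
    rw [hTv, ip_smul_left, ip_smul_right]; ring
  have h3 := hsq v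
  rw [h1, h2] at h3
  have h4 := hpos v
  rw [h1] at h4
  have hl : 0 ≤ l := by
    by_contra hneg
    rw [not_le] at hneg
    nlinarith
  rcases hl.eq_or_lt with h0 | h0
  · right
    apply hW
    rw [h1, ← h0]; ring
  · left
    have h5 : c * l * ip v v ≤ l * l * ip v v := by nlinarith
    have h6 : c * l ≤ l * l := le_of_mul_le_mul_right h5 hvpos
    exact le_of_mul_le_mul_right (by nlinarith) h0

/-- Commuting symmetric idempotents have a nonnegative mixed form. -/
lemma ip_nonneg_of_comm (P P' : (X → ℝ) →ₗ[ℝ] (X → ℝ))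
    (hP : ∀ f g, ip (P f) g = ip f (P g)) (hP' : ∀ f g, ip (P' f) g = ip f (P' g))
    (hPP : ∀ f, P (P f) = P f) (hPP' : ∀ f, P' (P' f) = P' f)
    (hcomm : ∀ f, P (P' f) = P' (P f)) (f : X → ℝ) : 0 ≤ ip (P f) (P' f) := by
  have h : ip (P f) (P' f) = ip (P (P' f)) (P (P' f)) := by
    calc ip (P f) (P' f) = ip (P (P f)) (P' (P' f)) := by rw [hPP, hPP']
      _ = ip (P f) (P (P' (P' f))) := hP _ _
      _ = ip (P f) (P' (P (P' f))) := by rw [hcomm (P' f)]
      _ = ip (P' (P f)) (P (P' f)) := (hP' _ _).symm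
      _ = ip (P (P' f)) (P (P' f)) := by rw [hcomm f]
  rw [h]; exact ip_self_nonneg _

/-- Expansion of the square of a sum of three symmetric idempotents. -/
lemma tri_of_eigen [DecidableEq X] (P₁ P₂ P₃ : (X → ℝ) →ₗ[ℝ] (X → ℝ))
    (h₁ : ∀ f g, ip (P₁ f) g = ip f (P₁ g)) (h₂ : ∀ f g, ip (P₂ f) g = ip f (P₂ g))
    (h₃ : ∀ f g, ip (P₃ f) g = ip f (P₃ g))
    (i₁ : ∀ f, P₁ (P₁ f) = P₁ f) (i₂ : ∀ f, P₂ (P₂ f) = P₂ f) (i₃ : ∀ f, P₃ (P₃ f) = P₃ f)
    (he : ∀ (l : ℝ) (v : X → ℝ), v ≠ 0 → (P₁ + P₂ + P₃) v = l • v → l ≤ 0 ∨ 1 ≤ l)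
    (f : X → ℝ) :
    0 ≤ ip (P₁ f) (P₂ f) + ip (P₁ f) (P₃ f) + ip (P₂ f) (P₃ f) := by
  have hT : ∀ f g, ip ((P₁ + P₂ + P₃) f) g = ip f ((P₁ + P₂ + P₃) g) := by
    intro f g
    simp only [LinearMap.add_apply, ip_add_left, ip_add_right, h₁ f g, h₂ f g, h₃ f g]
  have key := sq_ge_of_eigen (P₁ + P₂ + P₃) hT 1 (by
    intro l v hv hTv
    rcases he l v hv hTv with h | h <;> nlinarith) f
  have e₁ : ip f (P₁ f) = ip (P₁ f) (P₁ f) := by
    conv_rhs => rw [h₁]
    rw [i₁]
  have e₂ : ip f (P₂ f) = ip (P₂ f) (P₂ f) := by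
    conv_rhs => rw [h₂]
    rw [i₂]
  have e₃ : ip f (P₃ f) = ip (P₃ f) (P₃ f) := by
    conv_rhs => rw [h₃]
    rw [i₃]
  simp only [LinearMap.add_apply, ip_add_left, ip_add_right] at key
  rw [e₁, e₂, e₃, ip_comm (P₂ f) (P₁ f), ip_comm (P₃ f) (P₁ f), ip_comm (P₃ f) (P₂ f)] at key
  linarith

/-- The abstract gap theorem: symmetric idempotents indexed by pairs, with commuting disjoint
pairs and the triple inequality, have total form bounded below by twice the norm. -/
theorem knabe_gap [DecidableEq X] (Q : ι → ι → (X → ℝ) →ₗ[ℝ] (X → ℝ))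
    (hsymm : ∀ i j, Q i j = Q j i)
    (hsa : ∀ i j f g, ip (Q i j f) g = ip f (Q i j g))
    (hid : ∀ i j f, Q i j (Q i j f) = Q i j f)
    (hdis : ∀ i j k l, i ≠ j → k ≠ l → i ≠ k → i ≠ l → j ≠ k → j ≠ l → ∀ f,
      0 ≤ ip (Q i j f) (Q k l f))
    (htri : ∀ i j k, i ≠ j → i ≠ k → j ≠ k → ∀ f,
      0 ≤ ip (Q i j f) (Q i k f) + ip (Q j i f) (Q j k f) + ip (Q k i f) (Q k j f))
    (W : (X → ℝ) → Prop) (hW : ∀ v, (∀ i j, i ≠ j → Q i j v = 0) → W v)
    (f : X → ℝ) (hf : ∀ w, W w → ip f w = 0) :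
    2 * ip f f ≤ ∑ i, ∑ j, (if i = j then 0 else ip (Q i j f) (Q i j f)) := by
  set QD : ι → ι → (X → ℝ) →ₗ[ℝ] (X → ℝ) := fun i j => if i = j then 0 else Q i j with hQD
  set T : (X → ℝ) →ₗ[ℝ] (X → ℝ) := ∑ i, ∑ j, QD i j with hTdef
  have hTapp : ∀ g, T g = ∑ i, ∑ j, QD i j g := by
    intro g
    simp only [hTdef, LinearMap.sum_apply]
  have hQDsa : ∀ i j f g, ip (QD i j f) g = ip f (QD i j g) := by
    intro i j f g
    by_cases h : i = j
    · simp [hQD, h, ip_zero_left, ip_zero_right]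
    · simp only [hQD, if_neg h]; exact hsa i j f g
  have hQDid : ∀ i j f, ip f (QD i j f) = ip (QD i j f) (QD i j f) := by
    intro i j f
    rw [hQDsa i j f (QD i j f)]
    by_cases h : i = j
    · simp [hQD, h, ip_zero_right]
    · simp only [hQD, if_neg h]; rw [hid]
  have hTsa : ∀ f g, ip (T f) g = ip f (T g) := by
    intro f g
    rw [hTapp, hTapp, ip_sum_left, ip_sum_right]
    refine Finset.sum_congr rfl (fun i _ => ?_)
    rw [ip_sum_left, ip_sum_right]
    exact Finset.sum_congr rfl (fun j _ => hQDsa i j f g)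
  have hform : ∀ g, ip g (T g) = ∑ i, ∑ j, ip (QD i j g) (QD i j g) := by
    intro g
    rw [hTapp, ip_sum_right]
    refine Finset.sum_congr rfl (fun i _ => ?_)
    rw [ip_sum_right]
    exact Finset.sum_congr rfl (fun j _ => hQDid i j g)
  have hpos : ∀ g, 0 ≤ ip g (T g) := by
    intro g
    rw [hform]
    exact Finset.sum_nonneg (fun i _ => Finset.sum_nonneg (fun j _ => ip_self_nonneg _))
  have hsq : ∀ g, 2 * ip g (T g) ≤ ip (T g) (T g) := by
    intro g
    rw [hform]
    have := knabe_quadratic (fun i j => QD i j g) ?_ ?_ ?_ ?_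
    · rw [hTapp]; exact this
    · intro i; simp [hQD]
    · intro i j
      by_cases h : i = j
      · subst h; rfl
      · simp only [hQD, if_neg h, if_neg (Ne.symm h)]; rw [hsymm]
    · intro i j k l h1 h2 h3 h4 h5 h6
      simp only [hQD, if_neg h1, if_neg h2]
      exact hdis i j k l h1 h2 h3 h4 h5 h6 g
    · intro i j k h1 h2 h3
      simp only [hQD, if_neg h1, if_neg h2, if_neg h3, if_neg (Ne.symm h1), if_neg (Ne.symm h2),
        if_neg (Ne.symm h3)]
      exact htri i j k h1 h2 h3 g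
  have key := gap_of_square T hTsa hpos 2 hsq W (by
    intro v hv
    apply hW
    intro i j hij
    rw [hform] at hv
    have h1 := (Finset.sum_eq_zero_iff_of_nonneg (fun i _ => Finset.sum_nonneg
      (fun j _ => ip_self_nonneg (QD i j v)))).1 hv i (Finset.mem_univ i)
    have h2 := (Finset.sum_eq_zero_iff_of_nonneg (fun j _ => ip_self_nonneg (QD i j v))).1 h1 j
      (Finset.mem_univ j)
    have h3 := ip_self_eq_zero.1 h2
    simpa [hQD, hij] using h3) f hf
  rw [hform] at key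
  refine key.trans (le_of_eq ?_)
  refine Finset.sum_congr rfl (fun i _ => Finset.sum_congr rfl (fun j _ => ?_))
  by_cases h : i = j
  · simp [hQD, h, ip_zero_left]
  · simp [hQD, h]

end Vale.Agent.Lib.P335
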