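import Vale.Agent.Lib.P335.ThreeA
import Vale.Agent.Lib.P335.Flow

/-!
The structure of the fibre of two rows: counting by the intersection with a fixed set.
-/

open Finset BigOperators

namespace Vale.Agent.Lib.P335

set_option linter.unusedSectionVars false

variable {ι κ : Type*} [Fintype ι] [DecidableEq ι] [Fintype κ] [DecidableEq κ]
variable {r : ι → ℕ} {c : κ → ℕ}

/-- Columns in both rows `i, j`. -/
def dbl (x : ι → Finset κ) (i j : ι) : Finset κ := x i ∩ x j

/-- Columns in exactly one of the rows `i, j`. -/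
def act (x : ι → Finset κ) (i j : ι) : Finset κ := (x i ∪ x j) \ (x i ∩ x j)

lemma mem_dbl {x : ι → Finset κ} {i j : ι} {e : κ} : e ∈ dbl x i j ↔ e ∈ x i ∧ e ∈ x j := by
  simp [dbl]

lemma mem_act {x : ι → Finset κ} {i j : ι} {e : κ} :
    e ∈ act x i j ↔ (e ∈ x i ∧ e ∉ x j) ∨ (e ∉ x i ∧ e ∈ x j) := by
  simp only [act, mem_sdiff, mem_union, mem_inter]
  tauto

lemma disjoint_act_dbl (x : ι → Finset κ) (i j : ι) : Disjoint (act x i j) (dbl x i j) := by
  rw [Finset.disjoint_left]
  intro e h1 h2
  rw [mem_act] at h1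
  rw [mem_dbl] at h2
  tauto

lemma card_act_dbl (x : ι → Finset κ) (i j : ι) :
    (act x i j).card + 2 * (dbl x i j).card = (x i).card + (x j).card := by
  have h1 := Finset.card_union_add_card_inter (x i) (x j)
  have h2 : (act x i j).card + (dbl x i j).card = (x i ∪ x j).card := by
    rw [← Finset.card_union_of_disjoint (disjoint_act_dbl x i j)]
    congr 1
    ext e
    rw [mem_union, mem_act, mem_dbl, mem_union]
    tauto
  unfold dbl at *
  omega

/-- Replace the rows `i, j` by `I ∪ D` and `(S \ I) ∪ D`. -/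
def buildRaw (x : ι → Finset κ) (i j : ι) (I : Finset κ) : ι → Finset κ :=
  Function.update (Function.update x i (I ∪ dbl x i j)) j ((act x i j \ I) ∪ dbl x i j)

lemma buildRaw_i {x : ι → Finset κ} {i j : ι} (hij : i ≠ j) (I : Finset κ) :
    buildRaw x i j I i = I ∪ dbl x i j := by
  simp [buildRaw, Function.update_of_ne hij]

lemma buildRaw_j {x : ι → Finset κ} {i j : ι} (I : Finset κ) :
    buildRaw x i j I j = (act x i j \ I) ∪ dbl x i j := by
  simp [buildRaw]

lemma buildRaw_other {x : ι → Finset κ} {i j l : ι} (I : Finset κ) (hi : l ≠ i) (hj : l ≠ j) :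
    buildRaw x i j I l = x l := by
  simp [buildRaw, Function.update_of_ne hi, Function.update_of_ne hj]

lemma isTab_build {x : ι → Finset κ} (hx : IsTab r c x) {i j : ι} (hij : i ≠ j) {I : Finset κ}
    (hI : I ⊆ act x i j) (hc : I.card + (dbl x i j).card = r i) :
    IsTab r c (buildRaw x i j I) := by
  have hsum := card_act_dbl x i j
  rw [hx.1 i, hx.1 j] at hsum
  have hdisjI : Disjoint I (dbl x i j) :=
    Finset.disjoint_of_subset_left hI (disjoint_act_dbl x i j)
  have hdisjS : Disjoint (act x i j \ I) (dbl x i j) :=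
    Finset.disjoint_of_subset_left Finset.sdiff_subset (disjoint_act_dbl x i j)
  constructor
  · intro l
    by_cases hli : l = i
    · subst hli
      rw [buildRaw_i hij, Finset.card_union_of_disjoint hdisjI, hc]
    by_cases hlj : l = j
    · subst hlj
      rw [buildRaw_j, Finset.card_union_of_disjoint hdisjS, Finset.card_sdiff_of_subset hI]
      have : I.card ≤ (act x i l).card := Finset.card_le_card hI
      omega
    · rw [buildRaw_other I hli hlj, hx.1]
  · intro e
    rw [← hx.2 e, ← colT_add_compl {i, j} (buildRaw x i j I) e, ← colT_add_compl {i, j} x e]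
    congr 1
    · rw [colT2 hij, colT2 hij, buildRaw_i hij, buildRaw_j]
      have h1 : e ∈ I → e ∈ act x i j := fun h => hI h
      by_cases h2 : e ∈ I <;> by_cases h3 : e ∈ x i <;> by_cases h4 : e ∈ x j <;>
        simp_all [mem_act, mem_dbl]
    · refine colT_congr (fun l hl => ?_) e
      have : l ≠ i ∧ l ≠ j := by
        have := Finset.mem_compl.1 hl
        simp only [Finset.mem_insert, Finset.mem_singleton, not_or] at this
        exact this
      exact buildRaw_other I this.1 this.2

/-- The table built from a subset, as a total function. -/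
noncomputable def buildT (x : Tab r c) (i j : ι) (I : Finset κ) : Tab r c :=
  by
    classical
    exact if h : IsTab r c (buildRaw x.1 i j I) then ⟨buildRaw x.1 i j I, h⟩ else x

lemma buildT_val {x : Tab r c} {i j : ι} (hij : i ≠ j) {I : Finset κ}
    (hI : I ⊆ act x.1 i j) (hc : I.card + (dbl x.1 i j).card = r i) :
    (buildT x i j I).1 = buildRaw x.1 i j I := by
  unfold buildT
  rw [dif_pos (isTab_build x.2 hij hI hc)]

/-- Pair counts agree inside a fibre. -/
lemma pair_eq {x y : Tab r c} {i j : ι} (hij : i ≠ j) (hy : restr {i, j} y = restr {i, j} x)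
    (e : κ) :
    (if e ∈ y.1 i then 1 else 0) + (if e ∈ y.1 j then 1 else 0)
      = (if e ∈ x.1 i then 1 else 0) + (if e ∈ x.1 j then (1 : ℕ) else 0) := by
  have := colT_eq_of_restr hy e
  rwa [colT2 hij, colT2 hij] at this

lemma dbl_of_fiber {x y : Tab r c} {i j : ι} (hij : i ≠ j) (hy : restr {i, j} y = restr {i, j} x) :
    dbl y.1 i j = dbl x.1 i j := by
  ext e
  have := pair_eq hij hy e
  rw [mem_dbl, mem_dbl]
  by_cases h1 : e ∈ y.1 i <;> by_cases h2 : e ∈ y.1 j <;> by_cases h3 : e ∈ x.1 i <;>
    by_cases h4 : e ∈ x.1 j <;> simp_all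

lemma act_of_fiber {x y : Tab r c} {i j : ι} (hij : i ≠ j) (hy : restr {i, j} y = restr {i, j} x) :
    act y.1 i j = act x.1 i j := by
  ext e
  have := pair_eq hij hy e
  rw [mem_act, mem_act]
  by_cases h1 : e ∈ y.1 i <;> by_cases h2 : e ∈ y.1 j <;> by_cases h3 : e ∈ x.1 i <;>
    by_cases h4 : e ∈ x.1 j <;> simp_all

/-- Decomposition of a row in a fibre. -/
lemma row_decomp {x : ι → Finset κ} {i j : ι} (S₁ : Finset κ) (hS₁ : S₁ ⊆ act x i j) :
    (x i ∩ S₁).card + (x i ∩ (act x i j \ S₁)).card + (dbl x i j).card = (x i).card := by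
  have hd1 : Disjoint (x i ∩ S₁) (x i ∩ (act x i j \ S₁)) := by
    rw [Finset.disjoint_left]
    intro e h1 h2
    rw [mem_inter] at h1 h2
    exact (Finset.mem_sdiff.1 h2.2).2 h1.2
  have hd2 : Disjoint ((x i ∩ S₁) ∪ (x i ∩ (act x i j \ S₁))) (dbl x i j) := by
    rw [Finset.disjoint_left]
    intro e h1 h2
    rw [mem_union, mem_inter, mem_inter] at h1
    have h3 : e ∈ act x i j := by
      rcases h1 with h1 | h1
      · exact hS₁ h1.2
      · exact (Finset.mem_sdiff.1 h1.2).1
    exact Finset.disjoint_left.1 (disjoint_act_dbl x i j) h3 h2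
  rw [← Finset.card_union_of_disjoint hd1, ← Finset.card_union_of_disjoint hd2]
  congr 1
  ext e
  simp only [mem_union, mem_inter, mem_sdiff, mem_act, mem_dbl]
  by_cases h1 : e ∈ S₁
  · have h2 := hS₁ h1
    rw [mem_act] at h2
    tauto
  · tauto

/-- Counting the members of a two row fibre by the size of their intersection with a fixed set
of active columns. -/
theorem count_fiber {i j : ι} (hij : i ≠ j) (x : Tab r c) {S₁ : Finset κ}
    (hS₁ : S₁ ⊆ act x.1 i j) (z : ℕ) :
    (((cls (restr {i, j}) x).filter (fun y => (y.1 i ∩ S₁).card = z)).card)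
      = hypN S₁.card (act x.1 i j \ S₁).card (r i - (dbl x.1 i j).card) z := by
  set S := act x.1 i j with hS
  set D := dbl x.1 i j with hD
  set ρ := r i - D.card with hρ
  have hDle : D.card ≤ r i := by
    rw [← x.2.1 i]
    exact Finset.card_le_card (fun e he => (mem_dbl.1 he).1)
  have hfacts : ∀ y ∈ cls (restr {i, j}) x, act y.1 i j = S ∧ dbl y.1 i j = D
      ∧ (y.1 i ∩ S₁).card + (y.1 i ∩ (S \ S₁)).card + D.card = r i := by
    intro y hy
    have hy' := mem_cls.1 hy
    have h1 := act_of_fiber hij hy'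
    have h2 := dbl_of_fiber hij hy'
    refine ⟨h1, h2, ?_⟩
    have h3 := row_decomp (x := y.1) (i := i) (j := j) S₁ (by rw [h1]; exact hS₁)
    rw [h1, h2, y.2.1 i] at h3
    exact h3
  unfold hypN
  by_cases hz : z ≤ ρ
  · rw [if_pos hz, ← Finset.card_powersetCard z S₁, ← Finset.card_powersetCard (ρ - z) (S \ S₁),
      ← Finset.card_product]
    refine Finset.card_nbij' (fun y => (y.1 i ∩ S₁, y.1 i ∩ (S \ S₁)))
      (fun p => buildT x i j (p.1 ∪ p.2)) ?_ ?_ ?_ ?_
    · intro y hy
      have hy' : y ∈ cls (restr {i, j}) x ∧ (y.1 i ∩ S₁).card = z := by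
        simpa using hy
      obtain ⟨_, _, h3⟩ := hfacts y hy'.1
      simp only [Finset.coe_product, Set.mem_prod, Finset.mem_coe, Finset.mem_product,
        Finset.mem_powersetCard]
      refine ⟨⟨Finset.inter_subset_right, hy'.2⟩, Finset.inter_subset_right, ?_⟩
      omega
    · intro p hp
      simp only [Finset.coe_product, Set.mem_prod, Finset.mem_coe, Finset.mem_product,
        Finset.mem_powersetCard] at hp
      obtain ⟨⟨hp1, hp2⟩, hp3, hp4⟩ := hp
      have hdisj : Disjoint p.1 p.2 := by
        rw [Finset.disjoint_left]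
        intro e h1 h2
        exact (Finset.mem_sdiff.1 (hp3 h2)).2 (hp1 h1)
      have hsub : p.1 ∪ p.2 ⊆ S := by
        intro e he
        rcases Finset.mem_union.1 he with h | h
        · exact hS₁ (hp1 h)
        · exact (Finset.mem_sdiff.1 (hp3 h)).1
      have hcard : (p.1 ∪ p.2).card + D.card = r i := by
        rw [Finset.card_union_of_disjoint hdisj, hp2, hp4]
        omega
      have hval := buildT_val (x := x) hij hsub hcard
      simp only [Finset.coe_filter, Set.mem_ofPred_eq]
      refine ⟨mem_cls.2 ?_, ?_⟩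
      · rw [restr_eq_iff]
        intro l hl
        simp only [Finset.mem_insert, Finset.mem_singleton, not_or] at hl
        rw [hval]
        exact buildRaw_other _ hl.1 hl.2
      · rw [hval, buildRaw_i hij]
        have : (p.1 ∪ p.2 ∪ D) ∩ S₁ = p.1 := by
          ext e
          simp only [mem_inter, mem_union]
          constructor
          · rintro ⟨(h | h) | h, h2⟩
            · exact h
            · exact absurd h2 (Finset.mem_sdiff.1 (hp3 h)).2
            · exact absurd h (Finset.disjoint_left.1 (disjoint_act_dbl x.1 i j) (hS₁ h2))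
          · intro h
            exact ⟨Or.inl (Or.inl h), hp1 h⟩
        change ((p.1 ∪ p.2 ∪ D) ∩ S₁).card = z
        rw [this, hp2]
    · intro y hy
      have hy' : y ∈ cls (restr {i, j}) x ∧ (y.1 i ∩ S₁).card = z := by
        simpa using hy
      obtain ⟨h1, h2, h3⟩ := hfacts y hy'.1
      have hmemy := mem_cls.1 hy'.1
      have hdisj : Disjoint (y.1 i ∩ S₁) (y.1 i ∩ (S \ S₁)) := by
        rw [Finset.disjoint_left]
        intro e he1 he2
        exact (Finset.mem_sdiff.1 (Finset.mem_inter.1 he2).2).2 (Finset.mem_inter.1 he1).2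
      have hunion : (y.1 i ∩ S₁) ∪ (y.1 i ∩ (S \ S₁)) = y.1 i ∩ S := by
        ext e
        simp only [mem_union, mem_inter, mem_sdiff]
        by_cases h4 : e ∈ S₁
        · have := hS₁ h4
          tauto
        · tauto
      have hsub : (y.1 i ∩ S₁) ∪ (y.1 i ∩ (S \ S₁)) ⊆ S := by
        rw [hunion]; exact Finset.inter_subset_right
      have hcard : ((y.1 i ∩ S₁) ∪ (y.1 i ∩ (S \ S₁))).card + D.card = r i := by
        rw [Finset.card_union_of_disjoint hdisj]; exact h3
      have hval := buildT_val (x := x) hij hsub hcard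
      apply Subtype.ext
      simp only
      rw [hval, hunion]
      funext l
      by_cases hli : l = i
      · subst hli
        rw [buildRaw_i hij]
        ext e
        have := pair_eq hij hmemy e
        simp only [mem_union, mem_inter]
        have h1' : S = act y.1 l j := h1.symm
        have h2' : dbl x.1 l j = dbl y.1 l j := h2.symm
        rw [h1', h2', mem_dbl, mem_act]
        by_cases h5 : e ∈ y.1 l <;> by_cases h6 : e ∈ y.1 j <;> simp [h5, h6]
      by_cases hlj : l = j
      · subst hlj
        rw [buildRaw_j]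
        ext e
        simp only [mem_union, mem_sdiff, mem_inter]
        have h1' : S = act y.1 i l := h1.symm
        have h1'' : act x.1 i l = act y.1 i l := h1.symm
        have h2' : dbl x.1 i l = dbl y.1 i l := h2.symm
        rw [h1'', h1', h2', mem_dbl, mem_act]
        by_cases h5 : e ∈ y.1 i <;> by_cases h6 : e ∈ y.1 l <;> simp [h5, h6]
      · rw [buildRaw_other _ hli hlj]
        exact (restr_eq_iff.1 hmemy l (by simp [hli, hlj])).symm
    · intro p hp
      simp only [Finset.coe_product, Set.mem_prod, Finset.mem_coe, Finset.mem_product,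
        Finset.mem_powersetCard] at hp
      obtain ⟨⟨hp1, hp2⟩, hp3, hp4⟩ := hp
      have hdisj : Disjoint p.1 p.2 := by
        rw [Finset.disjoint_left]
        intro e h1 h2
        exact (Finset.mem_sdiff.1 (hp3 h2)).2 (hp1 h1)
      have hsub : p.1 ∪ p.2 ⊆ S := by
        intro e he
        rcases Finset.mem_union.1 he with h | h
        · exact hS₁ (hp1 h)
        · exact (Finset.mem_sdiff.1 (hp3 h)).1
      have hcard : (p.1 ∪ p.2).card + D.card = r i := by
        rw [Finset.card_union_of_disjoint hdisj, hp2, hp4]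
        omega
      have hval := buildT_val (x := x) hij hsub hcard
      change ((buildT x i j (p.1 ∪ p.2)).1 i ∩ S₁, (buildT x i j (p.1 ∪ p.2)).1 i ∩ (S \ S₁)) = p
      rw [hval, buildRaw_i hij]
      change ((p.1 ∪ p.2 ∪ D) ∩ S₁, (p.1 ∪ p.2 ∪ D) ∩ (S \ S₁)) = p
      have e1 : (p.1 ∪ p.2 ∪ D) ∩ S₁ = p.1 := by
        ext e
        simp only [mem_inter, mem_union]
        constructor
        · rintro ⟨(h | h) | h, h2⟩
          · exact h
          · exact absurd h2 (Finset.mem_sdiff.1 (hp3 h)).2
          · exact absurd h (Finset.disjoint_left.1 (disjoint_act_dbl x.1 i j) (hS₁ h2))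
        · intro h
          exact ⟨Or.inl (Or.inl h), hp1 h⟩
      have e2 : (p.1 ∪ p.2 ∪ D) ∩ (S \ S₁) = p.2 := by
        ext e
        simp only [mem_inter, mem_union]
        constructor
        · rintro ⟨(h | h) | h, h2⟩
          · exact absurd (hp1 h) (Finset.mem_sdiff.1 h2).2
          · exact h
          · exact absurd h (Finset.disjoint_left.1 (disjoint_act_dbl x.1 i j) (Finset.mem_sdiff.1 h2).1)
        · intro h
          exact ⟨Or.inl (Or.inr h), hp3 h⟩
      rw [e1, e2]
  · rw [if_neg hz, Finset.card_eq_zero, Finset.filter_eq_empty_iff]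
    intro y hy hyz
    obtain ⟨_, _, h3⟩ := hfacts y hy
    omega

/-- Sums over a two row fibre of a function of the intersection size. -/
theorem sum_fiber_by_count {i j : ι} (hij : i ≠ j) (x : Tab r c) {S₁ : Finset κ}
    (hS₁ : S₁ ⊆ act x.1 i j) (Z : ℕ) (hZ : r i - (dbl x.1 i j).card < Z) (G : ℕ → ℝ) :
    ∑ y ∈ cls (restr {i, j}) x, G (y.1 i ∩ S₁).card
      = ∑ z ∈ Finset.range Z,
        (hypN S₁.card (act x.1 i j \ S₁).card (r i - (dbl x.1 i j).card) z : ℝ) * G z := by
  have hmaps : ∀ y ∈ cls (restr {i, j}) x, (y.1 i ∩ S₁).card ∈ Finset.range Z := by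
    intro y hy
    have hy' := mem_cls.1 hy
    have h1 := act_of_fiber hij hy'
    have h2 := dbl_of_fiber hij hy'
    have h3 := row_decomp (x := y.1) (i := i) (j := j) S₁ (by rw [h1]; exact hS₁)
    rw [h1, h2, y.2.1 i] at h3
    rw [Finset.mem_range]
    omega
  rw [← Finset.sum_fiberwise_of_maps_to hmaps]
  refine Finset.sum_congr rfl (fun z _ => ?_)
  rw [← count_fiber hij x hS₁ z, Finset.sum_congr rfl (g := fun _ => G z), Finset.sum_const,
    nsmul_eq_mul]
  intro y hy
  rw [(Finset.mem_filter.1 hy).2]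

end Vale.Agent.Lib.P335
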