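import Vale.Agent.Lib.P335.GenBasic

/-!
The slice: subsets of a fixed size of a finite set, with the transpositions of the ground set
acting on it. The gap of the sum of the transpositions, with its exact constant.
-/

open Finset BigOperators

namespace Vale.Agent.Lib.P335

set_option linter.unusedSectionVars false

variable {K : Type*} [Fintype K] [DecidableEq K] {a : ℕ}

/-- The subsets of `K` of size `a`. -/
abbrev Sl (K : Type*) (a : ℕ) := {S : Finset K // S.card = a}

/-- The action of a transposition on the subsets of size `a`. -/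
def sw (x y : K) (S : Sl K a) : Sl K a :=
  ⟨S.1.map (Equiv.swap x y).toEmbedding, by simp [S.2]⟩

lemma mem_sw {x y t : K} {S : Sl K a} : t ∈ (sw x y S).1 ↔ Equiv.swap x y t ∈ S.1 := by
  unfold sw
  simp [Finset.mem_map_equiv]

lemma sw_sw (x y : K) (S : Sl K a) : sw x y (sw x y S) = S := by
  apply Subtype.ext
  ext t
  rw [mem_sw, mem_sw, Equiv.swap_apply_self]

lemma sw_comm (x y : K) (S : Sl K a) : sw x y S = sw y x S := by
  apply Subtype.ext
  ext t
  rw [mem_sw, mem_sw, Equiv.swap_comm]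

lemma sw_self (x : K) (S : Sl K a) : sw x x S = S := by
  apply Subtype.ext
  ext t
  rw [mem_sw, Equiv.swap_self]
  rfl

/-- The points `x`, `y` are separated by the set `S`. -/
def hh (x y : K) (S : Finset K) : Prop := (x ∈ S ∧ y ∉ S) ∨ (x ∉ S ∧ y ∈ S)

instance (x y : K) (S : Finset K) : Decidable (hh x y S) := by
  unfold hh; infer_instance

lemma hh_comm (x y : K) (S : Finset K) : hh x y S ↔ hh y x S := by
  unfold hh; tauto

lemma not_hh_self (x : K) (S : Finset K) : ¬ hh x x S := by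
  unfold hh; tauto

lemma not_hh_iff {x y : K} {S : Finset K} : ¬ hh x y S ↔ (x ∈ S ↔ y ∈ S) := by
  unfold hh; tauto

lemma sw_of_not_hh {x y : K} {S : Sl K a} (h : ¬ hh x y S.1) : sw x y S = S := by
  apply Subtype.ext
  ext t
  rw [mem_sw]
  have h' := not_hh_iff.1 h
  by_cases h1 : t = x
  · subst h1; rw [Equiv.swap_apply_left]; exact h'.symm
  by_cases h2 : t = y
  · subst h2; rw [Equiv.swap_apply_right]; exact h'
  rw [Equiv.swap_apply_of_ne_of_ne h1 h2]

lemma hh_sw {x y : K} {S : Sl K a} : hh x y (sw x y S).1 ↔ hh x y S.1 := by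
  unfold hh
  rw [mem_sw, mem_sw, Equiv.swap_apply_left, Equiv.swap_apply_right]
  tauto

lemma sw_braid {a' b e : K} (hab : a' ≠ b) (hae : a' ≠ e) (hbe : b ≠ e) (S : Sl K a) :
    sw a' b (sw a' e S) = sw a' e (sw b e S) ∧ sw a' e (sw b e S) = sw b e (sw a' b S) := by
  have key1 : ∀ u, Equiv.swap a' e (Equiv.swap a' b u) = Equiv.swap b e (Equiv.swap a' e u) := by
    intro u
    simp only [Equiv.swap_apply_def]
    split_ifs <;> simp_all
  have key2 : ∀ u, Equiv.swap b e (Equiv.swap a' e u) = Equiv.swap a' b (Equiv.swap b e u) := by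
    intro u
    simp only [Equiv.swap_apply_def]
    split_ifs <;> simp_all
  constructor
  · apply Subtype.ext
    ext t
    rw [mem_sw, mem_sw, mem_sw, mem_sw, key1]
  · apply Subtype.ext
    ext t
    rw [mem_sw, mem_sw, mem_sw, mem_sw, key2]

lemma sw_comm_disjoint {x y w z : K} (h1 : x ≠ w) (h2 : x ≠ z) (h3 : y ≠ w) (h4 : y ≠ z)
    (S : Sl K a) : sw x y (sw w z S) = sw w z (sw x y S) := by
  apply Subtype.ext
  ext t
  rw [mem_sw, mem_sw, mem_sw, mem_sw]
  have : Equiv.swap w z (Equiv.swap x y t) = Equiv.swap x y (Equiv.swap w z t) := by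
    by_cases hua : t = x
    · subst hua
      rw [Equiv.swap_apply_left, Equiv.swap_apply_of_ne_of_ne h1 h2, Equiv.swap_apply_left,
        Equiv.swap_apply_of_ne_of_ne h3 h4]
    by_cases hub : t = y
    · subst hub
      rw [Equiv.swap_apply_right, Equiv.swap_apply_of_ne_of_ne h3 h4, Equiv.swap_apply_right,
        Equiv.swap_apply_of_ne_of_ne h1 h2]
    rw [Equiv.swap_apply_of_ne_of_ne hua hub]
    by_cases hud : t = w
    · subst hud
      rw [Equiv.swap_apply_left, Equiv.swap_apply_of_ne_of_ne h2.symm h4.symm]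
    by_cases hue : t = z
    · subst hue
      rw [Equiv.swap_apply_right, Equiv.swap_apply_of_ne_of_ne h1.symm h3.symm]
    rw [Equiv.swap_apply_of_ne_of_ne hud hue, Equiv.swap_apply_of_ne_of_ne hua hub]
  rw [this]

/-- The transpositions act transitively on the subsets of a given size. -/
lemma sl_connect (v : Sl K a → ℝ) (hinv : ∀ x y S, v (sw x y S) = v S) (S S' : Sl K a) :
    v S = v S' := by
  suffices H : ∀ m : ℕ, ∀ S : Sl K a, (S.1 \ S'.1).card = m → v S = v S' from H _ S rfl
  intro m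
  induction m with
  | zero =>
    intro S hS
    have h1 : S.1 ⊆ S'.1 := by
      rwa [Finset.card_eq_zero, Finset.sdiff_eq_empty_iff_subset] at hS
    have h2 : S.1 = S'.1 := Finset.eq_of_subset_of_card_le h1 (by rw [S.2, S'.2])
    rw [Subtype.ext h2]
  | succ m ih =>
    intro S hS
    have hcard2 : (S'.1 \ S.1).card = (S.1 \ S'.1).card :=
      Finset.card_sdiff_comm (by rw [S.2, S'.2])
    obtain ⟨x, hx⟩ : (S.1 \ S'.1).Nonempty := by
      rw [← Finset.card_pos]; omega
    obtain ⟨y, hy⟩ : (S'.1 \ S.1).Nonempty := by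
      rw [← Finset.card_pos]; omega
    rw [Finset.mem_sdiff] at hx hy
    have hxy : x ≠ y := fun h => hx.2 (h ▸ hy.1)
    rw [← hinv x y S]
    apply ih
    have : (sw x y S).1 \ S'.1 = (S.1 \ S'.1).erase x := by
      ext t
      simp only [Finset.mem_sdiff, Finset.mem_erase, mem_sw]
      by_cases h1 : t = x
      · subst h1
        rw [Equiv.swap_apply_left]
        simp [hy.2]
      by_cases h2 : t = y
      · subst h2
        rw [Equiv.swap_apply_right]
        simp [hy.1]
      rw [Equiv.swap_apply_of_ne_of_ne h1 h2]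
      simp [h1]
    rw [this, Finset.card_erase_of_mem (Finset.mem_sdiff.2 hx), hS]
    rfl

/-- The total of the half differences of the transpositions. -/
noncomputable def Tsl (K : Type*) [Fintype K] [DecidableEq K] (a : ℕ) :
    (Sl K a → ℝ) →ₗ[ℝ] (Sl K a → ℝ) :=
  ∑ x : K, ∑ y : K, Qinv (sw x y)

lemma Tsl_apply (g : Sl K a → ℝ) : Tsl K a g = ∑ x : K, ∑ y : K, Qinv (sw x y) g := by
  simp only [Tsl, LinearMap.sum_apply]

lemma Qinv_sw_self (x : K) (g : Sl K a → ℝ) : Qinv (sw x x) g = 0 := by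
  funext S
  rw [Qinv_apply, sw_self]
  simp

lemma Qinv_sw_comm (x y : K) (g : Sl K a → ℝ) : Qinv (sw x y) g = Qinv (sw y x) g := by
  funext S
  rw [Qinv_apply, Qinv_apply, sw_comm]

lemma ip_self_Qinv_sw (x y : K) (g : Sl K a → ℝ) :
    ip g (Qinv (sw x y) g) = ip (Qinv (sw x y) g) (Qinv (sw x y) g) := by
  rw [Qinv_sa (sw_sw x y), Qinv_id (sw_sw x y)]

lemma sl_tri (g : Sl K a → ℝ) {i j k : K} (hij : i ≠ j) (hik : i ≠ k) (hjk : j ≠ k) :
    (1 / 4 : ℝ) * (ip (Qinv (sw i j) g) (Qinv (sw i j) g) + ip (Qinv (sw i k) g) (Qinv (sw i k) g)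
        + ip (Qinv (sw j k) g) (Qinv (sw j k) g))
      ≤ ip (Qinv (sw i j) g) (Qinv (sw i k) g) + ip (Qinv (sw j i) g) (Qinv (sw j k) g)
        + ip (Qinv (sw k i) g) (Qinv (sw k j) g) := by
  rw [Qinv_sw_comm j i, Qinv_sw_comm k i, Qinv_sw_comm k j]
  have hmain := s3_ineq_quarter (sw i j) (sw i k) (sw j k) (sw_sw i j) (sw_sw i k) (sw_sw j k)
    (fun S => (sw_braid hij hik hjk S).1) (fun S => (sw_braid hij hik hjk S).2) g
  have e1 : ∀ (u v : Sl K a → Sl K a), ip (Qinv u g) (Qinv v g)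
      = ∑ S, (g S - g (u S)) * (g S - g (v S)) / 4 := by
    intro u v
    unfold ip
    exact Finset.sum_congr rfl (fun S _ => by simp only [Qinv_apply]; ring)
  simp only [e1]
  have e2 : ∑ S, ((g S - g (sw i j S)) * (g S - g (sw i k S))
      + (g S - g (sw i j S)) * (g S - g (sw j k S))
      + (g S - g (sw i k S)) * (g S - g (sw j k S))
      - ((g S - g (sw i j S)) ^ 2 + (g S - g (sw i k S)) ^ 2 + (g S - g (sw j k S)) ^ 2) / 4)
      = 4 * ((∑ S, (g S - g (sw i j S)) * (g S - g (sw i k S)) / 4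
        + ∑ S, (g S - g (sw i j S)) * (g S - g (sw j k S)) / 4
        + ∑ S, (g S - g (sw i k S)) * (g S - g (sw j k S)) / 4)
        - (1 / 4) * (∑ S, (g S - g (sw i j S)) * (g S - g (sw i j S)) / 4
        + ∑ S, (g S - g (sw i k S)) * (g S - g (sw i k S)) / 4
        + ∑ S, (g S - g (sw j k S)) * (g S - g (sw j k S)) / 4)) := by
    simp only [← Finset.sum_add_distrib, Finset.mul_sum, ← Finset.sum_sub_distrib]
    exact Finset.sum_congr rfl (fun S _ => by ring)
  rw [e2] at hmain
  linarith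

/-- The square inequality for the total of the half differences. -/
lemma Tsl_square (g : Sl K a → ℝ) :
    (Fintype.card K : ℝ) * ip g (Tsl K a g) ≤ ip (Tsl K a g) (Tsl K a g) := by
  have hform : ip g (Tsl K a g) = ∑ x, ∑ y, ip (Qinv (sw x y) g) (Qinv (sw x y) g) := by
    rw [Tsl_apply, ip_sum_right]
    refine Finset.sum_congr rfl (fun x _ => ?_)
    rw [ip_sum_right]
    exact Finset.sum_congr rfl (fun y _ => ip_self_Qinv_sw x y g)
  rw [hform, Tsl_apply]
  set F : K → K → Sl K a → ℝ := fun x y => Qinv (sw x y) g with hF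
  have hexp := knabe_expand F (fun x => Qinv_sw_self x g) (fun x y => Qinv_sw_comm x y g)
  have hadj := adj_lower F (fun x => Qinv_sw_self x g) (fun x y => Qinv_sw_comm x y g) (1 / 4)
    (fun i j k h1 h2 h3 => sl_tri g h1 h2 h3)
  have hR : 0 ≤ ∑ i, ∑ j, ∑ k, ∑ l,
      (if k ≠ i ∧ k ≠ j ∧ l ≠ i ∧ l ≠ j then ip (F i j) (F k l) else 0) := by
    refine Finset.sum_nonneg (fun i _ => Finset.sum_nonneg (fun j _ =>
      Finset.sum_nonneg (fun k _ => Finset.sum_nonneg (fun l _ => ?_))))
    split_ifs with h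
    · refine ip_nonneg_of_comm (Qinv (sw i j)) (Qinv (sw k l)) (Qinv_sa (sw_sw i j))
        (Qinv_sa (sw_sw k l)) (Qinv_id (sw_sw i j)) (Qinv_id (sw_sw k l)) ?_ g
      intro g'
      exact Qinv_comm (sw_comm_disjoint h.1.symm h.2.2.1.symm h.2.1.symm h.2.2.2.symm) g'
    · exact le_rfl
  rw [hexp]
  have : (Fintype.card K : ℝ) * ∑ x, ∑ y, ip (F x y) (F x y)
      = 2 * (∑ x, ∑ y, ip (F x y) (F x y))
        + 4 * ((1 / 4) * (((Fintype.card K : ℝ) - 2) * ∑ x, ∑ y, ip (F x y) (F x y))) := by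
    ring
  rw [this]
  linarith

lemma Tsl_sa (f g : Sl K a → ℝ) : ip (Tsl K a f) g = ip f (Tsl K a g) := by
  rw [Tsl_apply, Tsl_apply, ip_sum_left, ip_sum_right]
  refine Finset.sum_congr rfl (fun x _ => ?_)
  rw [ip_sum_left, ip_sum_right]
  exact Finset.sum_congr rfl (fun y _ => Qinv_sa (sw_sw x y) f g)

/-- The gap on the slice, with the exact constant: for mean zero `g`. -/
theorem slice_gap (g : Sl K a → ℝ) (hg : ∑ S, g S = 0) :
    (Fintype.card K : ℝ) * ip g g ≤ ∑ x : K, ∑ y : K, ip (Qinv (sw x y) g) (Qinv (sw x y) g) := by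
  classical
  have hform : ∀ h : Sl K a → ℝ, ip h (Tsl K a h) = ∑ x, ∑ y, ip (Qinv (sw x y) h) (Qinv (sw x y) h) := by
    intro h
    rw [Tsl_apply, ip_sum_right]
    refine Finset.sum_congr rfl (fun x _ => ?_)
    rw [ip_sum_right]
    exact Finset.sum_congr rfl (fun y _ => ip_self_Qinv_sw x y h)
  rw [← hform]
  refine gap_of_square (Tsl K a) Tsl_sa ?_ _ Tsl_square (fun w => ∀ S S', w S = w S') ?_ g ?_
  · intro h
    rw [hform]
    exact Finset.sum_nonneg (fun x _ => Finset.sum_nonneg (fun y _ => ip_self_nonneg _))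
  · intro v hv S S'
    rw [hform] at hv
    refine sl_connect v ?_ S S'
    intro x y S
    have h1 := (Finset.sum_eq_zero_iff_of_nonneg (fun i _ => Finset.sum_nonneg
      (fun j _ => ip_self_nonneg (Qinv (sw i j) v)))).1 hv x (Finset.mem_univ x)
    have h2 := (Finset.sum_eq_zero_iff_of_nonneg (fun j _ => ip_self_nonneg (Qinv (sw x j) v))).1
      h1 y (Finset.mem_univ y)
    have h3 := ip_self_eq_zero.1 h2
    have h4 := congrFun h3 S
    rw [Qinv_apply] at h4
    simp only [Pi.zero_apply] at h4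
    linarith
  · intro w hw
    by_cases hne : Nonempty (Sl K a)
    · obtain ⟨S₀⟩ := hne
      have : ip g w = w S₀ * ∑ S, g S := by
        unfold ip
        rw [Finset.mul_sum]
        refine Finset.sum_congr rfl (fun S _ => ?_)
        rw [hw S S₀]; ring
      rw [this, hg, mul_zero]
    · unfold ip
      rw [not_nonempty_iff] at hne
      simp

end Vale.Agent.Lib.P335
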