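import Vale.Agent.Lib.P335.GraphFacts
import Vale.Agent.Lib.P335.BipProof

/-!
Degree vectors forcing a split graph: the realizations are in bijection with binary tables.
-/

open Finset BigOperators

namespace Vale.Agent.Lib.P335

set_option linter.unusedSectionVars false

variable {n : ℕ}

/-- Structure of the realizations of a split degree vector. -/
theorem split_structure {d : Fin n → ℕ} {S₀ : Finset (Fin n)}
    (hS : ∑ i ∈ S₀, d i = S₀.card * (S₀.card - 1) + ∑ v ∈ S₀ᶜ, d v) (G : Realization d) :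
    (∀ u ∈ S₀, ∀ w ∈ S₀, u ≠ w → G.1.Adj u w) ∧ (∀ u, u ∉ S₀ → ∀ w, w ∉ S₀ → ¬ G.1.Adj u w) := by
  classical
  have hdeg : ∀ v, (Finset.univ.filter (fun w => G.1.Adj v w)).card = d v := by
    intro v
    rw [← G.2 v, ← Set.ncard_coe_finset]
    congr 1
    ext w
    simp
  have hsplit : ∀ v, (S₀.filter (fun w => G.1.Adj v w)).card
      + (S₀ᶜ.filter (fun w => G.1.Adj v w)).card = d v := by
    intro v
    rw [← hdeg v, ← Finset.card_union_of_disjoint]
    · congr 1
      ext w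
      simp only [mem_union, mem_filter, mem_compl, mem_univ, true_and]
      tauto
    · exact Finset.disjoint_filter_filter disjoint_compl_right
  have ha : ∀ u ∈ S₀, (S₀.filter (fun w => G.1.Adj u w)).card ≤ S₀.card - 1 := by
    intro u hu
    rw [← Finset.card_erase_of_mem hu]
    apply Finset.card_le_card
    intro w hw
    rw [mem_filter] at hw
    exact Finset.mem_erase.2 ⟨(G.1.ne_of_adj hw.2).symm, hw.1⟩
  have he : ∀ w, (S₀.filter (fun u => G.1.Adj w u)).card ≤ d w := by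
    intro w
    have := hsplit w
    omega
  have hdc : ∑ u ∈ S₀, (S₀ᶜ.filter (fun w => G.1.Adj u w)).card
      = ∑ w ∈ S₀ᶜ, (S₀.filter (fun u => G.1.Adj w u)).card := by
    have := Finset.sum_card_bipartiteAbove_eq_sum_card_bipartiteBelow (s := S₀) (t := S₀ᶜ)
      (fun u w => G.1.Adj u w)
    unfold Finset.bipartiteAbove Finset.bipartiteBelow at this
    rw [this]
    refine Finset.sum_congr rfl (fun w _ => ?_)
    congr 1
    ext u
    simp only [mem_filter]
    rw [G.1.adj_comm]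
  have hsum1 : ∑ u ∈ S₀, (S₀.filter (fun w => G.1.Adj u w)).card ≤ S₀.card * (S₀.card - 1) := by
    calc _ ≤ ∑ u ∈ S₀, (S₀.card - 1) := Finset.sum_le_sum ha
      _ = _ := by simp
  have hsum2 : ∑ w ∈ S₀ᶜ, (S₀.filter (fun u => G.1.Adj w u)).card ≤ ∑ w ∈ S₀ᶜ, d w :=
    Finset.sum_le_sum (fun w _ => he w)
  have hsum3 : ∑ u ∈ S₀, d u = ∑ u ∈ S₀, (S₀.filter (fun w => G.1.Adj u w)).card
      + ∑ w ∈ S₀ᶜ, (S₀.filter (fun u => G.1.Adj w u)).card := by
    rw [← hdc, ← Finset.sum_add_distrib]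
    exact Finset.sum_congr rfl (fun u _ => (hsplit u).symm)
  have heq1 : ∑ u ∈ S₀, (S₀.filter (fun w => G.1.Adj u w)).card = ∑ _u ∈ S₀, (S₀.card - 1) := by
    simp only [Finset.sum_const, smul_eq_mul] at hsum1 ⊢
    omega
  have heq2 : ∑ w ∈ S₀ᶜ, (S₀.filter (fun u => G.1.Adj w u)).card = ∑ w ∈ S₀ᶜ, d w := by omega
  have hterm1 := (Finset.sum_eq_sum_iff_of_le ha).1 heq1
  have hterm2 := (Finset.sum_eq_sum_iff_of_le (fun w _ => he w)).1 heq2
  constructor
  · intro u hu w hw huw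
    have h1 : S₀.filter (fun w => G.1.Adj u w) = S₀.erase u := by
      apply Finset.eq_of_subset_of_card_le
      · intro t ht
        rw [mem_filter] at ht
        exact Finset.mem_erase.2 ⟨(G.1.ne_of_adj ht.2).symm, ht.1⟩
      · rw [Finset.card_erase_of_mem hu, hterm1 u hu]
    have h2 : w ∈ S₀.erase u := Finset.mem_erase.2 ⟨huw.symm, hw⟩
    rw [← h1, mem_filter] at h2
    exact h2.2
  · intro u hu w hw hadj
    have h1 : (S₀ᶜ.filter (fun t => G.1.Adj u t)).card = 0 := by
      have h3 := hterm2 u (Finset.mem_compl.2 hu)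
      have h4 := hsplit u
      omega
    rw [Finset.card_eq_zero] at h1
    have h2 : w ∈ S₀ᶜ.filter (fun t => G.1.Adj u t) :=
      mem_filter.2 ⟨Finset.mem_compl.2 hw, hadj⟩
    rw [h1] at h2
    simp at h2

/-- Rows: the vertices of the clique. -/
abbrev Rw (S₀ : Finset (Fin n)) := {v : Fin n // v ∈ S₀}

/-- Columns: the other vertices. -/
abbrev Cl (S₀ : Finset (Fin n)) := {v : Fin n // v ∉ S₀}

/-- The split graph of a table. -/
def graphOf {S₀ : Finset (Fin n)} (x : Rw S₀ → Finset (Cl S₀)) : SimpleGraph (Fin n) where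
  Adj u w := u ≠ w ∧ ((u ∈ S₀ ∧ w ∈ S₀) ∨ (∃ (hu : u ∈ S₀) (hw : w ∉ S₀), (⟨w, hw⟩ : Cl S₀) ∈ x ⟨u, hu⟩)
    ∨ (∃ (hw : w ∈ S₀) (hu : u ∉ S₀), (⟨u, hu⟩ : Cl S₀) ∈ x ⟨w, hw⟩))
  symm := ⟨by
    intro u w h
    refine ⟨h.1.symm, ?_⟩
    rcases h.2 with h1 | h1 | h1
    · exact Or.inl ⟨h1.2, h1.1⟩
    · exact Or.inr (Or.inr h1)
    · exact Or.inr (Or.inl h1)⟩
  loopless := ⟨fun u h => h.1 rfl⟩

lemma graphOf_rr {S₀ : Finset (Fin n)} (x : Rw S₀ → Finset (Cl S₀)) {u w : Fin n} (hu : u ∈ S₀)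
    (hw : w ∈ S₀) : (graphOf x).Adj u w ↔ u ≠ w := by
  constructor
  · exact fun h => h.1
  · exact fun h => ⟨h, Or.inl ⟨hu, hw⟩⟩

lemma graphOf_cc {S₀ : Finset (Fin n)} (x : Rw S₀ → Finset (Cl S₀)) {u w : Fin n} (hu : u ∉ S₀)
    (hw : w ∉ S₀) : ¬ (graphOf x).Adj u w := by
  rintro ⟨_, h1 | ⟨h2, _⟩ | ⟨h2, _⟩⟩
  · exact hu h1.1
  · exact hu h2
  · exact hw h2

lemma graphOf_rc {S₀ : Finset (Fin n)} (x : Rw S₀ → Finset (Cl S₀)) {u w : Fin n} (hu : u ∈ S₀)
    (hw : w ∉ S₀) : (graphOf x).Adj u w ↔ (⟨w, hw⟩ : Cl S₀) ∈ x ⟨u, hu⟩ := by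
  constructor
  · rintro ⟨_, h1 | ⟨_, _, h2⟩ | ⟨h2, _⟩⟩
    · exact absurd h1.2 hw
    · exact h2
    · exact absurd h2 hw
  · intro h
    refine ⟨?_, Or.inr (Or.inl ⟨hu, hw, h⟩)⟩
    rintro rfl
    exact hw hu

lemma graphOf_cr {S₀ : Finset (Fin n)} (x : Rw S₀ → Finset (Cl S₀)) {u w : Fin n} (hu : u ∉ S₀)
    (hw : w ∈ S₀) : (graphOf x).Adj u w ↔ (⟨u, hu⟩ : Cl S₀) ∈ x ⟨w, hw⟩ := by
  rw [SimpleGraph.adj_comm]
  exact graphOf_rc x hw hu

/-- Row margins. -/
def rowM (d : Fin n → ℕ) (S₀ : Finset (Fin n)) : Rw S₀ → ℕ := fun i => d i.1 - (S₀.card - 1)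

/-- Column margins. -/
def colM (d : Fin n → ℕ) (S₀ : Finset (Fin n)) : Cl S₀ → ℕ := fun a => d a.1

/-- Counting over the subtypes. -/
lemma card_filter_cl {S₀ : Finset (Fin n)} (P : Fin n → Prop) [DecidablePred P] :
    (Finset.univ.filter (fun a : Cl S₀ => P a.1)).card = (S₀ᶜ.filter P).card := by
  refine Finset.card_bij (fun a _ => a.1) ?_ ?_ ?_
  · intro a ha
    rw [mem_filter] at ha ⊢
    exact ⟨Finset.mem_compl.2 a.2, ha.2⟩
  · intro a _ b _ h
    exact Subtype.ext h
  · intro v hv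
    rw [mem_filter] at hv
    exact ⟨⟨v, Finset.mem_compl.1 hv.1⟩, by simp [hv.2], rfl⟩

lemma card_filter_rw {S₀ : Finset (Fin n)} (P : Fin n → Prop) [DecidablePred P] :
    (Finset.univ.filter (fun a : Rw S₀ => P a.1)).card = (S₀.filter P).card := by
  refine Finset.card_bij (fun a _ => a.1) ?_ ?_ ?_
  · intro a ha
    rw [mem_filter] at ha ⊢
    exact ⟨a.2, ha.2⟩
  · intro a _ b _ h
    exact Subtype.ext h
  · intro v hv
    rw [mem_filter] at hv
    exact ⟨⟨v, hv.1⟩, by simp [hv.2], rfl⟩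

/-- The table of a split graph. -/
noncomputable def tabOf {S₀ : Finset (Fin n)} (G : SimpleGraph (Fin n)) : Rw S₀ → Finset (Cl S₀) :=
  by
    classical
    exact fun i => Finset.univ.filter (fun a : Cl S₀ => G.Adj i.1 a.1)

lemma mem_tabOf {S₀ : Finset (Fin n)} {G : SimpleGraph (Fin n)} {i : Rw S₀} {a : Cl S₀} :
    a ∈ tabOf (S₀ := S₀) G i ↔ G.Adj i.1 a.1 := by
  classical
  unfold tabOf
  simp

lemma graphOf_tabOf {S₀ : Finset (Fin n)} {G : SimpleGraph (Fin n)}
    (h1 : ∀ u ∈ S₀, ∀ w ∈ S₀, u ≠ w → G.Adj u w) (h2 : ∀ u, u ∉ S₀ → ∀ w, w ∉ S₀ → ¬ G.Adj u w) :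
    graphOf (tabOf (S₀ := S₀) G) = G := by
  ext u w
  by_cases hu : u ∈ S₀ <;> by_cases hw : w ∈ S₀
  · rw [graphOf_rr _ hu hw]
    exact ⟨h1 u hu w hw, G.ne_of_adj⟩
  · rw [graphOf_rc _ hu hw, mem_tabOf]
  · rw [graphOf_cr _ hu hw, mem_tabOf, G.adj_comm]
  · constructor
    · intro h; exact absurd h (graphOf_cc _ hu hw)
    · intro h; exact absurd h (h2 u hu w hw)

lemma tabOf_graphOf {S₀ : Finset (Fin n)} (x : Rw S₀ → Finset (Cl S₀)) :
    tabOf (S₀ := S₀) (graphOf x) = x := by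
  funext i
  ext a
  rw [mem_tabOf, graphOf_rc _ i.2 a.2]

/-- The bijection between tables and realizations. -/
noncomputable def splitEquiv {d : Fin n → ℕ} {S₀ : Finset (Fin n)}
    (hS : ∑ i ∈ S₀, d i = S₀.card * (S₀.card - 1) + ∑ v ∈ S₀ᶜ, d v) (G₀ : Realization d) :
    Tab (rowM d S₀) (colM d S₀) ≃ Realization d := by
  classical
  have hlow : ∀ i ∈ S₀, S₀.card - 1 ≤ d i := by
    intro i hi
    obtain ⟨h1, _⟩ := split_structure hS G₀
    rw [← G₀.2 i, ← Finset.card_erase_of_mem hi, ← Set.ncard_coe_finset (S₀.erase i)]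
    apply Set.ncard_le_ncard _ (Set.toFinite _)
    intro w hw
    have hw' := Finset.mem_erase.1 (Finset.mem_coe.1 hw)
    exact h1 i hi w hw'.2 hw'.1.symm
  refine ⟨fun x => ⟨graphOf x.1, ?_⟩, fun G => ⟨tabOf G.1, ?_, ?_⟩, ?_, ?_⟩
  · -- degrees of the graph of a table
    intro v
    by_cases hv : v ∈ S₀
    · have hset : (graphOf x.1).neighborSet v
          = ((S₀.erase v ∪ (x.1 ⟨v, hv⟩).map (Function.Embedding.subtype _) : Finset (Fin n)) : Set (Fin n)) := by
        ext w
        simp only [SimpleGraph.mem_neighborSet, Finset.coe_union, Finset.coe_map, Set.mem_union,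
          Finset.mem_coe, Finset.mem_erase, Set.mem_image, Function.Embedding.subtype_apply]
        by_cases hw : w ∈ S₀
        · rw [graphOf_rr _ hv hw]
          constructor
          · intro h; exact Or.inl ⟨h.symm, hw⟩
          · rintro (h | ⟨a, _, ha⟩)
            · exact h.1.symm
            · exact absurd (ha ▸ a.2) (by simpa using hw)
        · rw [graphOf_rc _ hv hw]
          constructor
          · intro h; exact Or.inr ⟨⟨w, hw⟩, h, rfl⟩
          · rintro (h | ⟨a, ha1, ha⟩)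
            · exact absurd h.2 hw
            · have : a = ⟨w, hw⟩ := Subtype.ext ha
              rw [← this]; exact ha1
      rw [hset, Set.ncard_coe_finset, Finset.card_union_of_disjoint, Finset.card_erase_of_mem hv,
        Finset.card_map, x.2.1]
      · have := hlow v hv
        simp only [rowM]
        omega
      · rw [Finset.disjoint_left]
        intro w h1 h2
        rw [Finset.mem_map] at h2
        obtain ⟨a, _, ha⟩ := h2
        have h3 := (Finset.mem_erase.1 h1).2
        rw [← ha] at h3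
        exact a.2 h3
    · have hset : (graphOf x.1).neighborSet v
          = (((Finset.univ.filter (fun i : Rw S₀ => (⟨v, hv⟩ : Cl S₀) ∈ x.1 i)).map
              (Function.Embedding.subtype _) : Finset (Fin n)) : Set (Fin n)) := by
        ext w
        simp only [SimpleGraph.mem_neighborSet, Finset.coe_map, Set.mem_image, Finset.mem_coe,
          Finset.mem_filter, Finset.mem_univ, true_and, Function.Embedding.subtype_apply]
        by_cases hw : w ∈ S₀
        · rw [graphOf_cr _ hv hw]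
          constructor
          · intro h; exact ⟨⟨w, hw⟩, h, rfl⟩
          · rintro ⟨i, hi, rfl⟩
            exact hi
        · constructor
          · intro h; exact absurd h (graphOf_cc _ hv hw)
          · rintro ⟨i, _, rfl⟩
            exact absurd i.2 hw
      rw [hset, Set.ncard_coe_finset, Finset.card_map, x.2.2]
      rfl
  · -- row sizes
    intro i
    obtain ⟨h1, h2⟩ := split_structure hS G
    have hcount : (S₀.filter (fun w => G.1.Adj i.1 w)).card = S₀.card - 1 := by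
      rw [← Finset.card_erase_of_mem i.2]
      congr 1
      ext w
      simp only [mem_filter, mem_erase]
      constructor
      · rintro ⟨h3, h4⟩
        exact ⟨(G.1.ne_of_adj h4).symm, h3⟩
      · rintro ⟨h3, h4⟩
        exact ⟨h4, h1 i.1 i.2 w h4 h3.symm⟩
    have hdeg : (Finset.univ.filter (fun w => G.1.Adj i.1 w)).card = d i.1 := by
      rw [← G.2 i.1, ← Set.ncard_coe_finset]
      congr 1
      ext w
      simp
    have hsplit : (S₀.filter (fun w => G.1.Adj i.1 w)).card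
        + (S₀ᶜ.filter (fun w => G.1.Adj i.1 w)).card = d i.1 := by
      rw [← hdeg, ← Finset.card_union_of_disjoint]
      · congr 1
        ext w
        simp only [mem_union, mem_filter, mem_compl, mem_univ, true_and]
        tauto
      · exact Finset.disjoint_filter_filter disjoint_compl_right
    have hcard : (tabOf (S₀ := S₀) G.1 i).card = (S₀ᶜ.filter (fun w => G.1.Adj i.1 w)).card := by
      rw [← card_filter_cl]
      unfold tabOf
      congr
    rw [hcard]
    simp only [rowM]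
    omega
  · -- column sizes
    intro a
    obtain ⟨h1, h2⟩ := split_structure hS G
    have hdeg : (Finset.univ.filter (fun w => G.1.Adj a.1 w)).card = d a.1 := by
      rw [← G.2 a.1, ← Set.ncard_coe_finset]
      congr 1
      ext w
      simp
    have hfilter : (Finset.univ.filter (fun i : Rw S₀ => a ∈ tabOf (S₀ := S₀) G.1 i)).card
        = (S₀.filter (fun u => G.1.Adj a.1 u)).card := by
      rw [← card_filter_rw]
      congr 1
      ext i
      simp only [mem_filter, mem_univ, true_and]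
      rw [mem_tabOf, G.1.adj_comm]
    rw [hfilter]
    simp only [colM]
    rw [← hdeg]
    congr 1
    ext w
    simp only [mem_filter, mem_univ, true_and, and_iff_right_iff_imp]
    intro hadj
    by_contra hw
    exact h2 a.1 a.2 w hw hadj
  · intro x
    apply Subtype.ext
    exact tabOf_graphOf x.1
  · intro G
    apply Subtype.ext
    obtain ⟨h1, h2⟩ := split_structure hS G
    exact graphOf_tabOf h1 h2

lemma splitEquiv_val {d : Fin n → ℕ} {S₀ : Finset (Fin n)}
    (hS : ∑ i ∈ S₀, d i = S₀.card * (S₀.card - 1) + ∑ v ∈ S₀ᶜ, d v) (G₀ : Realization d)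
    (x : Tab (rowM d S₀) (colM d S₀)) : (splitEquiv hS G₀ x).1 = graphOf x.1 := rfl

end Vale.Agent.Lib.P335
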