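import Vale.Agent.Lib.P335.SplitProof

/-!
The mixing bound for the switch chain on the realizations of a split degree vector.
-/

open Finset BigOperators

namespace Vale.Agent.Lib.P335

set_option linter.unusedSectionVars false

variable {n : ℕ}

lemma pair_eq_of_lt {J : Type*} [LinearOrder J] {i j i' j' : J} (h : i < j) (h' : i' < j')
    (h1 : i = i' ∨ i = j') (h2 : j = i' ∨ j = j') : i = i' ∧ j = j' := by
  rcases h1 with rfl | rfl <;> rcases h2 with rfl | rfl
  · exact absurd h (lt_irrefl _)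
  · exact ⟨rfl, rfl⟩
  · exact absurd (lt_trans h h') (lt_irrefl _)
  · exact absurd h (lt_irrefl _)

/-- Two rows and two columns are recovered from their four set. -/
lemma four_set_inj {S₀ : Finset (Fin n)} {i j i' j' : Rw S₀} {a b a' b' : Cl S₀}
    (hij : i < j) (hab : a < b) (hij' : i' < j') (hab' : a' < b')
    (h : ({i.1, j.1, a.1, b.1} : Finset (Fin n)) = {i'.1, j'.1, a'.1, b'.1}) :
    i = i' ∧ j = j' ∧ a = a' ∧ b = b' := by
  have hr : ∀ t : Rw S₀, t.1 ∈ ({i'.1, j'.1, a'.1, b'.1} : Finset (Fin n)) → t = i' ∨ t = j' := by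
    intro t ht
    rw [mem_four] at ht
    rcases ht with h1 | h1 | h1 | h1
    · exact Or.inl (Subtype.ext h1)
    · exact Or.inr (Subtype.ext h1)
    · exact absurd (h1 ▸ t.2) a'.2
    · exact absurd (h1 ▸ t.2) b'.2
  have hc : ∀ t : Cl S₀, t.1 ∈ ({i'.1, j'.1, a'.1, b'.1} : Finset (Fin n)) → t = a' ∨ t = b' := by
    intro t ht
    rw [mem_four] at ht
    rcases ht with h1 | h1 | h1 | h1
    · exact absurd (h1 ▸ i'.2) t.2
    · exact absurd (h1 ▸ j'.2) t.2
    · exact Or.inl (Subtype.ext h1)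
    · exact Or.inr (Subtype.ext h1)
  have m1 : i.1 ∈ ({i.1, j.1, a.1, b.1} : Finset (Fin n)) := by simp
  have m2 : j.1 ∈ ({i.1, j.1, a.1, b.1} : Finset (Fin n)) := by simp
  have m3 : a.1 ∈ ({i.1, j.1, a.1, b.1} : Finset (Fin n)) := by simp
  have m4 : b.1 ∈ ({i.1, j.1, a.1, b.1} : Finset (Fin n)) := by simp
  rw [h] at m1 m2 m3 m4
  obtain ⟨e1, e2⟩ := pair_eq_of_lt hij hij' (hr _ m1) (hr _ m2)
  obtain ⟨e3, e4⟩ := pair_eq_of_lt hab hab' (hc _ m3) (hc _ m4)
  exact ⟨e1, e2, e3, e4⟩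

/-- The size of the four set. -/
lemma four_set_card {S₀ : Finset (Fin n)} {i j : Rw S₀} {a b : Cl S₀} (hij : i ≠ j) (hab : a ≠ b) :
    ({i.1, j.1, a.1, b.1} : Finset (Fin n)).card = 4 := by
  have hi : i.1 ≠ j.1 := fun h => hij (Subtype.ext h)
  have ha : a.1 ≠ b.1 := fun h => hab (Subtype.ext h)
  have hia : i.1 ≠ a.1 := fun h => a.2 (h ▸ i.2)
  have hib : i.1 ≠ b.1 := fun h => b.2 (h ▸ i.2)
  have hja : j.1 ≠ a.1 := fun h => a.2 (h ▸ j.2)
  have hjb : j.1 ≠ b.1 := fun h => b.2 (h ▸ j.2)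
  rw [Finset.card_insert_of_notMem, Finset.card_insert_of_notMem, Finset.card_pair ha]
  · simp [hja, hjb]
  · simp [hi, hia, hib]

section ordered

variable {ι κ : Type*} [Fintype ι] [LinearOrder ι] [Fintype κ] [LinearOrder κ]

/-- The ordered quadruples. -/
def quads (ι κ : Type*) [Fintype ι] [LinearOrder ι] [Fintype κ] [LinearOrder κ] :
    Finset (ι × ι × κ × κ) :=
  Finset.univ.filter (fun q => q.1 < q.2.1 ∧ q.2.2.1 < q.2.2.2)

lemma nest_eq_quads (B : ι → ι → κ → κ → ℝ) :
    ∑ i, ∑ j, (if i < j then ∑ a, ∑ b, (if a < b then B i j a b else 0) else 0)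
      = ∑ q ∈ quads ι κ, B q.1 q.2.1 q.2.2.1 q.2.2.2 := by
  unfold quads
  rw [Finset.sum_filter]
  simp only [Fintype.sum_prod_type]
  refine Finset.sum_congr rfl (fun i _ => Finset.sum_congr rfl (fun j _ => ?_))
  by_cases hij : i < j
  · simp [hij]
  · simp [hij]

end ordered

open Classical in
/-- The moves seen from one table. -/
lemma moves_lower {d : Fin n → ℕ} {S₀ : Finset (Fin n)} {r : Rw S₀ → ℕ} {c : Cl S₀ → ℕ}
    (e : Tab r c ≃ Realization d) (he : ∀ x, (e x).1 = graphOf x.1)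
    (f : Realization d → ℝ) (x : Tab r c) :
    ∑ q ∈ quads (Rw S₀) (Cl S₀), (f (e x) - f (e (tau {q.1, q.2.1} q.2.2.1 q.2.2.2 x))) ^ 2
      ≤ ∑ S ∈ Finset.powersetCard 4 (Finset.univ : Finset (Fin n)), ∑ p ∈ matchingPairs S,
          ∑ G' : Realization d,
            (if switchStep (e x).1 p.1 p.2 = G'.1 then (f (e x) - f G') ^ 2 else 0) := by
  set T : Finset (Fin n) → ℝ := fun S => ∑ p ∈ matchingPairs S, ∑ G' : Realization d,
    (if switchStep (e x).1 p.1 p.2 = G'.1 then (f (e x) - f G') ^ 2 else 0) with hT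
  have hnn : ∀ S, 0 ≤ T S := by
    intro S
    refine Finset.sum_nonneg (fun p _ => Finset.sum_nonneg (fun G' _ => ?_))
    split_ifs
    · exact sq_nonneg _
    · exact le_refl _
  set Φ : Rw S₀ × Rw S₀ × Cl S₀ × Cl S₀ → Finset (Fin n) :=
    fun q => {q.1.1, q.2.1.1, q.2.2.1.1, q.2.2.2.1} with hΦ
  have hterm : ∀ q ∈ quads (Rw S₀) (Cl S₀),
      (f (e x) - f (e (tau {q.1, q.2.1} q.2.2.1 q.2.2.2 x))) ^ 2 ≤ T (Φ q) := by
    intro q hq
    obtain ⟨i, j, a, b⟩ := q
    simp only [quads, Finset.mem_filter, Finset.mem_univ, true_and] at hq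
    obtain ⟨p, hp, hstep⟩ := exists_move x hq.1.ne hq.2.ne
    have hinner : ∀ p ∈ matchingPairs (Φ (i, j, a, b)), 0 ≤ ∑ G' : Realization d,
        (if switchStep (e x).1 p.1 p.2 = G'.1 then (f (e x) - f G') ^ 2 else 0) := by
      intro p _
      refine Finset.sum_nonneg (fun G' _ => ?_)
      split_ifs
      · exact sq_nonneg _
      · exact le_refl _
    have h1 := Finset.single_le_sum hinner hp
    have h2 : (f (e x) - f (e (tau {i, j} a b x))) ^ 2 ≤ ∑ G' : Realization d,
        (if switchStep (e x).1 p.1 p.2 = G'.1 then (f (e x) - f G') ^ 2 else 0) := by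
      have hnn2 : ∀ G' ∈ (Finset.univ : Finset (Realization d)), 0 ≤
          (if switchStep (e x).1 p.1 p.2 = G'.1 then (f (e x) - f G') ^ 2 else 0) := by
        intro G' _
        split_ifs
        · exact sq_nonneg _
        · exact le_refl _
      have h3 := Finset.single_le_sum hnn2 (Finset.mem_univ (e (tau {i, j} a b x)))
      have h4 : switchStep (e x).1 p.1 p.2 = (e (tau {i, j} a b x)).1 := by
        rw [he, he]
        exact hstep
      rw [if_pos h4] at h3
      exact h3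
    exact le_trans h2 h1
  calc _ ≤ ∑ q ∈ quads (Rw S₀) (Cl S₀), T (Φ q) := Finset.sum_le_sum hterm
    _ = ∑ S ∈ (quads (Rw S₀) (Cl S₀)).image Φ, T S := by
        rw [Finset.sum_image]
        intro q hq q' hq' hqq
        obtain ⟨i, j, a, b⟩ := q
        obtain ⟨i', j', a', b'⟩ := q'
        simp only [quads, Finset.coe_filter, Finset.mem_univ, true_and, Set.mem_ofPred_eq] at hq hq'
        obtain ⟨e1, e2, e3, e4⟩ := four_set_inj hq.1 hq.2 hq'.1 hq'.2 hqq
        subst e1 e2 e3 e4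
        rfl
    _ ≤ ∑ S ∈ Finset.powersetCard 4 (Finset.univ : Finset (Fin n)), T S := by
        refine Finset.sum_le_sum_of_subset_of_nonneg ?_ (fun S _ _ => hnn S)
        intro S hS
        obtain ⟨⟨i, j, a, b⟩, hq, rfl⟩ := Finset.mem_image.1 hS
        simp only [quads, Finset.mem_filter, Finset.mem_univ, true_and] at hq
        rw [Finset.mem_powersetCard]
        exact ⟨Finset.subset_univ _, four_set_card hq.1.ne hq.2.ne⟩

/-- The spectral gap of the switch chain on a split degree vector. -/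
theorem split_gap (hn : 4 ≤ n) {d : Fin n → ℕ} {S₀ : Finset (Fin n)}
    (hS : ∑ i ∈ S₀, d i = S₀.card * (S₀.card - 1) + ∑ v ∈ S₀ᶜ, d v) (G₀ : Realization d)
    (f : Realization d → ℝ) (hf : ∑ G, f G = 0) :
    (1 / ((6 * n.choose 4 : ℕ) : ℝ)) * ip f f
      ≤ (∑ G, ∑ G', switchKernel d G G' * (f G - f G') ^ 2) / 2 := by
  classical
  have hC : (0 : ℝ) < (n.choose 4 : ℝ) := by
    exact_mod_cast Nat.choose_pos hn
  set e := splitEquiv hS G₀ with he
  set g : Tab (rowM d S₀) (colM d S₀) → ℝ := fun x => f (e x) with hg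
  have hg0 : ∑ x, g x = 0 := by
    rw [← hf]
    exact Equiv.sum_comp e f
  have hP := poincare_ordered g hg0
  have hP2 := hP.trans_eq (nest_eq_quads (ι := Rw S₀) (κ := Cl S₀)
    (fun i j a b => ∑ x, (g x - g (tau {i, j} a b x)) ^ 2))
  rw [Finset.sum_comm] at hP2
  have hmoves := fun x => moves_lower e (fun x => splitEquiv_val hS G₀ x) f x
  have hsum := Finset.sum_le_sum (fun x (_ : x ∈ Finset.univ) => hmoves x)
  have hself : ip f f = ∑ x, g x ^ 2 := by
    unfold ip
    simp only [hg]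
    rw [Equiv.sum_comp e (fun G => f G ^ 2)]
    exact Finset.sum_congr rfl (fun x _ => by ring)
  have hD : ∑ G, ∑ G', switchKernel d G G' * (f G - f G') ^ 2
      = (1 / 2) * (1 / (n.choose 4 : ℝ)) * (1 / 6) * ∑ x, ∑ S ∈ Finset.powersetCard 4
        (Finset.univ : Finset (Fin n)), ∑ p ∈ matchingPairs S, ∑ G' : Realization d,
          (if switchStep (e x).1 p.1 p.2 = G'.1 then (f (e x) - f G') ^ 2 else 0) := by
    rw [Finset.mul_sum]
    rw [← Equiv.sum_comp e]
    refine Finset.sum_congr rfl (fun x _ => ?_)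
    rw [switchKernel_dirichlet]
  rw [hself, hD]
  set Y := ∑ x, ∑ S ∈ Finset.powersetCard 4
        (Finset.univ : Finset (Fin n)), ∑ p ∈ matchingPairs S, ∑ G' : Realization d,
          (if switchStep (e x).1 p.1 p.2 = G'.1 then (f (e x) - f G') ^ 2 else 0) with hY
  have h4 : 4 * ∑ x, g x ^ 2 ≤ Y := le_trans hP2 hsum
  push_cast
  have e1 : (1 / 2 : ℝ) * (1 / (n.choose 4 : ℝ)) * (1 / 6) * Y / 2
      = (1 / (6 * (n.choose 4 : ℝ))) * (Y / 4) := by
    field_simp
    ring
  rw [e1]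
  exact mul_le_mul_of_nonneg_left (by linarith) (by positivity)

/-- The mixing bound. -/
theorem split_mixing (hn : 4 ≤ n) {d : Fin n → ℕ} {S₀ : Finset (Fin n)}
    (hS : ∑ i ∈ S₀, d i = S₀.card * (S₀.card - 1) + ∑ v ∈ S₀ᶜ, d v) (t : ℕ) (ht : n ^ 6 ≤ t)
    (G : Realization d) :
    (∑ G', |(switchKernel d ^ t) G G' - 1 / (Fintype.card (Realization d) : ℝ)|) / 2 ≤ 1 / 4 := by
  classical
  have hNpos : 0 < 6 * n.choose 4 := Nat.mul_pos (by norm_num) (Nat.choose_pos hn)
  have hcard : 4 * Fintype.card (Realization d) ≤ 2 ^ (n * n + 2) := by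
    have h0 : Fintype.card (Realization d) = Fintype.card (Tab (rowM d S₀) (colM d S₀)) :=
      (Fintype.card_congr (splitEquiv hS G)).symm
    have h1 : Fintype.card (Tab (rowM d S₀) (colM d S₀))
        ≤ Fintype.card (Rw S₀ → Finset (Cl S₀)) := Fintype.card_subtype_le _
    have hR : Fintype.card (Rw S₀) ≤ n := by
      have := Fintype.card_subtype_le (fun v : Fin n => v ∈ S₀)
      simpa using this
    have hC : Fintype.card (Cl S₀) ≤ n := by
      have := Fintype.card_subtype_le (fun v : Fin n => v ∉ S₀)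
      simpa using this
    have h2 : Fintype.card (Rw S₀ → Finset (Cl S₀))
        = 2 ^ (Fintype.card (Cl S₀) * Fintype.card (Rw S₀)) := by
      simp only [Fintype.card_fun, Fintype.card_finset]
      rw [← pow_mul]
    have h3 : (2 : ℕ) ^ (Fintype.card (Cl S₀) * Fintype.card (Rw S₀)) ≤ 2 ^ (n * n) :=
      Nat.pow_le_pow_right (by norm_num) (Nat.mul_le_mul hC hR)
    rw [pow_add]
    omega
  have hbound : (6 * n.choose 4) * (n * n + 2) ≤ t := by
    refine le_trans ?_ ht
    have h1 : 24 * n.choose 4 ≤ n ^ 4 := by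
      have e1 := Nat.descFactorial_eq_factorial_mul_choose n 4
      have e2 := Nat.descFactorial_le_pow n 4
      have e3 : Nat.factorial 4 = 24 := rfl
      rw [e3] at e1
      omega
    have h2 : n * n + 2 ≤ 4 * (n * n) := by
      have : 16 ≤ n * n := Nat.mul_le_mul hn hn
      omega
    calc (6 * n.choose 4) * (n * n + 2) ≤ (6 * n.choose 4) * (4 * (n * n)) :=
          Nat.mul_le_mul_left _ h2
      _ = (24 * n.choose 4) * (n * n) := by ring
      _ ≤ n ^ 4 * (n * n) := Nat.mul_le_mul_right _ h1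
      _ = n ^ 6 := by ring
  exact (switchKernel_lazy hn d).tv_le_quarter hNpos
    (fun f hf => split_gap hn hS G f hf) hcard t hbound G

end Vale.Agent.Lib.P335
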