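import Vale.Agent.Lib.P335.SplitGraph

/-!
The switch chain on the realizations of a split degree vector: every swap of tables is one of the
moves of the chain on graphs, so the Poincare inequality for tables transfers.
-/

open Finset BigOperators

namespace Vale.Agent.Lib.P335

set_option linter.unusedSectionVars false

variable {n : ℕ}

/-- An effective swap of a table, as a switch of its graph. -/
lemma switchStep_checker {S₀ : Finset (Fin n)} {r : Rw S₀ → ℕ} {c : Cl S₀ → ℕ}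
    (x : Tab r c) {i j : Rw S₀} {a b : Cl S₀} (hij : i ≠ j) (hab : a ≠ b)
    (h1 : a ∈ x.1 i) (h2 : b ∉ x.1 i) (h3 : b ∈ x.1 j) (h4 : a ∉ x.1 j) :
    switchStep (graphOf x.1) {s(i.1, a.1), s(j.1, b.1)} {s(i.1, b.1), s(j.1, a.1)}
      = graphOf (tau {i, j} a b x).1 := by
  classical
  have hcol : colT {i, j} x.1 a = colT {i, j} x.1 b := by
    rw [colT2 hij, colT2 hij]
    simp [h1, h2, h3, h4]
  have hτ : (tau {i, j} a b x).1 = swapT {i, j} a b x.1 := tau_of_eq hcol
  have hactive : (∀ e ∈ ({s(i.1, a.1), s(j.1, b.1)} : Finset (Sym2 (Fin n))), e ∈ (graphOf x.1).edgeSet)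
      ∧ (∀ e ∈ ({s(i.1, b.1), s(j.1, a.1)} : Finset (Sym2 (Fin n))), e ∉ (graphOf x.1).edgeSet) := by
    constructor
    · intro e he
      simp only [Finset.mem_insert, Finset.mem_singleton] at he
      rcases he with rfl | rfl
      · rw [SimpleGraph.mem_edgeSet, graphOf_rc _ i.2 a.2]; exact h1
      · rw [SimpleGraph.mem_edgeSet, graphOf_rc _ j.2 b.2]; exact h3
    · intro e he
      simp only [Finset.mem_insert, Finset.mem_singleton] at he
      rcases he with rfl | rfl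
      · rw [SimpleGraph.mem_edgeSet, graphOf_rc _ i.2 b.2]; exact h2
      · rw [SimpleGraph.mem_edgeSet, graphOf_rc _ j.2 a.2]; exact h4
  unfold switchStep
  rw [if_pos hactive, hτ]
  have hi : i.1 ≠ j.1 := fun h => hij (Subtype.ext h)
  have ha : a.1 ≠ b.1 := fun h => hab (Subtype.ext h)
  have hia : i.1 ≠ a.1 := fun h => a.2 (h ▸ i.2)
  have hib : i.1 ≠ b.1 := fun h => b.2 (h ▸ i.2)
  have hja : j.1 ≠ a.1 := fun h => a.2 (h ▸ j.2)
  have hjb : j.1 ≠ b.1 := fun h => b.2 (h ▸ j.2)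
  -- the main case of the comparison
  have key : ∀ (u w : Fin n) (hu : u ∈ S₀) (hw : w ∉ S₀),
      (SimpleGraph.fromEdgeSet (((graphOf x.1).edgeSet \
        (({s(i.1, a.1), s(j.1, b.1)} : Finset (Sym2 (Fin n))) : Set (Sym2 (Fin n))))
        ∪ (({s(i.1, b.1), s(j.1, a.1)} : Finset (Sym2 (Fin n))) : Set (Sym2 (Fin n))))).Adj u w
      ↔ (⟨w, hw⟩ : Cl S₀) ∈ swapT {i, j} a b x.1 ⟨u, hu⟩ := by
    intro u w hu hw
    have huw : u ≠ w := fun h => hw (h ▸ hu)
    rw [SimpleGraph.fromEdgeSet_adj, mem_swapT]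
    simp only [Set.mem_union, Set.mem_sdiff, SimpleGraph.mem_edgeSet, Finset.coe_insert,
      Finset.coe_singleton, Set.mem_insert_iff, Set.mem_singleton_iff, Sym2.eq_iff,
      Finset.mem_insert, Finset.mem_singleton]
    rw [graphOf_rc _ hu hw]
    by_cases hui : u = i.1
    · subst hui
      have hrow : (⟨i.1, hu⟩ : Rw S₀) = i := rfl
      rw [hrow]
      simp only [true_or, if_true]
      by_cases hwa : w = a.1
      · subst hwa
        have hcl : (⟨a.1, hw⟩ : Cl S₀) = a := rfl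
        rw [hcl, Equiv.swap_apply_left]
        simp [h2, hi, hia, hja, ha, huw] <;> tauto
      · by_cases hwb : w = b.1
        · subst hwb
          have hcl : (⟨b.1, hw⟩ : Cl S₀) = b := rfl
          rw [hcl, Equiv.swap_apply_right]
          simp [h1, hi, hib, hjb, ha.symm, huw] <;> tauto
        · have hwa' : (⟨w, hw⟩ : Cl S₀) ≠ a := fun h => hwa (congrArg Subtype.val h)
          have hwb' : (⟨w, hw⟩ : Cl S₀) ≠ b := fun h => hwb (congrArg Subtype.val h)
          rw [Equiv.swap_apply_of_ne_of_ne hwa' hwb']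
          simp [hwa, hwb, huw, Ne.symm hwa, Ne.symm hwb, hi, hia, hib, hja, hjb] <;> tauto
    · by_cases huj : u = j.1
      · subst huj
        have hrow : (⟨j.1, hu⟩ : Rw S₀) = j := rfl
        rw [hrow]
        simp only [or_true, if_true]
        by_cases hwa : w = a.1
        · subst hwa
          have hcl : (⟨a.1, hw⟩ : Cl S₀) = a := rfl
          rw [hcl, Equiv.swap_apply_left]
          simp [h3, h4, hi.symm, hia, hja, ha, huw] <;> tauto
        · by_cases hwb : w = b.1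
          · subst hwb
            have hcl : (⟨b.1, hw⟩ : Cl S₀) = b := rfl
            rw [hcl, Equiv.swap_apply_right]
            simp [h3, h4, hi.symm, hib, hjb, ha.symm, huw] <;> tauto
          · have hwa' : (⟨w, hw⟩ : Cl S₀) ≠ a := fun h => hwa (congrArg Subtype.val h)
            have hwb' : (⟨w, hw⟩ : Cl S₀) ≠ b := fun h => hwb (congrArg Subtype.val h)
            rw [Equiv.swap_apply_of_ne_of_ne hwa' hwb']
            simp [hwa, hwb, huw, Ne.symm hwa, Ne.symm hwb, hi.symm, hia, hib, hja, hjb] <;> tauto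
      · have hi' : (⟨u, hu⟩ : Rw S₀) ≠ i := fun h => hui (congrArg Subtype.val h)
        have hj' : (⟨u, hu⟩ : Rw S₀) ≠ j := fun h => huj (congrArg Subtype.val h)
        rw [if_neg (by simp [hi', hj'])]
        simp [hui, huj, huw, Ne.symm hui, Ne.symm huj]
        have e1 : ¬ (w = i.1) := fun h => hw (h ▸ i.2)
        have e2 : ¬ (w = j.1) := fun h => hw (h ▸ j.2)
        simp [e1, e2]
  ext u w
  by_cases hu : u ∈ S₀ <;> by_cases hw : w ∈ S₀
  · rw [graphOf_rr _ hu hw, SimpleGraph.fromEdgeSet_adj]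
    simp only [Set.mem_union, Set.mem_sdiff, SimpleGraph.mem_edgeSet, Finset.coe_insert,
      Finset.coe_singleton, Set.mem_insert_iff, Set.mem_singleton_iff, Sym2.eq_iff]
    rw [graphOf_rr _ hu hw]
    constructor
    · exact fun h => h.2
    · intro h
      refine ⟨Or.inl ⟨h, ?_⟩, h⟩
      rintro ((⟨_, h5⟩ | ⟨h5, _⟩) | (⟨_, h5⟩ | ⟨h5, _⟩))
      · exact a.2 (h5 ▸ hw)
      · exact a.2 (h5 ▸ hu)
      · exact b.2 (h5 ▸ hw)
      · exact b.2 (h5 ▸ hu)
  · rw [key u w hu hw, graphOf_rc _ hu hw]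
  · rw [SimpleGraph.adj_comm, key w u hw hu, graphOf_cr _ hu hw]
  · have hno : ¬ (graphOf (swapT {i, j} a b x.1)).Adj u w := graphOf_cc _ hu hw
    simp only [hno, iff_false]
    rw [SimpleGraph.fromEdgeSet_adj]
    simp only [Set.mem_union, Set.mem_sdiff, SimpleGraph.mem_edgeSet, Finset.coe_insert,
      Finset.coe_singleton, Set.mem_insert_iff, Set.mem_singleton_iff, Sym2.eq_iff, not_and]
    have hcc := graphOf_cc x.1 hu hw
    intro h
    rcases h with h | h
    · exact absurd h.1 hcc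
    · rcases h with (⟨h5, _⟩ | ⟨_, h5⟩) | (⟨h5, _⟩ | ⟨_, h5⟩)
      · exact (hu (h5 ▸ i.2)).elim
      · exact (hw (h5 ▸ i.2)).elim
      · exact (hu (h5 ▸ j.2)).elim
      · exact (hw (h5 ▸ j.2)).elim


/-- All the vertices of a four set of two rows and two columns. -/
lemma mem_four {S₀ : Finset (Fin n)} (i j : Rw S₀) (a b : Cl S₀) (t : Fin n) :
    t ∈ ({i.1, j.1, a.1, b.1} : Finset (Fin n)) ↔ t = i.1 ∨ t = j.1 ∨ t = a.1 ∨ t = b.1 := by
  simp

/-- Every swap of the table is a move of the chain on the four set. -/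
lemma exists_move {S₀ : Finset (Fin n)} {r : Rw S₀ → ℕ} {c : Cl S₀ → ℕ}
    (x : Tab r c) {i j : Rw S₀} {a b : Cl S₀} (hij : i ≠ j) (hab : a ≠ b) :
    ∃ p ∈ matchingPairs ({i.1, j.1, a.1, b.1} : Finset (Fin n)),
      switchStep (graphOf x.1) p.1 p.2 = graphOf (tau {i, j} a b x).1 := by
  classical
  have hi : i.1 ≠ j.1 := fun h => hij (Subtype.ext h)
  have ha : a.1 ≠ b.1 := fun h => hab (Subtype.ext h)
  have hia : i.1 ≠ a.1 := fun h => a.2 (h ▸ i.2)
  have hib : i.1 ≠ b.1 := fun h => b.2 (h ▸ i.2)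
  have hja : j.1 ≠ a.1 := fun h => a.2 (h ▸ j.2)
  have hjb : j.1 ≠ b.1 := fun h => b.2 (h ▸ j.2)
  have hS := mem_four i j a b
  have hF1 : IsPerfectMatching ({i.1, j.1, a.1, b.1} : Finset (Fin n))
      {s(i.1, a.1), s(j.1, b.1)} :=
    pm_of_four hia hi hib hja.symm ha hjb (by intro t; rw [hS]; tauto)
  have hF2 : IsPerfectMatching ({i.1, j.1, a.1, b.1} : Finset (Fin n))
      {s(i.1, b.1), s(j.1, a.1)} :=
    pm_of_four hib hi hia hjb.symm ha.symm hja (by intro t; rw [hS]; tauto)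
  have hne : ({s(i.1, a.1), s(j.1, b.1)} : Finset (Sym2 (Fin n))) ≠ {s(i.1, b.1), s(j.1, a.1)} := by
    intro h
    have h1 : s(i.1, a.1) ∈ ({s(i.1, b.1), s(j.1, a.1)} : Finset (Sym2 (Fin n))) := by
      rw [← h]; simp
    simp only [Finset.mem_insert, Finset.mem_singleton, Sym2.eq_iff] at h1
    rcases h1 with (⟨_, h2⟩ | ⟨h2, _⟩) | (⟨h2, _⟩ | ⟨h2, _⟩)
    · exact ha h2
    · exact hib h2
    · exact hi h2
    · exact hia h2
  have hmem1 : (({s(i.1, a.1), s(j.1, b.1)} : Finset (Sym2 (Fin n))),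
      ({s(i.1, b.1), s(j.1, a.1)} : Finset (Sym2 (Fin n))))
      ∈ matchingPairs ({i.1, j.1, a.1, b.1} : Finset (Fin n)) := by
    simp only [matchingPairs, Finset.mem_filter, Finset.mem_univ, true_and]
    exact ⟨hF1, hF2, hne⟩
  have hmem2 : (({s(i.1, b.1), s(j.1, a.1)} : Finset (Sym2 (Fin n))),
      ({s(i.1, a.1), s(j.1, b.1)} : Finset (Sym2 (Fin n))))
      ∈ matchingPairs ({i.1, j.1, a.1, b.1} : Finset (Fin n)) := by
    simp only [matchingPairs, Finset.mem_filter, Finset.mem_univ, true_and]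
    exact ⟨hF2, hF1, hne.symm⟩
  by_cases hc1 : a ∈ x.1 i ∧ b ∉ x.1 i ∧ b ∈ x.1 j ∧ a ∉ x.1 j
  · exact ⟨_, hmem1, switchStep_checker x hij hab hc1.1 hc1.2.1 hc1.2.2.1 hc1.2.2.2⟩
  by_cases hc2 : b ∈ x.1 i ∧ a ∉ x.1 i ∧ a ∈ x.1 j ∧ b ∉ x.1 j
  · refine ⟨_, hmem2, ?_⟩
    rw [tau_comm_swap]
    exact switchStep_checker x hij hab.symm hc2.1 hc2.2.1 hc2.2.2.1 hc2.2.2.2
  · refine ⟨_, hmem1, ?_⟩
    have hnc : ¬ Checker x.1 i j a b := fun h => h.elim hc1 hc2
    have h1 : (tau {i, j} a b x).1 = x.1 := by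
      rw [← bipSwitch_eq_tau hij a b x]
      funext l
      unfold bipSwitch
      rw [if_neg (fun h => hnc h.1)]
    rw [h1]
    unfold switchStep
    rw [if_neg]
    rintro ⟨h2, h3⟩
    apply hc1
    have e1 := h2 (s(i.1, a.1)) (by simp)
    have e2 := h2 (s(j.1, b.1)) (by simp)
    have e3 := h3 (s(i.1, b.1)) (by simp)
    have e4 := h3 (s(j.1, a.1)) (by simp)
    rw [SimpleGraph.mem_edgeSet, graphOf_rc _ i.2 a.2] at e1
    rw [SimpleGraph.mem_edgeSet, graphOf_rc _ j.2 b.2] at e2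
    rw [SimpleGraph.mem_edgeSet, graphOf_rc _ i.2 b.2] at e3
    rw [SimpleGraph.mem_edgeSet, graphOf_rc _ j.2 a.2] at e4
    exact ⟨e1, e3, e2, e4⟩

/-- Off-diagonal sums over a linear order. -/
lemma sum_ne_eq_two_sum_if {J : Type*} [Fintype J] [LinearOrder J]
    (G : J → J → ℝ) (hG : ∀ i j, G i j = G j i) :
    ∑ i, ∑ j, (if i = j then 0 else G i j) = 2 * ∑ i, ∑ j, (if i < j then G i j else 0) := by
  have h2 : ∑ i, ∑ j, (if i < j then G i j else 0) = ∑ i, ∑ j, (if j < i then G i j else 0) := by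
    rw [Finset.sum_comm]
    refine Finset.sum_congr rfl (fun i _ => Finset.sum_congr rfl (fun j _ => ?_))
    rw [hG j i]
  rw [two_mul]
  nth_rw 2 [h2]
  rw [← Finset.sum_add_distrib]
  refine Finset.sum_congr rfl (fun i _ => ?_)
  rw [← Finset.sum_add_distrib]
  refine Finset.sum_congr rfl (fun j _ => ?_)
  rcases lt_trichotomy i j with h | h | h
  · simp [h, h.ne, h.le, not_lt.2 h.le]
  · simp [h]
  · simp [h, h.ne', not_lt.2 h.le]

/-- The Poincare inequality for tables over linearly ordered rows and columns, with each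
unordered pair of rows and of columns counted once. -/
lemma poincare_ordered {ι κ : Type*} [Fintype ι] [LinearOrder ι] [Fintype κ] [LinearOrder κ]
    {r : ι → ℕ} {c : κ → ℕ} (g : Tab r c → ℝ) (hg : ∑ x, g x = 0) :
    4 * ∑ x, g x ^ 2 ≤ ∑ i, ∑ j, (if i < j then ∑ a, ∑ b, (if a < b then
      ∑ x, (g x - g (tau {i, j} a b x)) ^ 2 else 0) else 0) := by
  have hP := switch_poincare g hg
  set H : ι → ι → κ → κ → ℝ := fun i j a b => ∑ x, (g x - g (tau {i, j} a b x)) ^ 2 with hH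
  have hsplit : ∑ i, ∑ j, ∑ a, ∑ b, (if i = j ∨ a = b then 0 else H i j a b)
      = ∑ i, ∑ j, (if i = j then 0 else ∑ a, ∑ b, (if a = b then 0 else H i j a b)) := by
    refine Finset.sum_congr rfl (fun i _ => Finset.sum_congr rfl (fun j _ => ?_))
    by_cases hij : i = j
    · simp [hij]
    · simp [hij]
  have hinner : ∀ i j, ∑ a, ∑ b, (if a = b then 0 else H i j a b)
      = 2 * ∑ a, ∑ b, (if a < b then H i j a b else 0) := by
    intro i j
    apply sum_ne_eq_two_sum_if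
    intro a b
    simp only [hH]
    refine Finset.sum_congr rfl (fun x _ => ?_)
    rw [tau_comm_swap]
  have houter : ∑ i, ∑ j, (if i = j then 0 else 2 * ∑ a, ∑ b, (if a < b then H i j a b else 0))
      = 2 * ∑ i, ∑ j, (if i < j then 2 * ∑ a, ∑ b, (if a < b then H i j a b else 0) else 0) := by
    apply sum_ne_eq_two_sum_if
    intro i j
    simp only [hH]
    rw [Finset.pair_comm]
  change 16 * _ ≤ ∑ i, ∑ j, ∑ a, ∑ b, (if i = j ∨ a = b then 0 else H i j a b) at hP
  rw [hsplit] at hP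
  simp only [hinner] at hP
  rw [houter] at hP
  have h2 : ∑ i, ∑ j, (if i < j then 2 * ∑ a, ∑ b, (if a < b then H i j a b else 0) else 0)
      = 2 * ∑ i, ∑ j, (if i < j then ∑ a, ∑ b, (if a < b then H i j a b else 0) else 0) := by
    rw [Finset.mul_sum]
    refine Finset.sum_congr rfl (fun i _ => ?_)
    rw [Finset.mul_sum]
    refine Finset.sum_congr rfl (fun j _ => ?_)
    split_ifs <;> simp
  rw [h2] at hP
  linarith

end Vale.Agent.Lib.P335
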