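import Mathlib

/-!
Binary tables with prescribed margins (equivalently bipartite graphs with prescribed degrees),
and the lazy switch chain on them.
-/

open Finset BigOperators

namespace Vale.Agent.Lib.P335

variable {ι κ : Type*} [Fintype ι] [DecidableEq ι] [Fintype κ] [DecidableEq κ]

/-- `x` is a binary table (a bipartite graph between rows `ι` and columns `κ`): the row `i`
is a set of columns of size `r i`, and the column `a` lies in exactly `c a` rows. -/
def IsTab (r : ι → ℕ) (c : κ → ℕ) (x : ι → Finset κ) : Prop :=
  (∀ i, (x i).card = r i) ∧ ∀ a, (Finset.univ.filter (fun i => a ∈ x i)).card = c a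

noncomputable instance (r : ι → ℕ) (c : κ → ℕ) : DecidablePred (IsTab r c) :=
  fun _ => Classical.dec _

/-- The type of tables with margins `r`, `c`. -/
abbrev Tab (r : ι → ℕ) (c : κ → ℕ) := {x : ι → Finset κ // IsTab r c x}

/-- The two by two submatrix on rows `i, j` and columns `a, b` is a checkerboard. -/
def Checker (x : ι → Finset κ) (i j : ι) (a b : κ) : Prop :=
  (a ∈ x i ∧ b ∉ x i ∧ b ∈ x j ∧ a ∉ x j) ∨ (b ∈ x i ∧ a ∉ x i ∧ a ∈ x j ∧ b ∉ x j)

open Classical in
/-- The switch on rows `i, j` and columns `a, b`: if the submatrix is a checkerboard, exchange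
the columns `a, b` in the rows `i, j`; otherwise do nothing. -/
noncomputable def bipSwitch (x : ι → Finset κ) (i j : ι) (a b : κ) : ι → Finset κ :=
  fun l => if Checker x i j a b ∧ (l = i ∨ l = j) then (x l).map (Equiv.swap a b).toEmbedding
    else x l

open Classical in
/-- The lazy switch chain on tables with rows `Fin m` and columns `Fin n`: with probability `1/2`
stay put, otherwise choose a pair of rows `i < j` and a pair of columns `a < b` uniformly and
apply the switch. -/
noncomputable def bipKernel {m n : ℕ} (r : Fin m → ℕ) (c : Fin n → ℕ) :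
    Matrix (Tab r c) (Tab r c) ℝ :=
  fun x y => (if x = y then 1 / 2 else 0) + (1 / 2) * (1 / ((m.choose 2 : ℝ) * (n.choose 2 : ℝ))) *
    ∑ i : Fin m, ∑ j ∈ Finset.Ioi i, ∑ a : Fin n, ∑ b ∈ Finset.Ioi a,
      (if bipSwitch x.1 i j a b = y.1 then 1 else 0)

end Vale.Agent.Lib.P335
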