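import Vale.Agent.Lib.P335.Knabe
import Vale.Agent.Lib.P335.TabDefs

/-!
Binary tables with prescribed row and column sums, column swaps on a set of rows, connectivity.
-/

open Finset BigOperators

namespace Vale.Agent.Lib.P335

set_option linter.unusedSectionVars false

variable {ι κ : Type*} [Fintype ι] [DecidableEq ι] [Fintype κ] [DecidableEq κ]

/-- Number of rows of `t` containing the column `e`. -/
def colT (t : Finset ι) (x : ι → Finset κ) (e : κ) : ℕ := (t.filter (fun l => e ∈ x l)).card

lemma colT_add_compl (t : Finset ι) (x : ι → Finset κ) (e : κ) :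
    colT t x e + colT tᶜ x e = (Finset.univ.filter (fun i => e ∈ x i)).card := by
  unfold colT
  rw [← Finset.card_union_of_disjoint]
  · congr 1
    ext l
    simp only [mem_union, mem_filter, mem_compl, mem_univ, true_and]
    tauto
  · exact Finset.disjoint_filter_filter disjoint_compl_right

lemma colT_congr {t : Finset ι} {x y : ι → Finset κ} (h : ∀ l ∈ t, x l = y l) (e : κ) :
    colT t x e = colT t y e := by
  unfold colT
  congr 1
  exact Finset.filter_congr (fun l hl => by rw [h l hl])

variable {r : ι → ℕ} {c : κ → ℕ}

lemma colT_eq_of_agree {t : Finset ι} {x y : ι → Finset κ} (hx : IsTab r c x) (hy : IsTab r c y)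
    (h : ∀ l, l ∉ t → x l = y l) (e : κ) : colT t x e = colT t y e := by
  have h1 := colT_add_compl t x e
  have h2 := colT_add_compl t y e
  rw [hx.2] at h1
  rw [hy.2] at h2
  have h3 : colT tᶜ x e = colT tᶜ y e :=
    colT_congr (fun l hl => h l (Finset.mem_compl.1 hl)) e
  omega

/-- Swap the columns `a, b` in the rows of `t`. -/
def swapT (t : Finset ι) (a b : κ) (x : ι → Finset κ) : ι → Finset κ :=
  fun l => if l ∈ t then (x l).map (Equiv.swap a b).toEmbedding else x l

lemma mem_swapT {t : Finset ι} {a b e : κ} {x : ι → Finset κ} {l : ι} :
    e ∈ swapT t a b x l ↔ (if l ∈ t then Equiv.swap a b e ∈ x l else e ∈ x l) := by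
  unfold swapT
  by_cases h : l ∈ t
  · simp [h, Finset.mem_map_equiv]
  · simp [h]

lemma swapT_swapT (t : Finset ι) (a b : κ) (x : ι → Finset κ) :
    swapT t a b (swapT t a b x) = x := by
  funext l
  ext e
  rw [mem_swapT]
  by_cases h : l ∈ t
  · simp [h, mem_swapT]
  · simp [h, mem_swapT]

lemma colT_swapT (t : Finset ι) (a b e : κ) (x : ι → Finset κ) :
    colT t (swapT t a b x) e = colT t x (Equiv.swap a b e) := by
  unfold colT
  congr 1
  refine Finset.filter_congr (fun l hl => ?_)
  rw [mem_swapT, if_pos hl]

lemma colT_swap_eq {t : Finset ι} {a b : κ} {x : ι → Finset κ}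
    (h : colT t x a = colT t x b) (e : κ) : colT t x (Equiv.swap a b e) = colT t x e := by
  by_cases h1 : e = a
  · subst h1; simp [h]
  by_cases h2 : e = b
  · subst h2; simp [h]
  rw [Equiv.swap_apply_of_ne_of_ne h1 h2]

lemma isTab_swapT {t : Finset ι} {a b : κ} {x : ι → Finset κ} (hx : IsTab r c x)
    (h : colT t x a = colT t x b) : IsTab r c (swapT t a b x) := by
  constructor
  · intro l
    unfold swapT
    by_cases hl : l ∈ t
    · simp [hl, hx.1]
    · simp [hl, hx.1]
  · intro e
    rw [← colT_add_compl, colT_swapT, colT_swap_eq h]
    have h3 : colT tᶜ (swapT t a b x) e = colT tᶜ x e := by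
      refine colT_congr (fun l hl => ?_) e
      unfold swapT
      rw [if_neg (Finset.mem_compl.1 hl)]
    rw [h3, colT_add_compl, hx.2]

/-- Swap columns `a, b` in the rows of `t` if this gives a table (equal column counts on `t`),
otherwise do nothing. -/
def tau (t : Finset ι) (a b : κ) (x : Tab r c) : Tab r c :=
  by
    classical
    exact if h : colT t x.1 a = colT t x.1 b then ⟨swapT t a b x.1, isTab_swapT x.2 h⟩ else x

lemma tau_of_eq {t : Finset ι} {a b : κ} {x : Tab r c} (h : colT t x.1 a = colT t x.1 b) :
    (tau t a b x).1 = swapT t a b x.1 := by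
  unfold tau; simp [h]

lemma tau_of_ne {t : Finset ι} {a b : κ} {x : Tab r c} (h : colT t x.1 a ≠ colT t x.1 b) :
    tau t a b x = x := by
  unfold tau; simp [h]

lemma colT_tau (t : Finset ι) (a b e : κ) (x : Tab r c) :
    colT t (tau t a b x).1 e = colT t x.1 e := by
  by_cases h : colT t x.1 a = colT t x.1 b
  · rw [tau_of_eq h, colT_swapT, colT_swap_eq h]
  · rw [tau_of_ne h]

lemma tau_invol (t : Finset ι) (a b : κ) (x : Tab r c) : tau t a b (tau t a b x) = x := by
  by_cases h : colT t x.1 a = colT t x.1 b
  · apply Subtype.ext
    have h' : colT t (tau t a b x).1 a = colT t (tau t a b x).1 b := by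
      rw [colT_tau, colT_tau, h]
    rw [tau_of_eq h', tau_of_eq h, swapT_swapT]
  · rw [tau_of_ne h, tau_of_ne h]

/-- `tau` as a permutation of the tables. -/
def tauE (t : Finset ι) (a b : κ) : Tab r c ≃ Tab r c :=
  Function.Involutive.toPerm (tau t a b) (tau_invol t a b)

@[simp] lemma tauE_apply (t : Finset ι) (a b : κ) (x : Tab r c) :
    tauE t a b x = tau t a b x := rfl

lemma tau_off {t : Finset ι} {a b : κ} (x : Tab r c) {l : ι} (hl : l ∉ t) :
    (tau t a b x).1 l = x.1 l := by
  by_cases h : colT t x.1 a = colT t x.1 b
  · rw [tau_of_eq h]; unfold swapT; rw [if_neg hl]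
  · rw [tau_of_ne h]

lemma tau_row_of_iff {t : Finset ι} {a b : κ} (x : Tab r c) {l : ι} (hl : a ∈ x.1 l ↔ b ∈ x.1 l) :
    (tau t a b x).1 l = x.1 l := by
  by_cases h : colT t x.1 a = colT t x.1 b
  · rw [tau_of_eq h]
    ext e
    rw [mem_swapT]
    by_cases ht : l ∈ t
    · rw [if_pos ht]
      by_cases h1 : e = a
      · subst h1; simp [hl]
      by_cases h2 : e = b
      · subst h2; simp [hl]
      rw [Equiv.swap_apply_of_ne_of_ne h1 h2]
    · rw [if_neg ht]
  · rw [tau_of_ne h]

/-- The rows outside `s`, recorded as a function. -/
def restr (s : Finset ι) (x : Tab r c) : ι → Finset κ := fun l => if l ∈ s then ∅ else x.1 l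

lemma restr_eq_iff {s : Finset ι} {x y : Tab r c} :
    restr s y = restr s x ↔ ∀ l, l ∉ s → y.1 l = x.1 l := by
  constructor
  · intro h l hl
    have := congrFun h l
    simpa [restr, hl] using this
  · intro h
    funext l
    unfold restr
    by_cases hl : l ∈ s
    · simp [hl]
    · simp [hl, h l hl]

lemma colT_eq_of_restr {s : Finset ι} {x y : Tab r c} (h : restr s y = restr s x) (e : κ) :
    colT s y.1 e = colT s x.1 e :=
  colT_eq_of_agree y.2 x.2 (restr_eq_iff.1 h) e

lemma restr_tau_self (s : Finset ι) (a b : κ) (x : Tab r c) : restr s (tau s a b x) = restr s x :=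
  restr_eq_iff.2 (fun _ hl => tau_off x hl)

lemma restr_mono {s t : Finset ι} (hst : s ⊆ t) {x y : Tab r c}
    (h : restr s y = restr s x) : restr t y = restr t x :=
  restr_eq_iff.2 (fun l hl => restr_eq_iff.1 h l (fun hs => hl (hst hs)))

/-- Column swaps on `t` respect the classes of `restr s`, for `s ⊆ t`. -/
lemma restr_tau_congr {s t : Finset ι} (hst : s ⊆ t) (a b : κ) {x y : Tab r c}
    (h : restr s y = restr s x) : restr s (tau t a b y) = restr s (tau t a b x) := by
  have ht : restr t y = restr t x := restr_mono hst h
  have hcol : ∀ e, colT t y.1 e = colT t x.1 e := colT_eq_of_restr ht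
  rw [restr_eq_iff] at h ⊢
  intro l hl
  by_cases hc : colT t x.1 a = colT t x.1 b
  · have hc' : colT t y.1 a = colT t y.1 b := by rw [hcol, hcol, hc]
    rw [tau_of_eq hc, tau_of_eq hc']
    unfold swapT
    rw [h l hl]
  · have hc' : colT t y.1 a ≠ colT t y.1 b := by rw [hcol, hcol]; exact hc
    rw [tau_of_ne hc, tau_of_ne hc']
    exact h l hl

lemma restr_tau_iff {s t : Finset ι} (hst : s ⊆ t) (a b : κ) (x y : Tab r c) :
    restr s (tauE t a b y) = restr s (tauE t a b x) ↔ restr s y = restr s x := by
  constructor
  · intro h
    have := restr_tau_congr hst a b h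
    simpa [tauE_apply, tau_invol] using this
  · exact restr_tau_congr hst a b

/-- A function invariant under the switches on the rows of `A` does not depend on the rows in
`A`. This is the connectivity of the switch moves. -/
theorem connect (A : Finset ι) (h : Tab r c → ℝ)
    (hinv : ∀ i j a b x, i ∈ A → j ∈ A → i ≠ j → h (tau {i, j} a b x) = h x)
    (x y : Tab r c) (hxy : ∀ l, l ∉ A → x.1 l = y.1 l) : h x = h y := by
  classical
  -- induct on a finset of rows allowed to differ
  suffices H : ∀ G : Finset ι, G ⊆ A → ∀ x y : Tab r c, (∀ l, l ∉ G → x.1 l = y.1 l) → h x = h y from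
    H A (Finset.Subset.refl A) x y hxy
  intro G
  induction G using Finset.induction_on with
  | empty =>
    intro _ x y hxy
    have : x = y := by
      apply Subtype.ext
      funext l
      exact hxy l (by simp)
    rw [this]
  | insert i G hiG ih =>
    intro hsub
    have hiA : i ∈ A := hsub (Finset.mem_insert_self i G)
    have hGA : G ⊆ A := fun l hl => hsub (Finset.mem_insert_of_mem hl)
    have ih' := ih hGA
    suffices H : ∀ m : ℕ, ∀ x y : Tab r c, (∀ l, l ∉ insert i G → x.1 l = y.1 l) →
        (x.1 i \ y.1 i).card = m → h x = h y by
      intro x y hxy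
      exact H _ x y hxy rfl
    intro m
    induction m with
    | zero =>
      intro x y hxy hm
      have hsub' : x.1 i ⊆ y.1 i := by
        rw [Finset.card_eq_zero, Finset.sdiff_eq_empty_iff_subset] at hm
        exact hm
      have hcard : (x.1 i).card = (y.1 i).card := by rw [x.2.1, y.2.1]
      have heq : x.1 i = y.1 i := Finset.eq_of_subset_of_card_le hsub' hcard.ge
      apply ih' x y
      intro l hl
      by_cases hli : l = i
      · rw [hli]; exact heq
      · exact hxy l (by simp [hli, hl])
    | succ m ihm =>
      intro x y hxy hm
      -- pick b in x_i \ y_i and a in y_i \ x_i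
      have hcard : (x.1 i).card = (y.1 i).card := by rw [x.2.1, y.2.1]
      have hcard2 : (y.1 i \ x.1 i).card = (x.1 i \ y.1 i).card :=
        Finset.card_sdiff_comm hcard.symm
      obtain ⟨b, hb⟩ : (x.1 i \ y.1 i).Nonempty := by
        rw [← Finset.card_pos]; omega
      obtain ⟨a, ha⟩ : (y.1 i \ x.1 i).Nonempty := by
        rw [← Finset.card_pos]; omega
      rw [Finset.mem_sdiff] at ha hb
      -- counting columns in the rows of G
      have hcount : ∀ (z : Tab r c) (e : κ), colT G z.1 e + (if e ∈ z.1 i then 1 else 0)
          + colT (insert i G)ᶜ z.1 e = c e := by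
        intro z e
        have h1 := colT_add_compl (insert i G) z.1 e
        rw [z.2.2] at h1
        have h2 : colT (insert i G) z.1 e = colT G z.1 e + (if e ∈ z.1 i then 1 else 0) := by
          unfold colT
          rw [Finset.filter_insert]
          split_ifs with h3
          · rw [Finset.card_insert_of_notMem (by simp [hiG])]
          · simp
        omega
      have hrest : ∀ e, colT (insert i G)ᶜ x.1 e = colT (insert i G)ᶜ y.1 e := fun e =>
        colT_congr (fun l hl => hxy l (Finset.mem_compl.1 hl)) e
      have hxa := hcount x a
      have hxb := hcount x b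
      have hya := hcount y a
      have hyb := hcount y b
      rw [if_neg ha.2] at hxa
      rw [if_pos hb.1] at hxb
      rw [if_pos ha.1] at hya
      rw [if_neg hb.2] at hyb
      have hra := hrest a
      have hrb := hrest b
      -- a row distinguishing two columns exists when the counts differ
      have hdist : ∀ (z : Tab r c) (u w : κ), colT G z.1 w < colT G z.1 u →
          ∃ l ∈ G, u ∈ z.1 l ∧ w ∉ z.1 l := by
        intro z u w hlt
        by_contra hcon
        push Not at hcon
        have : colT G z.1 u ≤ colT G z.1 w := by
          unfold colT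
          apply Finset.card_le_card
          intro l hl
          rw [Finset.mem_filter] at hl ⊢
          exact ⟨hl.1, hcon l hl.1 hl.2⟩
        omega
      by_cases hcmp : colT G x.1 b < colT G x.1 a
      · -- move in x
        obtain ⟨l, hlG, hal, hbl⟩ := hdist x a b hcmp
        have hli : i ≠ l := fun h' => hiG (h' ▸ hlG)
        have hpair : colT {i, l} x.1 a = colT {i, l} x.1 b := by
          unfold colT
          rw [Finset.filter_insert, Finset.filter_insert, Finset.filter_singleton,
            Finset.filter_singleton]
          simp only [ha.2, hb.1, hal, hbl, if_true, if_false]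
          simp
        set x' := tau {i, l} a b x with hx'
        have hx'1 : x'.1 = swapT {i, l} a b x.1 := tau_of_eq hpair
        have hinvx : h x' = h x := hinv i l a b x hiA (hGA hlG) hli
        rw [← hinvx]
        apply ihm x' y
        · intro l' hl'
          rw [hx', tau_off]
          · exact hxy l' hl'
          · intro hmem
            apply hl'
            rw [Finset.mem_insert, Finset.mem_singleton] at hmem
            rcases hmem with rfl | rfl
            · exact Finset.mem_insert_self _ _
            · exact Finset.mem_insert_of_mem hlG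
        · -- the difference in row i drops by one
          have hrow : x'.1 i = insert a ((x.1 i).erase b) := by
            rw [hx'1]
            ext e
            rw [mem_swapT, if_pos (Finset.mem_insert_self _ _), Finset.mem_insert, Finset.mem_erase]
            by_cases h1 : e = a
            · subst h1; simp [hb.1]
            by_cases h2 : e = b
            · subst h2; simp [ha.2, h1]
            rw [Equiv.swap_apply_of_ne_of_ne h1 h2]
            simp [h1, h2]
          have hdiff : x'.1 i \ y.1 i = (x.1 i \ y.1 i).erase b := by
            rw [hrow]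
            ext e
            simp only [Finset.mem_sdiff, Finset.mem_insert, Finset.mem_erase]
            constructor
            · rintro ⟨h1 | ⟨h1, h2⟩, h3⟩
              · subst h1; exact absurd ha.1 h3
              · exact ⟨h1, h2, h3⟩
            · rintro ⟨h1, h2, h3⟩
              exact ⟨Or.inr ⟨h1, h2⟩, h3⟩
          rw [hdiff, Finset.card_erase_of_mem (Finset.mem_sdiff.2 hb), hm]
          rfl
      · -- move in y
        have hcmp' : colT G y.1 a < colT G y.1 b := by omega
        obtain ⟨l, hlG, hbl, hal⟩ := hdist y b a hcmp'
        have hli : i ≠ l := fun h' => hiG (h' ▸ hlG)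
        have hpair : colT {i, l} y.1 a = colT {i, l} y.1 b := by
          unfold colT
          rw [Finset.filter_insert, Finset.filter_insert, Finset.filter_singleton,
            Finset.filter_singleton]
          simp only [ha.1, hb.2, hal, hbl, if_true, if_false]
          simp
        set y' := tau {i, l} a b y with hy'
        have hy'1 : y'.1 = swapT {i, l} a b y.1 := tau_of_eq hpair
        have hinvy : h y' = h y := hinv i l a b y hiA (hGA hlG) hli
        rw [← hinvy]
        apply ihm x y'
        · intro l' hl'
          rw [hy', tau_off]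
          · exact hxy l' hl'
          · intro hmem
            apply hl'
            rw [Finset.mem_insert, Finset.mem_singleton] at hmem
            rcases hmem with rfl | rfl
            · exact Finset.mem_insert_self _ _
            · exact Finset.mem_insert_of_mem hlG
        · have hrow : y'.1 i = insert b ((y.1 i).erase a) := by
            rw [hy'1]
            ext e
            rw [mem_swapT, if_pos (Finset.mem_insert_self _ _), Finset.mem_insert, Finset.mem_erase]
            by_cases h1 : e = a
            · subst h1
              have hab : e ≠ b := fun h' => ha.2 (h' ▸ hb.1)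
              simp [hb.2, hab]
            by_cases h2 : e = b
            · subst h2; simp [ha.1]
            rw [Equiv.swap_apply_of_ne_of_ne h1 h2]
            simp [h1, h2]
          have hdiff : x.1 i \ y'.1 i = (x.1 i \ y.1 i).erase b := by
            rw [hrow]
            ext e
            simp only [Finset.mem_sdiff, Finset.mem_insert, Finset.mem_erase]
            constructor
            · rintro ⟨h1, h2⟩
              have h3 : e ≠ b := fun h' => h2 (Or.inl h')
              exact ⟨h3, h1, fun h4 => h2 (Or.inr ⟨fun h' => ha.2 (h' ▸ h1), h4⟩)⟩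
            · rintro ⟨h1, h2, h3⟩
              refine ⟨h2, ?_⟩
              rintro (h4 | ⟨_, h4⟩)
              · exact h1 h4
              · exact h3 h4
          rw [hdiff, Finset.card_erase_of_mem (Finset.mem_sdiff.2 hb), hm]
          rfl

end Vale.Agent.Lib.P335
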