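import Vale.Agent.Lib.P335.Commute

/-!
The three row analysis, first step: for an eigenfunction with large eigenvalue, the row averages
are invariant under column swaps of the same type.
-/

open Finset BigOperators

namespace Vale.Agent.Lib.P335

set_option linter.unusedSectionVars false

variable {ι κ : Type*} [Fintype ι] [DecidableEq ι] [Fintype κ] [DecidableEq κ]
variable {r : ι → ℕ} {c : κ → ℕ}

/-- Average of `v` given the row `l`, within the rows of `t`. -/
noncomputable def Gv (t : Finset ι) (v : Tab r c → ℝ) (l : ι) : Tab r c → ℝ :=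
  cavg (restr (t.erase l)) v

lemma colT3 {i j k : ι} (hij : i ≠ j) (hik : i ≠ k) (hjk : j ≠ k) (x : ι → Finset κ) (e : κ) :
    colT {i, j, k} x e = (if e ∈ x i then 1 else 0) + (if e ∈ x j then 1 else 0)
      + (if e ∈ x k then 1 else 0) := by
  unfold colT
  rw [Finset.filter_insert, Finset.filter_insert, Finset.filter_singleton]
  by_cases h1 : e ∈ x i <;> by_cases h2 : e ∈ x j <;> by_cases h3 : e ∈ x k <;>
    simp [h1, h2, h3, hij, hik, hjk, Finset.card_insert_of_notMem]

lemma colT2 {i j : ι} (hij : i ≠ j) (x : ι → Finset κ) (e : κ) :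
    colT {i, j} x e = (if e ∈ x i then 1 else 0) + (if e ∈ x j then 1 else 0) := by
  unfold colT
  rw [Finset.filter_insert, Finset.filter_singleton]
  by_cases h1 : e ∈ x i <;> by_cases h2 : e ∈ x j <;>
    simp [h1, h2, hij, Finset.card_insert_of_notMem]

lemma distinguish {i j k : ι} (hij : i ≠ j) (hik : i ≠ k) (hjk : j ≠ k) {x : ι → Finset κ}
    {a b : κ} (h : colT {i, j, k} x a = colT {i, j, k} x b) (hk : ¬ (a ∈ x k ↔ b ∈ x k)) :
    (a ∈ x i ↔ b ∈ x i) ∨ (a ∈ x j ↔ b ∈ x j) := by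
  rw [colT3 hij hik hjk, colT3 hij hik hjk] at h
  by_cases h1 : a ∈ x i <;> by_cases h2 : b ∈ x i <;> by_cases h3 : a ∈ x j <;>
    by_cases h4 : b ∈ x j <;> by_cases h5 : a ∈ x k <;> by_cases h6 : b ∈ x k <;>
    simp only [h1, h2, h3, h4, h5, h6, if_true, if_false] at h hk ⊢ <;> simp_all

lemma Gv_tau_of_iff {t : Finset ι} (v : Tab r c → ℝ) {l : ι} (a b : κ) (y : Tab r c)
    (h : a ∈ y.1 l ↔ b ∈ y.1 l) : Gv t v l (tau t a b y) = Gv t v l y := by
  unfold Gv
  apply cavg_congr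
  rw [restr_eq_iff]
  intro m hm
  by_cases hml : m = l
  · subst hml; exact tau_row_of_iff y h
  · apply tau_off
    intro hmt
    exact hm (Finset.mem_erase.2 ⟨hml, hmt⟩)

/-- One step bound for the swap seminorm. -/
lemma step1_bound {t : Finset ι} {i j k : ι} (hij : i ≠ j) (hik : i ≠ k) (hjk : j ≠ k)
    (ht : t = {i, j, k}) (v : Tab r c → ℝ) {μ : ℝ} (hμ : 0 ≤ μ)
    (heq : ∀ x, μ * Gv t v k x = cavg (restr (t.erase k)) (Gv t v i + Gv t v j) x)
    {L : ℝ} (hL0 : 0 ≤ L)
    (hL : ∀ l ∈ t, ∀ (y : Tab r c) (a b : κ), |Gv t v l (tau t a b y) - Gv t v l y| ≤ L)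
    (x : Tab r c) (a b : κ) :
    μ * |Gv t v k (tau t a b x) - Gv t v k x| ≤ L := by
  by_cases hc : colT t x.1 a = colT t x.1 b
  swap
  · rw [tau_of_ne hc]; simpa using hL0
  by_cases hk : a ∈ x.1 k ↔ b ∈ x.1 k
  · rw [Gv_tau_of_iff v a b x hk]; simpa using hL0
  have hsub : t.erase k ⊆ t := Finset.erase_subset _ _
  have h1 : μ * (Gv t v k (tau t a b x) - Gv t v k x)
      = cavg (restr (t.erase k)) ((Gv t v i + Gv t v j) ∘ (tauE t a b) - (Gv t v i + Gv t v j)) x := by
    rw [mul_sub, heq, heq, cavg_sub]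
    have := cavg_comp_equiv (φ := restr (t.erase k)) (tauE t a b) (Gv t v i + Gv t v j) x
      (fun y => restr_tau_iff hsub a b x y)
    simp only [Pi.sub_apply]
    rw [← this]
    rfl
  have h2 : |cavg (restr (t.erase k)) ((Gv t v i + Gv t v j) ∘ (tauE t a b)
      - (Gv t v i + Gv t v j)) x| ≤ L := by
    apply abs_cavg_le
    intro y hy
    have hy1 : y.1 k = x.1 k := by
      apply restr_eq_iff.1 hy
      simp
    have hy2 : restr t y = restr t x := restr_mono hsub hy
    have hcy : colT t y.1 a = colT t y.1 b := by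
      rw [colT_eq_of_restr hy2, colT_eq_of_restr hy2, hc]
    have hky : ¬ (a ∈ y.1 k ↔ b ∈ y.1 k) := by rw [hy1]; exact hk
    rw [ht] at hcy
    simp only [Pi.sub_apply, Pi.add_apply, Function.comp_apply, tauE_apply]
    rcases distinguish hij hik hjk hcy hky with hi | hj
    · rw [Gv_tau_of_iff v a b y hi]
      have := hL j (by rw [ht]; simp) y a b
      have e : Gv t v i y + Gv t v j (tau t a b y) - (Gv t v i y + Gv t v j y)
          = Gv t v j (tau t a b y) - Gv t v j y := by ring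
      rw [e]; exact this
    · rw [Gv_tau_of_iff v a b y hj]
      have := hL i (by rw [ht]; simp) y a b
      have e : Gv t v i (tau t a b y) + Gv t v j y - (Gv t v i y + Gv t v j y)
          = Gv t v i (tau t a b y) - Gv t v i y := by ring
      rw [e]; exact this
  rw [← h1, abs_mul, abs_of_nonneg hμ] at h2
  exact h2

/-- Eigen relation on the row averages. -/
lemma Gv_eq {t : Finset ι} {i j k : ι} (v : Tab r c → ℝ) {ν : ℝ}
    (he : ∀ x, Gv t v i x + Gv t v j x + Gv t v k x = ν * v x) (x : Tab r c) :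
    (ν - 1) * Gv t v k x = cavg (restr (t.erase k)) (Gv t v i + Gv t v j) x := by
  have h1 : Gv t v i + Gv t v j + Gv t v k = ν • v := by
    funext y
    simpa using he y
  have h2 := congrFun (congrArg (cavg (restr (t.erase k))) h1) x
  rw [cavg_add, cavg_smul] at h2
  simp only [Pi.add_apply, Pi.smul_apply, smul_eq_mul] at h2
  have h3 : cavg (restr (t.erase k)) (Gv t v k) = Gv t v k := cavg_cavg _ _
  rw [h3] at h2
  change _ + Gv t v k x = ν * Gv t v k x at h2
  linarith

/-- First step: invariance under swaps. -/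
theorem step1 {t : Finset ι} {i j k : ι} (hij : i ≠ j) (hik : i ≠ k) (hjk : j ≠ k)
    (ht : t = {i, j, k}) (v : Tab r c → ℝ) {ν : ℝ} (hν : 2 < ν)
    (he : ∀ x, Gv t v i x + Gv t v j x + Gv t v k x = ν * v x) :
    ∀ l ∈ t, ∀ (x : Tab r c) (a b : κ), Gv t v l (tau t a b x) = Gv t v l x := by
  by_contra hcon
  push Not at hcon
  obtain ⟨l₀, hl₀, x₀, a₀, b₀, hne⟩ := hcon
  set S : Finset (ι × Tab r c × κ × κ) := t ×ˢ Finset.univ with hS
  have hSne : S.Nonempty := ⟨(l₀, x₀, a₀, b₀), by simp [hS, hl₀]⟩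
  set Δ : (ι × Tab r c × κ × κ) → ℝ := fun p => |Gv t v p.1 (tau t p.2.2.1 p.2.2.2 p.2.1) - Gv t v p.1 p.2.1|
    with hΔ
  obtain ⟨p, hpS, hpmax⟩ := Finset.exists_max_image S Δ hSne
  have hL : ∀ l ∈ t, ∀ (y : Tab r c) (a b : κ), |Gv t v l (tau t a b y) - Gv t v l y| ≤ Δ p := by
    intro l hl y a b
    exact hpmax (l, y, a, b) (by simp [hS, hl])
  have hLpos : 0 < Δ p := by
    have h1 := hL l₀ hl₀ x₀ a₀ b₀
    have h2 : 0 < |Gv t v l₀ (tau t a₀ b₀ x₀) - Gv t v l₀ x₀| := abs_pos.2 (sub_ne_zero.2 hne)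
    linarith
  have hμ : (0 : ℝ) ≤ ν - 1 := by linarith
  have hbound : (ν - 1) * Δ p ≤ Δ p := by
    have hp1 : p.1 ∈ t := (Finset.mem_product.1 hpS).1
    have hmem := hp1
    rw [ht] at hmem
    simp only [Finset.mem_insert, Finset.mem_singleton] at hmem
    rcases hmem with h1 | h1 | h1
    · have hbd := step1_bound (i := j) (j := k) (k := i) hjk hij.symm hik.symm
        (by rw [ht]; ext e; simp only [Finset.mem_insert, Finset.mem_singleton]; tauto) v hμ
        (fun x => Gv_eq v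
          (fun y => by rw [← he y]; ring) x) hLpos.le hL p.2.1 p.2.2.1 p.2.2.2
      have hdp : Δ p = |Gv t v p.1 (tau t p.2.2.1 p.2.2.2 p.2.1) - Gv t v p.1 p.2.1| := rfl
      rw [h1] at hdp
      calc (ν - 1) * Δ p = _ := by rw [hdp]
        _ ≤ Δ p := hbd
    · have hbd := step1_bound (i := i) (j := k) (k := j) hik hij hjk.symm
        (by rw [ht]; ext e; simp only [Finset.mem_insert, Finset.mem_singleton]; tauto) v hμ
        (fun x => Gv_eq v
          (fun y => by rw [← he y]; ring) x) hLpos.le hL p.2.1 p.2.2.1 p.2.2.2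
      have hdp : Δ p = |Gv t v p.1 (tau t p.2.2.1 p.2.2.2 p.2.1) - Gv t v p.1 p.2.1| := rfl
      rw [h1] at hdp
      calc (ν - 1) * Δ p = _ := by rw [hdp]
        _ ≤ Δ p := hbd
    · have hbd := step1_bound hij hik hjk ht v hμ
        (fun x => Gv_eq v he x) hLpos.le hL p.2.1 p.2.2.1 p.2.2.2
      have hdp : Δ p = |Gv t v p.1 (tau t p.2.2.1 p.2.2.2 p.2.1) - Gv t v p.1 p.2.1| := rfl
      rw [h1] at hdp
      calc (ν - 1) * Δ p = _ := by rw [hdp]
        _ ≤ Δ p := hbd
  nlinarith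

end Vale.Agent.Lib.P335
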