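import Vale.Agent.Lib.P335.PairFiber

/-!
The three row analysis, second step: radial functions.
-/

open Finset BigOperators

namespace Vale.Agent.Lib.P335

set_option linter.unusedSectionVars false

variable {ι κ : Type*} [Fintype ι] [DecidableEq ι] [Fintype κ] [DecidableEq κ]
variable {r : ι → ℕ} {c : κ → ℕ}

/-- Columns with exactly `v` entries in the rows of `t`. -/
def typ (t : Finset ι) (x : ι → Finset κ) (v : ℕ) : Finset κ :=
  Finset.univ.filter (fun e => colT t x e = v)

lemma mem_typ {t : Finset ι} {x : ι → Finset κ} {v : ℕ} {e : κ} :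
    e ∈ typ t x v ↔ colT t x e = v := by
  simp [typ]

/-- Number of type one columns in the row `l`. -/
def pc (t : Finset ι) (l : ι) (x : Tab r c) : ℕ := (x.1 l ∩ typ t x.1 1).card

lemma typ_congr {t : Finset ι} {x y : Tab r c} (h : restr t y = restr t x) (v : ℕ) :
    typ t y.1 v = typ t x.1 v := by
  ext e
  rw [mem_typ, mem_typ, colT_eq_of_restr h]

lemma colT_tau_swap_pc {t : Finset ι} {a b : κ} {l : ι} (x : Tab r c)
    (h : colT t x.1 a = colT t x.1 b) : pc t l (tau t a b x) = pc t l x := by
  unfold pc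
  have hT : typ t (tau t a b x).1 1 = typ t x.1 1 := typ_congr (restr_tau_self t a b x) 1
  rw [hT]
  by_cases hl : l ∈ t
  · have e1 : (tau t a b x).1 l ∩ typ t x.1 1
        = (x.1 l ∩ typ t x.1 1).map (Equiv.swap a b).toEmbedding := by
      ext e
      rw [tau_of_eq h, mem_inter, mem_swapT, if_pos hl, Finset.mem_map_equiv, mem_inter, mem_typ,
        mem_typ]
      have : (Equiv.swap a b).symm = Equiv.swap a b := Equiv.symm_swap a b
      rw [this, colT_swap_eq h]
    rw [e1, Finset.card_map]
  · rw [tau_off x hl]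

lemma card_inter_le_of_sdiff {A B T : Finset κ} (h : (A \ B).card ≤ 1) :
    (A ∩ T).card ≤ (B ∩ T).card + 1 := by
  have hsub : A ∩ T ⊆ (B ∩ T) ∪ (A \ B) := by
    intro e he
    rw [mem_inter] at he
    rw [mem_union, mem_inter, mem_sdiff]
    by_cases h1 : e ∈ B
    · exact Or.inl ⟨h1, he.2⟩
    · exact Or.inr ⟨he.1, h1⟩
  calc (A ∩ T).card ≤ ((B ∩ T) ∪ (A \ B)).card := Finset.card_le_card hsub
    _ ≤ (B ∩ T).card + (A \ B).card := Finset.card_union_le _ _
    _ ≤ _ := by omega

/-- The sizes of the difference of a row and its swap. -/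
lemma swap_row_sdiff (A : Finset κ) (a b : κ) :
    (A.map (Equiv.swap a b).toEmbedding \ A).card ≤ 1 ∧ (A \ A.map (Equiv.swap a b).toEmbedding).card ≤ 1 := by
  by_cases h1 : a ∈ A <;> by_cases h2 : b ∈ A
  · have : A.map (Equiv.swap a b).toEmbedding = A := by
      ext e
      rw [Finset.mem_map_equiv, Equiv.symm_swap]
      by_cases he1 : e = a
      · subst he1; simp [h1, h2]
      by_cases he2 : e = b
      · subst he2; simp [h1, h2]
      rw [Equiv.swap_apply_of_ne_of_ne he1 he2]
    rw [this]; simp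
  · constructor
    · have hs : A.map (Equiv.swap a b).toEmbedding \ A ⊆ {b} := by
        intro e he
        rw [mem_sdiff, Finset.mem_map_equiv, Equiv.symm_swap] at he
        rw [Finset.mem_singleton]
        by_contra he2
        by_cases he1 : e = a
        · subst he1; exact he.2 h1
        rw [Equiv.swap_apply_of_ne_of_ne he1 he2] at he
        exact he.2 he.1
      simpa using Finset.card_le_card hs
    · have hs : A \ A.map (Equiv.swap a b).toEmbedding ⊆ {a} := by
        intro e he
        rw [mem_sdiff, Finset.mem_map_equiv, Equiv.symm_swap] at he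
        rw [Finset.mem_singleton]
        by_contra he1
        by_cases he2 : e = b
        · subst he2; exact h2 he.1
        rw [Equiv.swap_apply_of_ne_of_ne he1 he2] at he
        exact he.2 he.1
      simpa using Finset.card_le_card hs
  · constructor
    · have hs : A.map (Equiv.swap a b).toEmbedding \ A ⊆ {a} := by
        intro e he
        rw [mem_sdiff, Finset.mem_map_equiv, Equiv.symm_swap] at he
        rw [Finset.mem_singleton]
        by_contra he1
        by_cases he2 : e = b
        · subst he2; exact he.2 (by simpa using (by simpa using he.1 : a ∈ A) |> fun h => absurd h h1)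
        rw [Equiv.swap_apply_of_ne_of_ne he1 he2] at he
        exact he.2 he.1
      simpa using Finset.card_le_card hs
    · have hs : A \ A.map (Equiv.swap a b).toEmbedding ⊆ {b} := by
        intro e he
        rw [mem_sdiff, Finset.mem_map_equiv, Equiv.symm_swap] at he
        rw [Finset.mem_singleton]
        by_contra he2
        by_cases he1 : e = a
        · subst he1; exact h1 he.1
        rw [Equiv.swap_apply_of_ne_of_ne he1 he2] at he
        exact he.2 he.1
      simpa using Finset.card_le_card hs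
  · have : A.map (Equiv.swap a b).toEmbedding = A := by
      ext e
      rw [Finset.mem_map_equiv, Equiv.symm_swap]
      by_cases he1 : e = a
      · subst he1; simp [h1, h2]
      by_cases he2 : e = b
      · subst he2; simp [h1, h2]
      rw [Equiv.swap_apply_of_ne_of_ne he1 he2]
    rw [this]; simp

/-- A switch changes the type one count of a row by at most one. -/
lemma pc_tau_le {t s : Finset ι} (hst : s ⊆ t) (a b : κ) (l : ι) (x : Tab r c) :
    pc t l (tau s a b x) ≤ pc t l x + 1 ∧ pc t l x ≤ pc t l (tau s a b x) + 1 := by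
  unfold pc
  have hT : typ t (tau s a b x).1 1 = typ t x.1 1 :=
    typ_congr (restr_mono hst (restr_tau_self s a b x)) 1
  rw [hT]
  by_cases hc : colT s x.1 a = colT s x.1 b
  · by_cases hl : l ∈ s
    · have e1 : (tau s a b x).1 l = (x.1 l).map (Equiv.swap a b).toEmbedding := by
        rw [tau_of_eq hc]; unfold swapT; rw [if_pos hl]
      rw [e1]
      obtain ⟨h1, h2⟩ := swap_row_sdiff (x.1 l) a b
      exact ⟨card_inter_le_of_sdiff h1, card_inter_le_of_sdiff h2⟩
    · rw [tau_off x hl]; omega
  · rw [tau_of_ne hc]; omega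

/-- Radial invariance from swap invariance. -/
lemma radial_eq {t : Finset ι} (ht3 : t.card = 3) {l : ι} (hl : l ∈ t) (G : Tab r c → ℝ)
    (hs : ∀ (x : Tab r c) (a b : κ), G (tau t a b x) = G x)
    (hG : ∀ x y : Tab r c, restr t y = restr t x → x.1 l = y.1 l → G x = G y)
    (m : ℕ) : ∀ x y : Tab r c, restr t y = restr t x → pc t l y = pc t l x →
      (x.1 l \ y.1 l).card = m → G x = G y := by
  induction m with
  | zero =>
    intro x y hxy _ hm
    apply hG x y hxy
    have hsub : x.1 l ⊆ y.1 l := by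
      rw [Finset.card_eq_zero, Finset.sdiff_eq_empty_iff_subset] at hm
      exact hm
    exact Finset.eq_of_subset_of_card_le hsub (by rw [x.2.1, y.2.1])
  | succ m ih =>
    intro x y hxy hp hm
    have hT : ∀ v, typ t y.1 v = typ t x.1 v := typ_congr hxy
    have hcol : ∀ e, colT t y.1 e = colT t x.1 e := colT_eq_of_restr hxy
    obtain ⟨a, ha⟩ : (x.1 l \ y.1 l).Nonempty := by
      rw [← Finset.card_pos]; omega
    rw [Finset.mem_sdiff] at ha
    have hbd : ∀ (z : Tab r c) (e : κ), e ∉ z.1 l → colT t z.1 e ≤ 2 := by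
      intro z e he
      have : t.filter (fun l' => e ∈ z.1 l') ⊆ t.erase l := by
        intro l' hl'
        rw [mem_filter] at hl'
        rw [mem_erase]
        refine ⟨?_, hl'.1⟩
        rintro rfl
        exact he hl'.2
      have h2 := Finset.card_le_card this
      rw [Finset.card_erase_of_mem hl, ht3] at h2
      exact h2
    have hpos : ∀ (z : Tab r c) (e : κ), e ∈ z.1 l → 1 ≤ colT t z.1 e := by
      intro z e he
      exact Finset.card_pos.2 ⟨l, by rw [mem_filter]; exact ⟨hl, he⟩⟩
    -- find b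
    obtain ⟨b, hb1, hb2, hbt⟩ : ∃ b, b ∈ y.1 l ∧ b ∉ x.1 l ∧ colT t x.1 a = colT t x.1 b := by
      unfold pc at hp
      rw [hT 1] at hp
      by_cases hat : colT t x.1 a = 1
      · have hmem : a ∈ (x.1 l ∩ typ t x.1 1) \ (y.1 l ∩ typ t x.1 1) := by
          simp [ha.1, ha.2, mem_typ, hat]
        have hcard := Finset.card_sdiff_comm hp
        have : ((y.1 l ∩ typ t x.1 1) \ (x.1 l ∩ typ t x.1 1)).Nonempty := by
          rw [← Finset.card_pos, hcard]
          exact Finset.card_pos.2 ⟨a, hmem⟩
        obtain ⟨b, hb⟩ := this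
        rw [mem_sdiff, mem_inter, mem_inter, mem_typ] at hb
        refine ⟨b, hb.1.1, fun h => hb.2 ⟨h, hb.1.2⟩, ?_⟩
        rw [hat, hb.1.2]
      · -- both of type two
        have hcardx : (x.1 l \ typ t x.1 1).card = (y.1 l \ typ t x.1 1).card := by
          have h1 := Finset.card_sdiff_add_card_inter (x.1 l) (typ t x.1 1)
          have h2 := Finset.card_sdiff_add_card_inter (y.1 l) (typ t x.1 1)
          rw [x.2.1] at h1
          rw [y.2.1] at h2
          omega
        have hmem : a ∈ (x.1 l \ typ t x.1 1) \ (y.1 l \ typ t x.1 1) := by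
          simp [ha.1, ha.2, mem_typ, hat]
        have hcard := Finset.card_sdiff_comm hcardx
        have : ((y.1 l \ typ t x.1 1) \ (x.1 l \ typ t x.1 1)).Nonempty := by
          rw [← Finset.card_pos, ← hcard]
          exact Finset.card_pos.2 ⟨a, hmem⟩
        obtain ⟨b, hb⟩ := this
        rw [mem_sdiff, mem_sdiff, mem_sdiff, mem_typ] at hb
        have hbx : b ∉ x.1 l := fun h => hb.2 ⟨h, hb.1.2⟩
        refine ⟨b, hb.1.1, hbx, ?_⟩
        have h1 := hpos x a ha.1
        have h2 := hbd y a ha.2
        rw [hcol] at h2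
        have h3 := hpos y b hb.1.1
        rw [hcol] at h3
        have h4 := hbd x b hbx
        have h5 := hb.1.2
        omega
    set x' := tau t a b x with hx'
    have hx'v : x'.1 = swapT t a b x.1 := tau_of_eq hbt
    rw [← hs x a b]
    apply ih x' y
    · rw [hxy, hx']
      exact (restr_tau_self t a b x).symm
    · rw [hp, hx', colT_tau_swap_pc x hbt]
    · have hdiff : x'.1 l \ y.1 l = (x.1 l \ y.1 l).erase a := by
        ext e
        rw [hx'v, mem_sdiff, mem_swapT, if_pos hl, mem_erase, mem_sdiff]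
        by_cases h1 : e = a
        · subst h1; simp [ha.2, hb2]
        by_cases h2 : e = b
        · subst h2; simp [hb1]
        rw [Equiv.swap_apply_of_ne_of_ne h1 h2]
        simp [h1]
      rw [hdiff, Finset.card_erase_of_mem (Finset.mem_sdiff.2 ha), hm]
      rfl

lemma exists_radial_fun {X : Type*} (A : Set X) (G : X → ℝ) (P : X → ℕ)
    (h : ∀ y ∈ A, ∀ y' ∈ A, P y = P y' → G y = G y') : ∃ H : ℕ → ℝ, ∀ y ∈ A, G y = H (P y) := by
  classical
  refine ⟨fun z => if hz : ∃ y ∈ A, P y = z then G hz.choose else 0, ?_⟩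
  intro y hy
  have hz : ∃ y' ∈ A, P y' = P y := ⟨y, hy, rfl⟩
  simp only [dif_pos hz]
  exact h y hy _ hz.choose_spec.1 hz.choose_spec.2.symm

lemma erase3 {i j k : ι} (hik : i ≠ k) (hjk : j ≠ k) :
    ({i, j, k} : Finset ι).erase k = {i, j} := by
  ext e
  simp only [mem_erase, mem_insert, mem_singleton]
  constructor
  · rintro ⟨h1, h2 | h2 | h2⟩
    · exact Or.inl h2
    · exact Or.inr h2
    · exact absurd h2 h1
  · rintro (h | h)
    · subst h; exact ⟨hik, Or.inl rfl⟩
    · subst h; exact ⟨hjk, Or.inr (Or.inl rfl)⟩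

/-- Cardinal relations between the pair data and the type counts. -/
lemma params {i j k : ι} (hij : i ≠ j) (hik : i ≠ k) (hjk : j ≠ k) (y : ι → Finset κ) :
    ((act y i j \ y k).card + (y k ∩ typ {i, j, k} y 1).card = (typ {i, j, k} y 1).card)
    ∧ ((y k).card = (y k ∩ typ {i, j, k} y 1).card + (act y i j ∩ y k).card
        + (typ {i, j, k} y 3).card)
    ∧ ((dbl y i j).card + (act y i j ∩ y k).card
        = (typ {i, j, k} y 2).card + (typ {i, j, k} y 3).card) := by
  have hm : ∀ e v, e ∈ typ {i, j, k} y v ↔ (if e ∈ y i then 1 else 0) + (if e ∈ y j then 1 else 0)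
      + (if e ∈ y k then 1 else 0) = v := by
    intro e v
    rw [mem_typ, colT3 hij hik hjk]
  refine ⟨?_, ?_, ?_⟩
  · have e1 : act y i j \ y k = typ {i, j, k} y 1 \ y k := by
      ext e
      rw [mem_sdiff, mem_sdiff, mem_act, hm]
      by_cases h1 : e ∈ y i <;> by_cases h2 : e ∈ y j <;> by_cases h3 : e ∈ y k <;> simp [h1, h2, h3]
    rw [e1, Finset.inter_comm]
    exact Finset.card_sdiff_add_card_inter _ _
  · have hd1 : Disjoint (y k ∩ typ {i, j, k} y 1) (act y i j ∩ y k) := by
      rw [Finset.disjoint_left]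
      intro e h1 h2
      rw [mem_inter, hm] at h1
      rw [mem_inter, mem_act] at h2
      by_cases h3 : e ∈ y i <;> by_cases h4 : e ∈ y j <;> simp_all
    have hd2 : Disjoint ((y k ∩ typ {i, j, k} y 1) ∪ (act y i j ∩ y k)) (typ {i, j, k} y 3) := by
      rw [Finset.disjoint_left]
      intro e h1 h2
      rw [mem_union, mem_inter, mem_inter, hm, mem_act] at h1
      rw [hm] at h2
      by_cases h3 : e ∈ y i <;> by_cases h4 : e ∈ y j <;> by_cases h5 : e ∈ y k <;> simp_all
    rw [← Finset.card_union_of_disjoint hd1, ← Finset.card_union_of_disjoint hd2]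
    congr 1
    ext e
    rw [mem_union, mem_union, mem_inter, mem_inter, mem_act, hm, hm]
    by_cases h3 : e ∈ y i <;> by_cases h4 : e ∈ y j <;> by_cases h5 : e ∈ y k <;> simp [h3, h4, h5]
  · have e1 : dbl y i j = (typ {i, j, k} y 2 \ y k) ∪ typ {i, j, k} y 3 := by
      ext e
      rw [mem_union, mem_sdiff, mem_dbl, hm, hm]
      by_cases h3 : e ∈ y i <;> by_cases h4 : e ∈ y j <;> by_cases h5 : e ∈ y k <;> simp [h3, h4, h5]
    have e2 : act y i j ∩ y k = y k ∩ typ {i, j, k} y 2 := by
      ext e
      rw [mem_inter, mem_inter, mem_act, hm]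
      by_cases h3 : e ∈ y i <;> by_cases h4 : e ∈ y j <;> by_cases h5 : e ∈ y k <;> simp [h3, h4, h5]
    have hd : Disjoint (typ {i, j, k} y 2 \ y k) (typ {i, j, k} y 3) := by
      rw [Finset.disjoint_left]
      intro e h1 h2
      rw [mem_sdiff, hm] at h1
      rw [hm] at h2
      omega
    rw [e1, e2, Finset.card_union_of_disjoint hd]
    have := Finset.card_sdiff_add_card_inter (typ {i, j, k} y 2) (y k)
    rw [Finset.inter_comm] at this
    omega

/-- Type one columns of the rows `i, j` inside a fibre. -/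
lemma fiber_pc {i j k : ι} (hij : i ≠ j) (hik : i ≠ k) (hjk : j ≠ k) {x y : Tab r c}
    (hy : restr {i, j} y = restr {i, j} x) :
    pc {i, j, k} i y = (y.1 i ∩ (act x.1 i j \ x.1 k)).card
    ∧ pc {i, j, k} j y + pc {i, j, k} i y = (act x.1 i j \ x.1 k).card := by
  have hyk : y.1 k = x.1 k := restr_eq_iff.1 hy k (by simp [hik.symm, hjk.symm])
  have hact := act_of_fiber hij hy
  have hm : ∀ e, e ∈ typ {i, j, k} y.1 1 ↔ (if e ∈ y.1 i then 1 else 0)
      + (if e ∈ y.1 j then 1 else 0) + (if e ∈ y.1 k then 1 else 0) = 1 := by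
    intro e
    rw [mem_typ, colT3 hij hik hjk]
  have e1 : y.1 i ∩ typ {i, j, k} y.1 1 = y.1 i ∩ (act x.1 i j \ x.1 k) := by
    ext e
    rw [mem_inter, mem_inter, hm, mem_sdiff, ← hact, ← hyk, mem_act]
    by_cases h1 : e ∈ y.1 i <;> by_cases h2 : e ∈ y.1 j <;> by_cases h3 : e ∈ y.1 k <;> simp [h1, h2, h3]
  have e2 : y.1 j ∩ typ {i, j, k} y.1 1 = y.1 j ∩ (act x.1 i j \ x.1 k) := by
    ext e
    rw [mem_inter, mem_inter, hm, mem_sdiff, ← hact, ← hyk, mem_act]
    by_cases h1 : e ∈ y.1 i <;> by_cases h2 : e ∈ y.1 j <;> by_cases h3 : e ∈ y.1 k <;> simp [h1, h2, h3]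
  constructor
  · unfold pc; rw [e1]
  · unfold pc
    rw [e1, e2, ← Finset.card_union_of_disjoint]
    · congr 1
      ext e
      rw [mem_union, mem_inter, mem_inter, mem_sdiff, ← hact, ← hyk, mem_act]
      by_cases h1 : e ∈ y.1 i <;> by_cases h2 : e ∈ y.1 j <;> by_cases h3 : e ∈ y.1 k <;> simp [h1, h2, h3]
    · rw [Finset.disjoint_left]
      intro e h1 h2
      rw [mem_inter, mem_sdiff, ← hact, ← hyk, mem_act] at h1 h2
      tauto

end Vale.Agent.Lib.P335
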