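import Vale.Agent.Lib.P335.ThreeB

/-!
The three row analysis, conclusion.
-/

open Finset BigOperators

namespace Vale.Agent.Lib.P335

set_option linter.unusedSectionVars false

variable {ι κ : Type*} [Fintype ι] [DecidableEq ι] [Fintype κ] [DecidableEq κ]
variable {r : ι → ℕ} {c : κ → ℕ}

/-- Key bound for the radial seminorm. -/
lemma step2_bound {t : Finset ι} {i j k : ι} (hij : i ≠ j) (hik : i ≠ k) (hjk : j ≠ k)
    (ht : t = {i, j, k}) (v : Tab r c → ℝ) {μ : ℝ} (hμ : 0 ≤ μ)
    (heq : ∀ x, μ * Gv t v k x = cavg (restr (t.erase k)) (Gv t v i + Gv t v j) x)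
    (hs : ∀ l ∈ t, ∀ (x : Tab r c) (a b : κ), Gv t v l (tau t a b x) = Gv t v l x)
    {L : ℝ}
    (hL : ∀ l ∈ t, ∀ y y' : Tab r c, restr t y' = restr t y → pc t l y' = pc t l y + 1 →
      |Gv t v l y' - Gv t v l y| ≤ L)
    (x x' : Tab r c) (hxx : restr t x' = restr t x) (hp : pc t k x' = pc t k x + 1) :
    μ * |Gv t v k x' - Gv t v k x| ≤ L := by
  subst ht
  set t : Finset ι := {i, j, k} with ht
  have hcard3 : t.card = 3 := by
    rw [ht, Finset.card_insert_of_notMem (by simp [hij, hik]),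
      Finset.card_insert_of_notMem (by simp [hjk]), Finset.card_singleton]
  have hE : t.erase k = {i, j} := erase3 hik hjk
  have hpairsub : ({i, j} : Finset ι) ⊆ t := by rw [← hE]; exact Finset.erase_subset _ _
  have hirow : i ∈ t := by rw [ht]; simp
  have hjrow : j ∈ t := by rw [ht]; simp
  -- radial functions along the fibre of x
  set A : Set (Tab r c) := {y | restr t y = restr t x} with hA
  have hGrow : ∀ l ∈ t, ∀ y₁ y₂ : Tab r c, restr t y₂ = restr t y₁ → y₁.1 l = y₂.1 l →
      Gv t v l y₁ = Gv t v l y₂ := by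
    intro l _ y₁ y₂ h1 h2
    unfold Gv
    symm
    apply cavg_congr
    rw [restr_eq_iff]
    intro m hm
    by_cases hml : m = l
    · subst hml; exact h2.symm
    · exact restr_eq_iff.1 h1 m (fun hmt => hm (Finset.mem_erase.2 ⟨hml, hmt⟩))
  have hrad : ∀ l ∈ t, ∀ y ∈ A, ∀ y' ∈ A, pc t l y = pc t l y' → Gv t v l y = Gv t v l y' := by
    intro l hl y hy y' hy' hpp
    have hyy : restr t y' = restr t y := by
      rw [show restr t y' = restr t x from hy', show restr t y = restr t x from hy]
    exact radial_eq hcard3 hl (Gv t v l) (hs l hl) (hGrow l hl) _ y y' hyy hpp.symm rfl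
  obtain ⟨hi, hhi⟩ := exists_radial_fun A (Gv t v i) (pc t i) (hrad i hirow)
  obtain ⟨hj, hhj⟩ := exists_radial_fun A (Gv t v j) (pc t j) (hrad j hjrow)
  -- parameters
  have hcolx : ∀ w, typ t x'.1 w = typ t x.1 w := typ_congr hxx
  obtain ⟨a1, a2, a3⟩ := params hij hik hjk x.1
  obtain ⟨b1, b2, b3⟩ := params hij hik hjk x'.1
  rw [← ht] at a1 a2 a3 b1 b2 b3
  simp only [hcolx] at b1 b2 b3
  have hpx : (x.1 k ∩ typ t x.1 1).card = pc t k x := rfl
  have hpx' : (x'.1 k ∩ typ t x.1 1).card = pc t k x' := by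
    unfold pc; rw [hcolx]
  rw [hpx] at a1 a2
  rw [hpx'] at b1 b2
  rw [x.2.1 k] at a2
  rw [x'.2.1 k] at b2
  set S₁ := act x.1 i j \ x.1 k with hS₁
  set S₁' := act x'.1 i j \ x'.1 k with hS₁'
  have hS₁sub : S₁ ⊆ act x.1 i j := Finset.sdiff_subset
  have hS₁'sub : S₁' ⊆ act x'.1 i j := Finset.sdiff_subset
  have hrest : act x.1 i j \ S₁ = act x.1 i j ∩ x.1 k := by
    ext e; simp only [hS₁, mem_sdiff, mem_inter]; tauto
  have hrest' : act x'.1 i j \ S₁' = act x'.1 i j ∩ x'.1 k := by
    ext e; simp only [hS₁', mem_sdiff, mem_inter]; tauto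
  set u := S₁'.card with hu
  set w := (act x'.1 i j ∩ x'.1 k).card with hw
  have hdle : (dbl x'.1 i j).card ≤ r i := by
    rw [← x'.2.1 i]
    exact Finset.card_le_card (fun e he => (mem_dbl.1 he).1)
  set m := r i - (dbl x'.1 i j).card with hm
  have hu1 : S₁.card = u + 1 := by omega
  have hw1 : (act x.1 i j ∩ x.1 k).card = w + 1 := by omega
  have hd1 : (dbl x.1 i j).card + 1 = (dbl x'.1 i j).card := by omega
  have hm1 : r i - (dbl x.1 i j).card = m + 1 := by omega
  -- the two fibre functions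
  set φ : ℕ → ℝ := fun z => hi z + hj (u + 1 - z) with hφ
  set φ' : ℕ → ℝ := fun z => hi z + hj (u - z) with hφ'
  -- expressing the averages
  have hx_avg : μ * Gv t v k x
      = (∑ z ∈ Finset.range (m + 2), (hypN (u + 1) (w + 1) (m + 1) z : ℝ) * φ z)
        / (∑ z ∈ Finset.range (m + 2), (hypN (u + 1) (w + 1) (m + 1) z : ℝ)) := by
    rw [heq, hE]
    unfold cavg
    have hZ : r i - (dbl x.1 i j).card < m + 2 := by omega
    have h1 := sum_fiber_by_count hij x hS₁sub (m + 2) hZ φ
    have h2 := sum_fiber_by_count hij x hS₁sub (m + 2) hZ (fun _ => 1)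
    rw [hu1, hrest, hw1, hm1] at h1 h2
    simp only [mul_one, Finset.sum_const, nsmul_eq_mul] at h2
    rw [← h2]
    congr 1
    rw [← h1]
    refine Finset.sum_congr rfl (fun y hy => ?_)
    have hy' := mem_cls.1 hy
    have hyA : y ∈ A := by
      change restr t y = restr t x
      exact restr_mono hpairsub hy'
    obtain ⟨c1, c2⟩ := fiber_pc hij hik hjk hy'
    rw [← ht] at c1 c2
    have c1s : pc t i y = (y.1 i ∩ S₁).card := c1
    have c2s : pc t j y + pc t i y = S₁.card := c2
    simp only [Pi.add_apply]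
    rw [hhi y hyA, hhj y hyA, hφ]
    simp only
    rw [← c1s]
    have : pc t j y = u + 1 - pc t i y := by omega
    rw [this]
  have hx'_avg : μ * Gv t v k x'
      = (∑ z ∈ Finset.range (m + 1), (hypN u w m z : ℝ) * φ' z)
        / (∑ z ∈ Finset.range (m + 1), (hypN u w m z : ℝ)) := by
    rw [heq, hE]
    unfold cavg
    have hZ : r i - (dbl x'.1 i j).card < m + 1 := by omega
    have h1 := sum_fiber_by_count hij x' hS₁'sub (m + 1) hZ φ'
    have h2 := sum_fiber_by_count hij x' hS₁'sub (m + 1) hZ (fun _ => 1)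
    rw [hrest'] at h1 h2
    simp only [mul_one, Finset.sum_const, nsmul_eq_mul] at h2
    rw [← h2]
    congr 1
    rw [← h1]
    refine Finset.sum_congr rfl (fun y hy => ?_)
    have hy' := mem_cls.1 hy
    have hyA : y ∈ A := by
      change restr t y = restr t x
      rw [← hxx]
      exact restr_mono hpairsub hy'
    obtain ⟨c1, c2⟩ := fiber_pc hij hik hjk hy'
    rw [← ht] at c1 c2
    have c1s : pc t i y = (y.1 i ∩ S₁').card := c1
    have c2s : pc t j y + pc t i y = S₁'.card := c2
    simp only [Pi.add_apply]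
    rw [hhi y hyA, hhj y hyA, hφ']
    simp only
    rw [← c1s]
    have : pc t j y = u - pc t i y := by omega
    rw [this]
  -- existence of tables from positive counts
  have hexx : ∀ z, hypN (u + 1) (w + 1) (m + 1) z ≠ 0 →
      ∃ y : Tab r c, restr {i, j} y = restr {i, j} x ∧ (y.1 i ∩ S₁).card = z := by
    intro z hz
    have hc := count_fiber hij x hS₁sub z
    rw [hu1, hrest, hw1, hm1] at hc
    rw [← hc] at hz
    obtain ⟨y, hy⟩ := Finset.card_pos.1 (Nat.pos_of_ne_zero hz)
    rw [Finset.mem_filter] at hy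
    exact ⟨y, mem_cls.1 hy.1, hy.2⟩
  have hexx' : ∀ z, hypN u w m z ≠ 0 →
      ∃ y : Tab r c, restr {i, j} y = restr {i, j} x' ∧ (y.1 i ∩ S₁').card = z := by
    intro z hz
    have hc := count_fiber hij x' hS₁'sub z
    rw [hrest'] at hc
    rw [← hc] at hz
    obtain ⟨y, hy⟩ := Finset.card_pos.1 (Nat.pos_of_ne_zero hz)
    rw [Finset.mem_filter] at hy
    exact ⟨y, mem_cls.1 hy.1, hy.2⟩
  have hedgeL : ∀ z, hypN u w m z ≠ 0 → hypN (u + 1) (w + 1) (m + 1) z ≠ 0 := by
    intro z hz h0
    have := hyp_edge_left u w m z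
    rw [h0] at this
    simp only [Nat.cast_zero, zero_mul] at this
    have h3 : (u + 1) * (w + 1) * hypN u w m z = 0 := by exact_mod_cast this
    have h4 : hypN u w m z = 0 := by
      rcases Nat.mul_eq_zero.1 h3 with h5 | h5
      · exact absurd h5 (by positivity)
      · exact h5
    exact hz h4
  have hedgeR : ∀ z, hypN u w m z ≠ 0 → hypN (u + 1) (w + 1) (m + 1) (z + 1) ≠ 0 := by
    intro z hz h0
    have := hyp_edge_right u w m z
    rw [h0] at this
    simp only [Nat.cast_zero, zero_mul] at this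
    have h3 : (u + 1) * (w + 1) * hypN u w m z = 0 := by exact_mod_cast this
    have h4 : hypN u w m z = 0 := by
      rcases Nat.mul_eq_zero.1 h3 with h5 | h5
      · exact absurd h5 (by positivity)
      · exact h5
    exact hz h4
  have hbound := hyp_flow_bound u w m φ φ' L ?_ ?_ ?_
  · have hneg : μ * |Gv t v k x' - Gv t v k x| = |μ * Gv t v k x - μ * Gv t v k x'| := by
      rw [← mul_sub, abs_mul, abs_of_nonneg hμ, abs_sub_comm]
    rw [hneg, hx_avg, hx'_avg]
    exact hbound
  · -- nonvanishing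
    have hZ : r i - (dbl x'.1 i j).card < m + 1 := by omega
    have h2 := sum_fiber_by_count hij x' hS₁'sub (m + 1) hZ (fun _ => 1)
    rw [hrest'] at h2
    simp only [mul_one, Finset.sum_const, nsmul_eq_mul] at h2
    rw [← h2]
    have := cls_card_pos (restr {i, j}) x'
    simp only [smul_eq_mul, mul_one, ne_eq, Nat.cast_eq_zero]
    omega
  · -- first edge bound
    intro z hz
    obtain ⟨y', hy'1, hy'2⟩ := hexx' z hz
    obtain ⟨y, hy1, hy2⟩ := hexx z (hedgeL z hz)
    have hyA : y ∈ A := by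
      change restr t y = restr t x
      exact restr_mono hpairsub hy1
    have hyA' : y' ∈ A := by
      change restr t y' = restr t x
      rw [← hxx]
      exact restr_mono hpairsub hy'1
    obtain ⟨c1, c2⟩ := fiber_pc hij hik hjk hy1
    obtain ⟨c1', c2'⟩ := fiber_pc hij hik hjk hy'1
    rw [← ht] at c1 c2 c1' c2'
    replace c2 : pc t j y + pc t i y = S₁.card := c2
    replace c2' : pc t j y' + pc t i y' = S₁'.card := c2'
    have hzpos : pc t i y = z := by rw [c1]; exact hy2
    have hzpos' : pc t i y' = z := by rw [c1']; exact hy'2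
    have hzle : z ≤ u := by
      rw [hzpos'] at c2'
      omega
    have e1 : φ z - φ' z = Gv t v j y - Gv t v j y' := by
      rw [hhj y hyA, hhj y' hyA']
      have h5 : pc t j y = u + 1 - z := by rw [hzpos] at c2; omega
      have h6 : pc t j y' = u - z := by rw [hzpos'] at c2'; omega
      rw [h5, h6]
      simp only [hφ, hφ']
      ring
    rw [e1]
    apply hL j hjrow y' y
    · rw [show restr t y = restr t x from hyA, show restr t y' = restr t x from hyA']
    · rw [hzpos] at c2
      rw [hzpos'] at c2'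
      omega
  · -- second edge bound
    intro z hz
    obtain ⟨y', hy'1, hy'2⟩ := hexx' z hz
    obtain ⟨y, hy1, hy2⟩ := hexx (z + 1) (hedgeR z hz)
    have hyA : y ∈ A := by
      change restr t y = restr t x
      exact restr_mono hpairsub hy1
    have hyA' : y' ∈ A := by
      change restr t y' = restr t x
      rw [← hxx]
      exact restr_mono hpairsub hy'1
    obtain ⟨c1, c2⟩ := fiber_pc hij hik hjk hy1
    obtain ⟨c1', c2'⟩ := fiber_pc hij hik hjk hy'1
    rw [← ht] at c1 c2 c1' c2'
    have hzpos : pc t i y = z + 1 := by rw [c1]; exact hy2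
    have hzpos' : pc t i y' = z := by rw [c1']; exact hy'2
    have e1 : φ (z + 1) - φ' z = Gv t v i y - Gv t v i y' := by
      rw [hhi y hyA, hhi y' hyA', hzpos, hzpos']
      have h7 : u + 1 - (z + 1) = u - z := by omega
      simp only [hφ, hφ']
      rw [h7]
      ring
    rw [e1]
    apply hL i hirow y' y
    · rw [show restr t y = restr t x from hyA, show restr t y' = restr t x from hyA']
    · rw [hzpos, hzpos']

/-- Second step: radial moves do not change the row averages. -/
theorem step2 {t : Finset ι} {i j k : ι} (hij : i ≠ j) (hik : i ≠ k) (hjk : j ≠ k)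
    (ht : t = {i, j, k}) (v : Tab r c → ℝ) {ν : ℝ} (hν : 2 < ν)
    (he : ∀ x, Gv t v i x + Gv t v j x + Gv t v k x = ν * v x) :
    ∀ l ∈ t, ∀ y y' : Tab r c, restr t y' = restr t y → pc t l y' = pc t l y + 1 →
      Gv t v l y' = Gv t v l y := by
  have hs := step1 hij hik hjk ht v hν he
  by_contra hcon
  push Not at hcon
  obtain ⟨l₀, hl₀, y₀, y₀', h1₀, h2₀, hne⟩ := hcon
  classical
  set S : Finset (ι × Tab r c × Tab r c) := (t ×ˢ Finset.univ).filter
    (fun p => restr t p.2.2 = restr t p.2.1 ∧ pc t p.1 p.2.2 = pc t p.1 p.2.1 + 1) with hS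
  have hSne : S.Nonempty := ⟨(l₀, y₀, y₀'), by simp [hS, hl₀, h1₀, h2₀]⟩
  set Δ : (ι × Tab r c × Tab r c) → ℝ := fun p => |Gv t v p.1 p.2.2 - Gv t v p.1 p.2.1| with hΔ
  obtain ⟨p, hpS, hpmax⟩ := Finset.exists_max_image S Δ hSne
  have hL : ∀ l ∈ t, ∀ y y' : Tab r c, restr t y' = restr t y → pc t l y' = pc t l y + 1 →
      |Gv t v l y' - Gv t v l y| ≤ Δ p := by
    intro l hl y y' h1 h2
    exact hpmax (l, y, y') (by simp [hS, hl, h1, h2])
  have hLpos : 0 < Δ p := by
    have h1 := hL l₀ hl₀ y₀ y₀' h1₀ h2₀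
    have h2 : 0 < |Gv t v l₀ y₀' - Gv t v l₀ y₀| := abs_pos.2 (sub_ne_zero.2 hne)
    linarith
  have hμ : (0 : ℝ) ≤ ν - 1 := by linarith
  have hpS' := Finset.mem_filter.1 hpS
  have hp1 : p.1 ∈ t := (Finset.mem_product.1 hpS'.1).1
  have hbound : (ν - 1) * Δ p ≤ Δ p := by
    have hmem := hp1
    rw [ht] at hmem
    simp only [Finset.mem_insert, Finset.mem_singleton] at hmem
    have hdp : Δ p = |Gv t v p.1 p.2.2 - Gv t v p.1 p.2.1| := rfl
    rcases hmem with h1 | h1 | h1
    · have hbd := step2_bound (i := j) (j := k) (k := i) hjk hij.symm hik.symm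
        (by rw [ht]; ext e; simp only [Finset.mem_insert, Finset.mem_singleton]; tauto) v hμ
        (fun x => Gv_eq v (fun y => by rw [← he y]; ring) x) hs hL p.2.1 p.2.2 hpS'.2.1
        (by rw [← h1]; exact hpS'.2.2)
      rw [h1] at hdp
      calc (ν - 1) * Δ p = _ := by rw [hdp]
        _ ≤ Δ p := hbd
    · have hbd := step2_bound (i := i) (j := k) (k := j) hik hij hjk.symm
        (by rw [ht]; ext e; simp only [Finset.mem_insert, Finset.mem_singleton]; tauto) v hμ
        (fun x => Gv_eq v (fun y => by rw [← he y]; ring) x) hs hL p.2.1 p.2.2 hpS'.2.1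
        (by rw [← h1]; exact hpS'.2.2)
      rw [h1] at hdp
      calc (ν - 1) * Δ p = _ := by rw [hdp]
        _ ≤ Δ p := hbd
    · have hbd := step2_bound hij hik hjk ht v hμ
        (fun x => Gv_eq v he x) hs hL p.2.1 p.2.2 hpS'.2.1
        (by rw [← h1]; exact hpS'.2.2)
      rw [h1] at hdp
      calc (ν - 1) * Δ p = _ := by rw [hdp]
        _ ≤ Δ p := hbd
  nlinarith

/-- The row averages are constant on the fibres of the three rows. -/
theorem Gv_const {t : Finset ι} {i j k : ι} (hij : i ≠ j) (hik : i ≠ k) (hjk : j ≠ k)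
    (ht : t = {i, j, k}) (v : Tab r c → ℝ) {ν : ℝ} (hν : 2 < ν)
    (he : ∀ x, Gv t v i x + Gv t v j x + Gv t v k x = ν * v x) {l : ι} (hl : l ∈ t)
    (x y : Tab r c) (hxy : ∀ m, m ∉ t → x.1 m = y.1 m) : Gv t v l x = Gv t v l y := by
  have hcard3 : t.card = 3 := by
    rw [ht, Finset.card_insert_of_notMem (by simp [hij, hik]),
      Finset.card_insert_of_notMem (by simp [hjk]), Finset.card_singleton]
  have hs := step1 hij hik hjk ht v hν he
  have hr := step2 hij hik hjk ht v hν he
  have hGrow : ∀ y₁ y₂ : Tab r c, restr t y₂ = restr t y₁ → y₁.1 l = y₂.1 l →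
      Gv t v l y₁ = Gv t v l y₂ := by
    intro y₁ y₂ h1 h2
    unfold Gv
    symm
    apply cavg_congr
    rw [restr_eq_iff]
    intro m hm
    by_cases hml : m = l
    · subst hml; exact h2.symm
    · exact restr_eq_iff.1 h1 m (fun hmt => hm (Finset.mem_erase.2 ⟨hml, hmt⟩))
  refine connect t (Gv t v l) ?_ x y hxy
  intro i' j' a b z hi' hj' _
  have hsub : ({i', j'} : Finset ι) ⊆ t := by
    intro e he'
    simp only [Finset.mem_insert, Finset.mem_singleton] at he'
    rcases he' with rfl | rfl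
    · exact hi'
    · exact hj'
  have hrz : restr t (tau {i', j'} a b z) = restr t z :=
    restr_mono hsub (restr_tau_self _ a b z)
  obtain ⟨h1, h2⟩ := pc_tau_le hsub a b l z
  by_cases h3 : pc t l (tau {i', j'} a b z) = pc t l z
  · exact (radial_eq hcard3 hl (Gv t v l) (hs l hl) hGrow _ z _ hrz h3 rfl).symm
  by_cases h4 : pc t l (tau {i', j'} a b z) = pc t l z + 1
  · exact hr l hl z _ hrz h4
  · have h5 : pc t l z = pc t l (tau {i', j'} a b z) + 1 := by omega
    exact (hr l hl _ z hrz.symm h5).symm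

/-- Spectrum of the three row operator. -/
theorem tri_spectrum {t : Finset ι} {i j k : ι} (hij : i ≠ j) (hik : i ≠ k) (hjk : j ≠ k)
    (ht : t = {i, j, k}) (v : Tab r c → ℝ) {l : ℝ}
    (he : ∀ x, 3 * v x - (Gv t v i x + Gv t v j x + Gv t v k x) = l * v x) :
    v = 0 ∨ l ≤ 0 ∨ 1 ≤ l := by
  by_cases hl0 : l ≤ 0
  · exact Or.inr (Or.inl hl0)
  by_cases hl1 : 1 ≤ l
  · exact Or.inr (Or.inr hl1)
  left
  push Not at hl0 hl1
  have hν : 2 < 3 - l := by linarith
  have he' : ∀ x, Gv t v i x + Gv t v j x + Gv t v k x = (3 - l) * v x := by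
    intro x; have := he x; linarith
  have hconst : ∀ m ∈ t, ∀ x y : Tab r c, (∀ m', m' ∉ t → x.1 m' = y.1 m') →
      Gv t v m x = Gv t v m y := by
    intro m hm x y hxy
    exact Gv_const hij hik hjk ht v hν he' hm x y hxy
  have hvc : ∀ x y : Tab r c, (∀ m', m' ∉ t → x.1 m' = y.1 m') → v x = v y := by
    intro x y hxy
    have h1 := he' x
    have h2 := he' y
    rw [hconst i (by rw [ht]; simp) x y hxy, hconst j (by rw [ht]; simp) x y hxy,
      hconst k (by rw [ht]; simp) x y hxy] at h1
    have h3 : (3 - l) * v x = (3 - l) * v y := by rw [← h1, ← h2]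
    exact mul_left_cancel₀ (by linarith) h3
  have hself : ∀ m ∈ t, ∀ x : Tab r c, Gv t v m x = v x := by
    intro m hm x
    unfold Gv
    apply cavg_of_const
    intro y hy
    apply hvc
    intro m' hm'
    exact restr_eq_iff.1 hy m' (fun h => hm' (Finset.mem_of_mem_erase h))
  funext x
  have h1 := he x
  rw [hself i (by rw [ht]; simp), hself j (by rw [ht]; simp), hself k (by rw [ht]; simp)] at h1
  have h2 : l * v x = 0 := by linarith
  have h3 : l ≠ 0 := by linarith
  simpa [h3] using h2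

end Vale.Agent.Lib.P335
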